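import Vale.Agent.P154.MSym

/-! Averages over permutations, q = 3 (generated). -/

set_option linter.unusedSimpArgs false
set_option linter.style.longLine false

namespace Vale.Agent.P154

/-- elementary symmetric functions -/
noncomputable def s31 (x : Fin 3 → ℝ) : ℝ := x 0 + x 1 + x 2
/-- elementary symmetric functions -/
noncomputable def s32 (x : Fin 3 → ℝ) : ℝ := x 0 * x 1 + x 0 * x 2 + x 1 * x 2
/-- elementary symmetric functions -/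
noncomputable def s33 (x : Fin 3 → ℝ) : ℝ := x 0 * x 1 * x 2

lemma pw3_rec (x : Fin 3 → ℝ) (k : ℕ) : pwM x (k+3) = s31 x * pwM x (k+2) - s32 x * pwM x (k+1) + s33 x * pwM x k := by
  simp only [pwM, Fin.sum_univ_three, s31, s32, s33]
  ring

lemma pw3_0 (x : Fin 3 → ℝ) : pwM x 0 = 3 := by
  simp only [pwM, Fin.sum_univ_three, s31, s32, s33]
  ring

lemma pw3_1 (x : Fin 3 → ℝ) : pwM x 1 = s31 x := by
  simp only [pwM, Fin.sum_univ_three, s31, s32, s33]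
  ring

lemma pw3_2 (x : Fin 3 → ℝ) : pwM x 2 = s31 x ^ 2 - 2 * (s32 x) := by
  simp only [pwM, Fin.sum_univ_three, s31, s32, s33]
  ring

lemma pw3_3 (x : Fin 3 → ℝ) : pwM x 3 = s31 x ^ 3 - 3 * (s31 x * s32 x) + 3 * (s33 x) := by
  have h := pw3_rec x 0
  norm_num only [pw3_2, pw3_1, pw3_0] at h
  rw [h]
  ring

lemma pw3_4 (x : Fin 3 → ℝ) : pwM x 4 = s31 x ^ 4 - 4 * (s31 x ^ 2 * s32 x) + 4 * (s31 x * s33 x) + 2 * (s32 x ^ 2) := by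
  have h := pw3_rec x 1
  norm_num only [pw3_3, pw3_2, pw3_1] at h
  rw [h]
  ring

lemma pw3_5 (x : Fin 3 → ℝ) : pwM x 5 = s31 x ^ 5 - 5 * (s31 x ^ 3 * s32 x) + 5 * (s31 x ^ 2 * s33 x) + 5 * (s31 x * s32 x ^ 2) - 5 * (s32 x * s33 x) := by
  have h := pw3_rec x 2
  norm_num only [pw3_4, pw3_3, pw3_2] at h
  rw [h]
  ring

lemma pw3_6 (x : Fin 3 → ℝ) : pwM x 6 = s31 x ^ 6 - 6 * (s31 x ^ 4 * s32 x) + 6 * (s31 x ^ 3 * s33 x) + 9 * (s31 x ^ 2 * s32 x ^ 2) - 12 * (s31 x * s32 x * s33 x) - 2 * (s32 x ^ 3) + 3 * (s33 x ^ 2) := by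
  have h := pw3_rec x 3
  norm_num only [pw3_5, pw3_4, pw3_3] at h
  rw [h]
  ring

/-- all monomials of weight at most 6 -/
noncomputable def evec3 (x : Fin 3 → ℝ) : List ℝ :=
  [1,
   s31 x,
   s31 x ^ 2,
   s32 x,
   s31 x ^ 3,
   s31 x * s32 x,
   s33 x,
   s31 x ^ 4,
   s31 x ^ 2 * s32 x,
   s31 x * s33 x,
   s32 x ^ 2,
   s31 x ^ 5,
   s31 x ^ 3 * s32 x,
   s31 x ^ 2 * s33 x,
   s31 x * s32 x ^ 2,
   s32 x * s33 x,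
   s31 x ^ 6,
   s31 x ^ 4 * s32 x,
   s31 x ^ 3 * s33 x,
   s31 x ^ 2 * s32 x ^ 2,
   s31 x * s32 x * s33 x,
   s32 x ^ 3,
   s33 x ^ 2]

/-- all monomials of weight 6 -/
noncomputable def vvec3 (x : Fin 3 → ℝ) : List ℝ :=
  [s31 x ^ 6,
   s31 x ^ 4 * s32 x,
   s31 x ^ 3 * s33 x,
   s31 x ^ 2 * s32 x ^ 2,
   s31 x * s32 x * s33 x,
   s33 x ^ 2,
   s32 x ^ 3]

/-- partitions, with the missing weight -/
def mw3 : List ((Fin 3 → ℕ) × ℕ) :=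
  [(![0, 0, 0], 6),
   (![1, 0, 0], 5),
   (![2, 0, 0], 4),
   (![1, 1, 0], 4),
   (![3, 0, 0], 3),
   (![2, 1, 0], 3),
   (![1, 1, 1], 3),
   (![4, 0, 0], 2),
   (![3, 1, 0], 2),
   (![2, 2, 0], 2),
   (![2, 1, 1], 2),
   (![5, 0, 0], 1),
   (![4, 1, 0], 1),
   (![3, 2, 0], 1),
   (![3, 1, 1], 1),
   (![2, 2, 1], 1),
   (![6, 0, 0], 0),
   (![5, 1, 0], 0),
   (![4, 2, 0], 0),
   (![4, 1, 1], 0),
   (![3, 3, 0], 0),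
   (![3, 2, 1], 0),
   (![2, 2, 2], 0)]

/-- monomials in terms of elementary functions -/
def T3 : List (List ℤ) :=
  [[6],
   [0, 2],
   [0, 0, 2, -4],
   [0, 0, 0, 2],
   [0, 0, 0, 0, 2, -6, 6],
   [0, 0, 0, 0, 0, 1, -3],
   [0, 0, 0, 0, 0, 0, 6],
   [0, 0, 0, 0, 0, 0, 0, 2, -8, 8, 4],
   [0, 0, 0, 0, 0, 0, 0, 0, 1, -1, -2],
   [0, 0, 0, 0, 0, 0, 0, 0, 0, -4, 2],
   [0, 0, 0, 0, 0, 0, 0, 0, 0, 2],
   [0, 0, 0, 0, 0, 0, 0, 0, 0, 0, 0, 2, -10, 10, 10, -10],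
   [0, 0, 0, 0, 0, 0, 0, 0, 0, 0, 0, 0, 1, -1, -3, 5],
   [0, 0, 0, 0, 0, 0, 0, 0, 0, 0, 0, 0, 0, -2, 1, -1],
   [0, 0, 0, 0, 0, 0, 0, 0, 0, 0, 0, 0, 0, 2, 0, -4],
   [0, 0, 0, 0, 0, 0, 0, 0, 0, 0, 0, 0, 0, 0, 0, 2],
   [0, 0, 0, 0, 0, 0, 0, 0, 0, 0, 0, 0, 0, 0, 0, 0, 2, -12, 12, 18, -24, -4, 6],
   [0, 0, 0, 0, 0, 0, 0, 0, 0, 0, 0, 0, 0, 0, 0, 0, 0, 1, -1, -4, 7, 2, -3],
   [0, 0, 0, 0, 0, 0, 0, 0, 0, 0, 0, 0, 0, 0, 0, 0, 0, 0, -2, 1, 4, -2, -3],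
   [0, 0, 0, 0, 0, 0, 0, 0, 0, 0, 0, 0, 0, 0, 0, 0, 0, 0, 2, 0, -6, 0, 6],
   [0, 0, 0, 0, 0, 0, 0, 0, 0, 0, 0, 0, 0, 0, 0, 0, 0, 0, 0, 0, -6, 2, 6],
   [0, 0, 0, 0, 0, 0, 0, 0, 0, 0, 0, 0, 0, 0, 0, 0, 0, 0, 0, 0, 1, 0, -3],
   [0, 0, 0, 0, 0, 0, 0, 0, 0, 0, 0, 0, 0, 0, 0, 0, 0, 0, 0, 0, 0, 0, 6]]

/-- homogenised version -/
def V3 : List (List ℤ) :=
  [[6],
   [2],
   [2, -4],
   [0, 2],
   [2, -6, 6],
   [0, 1, -3],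
   [0, 0, 6],
   [2, -8, 8, 4],
   [0, 1, -1, -2],
   [0, 0, -4, 2],
   [0, 0, 2],
   [2, -10, 10, 10, -10],
   [0, 1, -1, -3, 5],
   [0, 0, -2, 1, -1],
   [0, 0, 2, 0, -4],
   [0, 0, 0, 0, 2],
   [2, -12, 12, 18, -24, 6, -4],
   [0, 1, -1, -4, 7, -3, 2],
   [0, 0, -2, 1, 4, -3, -2],
   [0, 0, 2, 0, -6, 6],
   [0, 0, 0, 0, -6, 6, 2],
   [0, 0, 0, 0, 1, -3],
   [0, 0, 0, 0, 0, 6]]

lemma ms3_0 (x : Fin 3 → ℝ) : Msym ![0, 0, 0] x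
    = 6 := by
  rw [Msym3_pw]
  norm_num only [pw3_0, pw3_1, pw3_2, pw3_3, pw3_4, pw3_5, pw3_6]

lemma ms3_1 (x : Fin 3 → ℝ) : Msym ![1, 0, 0] x
    = 2 * (s31 x) := by
  rw [Msym3_pw]
  norm_num only [pw3_0, pw3_1, pw3_2, pw3_3, pw3_4, pw3_5, pw3_6]
  ring

lemma ms3_2 (x : Fin 3 → ℝ) : Msym ![2, 0, 0] x
    = 2 * (s31 x ^ 2) - 4 * (s32 x) := by
  rw [Msym3_pw]
  norm_num only [pw3_0, pw3_1, pw3_2, pw3_3, pw3_4, pw3_5, pw3_6]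
  ring

lemma ms3_3 (x : Fin 3 → ℝ) : Msym ![1, 1, 0] x
    = 2 * (s32 x) := by
  rw [Msym3_pw]
  norm_num only [pw3_0, pw3_1, pw3_2, pw3_3, pw3_4, pw3_5, pw3_6]
  ring

lemma ms3_4 (x : Fin 3 → ℝ) : Msym ![3, 0, 0] x
    = 2 * (s31 x ^ 3) - 6 * (s31 x * s32 x) + 6 * (s33 x) := by
  rw [Msym3_pw]
  norm_num only [pw3_0, pw3_1, pw3_2, pw3_3, pw3_4, pw3_5, pw3_6]
  ring

lemma ms3_5 (x : Fin 3 → ℝ) : Msym ![2, 1, 0] x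
    = s31 x * s32 x - 3 * (s33 x) := by
  rw [Msym3_pw]
  norm_num only [pw3_0, pw3_1, pw3_2, pw3_3, pw3_4, pw3_5, pw3_6]
  ring

lemma ms3_6 (x : Fin 3 → ℝ) : Msym ![1, 1, 1] x
    = 6 * (s33 x) := by
  rw [Msym3_pw]
  norm_num only [pw3_0, pw3_1, pw3_2, pw3_3, pw3_4, pw3_5, pw3_6]
  ring

lemma ms3_7 (x : Fin 3 → ℝ) : Msym ![4, 0, 0] x
    = 2 * (s31 x ^ 4) - 8 * (s31 x ^ 2 * s32 x) + 8 * (s31 x * s33 x) + 4 * (s32 x ^ 2) := by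
  rw [Msym3_pw]
  norm_num only [pw3_0, pw3_1, pw3_2, pw3_3, pw3_4, pw3_5, pw3_6]
  ring

lemma ms3_8 (x : Fin 3 → ℝ) : Msym ![3, 1, 0] x
    = s31 x ^ 2 * s32 x - s31 x * s33 x - 2 * (s32 x ^ 2) := by
  rw [Msym3_pw]
  norm_num only [pw3_0, pw3_1, pw3_2, pw3_3, pw3_4, pw3_5, pw3_6]
  ring

lemma ms3_9 (x : Fin 3 → ℝ) : Msym ![2, 2, 0] x
    = -(4 * (s31 x * s33 x)) + 2 * (s32 x ^ 2) := by
  rw [Msym3_pw]
  norm_num only [pw3_0, pw3_1, pw3_2, pw3_3, pw3_4, pw3_5, pw3_6]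
  ring

lemma ms3_10 (x : Fin 3 → ℝ) : Msym ![2, 1, 1] x
    = 2 * (s31 x * s33 x) := by
  rw [Msym3_pw]
  norm_num only [pw3_0, pw3_1, pw3_2, pw3_3, pw3_4, pw3_5, pw3_6]
  ring

lemma ms3_11 (x : Fin 3 → ℝ) : Msym ![5, 0, 0] x
    = 2 * (s31 x ^ 5) - 10 * (s31 x ^ 3 * s32 x) + 10 * (s31 x ^ 2 * s33 x) + 10 * (s31 x * s32 x ^ 2) - 10 * (s32 x * s33 x) := by
  rw [Msym3_pw]
  norm_num only [pw3_0, pw3_1, pw3_2, pw3_3, pw3_4, pw3_5, pw3_6]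
  ring

lemma ms3_12 (x : Fin 3 → ℝ) : Msym ![4, 1, 0] x
    = s31 x ^ 3 * s32 x - s31 x ^ 2 * s33 x - 3 * (s31 x * s32 x ^ 2) + 5 * (s32 x * s33 x) := by
  rw [Msym3_pw]
  norm_num only [pw3_0, pw3_1, pw3_2, pw3_3, pw3_4, pw3_5, pw3_6]
  ring

lemma ms3_13 (x : Fin 3 → ℝ) : Msym ![3, 2, 0] x
    = -(2 * (s31 x ^ 2 * s33 x)) + s31 x * s32 x ^ 2 - s32 x * s33 x := by
  rw [Msym3_pw]
  norm_num only [pw3_0, pw3_1, pw3_2, pw3_3, pw3_4, pw3_5, pw3_6]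
  ring

lemma ms3_14 (x : Fin 3 → ℝ) : Msym ![3, 1, 1] x
    = 2 * (s31 x ^ 2 * s33 x) - 4 * (s32 x * s33 x) := by
  rw [Msym3_pw]
  norm_num only [pw3_0, pw3_1, pw3_2, pw3_3, pw3_4, pw3_5, pw3_6]
  ring

lemma ms3_15 (x : Fin 3 → ℝ) : Msym ![2, 2, 1] x
    = 2 * (s32 x * s33 x) := by
  rw [Msym3_pw]
  norm_num only [pw3_0, pw3_1, pw3_2, pw3_3, pw3_4, pw3_5, pw3_6]
  ring

lemma ms3_16 (x : Fin 3 → ℝ) : Msym ![6, 0, 0] x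
    = 2 * (s31 x ^ 6) - 12 * (s31 x ^ 4 * s32 x) + 12 * (s31 x ^ 3 * s33 x) + 18 * (s31 x ^ 2 * s32 x ^ 2) - 24 * (s31 x * s32 x * s33 x) - 4 * (s32 x ^ 3) + 6 * (s33 x ^ 2) := by
  rw [Msym3_pw]
  norm_num only [pw3_0, pw3_1, pw3_2, pw3_3, pw3_4, pw3_5, pw3_6]
  ring

lemma ms3_17 (x : Fin 3 → ℝ) : Msym ![5, 1, 0] x
    = s31 x ^ 4 * s32 x - s31 x ^ 3 * s33 x - 4 * (s31 x ^ 2 * s32 x ^ 2) + 7 * (s31 x * s32 x * s33 x) + 2 * (s32 x ^ 3) - 3 * (s33 x ^ 2) := by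
  rw [Msym3_pw]
  norm_num only [pw3_0, pw3_1, pw3_2, pw3_3, pw3_4, pw3_5, pw3_6]
  ring

lemma ms3_18 (x : Fin 3 → ℝ) : Msym ![4, 2, 0] x
    = -(2 * (s31 x ^ 3 * s33 x)) + s31 x ^ 2 * s32 x ^ 2 + 4 * (s31 x * s32 x * s33 x) - 2 * (s32 x ^ 3) - 3 * (s33 x ^ 2) := by
  rw [Msym3_pw]
  norm_num only [pw3_0, pw3_1, pw3_2, pw3_3, pw3_4, pw3_5, pw3_6]
  ring

lemma ms3_19 (x : Fin 3 → ℝ) : Msym ![4, 1, 1] x
    = 2 * (s31 x ^ 3 * s33 x) - 6 * (s31 x * s32 x * s33 x) + 6 * (s33 x ^ 2) := by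
  rw [Msym3_pw]
  norm_num only [pw3_0, pw3_1, pw3_2, pw3_3, pw3_4, pw3_5, pw3_6]
  ring

lemma ms3_20 (x : Fin 3 → ℝ) : Msym ![3, 3, 0] x
    = -(6 * (s31 x * s32 x * s33 x)) + 2 * (s32 x ^ 3) + 6 * (s33 x ^ 2) := by
  rw [Msym3_pw]
  norm_num only [pw3_0, pw3_1, pw3_2, pw3_3, pw3_4, pw3_5, pw3_6]
  ring

lemma ms3_21 (x : Fin 3 → ℝ) : Msym ![3, 2, 1] x
    = s31 x * s32 x * s33 x - 3 * (s33 x ^ 2) := by
  rw [Msym3_pw]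
  norm_num only [pw3_0, pw3_1, pw3_2, pw3_3, pw3_4, pw3_5, pw3_6]
  ring

lemma ms3_22 (x : Fin 3 → ℝ) : Msym ![2, 2, 2] x
    = 6 * (s33 x ^ 2) := by
  rw [Msym3_pw]
  norm_num only [pw3_0, pw3_1, pw3_2, pw3_3, pw3_4, pw3_5, pw3_6]
  ring

theorem Mvec3 (x : Fin 3 → ℝ) :
    mw3.map (fun e => Msym e.1 x) = T3.map (fun t => evL t (evec3 x)) := by
  simp only [mw3, T3, List.map_cons, List.map_nil, evec3, evL_cons, evL_nil_left,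
    ms3_0, ms3_1, ms3_2, ms3_3, ms3_4, ms3_5, ms3_6, ms3_7, ms3_8, ms3_9, ms3_10, ms3_11, ms3_12, ms3_13, ms3_14, ms3_15, ms3_16, ms3_17, ms3_18, ms3_19, ms3_20, ms3_21, ms3_22]
  push_cast
  refine congrArg₂ List.cons (by ring) ?_
  refine congrArg₂ List.cons (by ring) ?_
  refine congrArg₂ List.cons (by ring) ?_
  refine congrArg₂ List.cons (by ring) ?_
  refine congrArg₂ List.cons (by ring) ?_
  refine congrArg₂ List.cons (by ring) ?_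
  refine congrArg₂ List.cons (by ring) ?_
  refine congrArg₂ List.cons (by ring) ?_
  refine congrArg₂ List.cons (by ring) ?_
  refine congrArg₂ List.cons (by ring) ?_
  refine congrArg₂ List.cons (by ring) ?_
  refine congrArg₂ List.cons (by ring) ?_
  refine congrArg₂ List.cons (by ring) ?_
  refine congrArg₂ List.cons (by ring) ?_
  refine congrArg₂ List.cons (by ring) ?_
  refine congrArg₂ List.cons (by ring) ?_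
  refine congrArg₂ List.cons (by ring) ?_
  refine congrArg₂ List.cons (by ring) ?_
  refine congrArg₂ List.cons (by ring) ?_
  refine congrArg₂ List.cons (by ring) ?_
  refine congrArg₂ List.cons (by ring) ?_
  refine congrArg₂ List.cons (by ring) ?_
  refine congrArg₂ List.cons (by ring) ?_
  all_goals rfl

theorem Vvec3 (x : Fin 3 → ℝ) :
    mw3.map (fun e => s31 x ^ e.2 * Msym e.1 x) = V3.map (fun t => evL t (vvec3 x)) := by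
  simp only [mw3, V3, List.map_cons, List.map_nil, vvec3, evL_cons, evL_nil_left,
    ms3_0, ms3_1, ms3_2, ms3_3, ms3_4, ms3_5, ms3_6, ms3_7, ms3_8, ms3_9, ms3_10, ms3_11, ms3_12, ms3_13, ms3_14, ms3_15, ms3_16, ms3_17, ms3_18, ms3_19, ms3_20, ms3_21, ms3_22]
  push_cast
  refine congrArg₂ List.cons (by ring) ?_
  refine congrArg₂ List.cons (by ring) ?_
  refine congrArg₂ List.cons (by ring) ?_
  refine congrArg₂ List.cons (by ring) ?_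
  refine congrArg₂ List.cons (by ring) ?_
  refine congrArg₂ List.cons (by ring) ?_
  refine congrArg₂ List.cons (by ring) ?_
  refine congrArg₂ List.cons (by ring) ?_
  refine congrArg₂ List.cons (by ring) ?_
  refine congrArg₂ List.cons (by ring) ?_
  refine congrArg₂ List.cons (by ring) ?_
  refine congrArg₂ List.cons (by ring) ?_
  refine congrArg₂ List.cons (by ring) ?_
  refine congrArg₂ List.cons (by ring) ?_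
  refine congrArg₂ List.cons (by ring) ?_
  refine congrArg₂ List.cons (by ring) ?_
  refine congrArg₂ List.cons (by ring) ?_
  refine congrArg₂ List.cons (by ring) ?_
  refine congrArg₂ List.cons (by ring) ?_
  refine congrArg₂ List.cons (by ring) ?_
  refine congrArg₂ List.cons (by ring) ?_
  refine congrArg₂ List.cons (by ring) ?_
  refine congrArg₂ List.cons (by ring) ?_
  all_goals rfl

end Vale.Agent.P154
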