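import Vale.Agent.P154.MSym

/-! Averages over permutations, q = 4 (generated). -/

set_option linter.unusedSimpArgs false
set_option linter.style.longLine false

namespace Vale.Agent.P154

/-- elementary symmetric functions -/
noncomputable def s41 (x : Fin 4 → ℝ) : ℝ := x 0 + x 1 + x 2 + x 3
/-- elementary symmetric functions -/
noncomputable def s42 (x : Fin 4 → ℝ) : ℝ :=
  x 0 * x 1 + x 0 * x 2 + x 0 * x 3 + x 1 * x 2 + x 1 * x 3 + x 2 * x 3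
/-- elementary symmetric functions -/
noncomputable def s43 (x : Fin 4 → ℝ) : ℝ :=
  x 0 * x 1 * x 2 + x 0 * x 1 * x 3 + x 0 * x 2 * x 3 + x 1 * x 2 * x 3
/-- elementary symmetric functions -/
noncomputable def s44 (x : Fin 4 → ℝ) : ℝ := x 0 * x 1 * x 2 * x 3

lemma pw4_rec (x : Fin 4 → ℝ) (k : ℕ) : pwM x (k+4) = s41 x * pwM x (k+3) - s42 x * pwM x (k+2) + s43 x * pwM x (k+1) - s44 x * pwM x k := by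
  simp only [pwM, Fin.sum_univ_four, s41, s42, s43, s44]
  ring

lemma pw4_0 (x : Fin 4 → ℝ) : pwM x 0 = 4 := by
  simp only [pwM, Fin.sum_univ_four, s41, s42, s43, s44]
  ring

lemma pw4_1 (x : Fin 4 → ℝ) : pwM x 1 = s41 x := by
  simp only [pwM, Fin.sum_univ_four, s41, s42, s43, s44]
  ring

lemma pw4_2 (x : Fin 4 → ℝ) : pwM x 2 = s41 x ^ 2 - 2 * (s42 x) := by
  simp only [pwM, Fin.sum_univ_four, s41, s42, s43, s44]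
  ring

lemma pw4_3 (x : Fin 4 → ℝ) : pwM x 3 = s41 x ^ 3 - 3 * (s41 x * s42 x) + 3 * (s43 x) := by
  simp only [pwM, Fin.sum_univ_four, s41, s42, s43, s44]
  ring

lemma pw4_4 (x : Fin 4 → ℝ) : pwM x 4 = s41 x ^ 4 - 4 * (s41 x ^ 2 * s42 x) + 4 * (s41 x * s43 x) + 2 * (s42 x ^ 2) - 4 * (s44 x) := by
  have h := pw4_rec x 0
  norm_num only [pw4_3, pw4_2, pw4_1, pw4_0] at h
  rw [h]
  ring

lemma pw4_5 (x : Fin 4 → ℝ) : pwM x 5 = s41 x ^ 5 - 5 * (s41 x ^ 3 * s42 x) + 5 * (s41 x ^ 2 * s43 x) + 5 * (s41 x * s42 x ^ 2) - 5 * (s41 x * s44 x) - 5 * (s42 x * s43 x) := by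
  have h := pw4_rec x 1
  norm_num only [pw4_4, pw4_3, pw4_2, pw4_1] at h
  rw [h]
  ring

lemma pw4_6 (x : Fin 4 → ℝ) : pwM x 6 = s41 x ^ 6 - 6 * (s41 x ^ 4 * s42 x) + 6 * (s41 x ^ 3 * s43 x) + 9 * (s41 x ^ 2 * s42 x ^ 2) - 6 * (s41 x ^ 2 * s44 x) - 12 * (s41 x * s42 x * s43 x) - 2 * (s42 x ^ 3) + 6 * (s42 x * s44 x) + 3 * (s43 x ^ 2) := by
  have h := pw4_rec x 2
  norm_num only [pw4_5, pw4_4, pw4_3, pw4_2] at h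
  rw [h]
  ring

lemma pw4_7 (x : Fin 4 → ℝ) : pwM x 7 = s41 x ^ 7 - 7 * (s41 x ^ 5 * s42 x) + 7 * (s41 x ^ 4 * s43 x) + 14 * (s41 x ^ 3 * s42 x ^ 2) - 7 * (s41 x ^ 3 * s44 x) - 21 * (s41 x ^ 2 * s42 x * s43 x) - 7 * (s41 x * s42 x ^ 3) + 14 * (s41 x * s42 x * s44 x) + 7 * (s41 x * s43 x ^ 2) + 7 * (s42 x ^ 2 * s43 x) - 7 * (s43 x * s44 x) := by
  have h := pw4_rec x 3
  norm_num only [pw4_6, pw4_5, pw4_4, pw4_3] at h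
  rw [h]
  ring

lemma pw4_8 (x : Fin 4 → ℝ) : pwM x 8 = s41 x ^ 8 - 8 * (s41 x ^ 6 * s42 x) + 8 * (s41 x ^ 5 * s43 x) + 20 * (s41 x ^ 4 * s42 x ^ 2) - 8 * (s41 x ^ 4 * s44 x) - 32 * (s41 x ^ 3 * s42 x * s43 x) - 16 * (s41 x ^ 2 * s42 x ^ 3) + 24 * (s41 x ^ 2 * s42 x * s44 x) + 12 * (s41 x ^ 2 * s43 x ^ 2) + 24 * (s41 x * s42 x ^ 2 * s43 x) - 16 * (s41 x * s43 x * s44 x) + 2 * (s42 x ^ 4) - 8 * (s42 x ^ 2 * s44 x) - 8 * (s42 x * s43 x ^ 2) + 4 * (s44 x ^ 2) := by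
  have h := pw4_rec x 4
  norm_num only [pw4_7, pw4_6, pw4_5, pw4_4] at h
  rw [h]
  ring

/-- all monomials of weight at most 8 -/
noncomputable def evec4 (x : Fin 4 → ℝ) : List ℝ :=
  [1,
   s41 x,
   s41 x ^ 2,
   s42 x,
   s41 x ^ 3,
   s41 x * s42 x,
   s43 x,
   s41 x ^ 4,
   s41 x ^ 2 * s42 x,
   s41 x * s43 x,
   s42 x ^ 2,
   s44 x,
   s41 x ^ 5,
   s41 x ^ 3 * s42 x,
   s41 x ^ 2 * s43 x,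
   s41 x * s42 x ^ 2,
   s41 x * s44 x,
   s42 x * s43 x,
   s41 x ^ 6,
   s41 x ^ 4 * s42 x,
   s41 x ^ 3 * s43 x,
   s41 x ^ 2 * s42 x ^ 2,
   s41 x ^ 2 * s44 x,
   s41 x * s42 x * s43 x,
   s42 x ^ 3,
   s42 x * s44 x,
   s43 x ^ 2,
   s41 x ^ 7,
   s41 x ^ 5 * s42 x,
   s41 x ^ 4 * s43 x,
   s41 x ^ 3 * s42 x ^ 2,
   s41 x ^ 3 * s44 x,
   s41 x ^ 2 * s42 x * s43 x,
   s41 x * s42 x ^ 3,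
   s41 x * s42 x * s44 x,
   s41 x * s43 x ^ 2,
   s42 x ^ 2 * s43 x,
   s43 x * s44 x,
   s41 x ^ 8,
   s41 x ^ 6 * s42 x,
   s41 x ^ 5 * s43 x,
   s41 x ^ 4 * s42 x ^ 2,
   s41 x ^ 4 * s44 x,
   s41 x ^ 3 * s42 x * s43 x,
   s41 x ^ 2 * s42 x ^ 3,
   s41 x ^ 2 * s42 x * s44 x,
   s41 x ^ 2 * s43 x ^ 2,
   s41 x * s42 x ^ 2 * s43 x,
   s41 x * s43 x * s44 x,
   s42 x ^ 4,
   s42 x ^ 2 * s44 x,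
   s42 x * s43 x ^ 2,
   s44 x ^ 2]

/-- all monomials of weight 8 -/
noncomputable def vvec4 (x : Fin 4 → ℝ) : List ℝ :=
  [s41 x ^ 8,
   s41 x ^ 6 * s42 x,
   s41 x ^ 5 * s43 x,
   s41 x ^ 4 * s44 x,
   s41 x ^ 4 * s42 x ^ 2,
   s41 x ^ 3 * s42 x * s43 x,
   s41 x ^ 2 * s43 x ^ 2,
   s41 x ^ 2 * s42 x * s44 x,
   s41 x ^ 2 * s42 x ^ 3,
   s41 x * s43 x * s44 x,
   s41 x * s42 x ^ 2 * s43 x,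
   s44 x ^ 2,
   s42 x * s43 x ^ 2,
   s42 x ^ 2 * s44 x,
   s42 x ^ 4]

/-- partitions, with the missing weight -/
def mw4 : List ((Fin 4 → ℕ) × ℕ) :=
  [(![0, 0, 0, 0], 8),
   (![1, 0, 0, 0], 7),
   (![2, 0, 0, 0], 6),
   (![1, 1, 0, 0], 6),
   (![3, 0, 0, 0], 5),
   (![2, 1, 0, 0], 5),
   (![1, 1, 1, 0], 5),
   (![4, 0, 0, 0], 4),
   (![3, 1, 0, 0], 4),
   (![2, 2, 0, 0], 4),
   (![2, 1, 1, 0], 4),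
   (![1, 1, 1, 1], 4),
   (![5, 0, 0, 0], 3),
   (![4, 1, 0, 0], 3),
   (![3, 2, 0, 0], 3),
   (![3, 1, 1, 0], 3),
   (![2, 2, 1, 0], 3),
   (![2, 1, 1, 1], 3),
   (![6, 0, 0, 0], 2),
   (![5, 1, 0, 0], 2),
   (![4, 2, 0, 0], 2),
   (![4, 1, 1, 0], 2),
   (![3, 3, 0, 0], 2),
   (![3, 2, 1, 0], 2),
   (![3, 1, 1, 1], 2),
   (![2, 2, 2, 0], 2),
   (![2, 2, 1, 1], 2),
   (![7, 0, 0, 0], 1),
   (![6, 1, 0, 0], 1),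
   (![5, 2, 0, 0], 1),
   (![5, 1, 1, 0], 1),
   (![4, 3, 0, 0], 1),
   (![4, 2, 1, 0], 1),
   (![4, 1, 1, 1], 1),
   (![3, 3, 1, 0], 1),
   (![3, 2, 2, 0], 1),
   (![3, 2, 1, 1], 1),
   (![2, 2, 2, 1], 1),
   (![8, 0, 0, 0], 0),
   (![7, 1, 0, 0], 0),
   (![6, 2, 0, 0], 0),
   (![6, 1, 1, 0], 0),
   (![5, 3, 0, 0], 0),
   (![5, 2, 1, 0], 0),
   (![5, 1, 1, 1], 0),
   (![4, 4, 0, 0], 0),
   (![4, 3, 1, 0], 0),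
   (![4, 2, 2, 0], 0),
   (![4, 2, 1, 1], 0),
   (![3, 3, 2, 0], 0),
   (![3, 3, 1, 1], 0),
   (![3, 2, 2, 1], 0),
   (![2, 2, 2, 2], 0)]

/-- monomials in terms of elementary functions -/
def T4 : List (List ℤ) :=
  [[24],
   [0, 6],
   [0, 0, 6, -12],
   [0, 0, 0, 4],
   [0, 0, 0, 0, 6, -18, 18],
   [0, 0, 0, 0, 0, 2, -6],
   [0, 0, 0, 0, 0, 0, 6],
   [0, 0, 0, 0, 0, 0, 0, 6, -24, 24, 12, -24],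
   [0, 0, 0, 0, 0, 0, 0, 0, 2, -2, -4, 8],
   [0, 0, 0, 0, 0, 0, 0, 0, 0, -8, 4, 8],
   [0, 0, 0, 0, 0, 0, 0, 0, 0, 2, 0, -8],
   [0, 0, 0, 0, 0, 0, 0, 0, 0, 0, 0, 24],
   [0, 0, 0, 0, 0, 0, 0, 0, 0, 0, 0, 0, 6, -30, 30, 30, -30, -30],
   [0, 0, 0, 0, 0, 0, 0, 0, 0, 0, 0, 0, 0, 2, -2, -6, 2, 10],
   [0, 0, 0, 0, 0, 0, 0, 0, 0, 0, 0, 0, 0, 0, -4, 2, 10, -2],
   [0, 0, 0, 0, 0, 0, 0, 0, 0, 0, 0, 0, 0, 0, 2, 0, -2, -4],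
   [0, 0, 0, 0, 0, 0, 0, 0, 0, 0, 0, 0, 0, 0, 0, 0, -6, 2],
   [0, 0, 0, 0, 0, 0, 0, 0, 0, 0, 0, 0, 0, 0, 0, 0, 6],
   [0, 0, 0, 0, 0, 0, 0, 0, 0, 0, 0, 0, 0, 0, 0, 0, 0, 0, 6, -36, 36, 54, -36, -72, -12, 36, 18],
   [0, 0, 0, 0, 0, 0, 0, 0, 0, 0, 0, 0, 0, 0, 0, 0, 0, 0, 0, 2, -2, -8, 2, 14, 4, -12, -6],
   [0, 0, 0, 0, 0, 0, 0, 0, 0, 0, 0, 0, 0, 0, 0, 0, 0, 0, 0, 0, -4, 2, 4, 8, -4, 4, -6],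
   [0, 0, 0, 0, 0, 0, 0, 0, 0, 0, 0, 0, 0, 0, 0, 0, 0, 0, 0, 0, 2, 0, -2, -6, 0, 4, 6],
   [0, 0, 0, 0, 0, 0, 0, 0, 0, 0, 0, 0, 0, 0, 0, 0, 0, 0, 0, 0, 0, 0, 12, -12, 4, -12, 12],
   [0, 0, 0, 0, 0, 0, 0, 0, 0, 0, 0, 0, 0, 0, 0, 0, 0, 0, 0, 0, 0, 0, -3, 1, 0, 4, -3],
   [0, 0, 0, 0, 0, 0, 0, 0, 0, 0, 0, 0, 0, 0, 0, 0, 0, 0, 0, 0, 0, 0, 6, 0, 0, -12],
   [0, 0, 0, 0, 0, 0, 0, 0, 0, 0, 0, 0, 0, 0, 0, 0, 0, 0, 0, 0, 0, 0, 0, 0, 0, -12, 6],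
   [0, 0, 0, 0, 0, 0, 0, 0, 0, 0, 0, 0, 0, 0, 0, 0, 0, 0, 0, 0, 0, 0, 0, 0, 0, 4],
   [0, 0, 0, 0, 0, 0, 0, 0, 0, 0, 0, 0, 0, 0, 0, 0, 0, 0, 0, 0, 0, 0, 0, 0, 0, 0, 0, 6, -42, 42, 84, -42, -126, -42, 84, 42, 42, -42],
   [0, 0, 0, 0, 0, 0, 0, 0, 0, 0, 0, 0, 0, 0, 0, 0, 0, 0, 0, 0, 0, 0, 0, 0, 0, 0, 0, 0, 2, -2, -10, 2, 18, 10, -16, -8, -14, 14],
   [0, 0, 0, 0, 0, 0, 0, 0, 0, 0, 0, 0, 0, 0, 0, 0, 0, 0, 0, 0, 0, 0, 0, 0, 0, 0, 0, 0, 0, -4, 2, 4, 12, -6, -8, -14, 6, 14],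
   [0, 0, 0, 0, 0, 0, 0, 0, 0, 0, 0, 0, 0, 0, 0, 0, 0, 0, 0, 0, 0, 0, 0, 0, 0, 0, 0, 0, 0, 2, 0, -2, -8, 0, 6, 8, 4, -14],
   [0, 0, 0, 0, 0, 0, 0, 0, 0, 0, 0, 0, 0, 0, 0, 0, 0, 0, 0, 0, 0, 0, 0, 0, 0, 0, 0, 0, 0, 0, 0, 6, -6, 2, -4, 10, -2, -10],
   [0, 0, 0, 0, 0, 0, 0, 0, 0, 0, 0, 0, 0, 0, 0, 0, 0, 0, 0, 0, 0, 0, 0, 0, 0, 0, 0, 0, 0, 0, 0, -3, 1, 0, 8, -1, -2, -2],
   [0, 0, 0, 0, 0, 0, 0, 0, 0, 0, 0, 0, 0, 0, 0, 0, 0, 0, 0, 0, 0, 0, 0, 0, 0, 0, 0, 0, 0, 0, 0, 6, 0, 0, -18, 0, 0, 18],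
   [0, 0, 0, 0, 0, 0, 0, 0, 0, 0, 0, 0, 0, 0, 0, 0, 0, 0, 0, 0, 0, 0, 0, 0, 0, 0, 0, 0, 0, 0, 0, 0, 0, 0, -2, -4, 2, 10],
   [0, 0, 0, 0, 0, 0, 0, 0, 0, 0, 0, 0, 0, 0, 0, 0, 0, 0, 0, 0, 0, 0, 0, 0, 0, 0, 0, 0, 0, 0, 0, 0, 0, 0, -4, 2, 0, -2],
   [0, 0, 0, 0, 0, 0, 0, 0, 0, 0, 0, 0, 0, 0, 0, 0, 0, 0, 0, 0, 0, 0, 0, 0, 0, 0, 0, 0, 0, 0, 0, 0, 0, 0, 2, 0, 0, -6],
   [0, 0, 0, 0, 0, 0, 0, 0, 0, 0, 0, 0, 0, 0, 0, 0, 0, 0, 0, 0, 0, 0, 0, 0, 0, 0, 0, 0, 0, 0, 0, 0, 0, 0, 0, 0, 0, 6],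
   [0, 0, 0, 0, 0, 0, 0, 0, 0, 0, 0, 0, 0, 0, 0, 0, 0, 0, 0, 0, 0, 0, 0, 0, 0, 0, 0, 0, 0, 0, 0, 0, 0, 0, 0, 0, 0, 0, 6, -48, 48, 120, -48, -192, -96, 144, 72, 144, -96, 12, -48, -48, 24],
   [0, 0, 0, 0, 0, 0, 0, 0, 0, 0, 0, 0, 0, 0, 0, 0, 0, 0, 0, 0, 0, 0, 0, 0, 0, 0, 0, 0, 0, 0, 0, 0, 0, 0, 0, 0, 0, 0, 0, 2, -2, -12, 2, 22, 18, -20, -10, -34, 18, -4, 16, 16, -8],
   [0, 0, 0, 0, 0, 0, 0, 0, 0, 0, 0, 0, 0, 0, 0, 0, 0, 0, 0, 0, 0, 0, 0, 0, 0, 0, 0, 0, 0, 0, 0, 0, 0, 0, 0, 0, 0, 0, 0, 0, -4, 2, 4, 16, -8, -12, -18, 0, 32, 4, -8, 4, -8],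
   [0, 0, 0, 0, 0, 0, 0, 0, 0, 0, 0, 0, 0, 0, 0, 0, 0, 0, 0, 0, 0, 0, 0, 0, 0, 0, 0, 0, 0, 0, 0, 0, 0, 0, 0, 0, 0, 0, 0, 0, 2, 0, -2, -10, 0, 8, 10, 10, -18, 0, -4, -10, 8],
   [0, 0, 0, 0, 0, 0, 0, 0, 0, 0, 0, 0, 0, 0, 0, 0, 0, 0, 0, 0, 0, 0, 0, 0, 0, 0, 0, 0, 0, 0, 0, 0, 0, 0, 0, 0, 0, 0, 0, 0, 0, 0, 6, -6, 2, -18, 6, 12, 2, -4, 16, -14, -8],
   [0, 0, 0, 0, 0, 0, 0, 0, 0, 0, 0, 0, 0, 0, 0, 0, 0, 0, 0, 0, 0, 0, 0, 0, 0, 0, 0, 0, 0, 0, 0, 0, 0, 0, 0, 0, 0, 0, 0, 0, 0, 0, -3, 1, 0, 11, -1, -3, -10, 0, -4, 5, 8],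
   [0, 0, 0, 0, 0, 0, 0, 0, 0, 0, 0, 0, 0, 0, 0, 0, 0, 0, 0, 0, 0, 0, 0, 0, 0, 0, 0, 0, 0, 0, 0, 0, 0, 0, 0, 0, 0, 0, 0, 0, 0, 0, 6, 0, 0, -24, 0, 0, 24, 0, 12, 0, -24],
   [0, 0, 0, 0, 0, 0, 0, 0, 0, 0, 0, 0, 0, 0, 0, 0, 0, 0, 0, 0, 0, 0, 0, 0, 0, 0, 0, 0, 0, 0, 0, 0, 0, 0, 0, 0, 0, 0, 0, 0, 0, 0, 0, 0, 0, 16, 8, -16, -32, 4, -16, 16, 24],
   [0, 0, 0, 0, 0, 0, 0, 0, 0, 0, 0, 0, 0, 0, 0, 0, 0, 0, 0, 0, 0, 0, 0, 0, 0, 0, 0, 0, 0, 0, 0, 0, 0, 0, 0, 0, 0, 0, 0, 0, 0, 0, 0, 0, 0, -1, -2, 1, 10, 0, 0, -1, -8],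
   [0, 0, 0, 0, 0, 0, 0, 0, 0, 0, 0, 0, 0, 0, 0, 0, 0, 0, 0, 0, 0, 0, 0, 0, 0, 0, 0, 0, 0, 0, 0, 0, 0, 0, 0, 0, 0, 0, 0, 0, 0, 0, 0, 0, 0, -4, 2, 0, 0, 0, 8, -4, -8],
   [0, 0, 0, 0, 0, 0, 0, 0, 0, 0, 0, 0, 0, 0, 0, 0, 0, 0, 0, 0, 0, 0, 0, 0, 0, 0, 0, 0, 0, 0, 0, 0, 0, 0, 0, 0, 0, 0, 0, 0, 0, 0, 0, 0, 0, 2, 0, 0, -2, 0, -4, 0, 8],
   [0, 0, 0, 0, 0, 0, 0, 0, 0, 0, 0, 0, 0, 0, 0, 0, 0, 0, 0, 0, 0, 0, 0, 0, 0, 0, 0, 0, 0, 0, 0, 0, 0, 0, 0, 0, 0, 0, 0, 0, 0, 0, 0, 0, 0, 0, 0, 0, -2, 0, -4, 2, 8],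
   [0, 0, 0, 0, 0, 0, 0, 0, 0, 0, 0, 0, 0, 0, 0, 0, 0, 0, 0, 0, 0, 0, 0, 0, 0, 0, 0, 0, 0, 0, 0, 0, 0, 0, 0, 0, 0, 0, 0, 0, 0, 0, 0, 0, 0, 0, 0, 0, -8, 0, 4, 0, 8],
   [0, 0, 0, 0, 0, 0, 0, 0, 0, 0, 0, 0, 0, 0, 0, 0, 0, 0, 0, 0, 0, 0, 0, 0, 0, 0, 0, 0, 0, 0, 0, 0, 0, 0, 0, 0, 0, 0, 0, 0, 0, 0, 0, 0, 0, 0, 0, 0, 2, 0, 0, 0, -8],
   [0, 0, 0, 0, 0, 0, 0, 0, 0, 0, 0, 0, 0, 0, 0, 0, 0, 0, 0, 0, 0, 0, 0, 0, 0, 0, 0, 0, 0, 0, 0, 0, 0, 0, 0, 0, 0, 0, 0, 0, 0, 0, 0, 0, 0, 0, 0, 0, 0, 0, 0, 0, 24]]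

/-- homogenised version -/
def V4 : List (List ℤ) :=
  [[24],
   [6],
   [6, -12],
   [0, 4],
   [6, -18, 18],
   [0, 2, -6],
   [0, 0, 6],
   [6, -24, 24, -24, 12],
   [0, 2, -2, 8, -4],
   [0, 0, -8, 8, 4],
   [0, 0, 2, -8],
   [0, 0, 0, 24],
   [6, -30, 30, -30, 30, -30],
   [0, 2, -2, 2, -6, 10],
   [0, 0, -4, 10, 2, -2],
   [0, 0, 2, -2, 0, -4],
   [0, 0, 0, -6, 0, 2],
   [0, 0, 0, 6],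
   [6, -36, 36, -36, 54, -72, 18, 36, -12],
   [0, 2, -2, 2, -8, 14, -6, -12, 4],
   [0, 0, -4, 4, 2, 8, -6, 4, -4],
   [0, 0, 2, -2, 0, -6, 6, 4],
   [0, 0, 0, 12, 0, -12, 12, -12, 4],
   [0, 0, 0, -3, 0, 1, -3, 4],
   [0, 0, 0, 6, 0, 0, 0, -12],
   [0, 0, 0, 0, 0, 0, 6, -12],
   [0, 0, 0, 0, 0, 0, 0, 4],
   [6, -42, 42, -42, 84, -126, 42, 84, -42, -42, 42],
   [0, 2, -2, 2, -10, 18, -8, -16, 10, 14, -14],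
   [0, 0, -4, 4, 2, 12, -14, -8, -6, 14, 6],
   [0, 0, 2, -2, 0, -8, 8, 6, 0, -14, 4],
   [0, 0, 0, 6, 0, -6, 10, -4, 2, -10, -2],
   [0, 0, 0, -3, 0, 1, -1, 8, 0, -2, -2],
   [0, 0, 0, 6, 0, 0, 0, -18, 0, 18],
   [0, 0, 0, 0, 0, 0, -4, -2, 0, 10, 2],
   [0, 0, 0, 0, 0, 0, 2, -4, 0, -2],
   [0, 0, 0, 0, 0, 0, 0, 2, 0, -6],
   [0, 0, 0, 0, 0, 0, 0, 0, 0, 6],
   [6, -48, 48, -48, 120, -192, 72, 144, -96, -96, 144, 24, -48, -48, 12],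
   [0, 2, -2, 2, -12, 22, -10, -20, 18, 18, -34, -8, 16, 16, -4],
   [0, 0, -4, 4, 2, 16, -18, -12, -8, 32, 0, -8, 4, -8, 4],
   [0, 0, 2, -2, 0, -10, 10, 8, 0, -18, 10, 8, -10, -4],
   [0, 0, 0, 6, 0, -6, 6, -18, 2, 2, 12, -8, -14, 16, -4],
   [0, 0, 0, -3, 0, 1, -1, 11, 0, -10, -3, 8, 5, -4],
   [0, 0, 0, 6, 0, 0, 0, -24, 0, 24, 0, -24, 0, 12],
   [0, 0, 0, 0, 0, 0, 8, 16, 0, -32, -16, 24, 16, -16, 4],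
   [0, 0, 0, 0, 0, 0, -2, -1, 0, 10, 1, -8, -1],
   [0, 0, 0, 0, 0, 0, 2, -4, 0, 0, 0, -8, -4, 8],
   [0, 0, 0, 0, 0, 0, 0, 2, 0, -2, 0, 8, 0, -4],
   [0, 0, 0, 0, 0, 0, 0, 0, 0, -2, 0, 8, 2, -4],
   [0, 0, 0, 0, 0, 0, 0, 0, 0, -8, 0, 8, 0, 4],
   [0, 0, 0, 0, 0, 0, 0, 0, 0, 2, 0, -8],
   [0, 0, 0, 0, 0, 0, 0, 0, 0, 0, 0, 24]]

lemma ms4_0 (x : Fin 4 → ℝ) : Msym ![0, 0, 0, 0] x
    = 24 := by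
  rw [Msym4_pw]
  norm_num only [pw4_0, pw4_1, pw4_2, pw4_3, pw4_4, pw4_5, pw4_6, pw4_7, pw4_8]

lemma ms4_1 (x : Fin 4 → ℝ) : Msym ![1, 0, 0, 0] x
    = 6 * (s41 x) := by
  rw [Msym4_pw]
  norm_num only [pw4_0, pw4_1, pw4_2, pw4_3, pw4_4, pw4_5, pw4_6, pw4_7, pw4_8]
  ring

lemma ms4_2 (x : Fin 4 → ℝ) : Msym ![2, 0, 0, 0] x
    = 6 * (s41 x ^ 2) - 12 * (s42 x) := by
  rw [Msym4_pw]
  norm_num only [pw4_0, pw4_1, pw4_2, pw4_3, pw4_4, pw4_5, pw4_6, pw4_7, pw4_8]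
  ring

lemma ms4_3 (x : Fin 4 → ℝ) : Msym ![1, 1, 0, 0] x
    = 4 * (s42 x) := by
  rw [Msym4_pw]
  norm_num only [pw4_0, pw4_1, pw4_2, pw4_3, pw4_4, pw4_5, pw4_6, pw4_7, pw4_8]
  ring

lemma ms4_4 (x : Fin 4 → ℝ) : Msym ![3, 0, 0, 0] x
    = 6 * (s41 x ^ 3) - 18 * (s41 x * s42 x) + 18 * (s43 x) := by
  rw [Msym4_pw]
  norm_num only [pw4_0, pw4_1, pw4_2, pw4_3, pw4_4, pw4_5, pw4_6, pw4_7, pw4_8]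
  ring

lemma ms4_5 (x : Fin 4 → ℝ) : Msym ![2, 1, 0, 0] x
    = 2 * (s41 x * s42 x) - 6 * (s43 x) := by
  rw [Msym4_pw]
  norm_num only [pw4_0, pw4_1, pw4_2, pw4_3, pw4_4, pw4_5, pw4_6, pw4_7, pw4_8]
  ring

lemma ms4_6 (x : Fin 4 → ℝ) : Msym ![1, 1, 1, 0] x
    = 6 * (s43 x) := by
  rw [Msym4_pw]
  norm_num only [pw4_0, pw4_1, pw4_2, pw4_3, pw4_4, pw4_5, pw4_6, pw4_7, pw4_8]
  ring

lemma ms4_7 (x : Fin 4 → ℝ) : Msym ![4, 0, 0, 0] x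
    = 6 * (s41 x ^ 4) - 24 * (s41 x ^ 2 * s42 x) + 24 * (s41 x * s43 x) + 12 * (s42 x ^ 2) - 24 * (s44 x) := by
  rw [Msym4_pw]
  norm_num only [pw4_0, pw4_1, pw4_2, pw4_3, pw4_4, pw4_5, pw4_6, pw4_7, pw4_8]
  ring

lemma ms4_8 (x : Fin 4 → ℝ) : Msym ![3, 1, 0, 0] x
    = 2 * (s41 x ^ 2 * s42 x) - 2 * (s41 x * s43 x) - 4 * (s42 x ^ 2) + 8 * (s44 x) := by
  rw [Msym4_pw]
  norm_num only [pw4_0, pw4_1, pw4_2, pw4_3, pw4_4, pw4_5, pw4_6, pw4_7, pw4_8]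
  ring

lemma ms4_9 (x : Fin 4 → ℝ) : Msym ![2, 2, 0, 0] x
    = -(8 * (s41 x * s43 x)) + 4 * (s42 x ^ 2) + 8 * (s44 x) := by
  rw [Msym4_pw]
  norm_num only [pw4_0, pw4_1, pw4_2, pw4_3, pw4_4, pw4_5, pw4_6, pw4_7, pw4_8]
  ring

lemma ms4_10 (x : Fin 4 → ℝ) : Msym ![2, 1, 1, 0] x
    = 2 * (s41 x * s43 x) - 8 * (s44 x) := by
  rw [Msym4_pw]
  norm_num only [pw4_0, pw4_1, pw4_2, pw4_3, pw4_4, pw4_5, pw4_6, pw4_7, pw4_8]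
  ring

lemma ms4_11 (x : Fin 4 → ℝ) : Msym ![1, 1, 1, 1] x
    = 24 * (s44 x) := by
  rw [Msym4_pw]
  norm_num only [pw4_0, pw4_1, pw4_2, pw4_3, pw4_4, pw4_5, pw4_6, pw4_7, pw4_8]
  ring

lemma ms4_12 (x : Fin 4 → ℝ) : Msym ![5, 0, 0, 0] x
    = 6 * (s41 x ^ 5) - 30 * (s41 x ^ 3 * s42 x) + 30 * (s41 x ^ 2 * s43 x) + 30 * (s41 x * s42 x ^ 2) - 30 * (s41 x * s44 x) - 30 * (s42 x * s43 x) := by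
  rw [Msym4_pw]
  norm_num only [pw4_0, pw4_1, pw4_2, pw4_3, pw4_4, pw4_5, pw4_6, pw4_7, pw4_8]
  ring

lemma ms4_13 (x : Fin 4 → ℝ) : Msym ![4, 1, 0, 0] x
    = 2 * (s41 x ^ 3 * s42 x) - 2 * (s41 x ^ 2 * s43 x) - 6 * (s41 x * s42 x ^ 2) + 2 * (s41 x * s44 x) + 10 * (s42 x * s43 x) := by
  rw [Msym4_pw]
  norm_num only [pw4_0, pw4_1, pw4_2, pw4_3, pw4_4, pw4_5, pw4_6, pw4_7, pw4_8]
  ring

lemma ms4_14 (x : Fin 4 → ℝ) : Msym ![3, 2, 0, 0] x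
    = -(4 * (s41 x ^ 2 * s43 x)) + 2 * (s41 x * s42 x ^ 2) + 10 * (s41 x * s44 x) - 2 * (s42 x * s43 x) := by
  rw [Msym4_pw]
  norm_num only [pw4_0, pw4_1, pw4_2, pw4_3, pw4_4, pw4_5, pw4_6, pw4_7, pw4_8]
  ring

lemma ms4_15 (x : Fin 4 → ℝ) : Msym ![3, 1, 1, 0] x
    = 2 * (s41 x ^ 2 * s43 x) - 2 * (s41 x * s44 x) - 4 * (s42 x * s43 x) := by
  rw [Msym4_pw]
  norm_num only [pw4_0, pw4_1, pw4_2, pw4_3, pw4_4, pw4_5, pw4_6, pw4_7, pw4_8]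
  ring

lemma ms4_16 (x : Fin 4 → ℝ) : Msym ![2, 2, 1, 0] x
    = -(6 * (s41 x * s44 x)) + 2 * (s42 x * s43 x) := by
  rw [Msym4_pw]
  norm_num only [pw4_0, pw4_1, pw4_2, pw4_3, pw4_4, pw4_5, pw4_6, pw4_7, pw4_8]
  ring

lemma ms4_17 (x : Fin 4 → ℝ) : Msym ![2, 1, 1, 1] x
    = 6 * (s41 x * s44 x) := by
  rw [Msym4_pw]
  norm_num only [pw4_0, pw4_1, pw4_2, pw4_3, pw4_4, pw4_5, pw4_6, pw4_7, pw4_8]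
  ring

lemma ms4_18 (x : Fin 4 → ℝ) : Msym ![6, 0, 0, 0] x
    = 6 * (s41 x ^ 6) - 36 * (s41 x ^ 4 * s42 x) + 36 * (s41 x ^ 3 * s43 x) + 54 * (s41 x ^ 2 * s42 x ^ 2) - 36 * (s41 x ^ 2 * s44 x) - 72 * (s41 x * s42 x * s43 x) - 12 * (s42 x ^ 3) + 36 * (s42 x * s44 x) + 18 * (s43 x ^ 2) := by
  rw [Msym4_pw]
  norm_num only [pw4_0, pw4_1, pw4_2, pw4_3, pw4_4, pw4_5, pw4_6, pw4_7, pw4_8]
  ring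

lemma ms4_19 (x : Fin 4 → ℝ) : Msym ![5, 1, 0, 0] x
    = 2 * (s41 x ^ 4 * s42 x) - 2 * (s41 x ^ 3 * s43 x) - 8 * (s41 x ^ 2 * s42 x ^ 2) + 2 * (s41 x ^ 2 * s44 x) + 14 * (s41 x * s42 x * s43 x) + 4 * (s42 x ^ 3) - 12 * (s42 x * s44 x) - 6 * (s43 x ^ 2) := by
  rw [Msym4_pw]
  norm_num only [pw4_0, pw4_1, pw4_2, pw4_3, pw4_4, pw4_5, pw4_6, pw4_7, pw4_8]
  ring

lemma ms4_20 (x : Fin 4 → ℝ) : Msym ![4, 2, 0, 0] x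
    = -(4 * (s41 x ^ 3 * s43 x)) + 2 * (s41 x ^ 2 * s42 x ^ 2) + 4 * (s41 x ^ 2 * s44 x) + 8 * (s41 x * s42 x * s43 x) - 4 * (s42 x ^ 3) + 4 * (s42 x * s44 x) - 6 * (s43 x ^ 2) := by
  rw [Msym4_pw]
  norm_num only [pw4_0, pw4_1, pw4_2, pw4_3, pw4_4, pw4_5, pw4_6, pw4_7, pw4_8]
  ring

lemma ms4_21 (x : Fin 4 → ℝ) : Msym ![4, 1, 1, 0] x
    = 2 * (s41 x ^ 3 * s43 x) - 2 * (s41 x ^ 2 * s44 x) - 6 * (s41 x * s42 x * s43 x) + 4 * (s42 x * s44 x) + 6 * (s43 x ^ 2) := by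
  rw [Msym4_pw]
  norm_num only [pw4_0, pw4_1, pw4_2, pw4_3, pw4_4, pw4_5, pw4_6, pw4_7, pw4_8]
  ring

lemma ms4_22 (x : Fin 4 → ℝ) : Msym ![3, 3, 0, 0] x
    = 12 * (s41 x ^ 2 * s44 x) - 12 * (s41 x * s42 x * s43 x) + 4 * (s42 x ^ 3) - 12 * (s42 x * s44 x) + 12 * (s43 x ^ 2) := by
  rw [Msym4_pw]
  norm_num only [pw4_0, pw4_1, pw4_2, pw4_3, pw4_4, pw4_5, pw4_6, pw4_7, pw4_8]
  ring

lemma ms4_23 (x : Fin 4 → ℝ) : Msym ![3, 2, 1, 0] x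
    = -(3 * (s41 x ^ 2 * s44 x)) + s41 x * s42 x * s43 x + 4 * (s42 x * s44 x) - 3 * (s43 x ^ 2) := by
  rw [Msym4_pw]
  norm_num only [pw4_0, pw4_1, pw4_2, pw4_3, pw4_4, pw4_5, pw4_6, pw4_7, pw4_8]
  ring

lemma ms4_24 (x : Fin 4 → ℝ) : Msym ![3, 1, 1, 1] x
    = 6 * (s41 x ^ 2 * s44 x) - 12 * (s42 x * s44 x) := by
  rw [Msym4_pw]
  norm_num only [pw4_0, pw4_1, pw4_2, pw4_3, pw4_4, pw4_5, pw4_6, pw4_7, pw4_8]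
  ring

lemma ms4_25 (x : Fin 4 → ℝ) : Msym ![2, 2, 2, 0] x
    = -(12 * (s42 x * s44 x)) + 6 * (s43 x ^ 2) := by
  rw [Msym4_pw]
  norm_num only [pw4_0, pw4_1, pw4_2, pw4_3, pw4_4, pw4_5, pw4_6, pw4_7, pw4_8]
  ring

lemma ms4_26 (x : Fin 4 → ℝ) : Msym ![2, 2, 1, 1] x
    = 4 * (s42 x * s44 x) := by
  rw [Msym4_pw]
  norm_num only [pw4_0, pw4_1, pw4_2, pw4_3, pw4_4, pw4_5, pw4_6, pw4_7, pw4_8]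
  ring

lemma ms4_27 (x : Fin 4 → ℝ) : Msym ![7, 0, 0, 0] x
    = 6 * (s41 x ^ 7) - 42 * (s41 x ^ 5 * s42 x) + 42 * (s41 x ^ 4 * s43 x) + 84 * (s41 x ^ 3 * s42 x ^ 2) - 42 * (s41 x ^ 3 * s44 x) - 126 * (s41 x ^ 2 * s42 x * s43 x) - 42 * (s41 x * s42 x ^ 3) + 84 * (s41 x * s42 x * s44 x) + 42 * (s41 x * s43 x ^ 2) + 42 * (s42 x ^ 2 * s43 x) - 42 * (s43 x * s44 x) := by
  rw [Msym4_pw]
  norm_num only [pw4_0, pw4_1, pw4_2, pw4_3, pw4_4, pw4_5, pw4_6, pw4_7, pw4_8]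
  ring

lemma ms4_28 (x : Fin 4 → ℝ) : Msym ![6, 1, 0, 0] x
    = 2 * (s41 x ^ 5 * s42 x) - 2 * (s41 x ^ 4 * s43 x) - 10 * (s41 x ^ 3 * s42 x ^ 2) + 2 * (s41 x ^ 3 * s44 x) + 18 * (s41 x ^ 2 * s42 x * s43 x) + 10 * (s41 x * s42 x ^ 3) - 16 * (s41 x * s42 x * s44 x) - 8 * (s41 x * s43 x ^ 2) - 14 * (s42 x ^ 2 * s43 x) + 14 * (s43 x * s44 x) := by
  rw [Msym4_pw]
  norm_num only [pw4_0, pw4_1, pw4_2, pw4_3, pw4_4, pw4_5, pw4_6, pw4_7, pw4_8]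
  ring

lemma ms4_29 (x : Fin 4 → ℝ) : Msym ![5, 2, 0, 0] x
    = -(4 * (s41 x ^ 4 * s43 x)) + 2 * (s41 x ^ 3 * s42 x ^ 2) + 4 * (s41 x ^ 3 * s44 x) + 12 * (s41 x ^ 2 * s42 x * s43 x) - 6 * (s41 x * s42 x ^ 3) - 8 * (s41 x * s42 x * s44 x) - 14 * (s41 x * s43 x ^ 2) + 6 * (s42 x ^ 2 * s43 x) + 14 * (s43 x * s44 x) := by
  rw [Msym4_pw]
  norm_num only [pw4_0, pw4_1, pw4_2, pw4_3, pw4_4, pw4_5, pw4_6, pw4_7, pw4_8]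
  ring

lemma ms4_30 (x : Fin 4 → ℝ) : Msym ![5, 1, 1, 0] x
    = 2 * (s41 x ^ 4 * s43 x) - 2 * (s41 x ^ 3 * s44 x) - 8 * (s41 x ^ 2 * s42 x * s43 x) + 6 * (s41 x * s42 x * s44 x) + 8 * (s41 x * s43 x ^ 2) + 4 * (s42 x ^ 2 * s43 x) - 14 * (s43 x * s44 x) := by
  rw [Msym4_pw]
  norm_num only [pw4_0, pw4_1, pw4_2, pw4_3, pw4_4, pw4_5, pw4_6, pw4_7, pw4_8]
  ring

lemma ms4_31 (x : Fin 4 → ℝ) : Msym ![4, 3, 0, 0] x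
    = 6 * (s41 x ^ 3 * s44 x) - 6 * (s41 x ^ 2 * s42 x * s43 x) + 2 * (s41 x * s42 x ^ 3) - 4 * (s41 x * s42 x * s44 x) + 10 * (s41 x * s43 x ^ 2) - 2 * (s42 x ^ 2 * s43 x) - 10 * (s43 x * s44 x) := by
  rw [Msym4_pw]
  norm_num only [pw4_0, pw4_1, pw4_2, pw4_3, pw4_4, pw4_5, pw4_6, pw4_7, pw4_8]
  ring

lemma ms4_32 (x : Fin 4 → ℝ) : Msym ![4, 2, 1, 0] x
    = -(3 * (s41 x ^ 3 * s44 x)) + s41 x ^ 2 * s42 x * s43 x + 8 * (s41 x * s42 x * s44 x) - s41 x * s43 x ^ 2 - 2 * (s42 x ^ 2 * s43 x) - 2 * (s43 x * s44 x) := by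
  rw [Msym4_pw]
  norm_num only [pw4_0, pw4_1, pw4_2, pw4_3, pw4_4, pw4_5, pw4_6, pw4_7, pw4_8]
  ring

lemma ms4_33 (x : Fin 4 → ℝ) : Msym ![4, 1, 1, 1] x
    = 6 * (s41 x ^ 3 * s44 x) - 18 * (s41 x * s42 x * s44 x) + 18 * (s43 x * s44 x) := by
  rw [Msym4_pw]
  norm_num only [pw4_0, pw4_1, pw4_2, pw4_3, pw4_4, pw4_5, pw4_6, pw4_7, pw4_8]
  ring

lemma ms4_34 (x : Fin 4 → ℝ) : Msym ![3, 3, 1, 0] x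
    = -(2 * (s41 x * s42 x * s44 x)) - 4 * (s41 x * s43 x ^ 2) + 2 * (s42 x ^ 2 * s43 x) + 10 * (s43 x * s44 x) := by
  rw [Msym4_pw]
  norm_num only [pw4_0, pw4_1, pw4_2, pw4_3, pw4_4, pw4_5, pw4_6, pw4_7, pw4_8]
  ring

lemma ms4_35 (x : Fin 4 → ℝ) : Msym ![3, 2, 2, 0] x
    = -(4 * (s41 x * s42 x * s44 x)) + 2 * (s41 x * s43 x ^ 2) - 2 * (s43 x * s44 x) := by
  rw [Msym4_pw]
  norm_num only [pw4_0, pw4_1, pw4_2, pw4_3, pw4_4, pw4_5, pw4_6, pw4_7, pw4_8]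
  ring

lemma ms4_36 (x : Fin 4 → ℝ) : Msym ![3, 2, 1, 1] x
    = 2 * (s41 x * s42 x * s44 x) - 6 * (s43 x * s44 x) := by
  rw [Msym4_pw]
  norm_num only [pw4_0, pw4_1, pw4_2, pw4_3, pw4_4, pw4_5, pw4_6, pw4_7, pw4_8]
  ring

lemma ms4_37 (x : Fin 4 → ℝ) : Msym ![2, 2, 2, 1] x
    = 6 * (s43 x * s44 x) := by
  rw [Msym4_pw]
  norm_num only [pw4_0, pw4_1, pw4_2, pw4_3, pw4_4, pw4_5, pw4_6, pw4_7, pw4_8]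
  ring

lemma ms4_38 (x : Fin 4 → ℝ) : Msym ![8, 0, 0, 0] x
    = 6 * (s41 x ^ 8) - 48 * (s41 x ^ 6 * s42 x) + 48 * (s41 x ^ 5 * s43 x) + 120 * (s41 x ^ 4 * s42 x ^ 2) - 48 * (s41 x ^ 4 * s44 x) - 192 * (s41 x ^ 3 * s42 x * s43 x) - 96 * (s41 x ^ 2 * s42 x ^ 3) + 144 * (s41 x ^ 2 * s42 x * s44 x) + 72 * (s41 x ^ 2 * s43 x ^ 2) + 144 * (s41 x * s42 x ^ 2 * s43 x) - 96 * (s41 x * s43 x * s44 x) + 12 * (s42 x ^ 4) - 48 * (s42 x ^ 2 * s44 x) - 48 * (s42 x * s43 x ^ 2) + 24 * (s44 x ^ 2) := by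
  rw [Msym4_pw]
  norm_num only [pw4_0, pw4_1, pw4_2, pw4_3, pw4_4, pw4_5, pw4_6, pw4_7, pw4_8]
  ring

lemma ms4_39 (x : Fin 4 → ℝ) : Msym ![7, 1, 0, 0] x
    = 2 * (s41 x ^ 6 * s42 x) - 2 * (s41 x ^ 5 * s43 x) - 12 * (s41 x ^ 4 * s42 x ^ 2) + 2 * (s41 x ^ 4 * s44 x) + 22 * (s41 x ^ 3 * s42 x * s43 x) + 18 * (s41 x ^ 2 * s42 x ^ 3) - 20 * (s41 x ^ 2 * s42 x * s44 x) - 10 * (s41 x ^ 2 * s43 x ^ 2) - 34 * (s41 x * s42 x ^ 2 * s43 x) + 18 * (s41 x * s43 x * s44 x) - 4 * (s42 x ^ 4) + 16 * (s42 x ^ 2 * s44 x) + 16 * (s42 x * s43 x ^ 2) - 8 * (s44 x ^ 2) := by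
  rw [Msym4_pw]
  norm_num only [pw4_0, pw4_1, pw4_2, pw4_3, pw4_4, pw4_5, pw4_6, pw4_7, pw4_8]
  ring

lemma ms4_40 (x : Fin 4 → ℝ) : Msym ![6, 2, 0, 0] x
    = -(4 * (s41 x ^ 5 * s43 x)) + 2 * (s41 x ^ 4 * s42 x ^ 2) + 4 * (s41 x ^ 4 * s44 x) + 16 * (s41 x ^ 3 * s42 x * s43 x) - 8 * (s41 x ^ 2 * s42 x ^ 3) - 12 * (s41 x ^ 2 * s42 x * s44 x) - 18 * (s41 x ^ 2 * s43 x ^ 2) + 32 * (s41 x * s43 x * s44 x) + 4 * (s42 x ^ 4) - 8 * (s42 x ^ 2 * s44 x) + 4 * (s42 x * s43 x ^ 2) - 8 * (s44 x ^ 2) := by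
  rw [Msym4_pw]
  norm_num only [pw4_0, pw4_1, pw4_2, pw4_3, pw4_4, pw4_5, pw4_6, pw4_7, pw4_8]
  ring

lemma ms4_41 (x : Fin 4 → ℝ) : Msym ![6, 1, 1, 0] x
    = 2 * (s41 x ^ 5 * s43 x) - 2 * (s41 x ^ 4 * s44 x) - 10 * (s41 x ^ 3 * s42 x * s43 x) + 8 * (s41 x ^ 2 * s42 x * s44 x) + 10 * (s41 x ^ 2 * s43 x ^ 2) + 10 * (s41 x * s42 x ^ 2 * s43 x) - 18 * (s41 x * s43 x * s44 x) - 4 * (s42 x ^ 2 * s44 x) - 10 * (s42 x * s43 x ^ 2) + 8 * (s44 x ^ 2) := by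
  rw [Msym4_pw]
  norm_num only [pw4_0, pw4_1, pw4_2, pw4_3, pw4_4, pw4_5, pw4_6, pw4_7, pw4_8]
  ring

lemma ms4_42 (x : Fin 4 → ℝ) : Msym ![5, 3, 0, 0] x
    = 6 * (s41 x ^ 4 * s44 x) - 6 * (s41 x ^ 3 * s42 x * s43 x) + 2 * (s41 x ^ 2 * s42 x ^ 3) - 18 * (s41 x ^ 2 * s42 x * s44 x) + 6 * (s41 x ^ 2 * s43 x ^ 2) + 12 * (s41 x * s42 x ^ 2 * s43 x) + 2 * (s41 x * s43 x * s44 x) - 4 * (s42 x ^ 4) + 16 * (s42 x ^ 2 * s44 x) - 14 * (s42 x * s43 x ^ 2) - 8 * (s44 x ^ 2) := by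
  rw [Msym4_pw]
  norm_num only [pw4_0, pw4_1, pw4_2, pw4_3, pw4_4, pw4_5, pw4_6, pw4_7, pw4_8]
  ring

lemma ms4_43 (x : Fin 4 → ℝ) : Msym ![5, 2, 1, 0] x
    = -(3 * (s41 x ^ 4 * s44 x)) + s41 x ^ 3 * s42 x * s43 x + 11 * (s41 x ^ 2 * s42 x * s44 x) - s41 x ^ 2 * s43 x ^ 2 - 3 * (s41 x * s42 x ^ 2 * s43 x) - 10 * (s41 x * s43 x * s44 x) - 4 * (s42 x ^ 2 * s44 x) + 5 * (s42 x * s43 x ^ 2) + 8 * (s44 x ^ 2) := by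
  rw [Msym4_pw]
  norm_num only [pw4_0, pw4_1, pw4_2, pw4_3, pw4_4, pw4_5, pw4_6, pw4_7, pw4_8]
  ring

lemma ms4_44 (x : Fin 4 → ℝ) : Msym ![5, 1, 1, 1] x
    = 6 * (s41 x ^ 4 * s44 x) - 24 * (s41 x ^ 2 * s42 x * s44 x) + 24 * (s41 x * s43 x * s44 x) + 12 * (s42 x ^ 2 * s44 x) - 24 * (s44 x ^ 2) := by
  rw [Msym4_pw]
  norm_num only [pw4_0, pw4_1, pw4_2, pw4_3, pw4_4, pw4_5, pw4_6, pw4_7, pw4_8]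
  ring

lemma ms4_45 (x : Fin 4 → ℝ) : Msym ![4, 4, 0, 0] x
    = 16 * (s41 x ^ 2 * s42 x * s44 x) + 8 * (s41 x ^ 2 * s43 x ^ 2) - 16 * (s41 x * s42 x ^ 2 * s43 x) - 32 * (s41 x * s43 x * s44 x) + 4 * (s42 x ^ 4) - 16 * (s42 x ^ 2 * s44 x) + 16 * (s42 x * s43 x ^ 2) + 24 * (s44 x ^ 2) := by
  rw [Msym4_pw]
  norm_num only [pw4_0, pw4_1, pw4_2, pw4_3, pw4_4, pw4_5, pw4_6, pw4_7, pw4_8]
  ring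

lemma ms4_46 (x : Fin 4 → ℝ) : Msym ![4, 3, 1, 0] x
    = -(s41 x ^ 2 * s42 x * s44 x) - 2 * (s41 x ^ 2 * s43 x ^ 2) + s41 x * s42 x ^ 2 * s43 x + 10 * (s41 x * s43 x * s44 x) - s42 x * s43 x ^ 2 - 8 * (s44 x ^ 2) := by
  rw [Msym4_pw]
  norm_num only [pw4_0, pw4_1, pw4_2, pw4_3, pw4_4, pw4_5, pw4_6, pw4_7, pw4_8]
  ring

lemma ms4_47 (x : Fin 4 → ℝ) : Msym ![4, 2, 2, 0] x
    = -(4 * (s41 x ^ 2 * s42 x * s44 x)) + 2 * (s41 x ^ 2 * s43 x ^ 2) + 8 * (s42 x ^ 2 * s44 x) - 4 * (s42 x * s43 x ^ 2) - 8 * (s44 x ^ 2) := by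
  rw [Msym4_pw]
  norm_num only [pw4_0, pw4_1, pw4_2, pw4_3, pw4_4, pw4_5, pw4_6, pw4_7, pw4_8]
  ring

lemma ms4_48 (x : Fin 4 → ℝ) : Msym ![4, 2, 1, 1] x
    = 2 * (s41 x ^ 2 * s42 x * s44 x) - 2 * (s41 x * s43 x * s44 x) - 4 * (s42 x ^ 2 * s44 x) + 8 * (s44 x ^ 2) := by
  rw [Msym4_pw]
  norm_num only [pw4_0, pw4_1, pw4_2, pw4_3, pw4_4, pw4_5, pw4_6, pw4_7, pw4_8]
  ring

lemma ms4_49 (x : Fin 4 → ℝ) : Msym ![3, 3, 2, 0] x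
    = -(2 * (s41 x * s43 x * s44 x)) - 4 * (s42 x ^ 2 * s44 x) + 2 * (s42 x * s43 x ^ 2) + 8 * (s44 x ^ 2) := by
  rw [Msym4_pw]
  norm_num only [pw4_0, pw4_1, pw4_2, pw4_3, pw4_4, pw4_5, pw4_6, pw4_7, pw4_8]
  ring

lemma ms4_50 (x : Fin 4 → ℝ) : Msym ![3, 3, 1, 1] x
    = -(8 * (s41 x * s43 x * s44 x)) + 4 * (s42 x ^ 2 * s44 x) + 8 * (s44 x ^ 2) := by
  rw [Msym4_pw]
  norm_num only [pw4_0, pw4_1, pw4_2, pw4_3, pw4_4, pw4_5, pw4_6, pw4_7, pw4_8]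
  ring

lemma ms4_51 (x : Fin 4 → ℝ) : Msym ![3, 2, 2, 1] x
    = 2 * (s41 x * s43 x * s44 x) - 8 * (s44 x ^ 2) := by
  rw [Msym4_pw]
  norm_num only [pw4_0, pw4_1, pw4_2, pw4_3, pw4_4, pw4_5, pw4_6, pw4_7, pw4_8]
  ring

lemma ms4_52 (x : Fin 4 → ℝ) : Msym ![2, 2, 2, 2] x
    = 24 * (s44 x ^ 2) := by
  rw [Msym4_pw]
  norm_num only [pw4_0, pw4_1, pw4_2, pw4_3, pw4_4, pw4_5, pw4_6, pw4_7, pw4_8]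
  ring

theorem Mvec4 (x : Fin 4 → ℝ) :
    mw4.map (fun e => Msym e.1 x) = T4.map (fun t => evL t (evec4 x)) := by
  simp only [mw4, T4, List.map_cons, List.map_nil, evec4, evL_cons, evL_nil_left,
    ms4_0, ms4_1, ms4_2, ms4_3, ms4_4, ms4_5, ms4_6, ms4_7, ms4_8, ms4_9, ms4_10, ms4_11, ms4_12, ms4_13, ms4_14, ms4_15, ms4_16, ms4_17, ms4_18, ms4_19, ms4_20, ms4_21, ms4_22, ms4_23, ms4_24, ms4_25, ms4_26, ms4_27, ms4_28, ms4_29, ms4_30, ms4_31, ms4_32, ms4_33, ms4_34, ms4_35, ms4_36, ms4_37, ms4_38, ms4_39, ms4_40, ms4_41, ms4_42, ms4_43, ms4_44, ms4_45, ms4_46, ms4_47, ms4_48, ms4_49, ms4_50, ms4_51, ms4_52]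
  push_cast
  refine congrArg₂ List.cons (by ring) ?_
  refine congrArg₂ List.cons (by ring) ?_
  refine congrArg₂ List.cons (by ring) ?_
  refine congrArg₂ List.cons (by ring) ?_
  refine congrArg₂ List.cons (by ring) ?_
  refine congrArg₂ List.cons (by ring) ?_
  refine congrArg₂ List.cons (by ring) ?_
  refine congrArg₂ List.cons (by ring) ?_
  refine congrArg₂ List.cons (by ring) ?_
  refine congrArg₂ List.cons (by ring) ?_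
  refine congrArg₂ List.cons (by ring) ?_
  refine congrArg₂ List.cons (by ring) ?_
  refine congrArg₂ List.cons (by ring) ?_
  refine congrArg₂ List.cons (by ring) ?_
  refine congrArg₂ List.cons (by ring) ?_
  refine congrArg₂ List.cons (by ring) ?_
  refine congrArg₂ List.cons (by ring) ?_
  refine congrArg₂ List.cons (by ring) ?_
  refine congrArg₂ List.cons (by ring) ?_
  refine congrArg₂ List.cons (by ring) ?_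
  refine congrArg₂ List.cons (by ring) ?_
  refine congrArg₂ List.cons (by ring) ?_
  refine congrArg₂ List.cons (by ring) ?_
  refine congrArg₂ List.cons (by ring) ?_
  refine congrArg₂ List.cons (by ring) ?_
  refine congrArg₂ List.cons (by ring) ?_
  refine congrArg₂ List.cons (by ring) ?_
  refine congrArg₂ List.cons (by ring) ?_
  refine congrArg₂ List.cons (by ring) ?_
  refine congrArg₂ List.cons (by ring) ?_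
  refine congrArg₂ List.cons (by ring) ?_
  refine congrArg₂ List.cons (by ring) ?_
  refine congrArg₂ List.cons (by ring) ?_
  refine congrArg₂ List.cons (by ring) ?_
  refine congrArg₂ List.cons (by ring) ?_
  refine congrArg₂ List.cons (by ring) ?_
  refine congrArg₂ List.cons (by ring) ?_
  refine congrArg₂ List.cons (by ring) ?_
  refine congrArg₂ List.cons (by ring) ?_
  refine congrArg₂ List.cons (by ring) ?_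
  refine congrArg₂ List.cons (by ring) ?_
  refine congrArg₂ List.cons (by ring) ?_
  refine congrArg₂ List.cons (by ring) ?_
  refine congrArg₂ List.cons (by ring) ?_
  refine congrArg₂ List.cons (by ring) ?_
  refine congrArg₂ List.cons (by ring) ?_
  refine congrArg₂ List.cons (by ring) ?_
  refine congrArg₂ List.cons (by ring) ?_
  refine congrArg₂ List.cons (by ring) ?_
  refine congrArg₂ List.cons (by ring) ?_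
  refine congrArg₂ List.cons (by ring) ?_
  refine congrArg₂ List.cons (by ring) ?_
  refine congrArg₂ List.cons (by ring) ?_
  all_goals rfl

theorem Vvec4 (x : Fin 4 → ℝ) :
    mw4.map (fun e => s41 x ^ e.2 * Msym e.1 x) = V4.map (fun t => evL t (vvec4 x)) := by
  simp only [mw4, V4, List.map_cons, List.map_nil, vvec4, evL_cons, evL_nil_left,
    ms4_0, ms4_1, ms4_2, ms4_3, ms4_4, ms4_5, ms4_6, ms4_7, ms4_8, ms4_9, ms4_10, ms4_11, ms4_12, ms4_13, ms4_14, ms4_15, ms4_16, ms4_17, ms4_18, ms4_19, ms4_20, ms4_21, ms4_22, ms4_23, ms4_24, ms4_25, ms4_26, ms4_27, ms4_28, ms4_29, ms4_30, ms4_31, ms4_32, ms4_33, ms4_34, ms4_35, ms4_36, ms4_37, ms4_38, ms4_39, ms4_40, ms4_41, ms4_42, ms4_43, ms4_44, ms4_45, ms4_46, ms4_47, ms4_48, ms4_49, ms4_50, ms4_51, ms4_52]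
  push_cast
  refine congrArg₂ List.cons (by ring) ?_
  refine congrArg₂ List.cons (by ring) ?_
  refine congrArg₂ List.cons (by ring) ?_
  refine congrArg₂ List.cons (by ring) ?_
  refine congrArg₂ List.cons (by ring) ?_
  refine congrArg₂ List.cons (by ring) ?_
  refine congrArg₂ List.cons (by ring) ?_
  refine congrArg₂ List.cons (by ring) ?_
  refine congrArg₂ List.cons (by ring) ?_
  refine congrArg₂ List.cons (by ring) ?_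
  refine congrArg₂ List.cons (by ring) ?_
  refine congrArg₂ List.cons (by ring) ?_
  refine congrArg₂ List.cons (by ring) ?_
  refine congrArg₂ List.cons (by ring) ?_
  refine congrArg₂ List.cons (by ring) ?_
  refine congrArg₂ List.cons (by ring) ?_
  refine congrArg₂ List.cons (by ring) ?_
  refine congrArg₂ List.cons (by ring) ?_
  refine congrArg₂ List.cons (by ring) ?_
  refine congrArg₂ List.cons (by ring) ?_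
  refine congrArg₂ List.cons (by ring) ?_
  refine congrArg₂ List.cons (by ring) ?_
  refine congrArg₂ List.cons (by ring) ?_
  refine congrArg₂ List.cons (by ring) ?_
  refine congrArg₂ List.cons (by ring) ?_
  refine congrArg₂ List.cons (by ring) ?_
  refine congrArg₂ List.cons (by ring) ?_
  refine congrArg₂ List.cons (by ring) ?_
  refine congrArg₂ List.cons (by ring) ?_
  refine congrArg₂ List.cons (by ring) ?_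
  refine congrArg₂ List.cons (by ring) ?_
  refine congrArg₂ List.cons (by ring) ?_
  refine congrArg₂ List.cons (by ring) ?_
  refine congrArg₂ List.cons (by ring) ?_
  refine congrArg₂ List.cons (by ring) ?_
  refine congrArg₂ List.cons (by ring) ?_
  refine congrArg₂ List.cons (by ring) ?_
  refine congrArg₂ List.cons (by ring) ?_
  refine congrArg₂ List.cons (by ring) ?_
  refine congrArg₂ List.cons (by ring) ?_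
  refine congrArg₂ List.cons (by ring) ?_
  refine congrArg₂ List.cons (by ring) ?_
  refine congrArg₂ List.cons (by ring) ?_
  refine congrArg₂ List.cons (by ring) ?_
  refine congrArg₂ List.cons (by ring) ?_
  refine congrArg₂ List.cons (by ring) ?_
  refine congrArg₂ List.cons (by ring) ?_
  refine congrArg₂ List.cons (by ring) ?_
  refine congrArg₂ List.cons (by ring) ?_
  refine congrArg₂ List.cons (by ring) ?_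
  refine congrArg₂ List.cons (by ring) ?_
  refine congrArg₂ List.cons (by ring) ?_
  refine congrArg₂ List.cons (by ring) ?_
  all_goals rfl

end Vale.Agent.P154
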