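import Vale.Agent.P154.MSym

/-! General averaging lemma in list form. -/

namespace Vale.Agent.P154

open Finset

lemma sum_ev_M {q : ℕ} (A B : Fin q → ℝ) (r : List ℤ) (mw : List ((Fin q → ℕ) × ℕ)) :
    ∑ p : Equiv.Perm (Fin q), evL r (mw.map (fun e => Msym e.1 (fun i => A i * B (p i))))
      = diagEv r (mw.map (fun e => Msym e.1 A)) (mw.map (fun e => Msym e.1 B)) := by
  induction r generalizing mw with
  | nil => simp
  | cons a r ih =>
    cases mw with
    | nil => simp
    | cons e mw =>
      simp only [List.map_cons, evL_cons, diagEv_cons, Finset.sum_add_distrib, ih, ← Finset.mul_sum,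
        Msym_avg]

/-- rescaling of the coefficients -/
def scl {α : Type} (Q : ℤ) (W : ℕ) : List ℤ → List (α × ℕ) → List ℤ
  | [], _ => []
  | _, [] => []
  | a :: r, e :: m => (a * Q ^ (W - e.2)) :: scl Q W r m

/-- all weights at most `W` -/
def wle {α : Type} (W : ℕ) : List (α × ℕ) → Bool
  | [] => true
  | e :: m => decide (e.2 ≤ W) && wle W m

lemma scl_diag {q : ℕ} (A B : Fin q → ℝ) (Q : ℤ) (W : ℕ) (r : List ℤ)
    (mw : List ((Fin q → ℕ) × ℕ)) (hw : wle W mw = true) :
    diagEv (scl (Q * Q) W r mw) (mw.map (fun e => (Q:ℝ) ^ e.2 * Msym e.1 A))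
        (mw.map (fun e => (Q:ℝ) ^ e.2 * Msym e.1 B))
      = (Q:ℝ) ^ (2 * W) * diagEv r (mw.map (fun e => Msym e.1 A)) (mw.map (fun e => Msym e.1 B)) := by
  induction r generalizing mw with
  | nil => simp [scl]
  | cons a r ih =>
    cases mw with
    | nil => simp
    | cons e mw =>
      simp only [wle, Bool.and_eq_true, decide_eq_true_eq] at hw
      simp only [List.map_cons, scl, diagEv_cons, ih mw hw.2]
      push_cast
      have h : (Q:ℝ) ^ (2 * W) = ((Q:ℝ) * Q) ^ (W - e.2) * ((Q:ℝ) ^ e.2 * (Q:ℝ) ^ e.2) := by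
        rw [← pow_two, ← pow_mul, ← pow_add, ← pow_add]
        congr 1
        omega
      rw [mul_add, h]
      ring

/-- all entries vanish -/
def isZL : List ℤ → Bool
  | [] => true
  | a :: s => decide (a = 0) && isZL s

/-- all entries vanish -/
def isZM : List (List ℤ) → Bool
  | [] => true
  | a :: s => isZL a && isZM s

lemma evL_isZL (t : List ℤ) (h : isZL t = true) (v : List ℝ) : evL t v = 0 := by
  induction t generalizing v with
  | nil => simp
  | cons a t ih =>
    simp only [isZL, Bool.and_eq_true, decide_eq_true_eq] at h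
    cases v with
    | nil => simp
    | cons x v => rw [evL_cons, ih h.2, h.1]; simp

lemma bil_isZM (K : List (List ℤ)) (h : isZM K = true) (v w : List ℝ) : bil K v w = 0 := by
  induction K generalizing v with
  | nil => simp
  | cons a t ih =>
    simp only [isZM, Bool.and_eq_true] at h
    cases v with
    | nil => simp
    | cons x v => rw [bil_cons, ih h.2, evL_isZL a h.1]; simp

/-- integer matrix from a matrix of naturals -/
def toZ (K : List (List ℕ)) : List (List ℤ) := K.map (List.map (fun n : ℕ => (n : ℤ)))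

end Vale.Agent.P154
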