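import Mathlib

/-! Bilinear forms with integer coefficients given by lists (for kernel computation). -/

namespace Vale.Agent.P154

/-- linear form -/
noncomputable def evL : List ℤ → List ℝ → ℝ
  | [], _ => 0
  | _, [] => 0
  | a :: t, x :: v => (a : ℝ) * x + evL t v

/-- bilinear form -/
noncomputable def bil : List (List ℤ) → List ℝ → List ℝ → ℝ
  | [], _, _ => 0
  | _, [], _ => 0
  | r :: K, x :: v, w => x * evL r w + bil K v w

/-- padded sum of vectors -/
def addL : List ℤ → List ℤ → List ℤ
  | [], t => t
  | s, [] => s
  | a :: s, b :: t => (a + b) :: addL s t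

/-- scalar multiple -/
def smulL (c : ℤ) : List ℤ → List ℤ
  | [] => []
  | a :: s => (c * a) :: smulL c s

/-- padded sum of matrices -/
def addM : List (List ℤ) → List (List ℤ) → List (List ℤ)
  | [], t => t
  | s, [] => s
  | a :: s, b :: t => addL a b :: addM s t

/-- scalar multiple of a matrix -/
def smulM (c : ℤ) : List (List ℤ) → List (List ℤ)
  | [] => []
  | a :: s => smulL c a :: smulM c s

/-- outer product -/
def outer : List ℤ → List ℤ → List (List ℤ)
  | [], _ => []
  | a :: s, t => smulL a t :: outer s t

@[simp] lemma evL_nil_left (v : List ℝ) : evL [] v = 0 := by cases v <;> rfl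
@[simp] lemma evL_nil_right (t : List ℤ) : evL t [] = 0 := by cases t <;> rfl
lemma evL_cons (a : ℤ) (t : List ℤ) (x : ℝ) (v : List ℝ) :
    evL (a :: t) (x :: v) = a * x + evL t v := rfl

@[simp] lemma bil_nil_left (v w : List ℝ) : bil [] v w = 0 := by cases v <;> rfl
@[simp] lemma bil_nil_right (K : List (List ℤ)) (w : List ℝ) : bil K [] w = 0 := by
  cases K <;> rfl
lemma bil_cons (r : List ℤ) (K : List (List ℤ)) (x : ℝ) (v w : List ℝ) :
    bil (r :: K) (x :: v) w = x * evL r w + bil K v w := rfl

lemma evL_addL (s t : List ℤ) (v : List ℝ) : evL (addL s t) v = evL s v + evL t v := by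
  induction s generalizing t v with
  | nil => simp [addL]
  | cons a s ih =>
    cases t with
    | nil => simp [addL]
    | cons b t =>
      cases v with
      | nil => simp
      | cons x v =>
        simp only [addL, evL_cons, ih]
        push_cast
        ring

lemma evL_smulL (c : ℤ) (t : List ℤ) (v : List ℝ) : evL (smulL c t) v = c * evL t v := by
  induction t generalizing v with
  | nil => simp [smulL]
  | cons a t ih =>
    cases v with
    | nil => simp
    | cons x v =>
      simp only [smulL, evL_cons, ih]
      push_cast
      ring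

lemma bil_addM (K L : List (List ℤ)) (v w : List ℝ) :
    bil (addM K L) v w = bil K v w + bil L v w := by
  induction K generalizing L v with
  | nil => simp [addM]
  | cons a s ih =>
    cases L with
    | nil => simp [addM]
    | cons b t =>
      cases v with
      | nil => simp
      | cons x v =>
        simp only [addM, bil_cons, ih, evL_addL]
        ring

lemma bil_smulM (c : ℤ) (K : List (List ℤ)) (v w : List ℝ) :
    bil (smulM c K) v w = c * bil K v w := by
  induction K generalizing v with
  | nil => simp [smulM]
  | cons a t ih =>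
    cases v with
    | nil => simp
    | cons x v =>
      simp only [smulM, bil_cons, ih, evL_smulL]
      ring

lemma bil_outer (s t : List ℤ) (v w : List ℝ) : bil (outer s t) v w = evL s v * evL t w := by
  induction s generalizing v with
  | nil => simp [outer]
  | cons a s ih =>
    cases v with
    | nil => simp
    | cons x v =>
      simp only [outer, bil_cons, ih, evL_smulL, evL_cons]
      ring

/-- `vecMat r T = ∑ r_μ T_μ` -/
def vecMat : List ℤ → List (List ℤ) → List ℤ
  | [], _ => []
  | _, [] => []
  | a :: r, t :: T => addL (smulL a t) (vecMat r T)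

lemma evL_vecMat (r : List ℤ) (T : List (List ℤ)) (v : List ℝ) :
    evL (vecMat r T) v = evL r (T.map (fun t => evL t v)) := by
  induction r generalizing T with
  | nil => simp [vecMat]
  | cons a r ih =>
    cases T with
    | nil => simp [vecMat]
    | cons t T =>
      simp only [vecMat, evL_addL, evL_smulL, List.map_cons, evL_cons, ih]

/-- `diagForm c T = ∑ c_μ T_μ ⊗ T_μ` -/
def diagForm : List ℤ → List (List ℤ) → List (List ℤ)
  | [], _ => []
  | _, [] => []
  | a :: r, t :: T => addM (outer (smulL a t) t) (diagForm r T)

/-- diagonal combination of products -/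
noncomputable def diagEv : List ℤ → List ℝ → List ℝ → ℝ
  | [], _, _ => 0
  | _, [], _ => 0
  | _, _, [] => 0
  | a :: r, x :: v, y :: w => (a:ℝ) * (x * y) + diagEv r v w

@[simp] lemma diagEv_nil_left (v w : List ℝ) : diagEv [] v w = 0 := rfl
@[simp] lemma diagEv_nil_mid (r : List ℤ) (w : List ℝ) : diagEv r [] w = 0 := by
  cases r <;> rfl
@[simp] lemma diagEv_nil_right (r : List ℤ) (v : List ℝ) : diagEv r v [] = 0 := by
  cases r <;> cases v <;> rfl
lemma diagEv_cons (a : ℤ) (r : List ℤ) (x y : ℝ) (v w : List ℝ) :
    diagEv (a :: r) (x :: v) (y :: w) = (a:ℝ) * (x * y) + diagEv r v w := rfl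

lemma bil_diagForm (c : List ℤ) (T : List (List ℤ)) (v w : List ℝ) :
    bil (diagForm c T) v w
      = diagEv c (T.map (fun t => evL t v)) (T.map (fun t => evL t w)) := by
  induction c generalizing T with
  | nil => simp [diagForm]
  | cons a r ih =>
    cases T with
    | nil => simp [diagForm]
    | cons t T =>
      simp only [diagForm, bil_addM, bil_outer, evL_smulL, List.map_cons, diagEv_cons, ih]
      ring

end Vale.Agent.P154
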