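import Vale.Agent.P154.BilL
import Vale.Agent.P154.AvgGen
import Vale.Agent.P154.ChecksR

/-! Comparison of the two formats of bilinear forms (helper file). -/

namespace Vale.Agent.P154

theorem evL_lin (r : List ℕ) (w : List ℝ) : evL (r.map (fun n : ℕ => (n : ℤ))) w = Refl.lin r w := by
  induction r generalizing w with
  | nil => simp [Refl.lin]
  | cons a r ih =>
    cases w with
    | nil => simp [Refl.lin]
    | cons x w => simp [evL_cons, Refl.lin, ih]

theorem bil_refl (C : List (List ℕ)) (v w : List ℝ) : bil (toZ C) v w = Refl.bil w C v := by
  induction C generalizing v with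
  | nil => simp [toZ, Refl.bil]
  | cons r C ih =>
    cases v with
    | nil => simp [toZ, Refl.bil]
    | cons x v =>
      have := ih v
      simp only [toZ] at this
      simp only [toZ, List.map_cons, bil_cons, Refl.bil, evL_lin]
      rw [this]

end Vale.Agent.P154
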