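import Mathlib

/-! Pointwise certificates (helper file, not used in the final statement). -/

namespace Vale.Agent.P154

/-- normalised likelihood vectors: nonnegative entries with mean one -/
def Norm (q : ℕ) (A : Fin q → ℝ) : Prop := (∀ i, 0 ≤ A i) ∧ ∑ i, A i = q

/-- the chi-square function of a normalised vector -/
noncomputable def uFn (q : ℕ) (A : Fin q → ℝ) : ℝ := (1 / q) * ∑ i, (A i - 1) ^ 2

/-- `φ` evaluated on the product of `A` with a uniformly random permutation of `B`,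
with the right weight (a term with weight `0` is `0`). -/
noncomputable def kern (q : ℕ) (phi : (Fin q → ℝ) → ℝ) (A B : Fin q → ℝ) : ℝ :=
  (1 / (q.factorial : ℝ)) * ∑ p : Equiv.Perm (Fin q),
    ((1 / q) * ∑ i, A i * B (p i)) *
      phi (fun i => A i * B (p i) / ((1 / q) * ∑ k, A k * B (p k)))

/-- A cone certificate for `q`. -/
structure Cert (q : ℕ) where
  psi : (Fin q → ℝ) → ℝ
  f : (Fin q → ℝ) → ℝ
  g : (Fin q → ℝ) → ℝ
  t : ℝ
  t_pos : 0 < t
  cf : ℝ
  cg : ℝ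
  cf_nonneg : 0 ≤ cf
  cg_nonneg : 0 ≤ cg
  hf : ∀ A, Norm q A → cf * psi A ≤ f A
  hg : ∀ A, Norm q A → cg * psi A ≤ g A
  psi_one : 0 ≤ psi (fun _ => 1)
  psi_vertex : ∀ i : Fin q, 0 ≤ psi (fun j => if j = i then (q : ℝ) else 0)
  psi_perm : ∀ (p : Equiv.Perm (Fin q)) A, psi (fun i => A (p i)) = psi A
  f_perm : ∀ (p : Equiv.Perm (Fin q)) A, f (fun i => A (p i)) = f A
  g_perm : ∀ (p : Equiv.Perm (Fin q)) A, g (fun i => A (p i)) = g A
  psi_contr : ∀ A, Norm q A → ∀ lam : ℝ, 0 ≤ lam → lam ≤ 1 →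
    lam ^ 3 * psi A ≤ psi (fun i => 1 + lam * (A i - 1))
  hU : ∀ A B, Norm q A → Norm q B →
    kern q (uFn q) A B ≤ uFn q A + uFn q B - (psi A * f B + f A * psi B) -
      t * (uFn q A * uFn q B * (uFn q A + uFn q B))
  hP : ∀ A B, Norm q A → Norm q B →
    psi A * g B + g A * psi B ≤ kern q psi A B

end Vale.Agent.P154
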