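import Vale.Agent.P154.FP6

/-! Substitution matrix of an edge with parameter -1/2 (generated). -/

set_option linter.style.longLine false

namespace Vale.Agent.P154.FP.SubH

open Vale.Agent.P154 Vale.Agent.P154.A10

/-- scale -/
def cS : ℕ := 1024

/-- substitution matrix -/
def S : List (List ℤ) :=
  [[1024],
   [256, 256],
   [0, 128, -128],
   [64, 128, 0, 64],
   [0, 32, -32, 32, -32],
   [0, 0, 0, 16, -32, 16],
   [16, 48, 0, 48, 0, 0, 16],
   [0, 8, -8, 16, -16, 0, 8, -8],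
   [0, 0, 0, 4, -8, 4, 4, -8, 4],
   [0, 0, 0, 0, 0, 0, 2, -6, 6, -2],
   [4, 16, 0, 24, 0, 0, 16, 0, 0, 0, 4],
   [0, 2, -2, 6, -6, 0, 6, -6, 0, 0, 2, -2],
   [0, 0, 0, 1, -2, 1, 2, -4, 2, 0, 1, -2, 1],
   [1, 5, 0, 10, 0, 0, 10, 0, 0, 0, 5, 0, 0, 1]]

theorem subOK : SubOK (-(1 : ℝ) / 2) cS S := by
  intro b hb
  have h1 : s31 (fun i => 1 + (-(1 : ℝ) / 2) * (b i - 1)) = 3 := by
    unfold s31 at hb ⊢
    linear_combination (-(1 : ℝ) / 2) * hb
  have h2 : s32 (fun i => 1 + (-(1 : ℝ) / 2) * (b i - 1)) =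
      3 * (1 - (-(1 : ℝ) / 2) ^ 2) + (-(1 : ℝ) / 2) ^ 2 * s32 b := by
    have e : b 2 = 3 - b 0 - b 1 := by unfold s31 at hb; linarith
    simp only [s32, e]
    ring
  have h3 : s33 (fun i => 1 + (-(1 : ℝ) / 2) * (b i - 1)) =
      (1 - 3 * (-(1 : ℝ) / 2) ^ 2 + 2 * (-(1 : ℝ) / 2) ^ 3) + ((-(1 : ℝ) / 2) ^ 2 - (-(1 : ℝ) / 2) ^ 3) * s32 b + (-(1 : ℝ) / 2) ^ 3 * s33 b := by
    have e : b 2 = 3 - b 0 - b 1 := by unfold s31 at hb; linarith
    simp only [s32, s33, e]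
    ring
  simp only [vvec, h1, h2, h3, hb, S, cS, List.map_cons, List.map_nil, evL_cons, evL_nil_left]
  push_cast
  refine congrArg₂ List.cons (by ring) ?_
  refine congrArg₂ List.cons (by ring) ?_
  refine congrArg₂ List.cons (by ring) ?_
  refine congrArg₂ List.cons (by ring) ?_
  refine congrArg₂ List.cons (by ring) ?_
  refine congrArg₂ List.cons (by ring) ?_
  refine congrArg₂ List.cons (by ring) ?_
  refine congrArg₂ List.cons (by ring) ?_
  refine congrArg₂ List.cons (by ring) ?_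
  refine congrArg₂ List.cons (by ring) ?_
  refine congrArg₂ List.cons (by ring) ?_
  refine congrArg₂ List.cons (by ring) ?_
  refine congrArg₂ List.cons (by ring) ?_
  refine congrArg₂ List.cons (by ring) ?_
  rfl

end Vale.Agent.P154.FP.SubH
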