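import Vale.Agent.P154.FP7
import Vale.Agent.P154.SubH

/-! Single-variable unit R4last (generated by notes/P154_tools/gen_unit.py). -/

set_option linter.style.longLine false
set_option maxRecDepth 100000

namespace Vale.Agent.P154.FP.UR4last

open Vale.Agent.P154 Vale.Agent.P154.A10 Vale.Agent.P154.FP.TB Vale.Agent.P154.FP.TA

/-- coefficients of `H` -/
def fl : List ℤ := [55561546, -181174041, 20126377, 198735467, -39191398, 1425459, -74566288, 16771656, -336224, 0, 2930464]

/-- coefficients of `F` -/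
def Fl : List ℤ := [3236, -3955, -66, 479, 363, -8, 232, -281]

/-- checked matrix 1 -/
def K1 : List (List ℕ) :=
  [[24017908], [0], [1214001864], [360647883], [0], [0], [359829972], [73957538916], [17463894840], [0], [0], [0], [0], [0]]

/-- offset -/
def u1 : List ℕ := [1]

/-- offset -/
def v1 : List ℕ := [0, 101697360, 0, 0, 16996507506, 88490560941, 0, 0, 0, 0, 5637480120, 0, 0, 0]

/-- tree with 1 leaves -/
def t1 : TA := (inn 81 lf)

theorem hM : isZM (addM (outer (Vale.Agent.P154.addL (smulL ((27531991040 : ℕ) : ℤ) [1])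
      (Vale.Agent.P154.addL (smulL ((19847168 : ℕ) : ℤ) (mulL w3 Fl))
        (smulL (-((95 : ℕ) : ℤ)) (vecMat (mulL w3 fl) SubH.S)))) [1])
      (addM (smulM (-((16 : ℕ) : ℤ)) (toZ K1)) (smulM ((16 : ℕ) : ℤ) (outer (toZl v1) (toZl u1))))) = true := by
  decide +kernel

theorem hT : fchk FD F3 10 u1 v1 K1 t1 [[0, 1], [1, 1]] root3 = true := by
  decide +kernel

/-- the inequality at the vector of ones -/
theorem le (b : Fin 3 → ℝ) (hb : Norm 3 b) :
    pv 1000000 fl (AF.en (-(1 : ℝ) / 2) b) ≤ (141509 / 500000 : ℝ) + (9691 / 38000 : ℝ) * pv 1250 Fl b := by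
  have h := unit_one (df := 1000000) (dF := 1250) (a0 := 27531991040) (a3 := 95) (a4 := 19847168) (g := 16) (cS := SubH.cS)
    (by decide +kernel) SubH.subOK hM hT b hb
  refine h.trans (le_of_eq ?_)
  unfold SubH.cS
  push_cast
  ring

end Vale.Agent.P154.FP.UR4last
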