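import Vale.Agent.P154.FP8
import Vale.Agent.P154.UR40
import Vale.Agent.P154.UR41
import Vale.Agent.P154.UR42
import Vale.Agent.P154.UR4last
import Vale.Agent.P154AF.CTR4

/-! The certificate for degree at most four (generated by notes/P154_tools/gen_cert.py). -/

set_option linter.style.longLine false
set_option linter.unusedSimpArgs false

namespace Vale.Agent.P154.FP.Cert4

open Vale.Agent.P154 Vale.Agent.P154.A10 Vale.Agent.P154.AF

noncomputable def H1 : AF.V3 → ℝ := pv 1000000 UR41.fl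
noncomputable def H2 : AF.V3 → ℝ := pv 1000000 UR42.fl
noncomputable def H3 : AF.V3 → ℝ := pv 1000000 UR4last.fl

theorem F_R40 {A : AF.V3} (h : Norm 3 A) : F4 A = pv 1250 UR40.Fl A := by
  simp only [F4, uFn_E h, wFn_E h, pv, wvec, UR40.Fl, evL_cons, evL_nil_left]
  push_cast
  ring

theorem F_R41 {A : AF.V3} (h : Norm 3 A) : F4 A = pv 1250 UR41.Fl A := by
  simp only [F4, uFn_E h, wFn_E h, pv, wvec, UR41.Fl, evL_cons, evL_nil_left]
  push_cast
  ring

theorem F_R42 {A : AF.V3} (h : Norm 3 A) : F4 A = pv 1250 UR42.Fl A := by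
  simp only [F4, uFn_E h, wFn_E h, pv, wvec, UR42.Fl, evL_cons, evL_nil_left]
  push_cast
  ring

theorem F_R4last {A : AF.V3} (h : Norm 3 A) : F4 A = pv 1250 UR4last.Fl A := by
  simp only [F4, uFn_E h, wFn_E h, pv, wvec, UR4last.Fl, evL_cons, evL_nil_left]
  push_cast
  ring

theorem F_f {A : AF.V3} (h : Norm 3 A) : F4 A = pv 1250 UR40.fl A := by
  simp only [F4, uFn_E h, wFn_E h, pv, wvec, UR40.fl, evL_cons, evL_nil_left]
  push_cast
  ring

theorem e0 {A : AF.V3} (h : Norm 3 A) : (H1 A - F4 A) / (19 / 200) = pv 95000 UR40.el A := by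
  rw [F_f h]
  simp only [H1, pv, wvec, UR41.fl, UR40.fl, UR40.el, evL_cons, evL_nil_left]
  push_cast
  ring

theorem e1 (A : AF.V3) : (H2 A - H1 A) / (19 / 200) = pv 95000 UR41.el A := by
  simp only [H1, H2, pv, wvec, UR41.fl, UR42.fl, UR41.el, evL_cons, evL_nil_left]
  push_cast
  ring

theorem e2 (A : AF.V3) : (H3 A - H2 A) / (19 / 200) = pv 95000 UR42.el A := by
  simp only [H2, H3, pv, wvec, UR42.fl, UR4last.fl, UR42.el, evL_cons, evL_nil_left]
  push_cast
  ring

theorem certFour : CertFour (19 / 200) F4 H1 H2 H3 (18997 / 100000) (141509 / 500000) (47491 / 125000) where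
  rng := ⟨_, ctr4.2⟩
  ctr := ctr4.1
  F_one := by
    have h : Norm 3 one3 := ⟨fun _ => by simp [one3], by simp [one3]⟩
    simp [F4, uFn_E h, wFn_E h, one3, s32, s33]
    norm_num
  H1_one := by
    rw [H1, pv_one3]
    simp only [UR41.fl, List.replicate, evL_cons, evL_nil_left]
    push_cast
    norm_num
  H2_one := by
    rw [H2, pv_one3]
    simp only [UR42.fl, List.replicate, evL_cons, evL_nil_left]
    push_cast
    norm_num
  H3_one := by
    rw [H3, pv_one3]
    simp only [UR4last.fl, List.replicate, evL_cons, evL_nil_left]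
    push_cast
    norm_num
  s0 := stp_congr (by norm_num) (by norm_num) (fun A h => F_R40 h) (fun A h => F_f h)
    (fun A h => e0 h) UR40.stp
  s1 := stp_congr (by norm_num) (by norm_num) (fun A h => F_R41 h) (fun A _ => rfl)
    (fun A _ => e1 A) UR41.stp
  s2 := stp_congr (by norm_num) (by norm_num) (fun A h => F_R42 h) (fun A _ => rfl)
    (fun A _ => e2 A) UR42.stp
  s3 := by
    intro b hb
    have h1 : kern 3 H3 one3 (en (-1/2) b) = H3 (en (-1/2) b) := kern_ones _ _ (en_s31 _ hb)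
    have h2 := UR4last.le b hb
    rw [← F_R4last hb] at h2
    rw [h1, H3]
    refine h2.trans (le_of_eq ?_)
    ring
  m1 := by norm_num
  m2 := by norm_num
  m3 := by norm_num
  m4 := by norm_num
  damp := by
    refine ⟨1 / 20480, by norm_num, ?_⟩
    intro θ h0 h1
    have h2 : 0 ≤ 1 - θ := by linarith
    have key : (4 * (19 / 200) * θ - 1 / 20480 * θ ^ 2) -
        (4 * θ * (1 - θ) ^ 3 * (19 / 200) + 6 * θ ^ 2 * (1 - θ) ^ 2 * (18997 / 100000) +
          4 * θ ^ 3 * (1 - θ) * (141509 / 500000) + θ ^ 4 * (47491 / 125000)) =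
        (1679 : ℝ) / 76800000 * (6 * θ ^ 2 * (1 - θ) ^ 2) + (250571 : ℝ) / 128000000 * (4 * θ ^ 3 * (1 - θ)) + (1483 : ℝ) / 64000000 * θ ^ 4 := by
      ring
    have : 0 ≤ (1679 : ℝ) / 76800000 * (6 * θ ^ 2 * (1 - θ) ^ 2) + (250571 : ℝ) / 128000000 * (4 * θ ^ 3 * (1 - θ)) + (1483 : ℝ) / 64000000 * θ ^ 4 := by
      positivity
    linarith

end Vale.Agent.P154.FP.Cert4
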