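import Vale.Agent.P154.FP8
import Vale.Agent.P154.US10
import Vale.Agent.P154.US11
import Vale.Agent.P154AF.CTR5

/-! The certificate for large degree (generated by notes/P154_tools/gen_cert.py). -/

set_option linter.style.longLine false
set_option linter.unusedSimpArgs false

namespace Vale.Agent.P154.FP.CertB

open Vale.Agent.P154 Vale.Agent.P154.A10 Vale.Agent.P154.AF

noncomputable def H1 : AF.V3 → ℝ := pv 1000000 US11.fl

theorem F_S10 {A : AF.V3} (h : Norm 3 A) : F5 A = pv 2500 US10.Fl A := by
  simp only [F5, uFn_E h, wFn_E h, pv, wvec, US10.Fl, evL_cons, evL_nil_left]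
  push_cast
  ring

theorem F_S11 {A : AF.V3} (h : Norm 3 A) : F5 A = pv 2500 US11.Fl A := by
  simp only [F5, uFn_E h, wFn_E h, pv, wvec, US11.Fl, evL_cons, evL_nil_left]
  push_cast
  ring

theorem F_f {A : AF.V3} (h : Norm 3 A) : F5 A = pv 2500 US10.fl A := by
  simp only [F5, uFn_E h, wFn_E h, pv, wvec, US10.fl, evL_cons, evL_nil_left]
  push_cast
  ring

theorem e0 {A : AF.V3} (h : Norm 3 A) : (H1 A - F5 A) / (69 / 125) = pv 552000 US10.el A := by
  rw [F_f h]
  simp only [H1, pv, wvec, US11.fl, US10.fl, US10.el, evL_cons, evL_nil_left]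
  push_cast
  ring

theorem e1 (A : AF.V3) : (137981 / 250000 : ℝ) / (69 / 125) = pv 138000 US11.el A := by
  simp only [pv, wvec, US11.el, evL_cons, evL_nil_left]
  push_cast
  norm_num

theorem certBig : CertBig (-17/38) (69 / 125) (137981 / 250000) F5 H1 where
  rng := ctr5.2
  ctr := ctr5.1
  F_one := by
    have h : Norm 3 one3 := ⟨fun _ => by simp [one3], by simp [one3]⟩
    simp [F5, uFn_E h, wFn_E h, one3, s32, s33]
    norm_num
  H_one := by
    rw [H1, pv_one3]
    simp only [US11.fl, List.replicate, evL_cons, evL_nil_left]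
    push_cast
    norm_num
  s0 := stp_congr (by norm_num) (by norm_num) (fun A h => F_S10 h) (fun A h => F_f h)
    (fun A h => e0 h) US10.stp
  s1 := stp_congr (by norm_num) (by norm_num) (fun A h => F_S11 h) (fun A _ => rfl)
    (fun A _ => e1 A) US11.stp
  c_pos := by norm_num
  c_lt := by norm_num

end Vale.Agent.P154.FP.CertB
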