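import Vale.Agent.P154.FP8
import Vale.Agent.P154.UP00
import Vale.Agent.P154.UP01
import Vale.Agent.P154.UP02
import Vale.Agent.P154.UP03
import Vale.Agent.P154.UP10
import Vale.Agent.P154.UP11
import Vale.Agent.P154.UP12
import Vale.Agent.P154.UP13
import Vale.Agent.P154.UP20
import Vale.Agent.P154.UP21
import Vale.Agent.P154.UP22
import Vale.Agent.P154.UP23
import Vale.Agent.P154.UP30
import Vale.Agent.P154.UP31
import Vale.Agent.P154.UP32
import Vale.Agent.P154.UP33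
import Vale.Agent.P154.UP40
import Vale.Agent.P154.UP41
import Vale.Agent.P154.UP42
import Vale.Agent.P154.UP43
import Vale.Agent.P154.UP50
import Vale.Agent.P154.UP51
import Vale.Agent.P154.UP52
import Vale.Agent.P154.UP53
import Vale.Agent.P154AF.CTRP
import Vale.Agent.P154AF.Core2

/-! The piecewise cubic Poisson certificate (generated by notes/P154_tools/gen_cert.py). -/

set_option linter.style.longLine false
set_option linter.unusedSimpArgs false

namespace Vale.Agent.P154.FP.CertP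

open Vale.Agent.P154 Vale.Agent.P154.A10 Vale.Agent.P154.AF

/-- the functions -/
noncomputable def f : ℕ → AF.V3 → ℝ
  | 0 => AF.FP
  | 1 => pv 3000000 UP01.fl
  | 2 => pv 1000000 UP02.fl
  | 3 => pv 1000000 UP10.fl
  | 4 => pv 1000000 UP11.fl
  | 5 => pv 1000000 UP12.fl
  | 6 => pv 1000000 UP20.fl
  | 7 => pv 1000000 UP21.fl
  | 8 => pv 1000000 UP22.fl
  | 9 => pv 1000000 UP30.fl
  | 10 => pv 1000000 UP31.fl
  | 11 => pv 1000000 UP32.fl
  | 12 => pv 1000000 UP40.fl
  | 13 => pv 1000000 UP41.fl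
  | 14 => pv 1000000 UP42.fl
  | 15 => pv 500000 UP50.fl
  | 16 => pv 1000000 UP51.fl
  | 17 => pv 1000000 UP52.fl
  | 18 => pv 1000000 UP53.fl
  | _ => fun _ => 0

/-- the breakpoints -/
noncomputable def br : ℕ → ℝ
  | 0 => (0 / 1)
  | 1 => (1 / 4)
  | 2 => (1 / 2)
  | 3 => (4 / 5)
  | 4 => (6 / 5)
  | 5 => (9 / 5)
  | _ => (72 / 25)

theorem F0 {A : AF.V3} (h : Norm 3 A) : AF.FP A = pv 10000 UP00.Fl A := by
  simp only [AF.FP, uFn_E h, wFn_E h, pv, wvec, UP00.Fl, evL_cons, evL_nil_left]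
  push_cast
  ring

theorem F00 {A : AF.V3} (h : Norm 3 A) : AF.FP A = pv 10000 UP00.Fl A := F0 h

theorem F01 {A : AF.V3} (h : Norm 3 A) : AF.FP A = pv 10000 UP01.Fl A := F0 h

theorem F02 {A : AF.V3} (h : Norm 3 A) : AF.FP A = pv 10000 UP02.Fl A := F0 h

theorem F03 {A : AF.V3} (h : Norm 3 A) : AF.FP A = pv 10000 UP03.Fl A := F0 h

theorem F10 {A : AF.V3} (h : Norm 3 A) : AF.FP A = pv 10000 UP10.Fl A := F0 h

theorem F11 {A : AF.V3} (h : Norm 3 A) : AF.FP A = pv 10000 UP11.Fl A := F0 h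

theorem F12 {A : AF.V3} (h : Norm 3 A) : AF.FP A = pv 10000 UP12.Fl A := F0 h

theorem F13 {A : AF.V3} (h : Norm 3 A) : AF.FP A = pv 10000 UP13.Fl A := F0 h

theorem F20 {A : AF.V3} (h : Norm 3 A) : AF.FP A = pv 10000 UP20.Fl A := F0 h

theorem F21 {A : AF.V3} (h : Norm 3 A) : AF.FP A = pv 10000 UP21.Fl A := F0 h

theorem F22 {A : AF.V3} (h : Norm 3 A) : AF.FP A = pv 10000 UP22.Fl A := F0 h

theorem F23 {A : AF.V3} (h : Norm 3 A) : AF.FP A = pv 10000 UP23.Fl A := F0 h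

theorem F30 {A : AF.V3} (h : Norm 3 A) : AF.FP A = pv 10000 UP30.Fl A := F0 h

theorem F31 {A : AF.V3} (h : Norm 3 A) : AF.FP A = pv 10000 UP31.Fl A := F0 h

theorem F32 {A : AF.V3} (h : Norm 3 A) : AF.FP A = pv 10000 UP32.Fl A := F0 h

theorem F33 {A : AF.V3} (h : Norm 3 A) : AF.FP A = pv 10000 UP33.Fl A := F0 h

theorem F40 {A : AF.V3} (h : Norm 3 A) : AF.FP A = pv 10000 UP40.Fl A := F0 h

theorem F41 {A : AF.V3} (h : Norm 3 A) : AF.FP A = pv 10000 UP41.Fl A := F0 h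

theorem F42 {A : AF.V3} (h : Norm 3 A) : AF.FP A = pv 10000 UP42.Fl A := F0 h

theorem F43 {A : AF.V3} (h : Norm 3 A) : AF.FP A = pv 10000 UP43.Fl A := F0 h

theorem F50 {A : AF.V3} (h : Norm 3 A) : AF.FP A = pv 10000 UP50.Fl A := F0 h

theorem F51 {A : AF.V3} (h : Norm 3 A) : AF.FP A = pv 10000 UP51.Fl A := F0 h

theorem F52 {A : AF.V3} (h : Norm 3 A) : AF.FP A = pv 10000 UP52.Fl A := F0 h

theorem F53 {A : AF.V3} (h : Norm 3 A) : AF.FP A = pv 10000 UP53.Fl A := F0 h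

theorem f0 {A : AF.V3} (h : Norm 3 A) : f 0 A = pv 10000 UP00.fl A := F0 h

theorem f1 {A : AF.V3} (_ : Norm 3 A) : f 1 A = pv 3000000 UP01.fl A := rfl

theorem f2 {A : AF.V3} (_ : Norm 3 A) : f 2 A = pv 1000000 UP02.fl A := rfl

theorem f3 {A : AF.V3} (_ : Norm 3 A) : f 3 A = pv 1000000 UP10.fl A := rfl

theorem f4 {A : AF.V3} (_ : Norm 3 A) : f 4 A = pv 1000000 UP11.fl A := rfl

theorem f5 {A : AF.V3} (_ : Norm 3 A) : f 5 A = pv 1000000 UP12.fl A := rfl

theorem f6 {A : AF.V3} (_ : Norm 3 A) : f 6 A = pv 1000000 UP20.fl A := rfl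

theorem f7 {A : AF.V3} (_ : Norm 3 A) : f 7 A = pv 1000000 UP21.fl A := rfl

theorem f8 {A : AF.V3} (_ : Norm 3 A) : f 8 A = pv 1000000 UP22.fl A := rfl

theorem f9 {A : AF.V3} (_ : Norm 3 A) : f 9 A = pv 1000000 UP30.fl A := rfl

theorem f10 {A : AF.V3} (_ : Norm 3 A) : f 10 A = pv 1000000 UP31.fl A := rfl

theorem f11 {A : AF.V3} (_ : Norm 3 A) : f 11 A = pv 1000000 UP32.fl A := rfl

theorem f12 {A : AF.V3} (_ : Norm 3 A) : f 12 A = pv 1000000 UP40.fl A := rfl

theorem f13 {A : AF.V3} (_ : Norm 3 A) : f 13 A = pv 1000000 UP41.fl A := rfl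

theorem f14 {A : AF.V3} (_ : Norm 3 A) : f 14 A = pv 1000000 UP42.fl A := rfl

theorem f15 {A : AF.V3} (_ : Norm 3 A) : f 15 A = pv 500000 UP50.fl A := rfl

theorem f16 {A : AF.V3} (_ : Norm 3 A) : f 16 A = pv 1000000 UP51.fl A := rfl

theorem f17 {A : AF.V3} (_ : Norm 3 A) : f 17 A = pv 1000000 UP52.fl A := rfl

theorem f18 {A : AF.V3} (_ : Norm 3 A) : f 18 A = pv 1000000 UP53.fl A := rfl

theorem e00 {A : AF.V3} (h : Norm 3 A) : 3 * (f 1 A - f 0 A) / (br 1 - br 0) = pv 250000 UP00.el A := by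
  rw [f1 h, f0 h]
  simp only [br, pv, wvec, UP01.fl, UP00.fl, UP00.el, evL_cons, evL_nil_left]
  push_cast
  ring

theorem s00 : Stp (-1/2) (f 0) (f 0) (fun A => 3 * (f 1 A - f 0 A) / (br 1 - br 0)) :=
  stp_congr (by norm_num) (by norm_num) (fun A h => F00 h) (fun A h => f0 h)
    (fun A h => e00 h) UP00.stp

theorem e01 {A : AF.V3} (h : Norm 3 A) : (2 * f 2 A - f 1 A - f 0 A) / (br 1 - br 0) = pv 750000 UP01.el A := by
  rw [f2 h, f1 h, f0 h]
  simp only [br, pv, wvec, UP02.fl, UP01.fl, UP00.fl, UP01.el, evL_cons, evL_nil_left]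
  push_cast
  ring

theorem s01 : Stp (-1/2) (f 0) (f 1) (fun A => (2 * f 2 A - f 1 A - f 0 A) / (br 1 - br 0)) :=
  stp_congr (by norm_num) (by norm_num) (fun A h => F01 h) (fun A h => f1 h)
    (fun A h => e01 h) UP01.stp

theorem e02 {A : AF.V3} (h : Norm 3 A) : (f 3 A + f 2 A - 2 * f 1 A) / (br 1 - br 0) = pv 750000 UP02.el A := by
  rw [f3 h, f2 h, f1 h]
  simp only [br, pv, wvec, UP10.fl, UP02.fl, UP01.fl, UP02.el, evL_cons, evL_nil_left]
  push_cast
  ring

theorem s02 : Stp (-1/2) (f 0) (f 2) (fun A => (f 3 A + f 2 A - 2 * f 1 A) / (br 1 - br 0)) :=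
  stp_congr (by norm_num) (by norm_num) (fun A h => F02 h) (fun A h => f2 h)
    (fun A h => e02 h) UP02.stp

theorem e03 {A : AF.V3} (h : Norm 3 A) : 3 * (f 3 A - f 2 A) / (br 1 - br 0) = pv 250000 UP03.el A := by
  rw [f3 h, f2 h]
  simp only [br, pv, wvec, UP10.fl, UP02.fl, UP03.el, evL_cons, evL_nil_left]
  push_cast
  ring

theorem s03 : Stp (-1/2) (f 0) (f 3) (fun A => 3 * (f 3 A - f 2 A) / (br 1 - br 0)) :=
  stp_congr (by norm_num) (by norm_num) (fun A h => F03 h) (fun A h => f3 h)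
    (fun A h => e03 h) UP03.stp

theorem e10 {A : AF.V3} (h : Norm 3 A) : 3 * (f 4 A - f 3 A) / (br 2 - br 1) = pv 250000 UP10.el A := by
  rw [f4 h, f3 h]
  simp only [br, pv, wvec, UP11.fl, UP10.fl, UP10.el, evL_cons, evL_nil_left]
  push_cast
  ring

theorem s10 : Stp (-1/2) (f 0) (f 3) (fun A => 3 * (f 4 A - f 3 A) / (br 2 - br 1)) :=
  stp_congr (by norm_num) (by norm_num) (fun A h => F10 h) (fun A h => f3 h)
    (fun A h => e10 h) UP10.stp

theorem e11 {A : AF.V3} (h : Norm 3 A) : (2 * f 5 A - f 4 A - f 3 A) / (br 2 - br 1) = pv 250000 UP11.el A := by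
  rw [f5 h, f4 h, f3 h]
  simp only [br, pv, wvec, UP12.fl, UP11.fl, UP10.fl, UP11.el, evL_cons, evL_nil_left]
  push_cast
  ring

theorem s11 : Stp (-1/2) (f 0) (f 4) (fun A => (2 * f 5 A - f 4 A - f 3 A) / (br 2 - br 1)) :=
  stp_congr (by norm_num) (by norm_num) (fun A h => F11 h) (fun A h => f4 h)
    (fun A h => e11 h) UP11.stp

theorem e12 {A : AF.V3} (h : Norm 3 A) : (f 6 A + f 5 A - 2 * f 4 A) / (br 2 - br 1) = pv 250000 UP12.el A := by
  rw [f6 h, f5 h, f4 h]
  simp only [br, pv, wvec, UP20.fl, UP12.fl, UP11.fl, UP12.el, evL_cons, evL_nil_left]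
  push_cast
  ring

theorem s12 : Stp (-1/2) (f 0) (f 5) (fun A => (f 6 A + f 5 A - 2 * f 4 A) / (br 2 - br 1)) :=
  stp_congr (by norm_num) (by norm_num) (fun A h => F12 h) (fun A h => f5 h)
    (fun A h => e12 h) UP12.stp

theorem e13 {A : AF.V3} (h : Norm 3 A) : 3 * (f 6 A - f 5 A) / (br 2 - br 1) = pv 250000 UP13.el A := by
  rw [f6 h, f5 h]
  simp only [br, pv, wvec, UP20.fl, UP12.fl, UP13.el, evL_cons, evL_nil_left]
  push_cast
  ring

theorem s13 : Stp (-1/2) (f 0) (f 6) (fun A => 3 * (f 6 A - f 5 A) / (br 2 - br 1)) :=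
  stp_congr (by norm_num) (by norm_num) (fun A h => F13 h) (fun A h => f6 h)
    (fun A h => e13 h) UP13.stp

theorem e20 {A : AF.V3} (h : Norm 3 A) : 3 * (f 7 A - f 6 A) / (br 3 - br 2) = pv 100000 UP20.el A := by
  rw [f7 h, f6 h]
  simp only [br, pv, wvec, UP21.fl, UP20.fl, UP20.el, evL_cons, evL_nil_left]
  push_cast
  ring

theorem s20 : Stp (-1/2) (f 0) (f 6) (fun A => 3 * (f 7 A - f 6 A) / (br 3 - br 2)) :=
  stp_congr (by norm_num) (by norm_num) (fun A h => F20 h) (fun A h => f6 h)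
    (fun A h => e20 h) UP20.stp

theorem e21 {A : AF.V3} (h : Norm 3 A) : (2 * f 8 A - f 7 A - f 6 A) / (br 3 - br 2) = pv 300000 UP21.el A := by
  rw [f8 h, f7 h, f6 h]
  simp only [br, pv, wvec, UP22.fl, UP21.fl, UP20.fl, UP21.el, evL_cons, evL_nil_left]
  push_cast
  ring

theorem s21 : Stp (-1/2) (f 0) (f 7) (fun A => (2 * f 8 A - f 7 A - f 6 A) / (br 3 - br 2)) :=
  stp_congr (by norm_num) (by norm_num) (fun A h => F21 h) (fun A h => f7 h)
    (fun A h => e21 h) UP21.stp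

theorem e22 {A : AF.V3} (h : Norm 3 A) : (f 9 A + f 8 A - 2 * f 7 A) / (br 3 - br 2) = pv 300000 UP22.el A := by
  rw [f9 h, f8 h, f7 h]
  simp only [br, pv, wvec, UP30.fl, UP22.fl, UP21.fl, UP22.el, evL_cons, evL_nil_left]
  push_cast
  ring

theorem s22 : Stp (-1/2) (f 0) (f 8) (fun A => (f 9 A + f 8 A - 2 * f 7 A) / (br 3 - br 2)) :=
  stp_congr (by norm_num) (by norm_num) (fun A h => F22 h) (fun A h => f8 h)
    (fun A h => e22 h) UP22.stp

theorem e23 {A : AF.V3} (h : Norm 3 A) : 3 * (f 9 A - f 8 A) / (br 3 - br 2) = pv 100000 UP23.el A := by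
  rw [f9 h, f8 h]
  simp only [br, pv, wvec, UP30.fl, UP22.fl, UP23.el, evL_cons, evL_nil_left]
  push_cast
  ring

theorem s23 : Stp (-1/2) (f 0) (f 9) (fun A => 3 * (f 9 A - f 8 A) / (br 3 - br 2)) :=
  stp_congr (by norm_num) (by norm_num) (fun A h => F23 h) (fun A h => f9 h)
    (fun A h => e23 h) UP23.stp

theorem e30 {A : AF.V3} (h : Norm 3 A) : 3 * (f 10 A - f 9 A) / (br 4 - br 3) = pv 400000 UP30.el A := by
  rw [f10 h, f9 h]
  simp only [br, pv, wvec, UP31.fl, UP30.fl, UP30.el, evL_cons, evL_nil_left]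
  push_cast
  ring

theorem s30 : Stp (-1/2) (f 0) (f 9) (fun A => 3 * (f 10 A - f 9 A) / (br 4 - br 3)) :=
  stp_congr (by norm_num) (by norm_num) (fun A h => F30 h) (fun A h => f9 h)
    (fun A h => e30 h) UP30.stp

theorem e31 {A : AF.V3} (h : Norm 3 A) : (2 * f 11 A - f 10 A - f 9 A) / (br 4 - br 3) = pv 400000 UP31.el A := by
  rw [f11 h, f10 h, f9 h]
  simp only [br, pv, wvec, UP32.fl, UP31.fl, UP30.fl, UP31.el, evL_cons, evL_nil_left]
  push_cast
  ring

theorem s31 : Stp (-1/2) (f 0) (f 10) (fun A => (2 * f 11 A - f 10 A - f 9 A) / (br 4 - br 3)) :=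
  stp_congr (by norm_num) (by norm_num) (fun A h => F31 h) (fun A h => f10 h)
    (fun A h => e31 h) UP31.stp

theorem e32 {A : AF.V3} (h : Norm 3 A) : (f 12 A + f 11 A - 2 * f 10 A) / (br 4 - br 3) = pv 400000 UP32.el A := by
  rw [f12 h, f11 h, f10 h]
  simp only [br, pv, wvec, UP40.fl, UP32.fl, UP31.fl, UP32.el, evL_cons, evL_nil_left]
  push_cast
  ring

theorem s32 : Stp (-1/2) (f 0) (f 11) (fun A => (f 12 A + f 11 A - 2 * f 10 A) / (br 4 - br 3)) :=
  stp_congr (by norm_num) (by norm_num) (fun A h => F32 h) (fun A h => f11 h)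
    (fun A h => e32 h) UP32.stp

theorem e33 {A : AF.V3} (h : Norm 3 A) : 3 * (f 12 A - f 11 A) / (br 4 - br 3) = pv 400000 UP33.el A := by
  rw [f12 h, f11 h]
  simp only [br, pv, wvec, UP40.fl, UP32.fl, UP33.el, evL_cons, evL_nil_left]
  push_cast
  ring

theorem s33 : Stp (-1/2) (f 0) (f 12) (fun A => 3 * (f 12 A - f 11 A) / (br 4 - br 3)) :=
  stp_congr (by norm_num) (by norm_num) (fun A h => F33 h) (fun A h => f12 h)
    (fun A h => e33 h) UP33.stp

theorem e40 {A : AF.V3} (h : Norm 3 A) : 3 * (f 13 A - f 12 A) / (br 5 - br 4) = pv 200000 UP40.el A := by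
  rw [f13 h, f12 h]
  simp only [br, pv, wvec, UP41.fl, UP40.fl, UP40.el, evL_cons, evL_nil_left]
  push_cast
  ring

theorem s40 : Stp (-1/2) (f 0) (f 12) (fun A => 3 * (f 13 A - f 12 A) / (br 5 - br 4)) :=
  stp_congr (by norm_num) (by norm_num) (fun A h => F40 h) (fun A h => f12 h)
    (fun A h => e40 h) UP40.stp

theorem e41 {A : AF.V3} (h : Norm 3 A) : (2 * f 14 A - f 13 A - f 12 A) / (br 5 - br 4) = pv 600000 UP41.el A := by
  rw [f14 h, f13 h, f12 h]
  simp only [br, pv, wvec, UP42.fl, UP41.fl, UP40.fl, UP41.el, evL_cons, evL_nil_left]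
  push_cast
  ring

theorem s41 : Stp (-1/2) (f 0) (f 13) (fun A => (2 * f 14 A - f 13 A - f 12 A) / (br 5 - br 4)) :=
  stp_congr (by norm_num) (by norm_num) (fun A h => F41 h) (fun A h => f13 h)
    (fun A h => e41 h) UP41.stp

theorem e42 {A : AF.V3} (h : Norm 3 A) : (f 15 A + f 14 A - 2 * f 13 A) / (br 5 - br 4) = pv 600000 UP42.el A := by
  rw [f15 h, f14 h, f13 h]
  simp only [br, pv, wvec, UP50.fl, UP42.fl, UP41.fl, UP42.el, evL_cons, evL_nil_left]
  push_cast
  ring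

theorem s42 : Stp (-1/2) (f 0) (f 14) (fun A => (f 15 A + f 14 A - 2 * f 13 A) / (br 5 - br 4)) :=
  stp_congr (by norm_num) (by norm_num) (fun A h => F42 h) (fun A h => f14 h)
    (fun A h => e42 h) UP42.stp

theorem e43 {A : AF.V3} (h : Norm 3 A) : 3 * (f 15 A - f 14 A) / (br 5 - br 4) = pv 200000 UP43.el A := by
  rw [f15 h, f14 h]
  simp only [br, pv, wvec, UP50.fl, UP42.fl, UP43.el, evL_cons, evL_nil_left]
  push_cast
  ring

theorem s43 : Stp (-1/2) (f 0) (f 15) (fun A => 3 * (f 15 A - f 14 A) / (br 5 - br 4)) :=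
  stp_congr (by norm_num) (by norm_num) (fun A h => F43 h) (fun A h => f15 h)
    (fun A h => e43 h) UP43.stp

theorem e50 {A : AF.V3} (h : Norm 3 A) : 3 * (f 16 A - f 15 A) / (br 6 - br 5) = pv 360000 UP50.el A := by
  rw [f16 h, f15 h]
  simp only [br, pv, wvec, UP51.fl, UP50.fl, UP50.el, evL_cons, evL_nil_left]
  push_cast
  ring

theorem s50 : Stp (-1/2) (f 0) (f 15) (fun A => 3 * (f 16 A - f 15 A) / (br 6 - br 5)) :=
  stp_congr (by norm_num) (by norm_num) (fun A h => F50 h) (fun A h => f15 h)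
    (fun A h => e50 h) UP50.stp

theorem e51 {A : AF.V3} (h : Norm 3 A) : (2 * f 17 A - f 16 A - f 15 A) / (br 6 - br 5) = pv 1080000 UP51.el A := by
  rw [f17 h, f16 h, f15 h]
  simp only [br, pv, wvec, UP52.fl, UP51.fl, UP50.fl, UP51.el, evL_cons, evL_nil_left]
  push_cast
  ring

theorem s51 : Stp (-1/2) (f 0) (f 16) (fun A => (2 * f 17 A - f 16 A - f 15 A) / (br 6 - br 5)) :=
  stp_congr (by norm_num) (by norm_num) (fun A h => F51 h) (fun A h => f16 h)
    (fun A h => e51 h) UP51.stp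

theorem e52 {A : AF.V3} (h : Norm 3 A) : (f 18 A + f 17 A - 2 * f 16 A) / (br 6 - br 5) = pv 540000 UP52.el A := by
  rw [f18 h, f17 h, f16 h]
  simp only [br, pv, wvec, UP53.fl, UP52.fl, UP51.fl, UP52.el, evL_cons, evL_nil_left]
  push_cast
  ring

theorem s52 : Stp (-1/2) (f 0) (f 17) (fun A => (f 18 A + f 17 A - 2 * f 16 A) / (br 6 - br 5)) :=
  stp_congr (by norm_num) (by norm_num) (fun A h => F52 h) (fun A h => f17 h)
    (fun A h => e52 h) UP52.stp

theorem e53 {A : AF.V3} (h : Norm 3 A) : 3 * (f 18 A - f 17 A) / (br 6 - br 5) = pv 180000 UP53.el A := by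
  rw [f18 h, f17 h]
  simp only [br, pv, wvec, UP53.fl, UP52.fl, UP53.el, evL_cons, evL_nil_left]
  push_cast
  ring

theorem s53 : Stp (-1/2) (f 0) (f 18) (fun A => 3 * (f 18 A - f 17 A) / (br 6 - br 5)) :=
  stp_congr (by norm_num) (by norm_num) (fun A h => F53 h) (fun A h => f18 h)
    (fun A h => e53 h) UP53.stp

theorem v0 : f 0 one3 = 0 := by
  have h : Norm 3 one3 := ⟨fun _ => by simp [one3], by simp [one3]⟩
  rw [f0 h, pv_one3]
  simp only [UP00.fl, List.replicate, evL_cons, evL_nil_left]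
  push_cast
  norm_num

theorem v1 : f 1 one3 = (1 / 12) := by
  have h : Norm 3 one3 := ⟨fun _ => by simp [one3], by simp [one3]⟩
  rw [f1 h, pv_one3]
  simp only [UP01.fl, List.replicate, evL_cons, evL_nil_left]
  push_cast
  norm_num

theorem v2 : f 2 one3 = (165599 / 1000000) := by
  have h : Norm 3 one3 := ⟨fun _ => by simp [one3], by simp [one3]⟩
  rw [f2 h, pv_one3]
  simp only [UP02.fl, List.replicate, evL_cons, evL_nil_left]
  push_cast
  norm_num

theorem v3 : f 3 one3 = (248399 / 1000000) := by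
  have h : Norm 3 one3 := ⟨fun _ => by simp [one3], by simp [one3]⟩
  rw [f3 h, pv_one3]
  simp only [UP10.fl, List.replicate, evL_cons, evL_nil_left]
  push_cast
  norm_num

theorem v4 : f 4 one3 = (165599 / 500000) := by
  have h : Norm 3 one3 := ⟨fun _ => by simp [one3], by simp [one3]⟩
  rw [f4 h, pv_one3]
  simp only [UP11.fl, List.replicate, evL_cons, evL_nil_left]
  push_cast
  norm_num

theorem v5 : f 5 one3 = (207399 / 500000) := by
  have h : Norm 3 one3 := ⟨fun _ => by simp [one3], by simp [one3]⟩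
  rw [f5 h, pv_one3]
  simp only [UP12.fl, List.replicate, evL_cons, evL_nil_left]
  push_cast
  norm_num

theorem v6 : f 6 one3 = (498353 / 1000000) := by
  have h : Norm 3 one3 := ⟨fun _ => by simp [one3], by simp [one3]⟩
  rw [f6 h, pv_one3]
  simp only [UP20.fl, List.replicate, evL_cons, evL_nil_left]
  push_cast
  norm_num

theorem v7 : f 7 one3 = (598619 / 1000000) := by
  have h : Norm 3 one3 := ⟨fun _ => by simp [one3], by simp [one3]⟩
  rw [f7 h, pv_one3]
  simp only [UP21.fl, List.replicate, evL_cons, evL_nil_left]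
  push_cast
  norm_num

theorem v8 : f 8 one3 = (699803 / 1000000) := by
  have h : Norm 3 one3 := ⟨fun _ => by simp [one3], by simp [one3]⟩
  rw [f8 h, pv_one3]
  simp only [UP22.fl, List.replicate, evL_cons, evL_nil_left]
  push_cast
  norm_num

theorem v9 : f 9 one3 = (19997 / 25000) := by
  have h : Norm 3 one3 := ⟨fun _ => by simp [one3], by simp [one3]⟩
  rw [f9 h, pv_one3]
  simp only [UP30.fl, List.replicate, evL_cons, evL_nil_left]
  push_cast
  norm_num

theorem v10 : f 10 one3 = (233329 / 250000) := by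
  have h : Norm 3 one3 := ⟨fun _ => by simp [one3], by simp [one3]⟩
  rw [f10 h, pv_one3]
  simp only [UP31.fl, List.replicate, evL_cons, evL_nil_left]
  push_cast
  norm_num

theorem v11 : f 11 one3 = (1066633 / 1000000) := by
  have h : Norm 3 one3 := ⟨fun _ => by simp [one3], by simp [one3]⟩
  rw [f11 h, pv_one3]
  simp only [UP32.fl, List.replicate, evL_cons, evL_nil_left]
  push_cast
  norm_num

theorem v12 : f 12 one3 = (599979 / 500000) := by
  have h : Norm 3 one3 := ⟨fun _ => by simp [one3], by simp [one3]⟩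
  rw [f12 h, pv_one3]
  simp only [UP40.fl, List.replicate, evL_cons, evL_nil_left]
  push_cast
  norm_num

theorem v13 : f 13 one3 = (55997 / 40000) := by
  have h : Norm 3 one3 := ⟨fun _ => by simp [one3], by simp [one3]⟩
  rw [f13 h, pv_one3]
  simp only [UP41.fl, List.replicate, evL_cons, evL_nil_left]
  push_cast
  norm_num

theorem v14 : f 14 one3 = (15999 / 10000) := by
  have h : Norm 3 one3 := ⟨fun _ => by simp [one3], by simp [one3]⟩
  rw [f14 h, pv_one3]
  simp only [UP42.fl, List.replicate, evL_cons, evL_nil_left]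
  push_cast
  norm_num

theorem v15 : f 15 one3 = (899949 / 500000) := by
  have h : Norm 3 one3 := ⟨fun _ => by simp [one3], by simp [one3]⟩
  rw [f15 h, pv_one3]
  simp only [UP50.fl, List.replicate, evL_cons, evL_nil_left]
  push_cast
  norm_num

theorem v16 : f 16 one3 = (2159803 / 1000000) := by
  have h : Norm 3 one3 := ⟨fun _ => by simp [one3], by simp [one3]⟩
  rw [f16 h, pv_one3]
  simp only [UP51.fl, List.replicate, evL_cons, evL_nil_left]
  push_cast
  norm_num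

theorem v17 : f 17 one3 = (625183 / 250000) := by
  have h : Norm 3 one3 := ⟨fun _ => by simp [one3], by simp [one3]⟩
  rw [f17 h, pv_one3]
  simp only [UP52.fl, List.replicate, evL_cons, evL_nil_left]
  push_cast
  norm_num

theorem v18 : f 18 one3 = (1439893 / 500000) := by
  have h : Norm 3 one3 := ⟨fun _ => by simp [one3], by simp [one3]⟩
  rw [f18 h, pv_one3]
  simp only [UP53.fl, List.replicate, evL_cons, evL_nil_left]
  push_cast
  norm_num

theorem d0 (z : ℝ) (h0 : 0 ≤ z) (h1 : z ≤ 1) :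
    B3 (f 0 one3) (f 1 one3) (f 2 one3) (f 3 one3) z ≤
      (br 0 + z * (br 1 - br 0)) - (1 / 65536) * (br 0 + z * (br 1 - br 0)) ^ 2 := by
  rw [v0, v1, v2, v3]
  have h2 : 0 ≤ 1 - z := by linarith
  simp only [B3, br]
  have key : (((0 / 1) + z * ((1 / 4) - (0 / 1))) - (1 / 65536) * ((0 / 1) + z * ((1 / 4) - (0 / 1))) ^ 2) -
      ((1 - z) ^ 3 * 0 + 3 * z * (1 - z) ^ 2 * (1 / 12) + 3 * z ^ 2 * (1 - z) * (165599 / 1000000) + z ^ 3 * (248399 / 1000000)) =
      (1 - z) ^ 3 * (0 / 1) + 3 * z * (1 - z) ^ 2 * (0 / 1) + 3 * z ^ 2 * (1 - z) * (52462327 / 49152000000) + z ^ 3 * (26215159 / 16384000000) := by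
    ring
  have h3 : (0 : ℝ) ≤ (1 - z) ^ 3 * (0 / 1) + 3 * z * (1 - z) ^ 2 * (0 / 1) + 3 * z ^ 2 * (1 - z) * (52462327 / 49152000000) + z ^ 3 * (26215159 / 16384000000) := by
    positivity
  linarith

theorem d1 (z : ℝ) (h0 : 0 ≤ z) (h1 : z ≤ 1) :
    B3 (f 3 one3) (f 4 one3) (f 5 one3) (f 6 one3) z ≤
      (br 1 + z * (br 2 - br 1)) - (1 / 65536) * (br 1 + z * (br 2 - br 1)) ^ 2 := by
  rw [v3, v4, v5, v6]
  have h2 : 0 ≤ 1 - z := by linarith
  simp only [B3, br]
  have key : (((1 / 4) + z * ((1 / 2) - (1 / 4))) - (1 / 65536) * ((1 / 4) + z * ((1 / 2) - (1 / 4))) ^ 2) -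
      ((1 - z) ^ 3 * (248399 / 1000000) + 3 * z * (1 - z) ^ 2 * (165599 / 500000) + 3 * z ^ 2 * (1 - z) * (207399 / 500000) + z ^ 3 * (498353 / 1000000)) =
      (1 - z) ^ 3 * (26215159 / 16384000000) + 3 * z * (1 - z) ^ 2 * (104877779 / 49152000000) + 3 * z ^ 2 * (1 - z) * (3821821 / 2048000000) + z ^ 3 * (6730487 / 4096000000) := by
    ring
  have h3 : (0 : ℝ) ≤ (1 - z) ^ 3 * (26215159 / 16384000000) + 3 * z * (1 - z) ^ 2 * (104877779 / 49152000000) + 3 * z ^ 2 * (1 - z) * (3821821 / 2048000000) + z ^ 3 * (6730487 / 4096000000) := by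
    positivity
  linarith

theorem d2 (z : ℝ) (h0 : 0 ≤ z) (h1 : z ≤ 1) :
    B3 (f 6 one3) (f 7 one3) (f 8 one3) (f 9 one3) z ≤
      (br 2 + z * (br 3 - br 2)) - (1 / 65536) * (br 2 + z * (br 3 - br 2)) ^ 2 := by
  rw [v6, v7, v8, v9]
  have h2 : 0 ≤ 1 - z := by linarith
  simp only [B3, br]
  have key : (((1 / 2) + z * ((4 / 5) - (1 / 2))) - (1 / 65536) * ((1 / 2) + z * ((4 / 5) - (1 / 2))) ^ 2) -
      ((1 - z) ^ 3 * (498353 / 1000000) + 3 * z * (1 - z) ^ 2 * (598619 / 1000000) + 3 * z ^ 2 * (1 - z) * (699803 / 1000000) + z ^ 3 * (19997 / 25000)) =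
      (1 - z) ^ 3 * (6730487 / 4096000000) + 3 * z * (1 - z) ^ 2 * (5634701 / 4096000000) + 3 * z ^ 2 * (1 - z) * (48557 / 256000000) + z ^ 3 * (1411 / 12800000) := by
    ring
  have h3 : (0 : ℝ) ≤ (1 - z) ^ 3 * (6730487 / 4096000000) + 3 * z * (1 - z) ^ 2 * (5634701 / 4096000000) + 3 * z ^ 2 * (1 - z) * (48557 / 256000000) + z ^ 3 * (1411 / 12800000) := by
    positivity
  linarith

theorem d3 (z : ℝ) (h0 : 0 ≤ z) (h1 : z ≤ 1) :
    B3 (f 9 one3) (f 10 one3) (f 11 one3) (f 12 one3) z ≤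
      (br 3 + z * (br 4 - br 3)) - (1 / 65536) * (br 3 + z * (br 4 - br 3)) ^ 2 := by
  rw [v9, v10, v11, v12]
  have h2 : 0 ≤ 1 - z := by linarith
  simp only [B3, br]
  have key : (((4 / 5) + z * ((6 / 5) - (4 / 5))) - (1 / 65536) * ((4 / 5) + z * ((6 / 5) - (4 / 5))) ^ 2) -
      ((1 - z) ^ 3 * (19997 / 25000) + 3 * z * (1 - z) ^ 2 * (233329 / 250000) + 3 * z ^ 2 * (1 - z) * (1066633 / 1000000) + z ^ 3 * (599979 / 500000)) =
      (1 - z) ^ 3 * (1411 / 12800000) + 3 * z * (1 - z) ^ 2 * (69 / 16000000) + 3 * z ^ 2 * (1 - z) * (12731 / 768000000) + z ^ 3 * (5127 / 256000000) := by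
    ring
  have h3 : (0 : ℝ) ≤ (1 - z) ^ 3 * (1411 / 12800000) + 3 * z * (1 - z) ^ 2 * (69 / 16000000) + 3 * z ^ 2 * (1 - z) * (12731 / 768000000) + z ^ 3 * (5127 / 256000000) := by
    positivity
  linarith

theorem d4 (z : ℝ) (h0 : 0 ≤ z) (h1 : z ≤ 1) :
    B3 (f 12 one3) (f 13 one3) (f 14 one3) (f 15 one3) z ≤
      (br 4 + z * (br 5 - br 4)) - (1 / 65536) * (br 4 + z * (br 5 - br 4)) ^ 2 := by
  rw [v12, v13, v14, v15]
  have h2 : 0 ≤ 1 - z := by linarith
  simp only [B3, br]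
  have key : (((6 / 5) + z * ((9 / 5) - (6 / 5))) - (1 / 65536) * ((6 / 5) + z * ((9 / 5) - (6 / 5))) ^ 2) -
      ((1 - z) ^ 3 * (599979 / 500000) + 3 * z * (1 - z) ^ 2 * (55997 / 40000) + 3 * z ^ 2 * (1 - z) * (15999 / 10000) + z ^ 3 * (899949 / 500000)) =
      (1 - z) ^ 3 * (5127 / 256000000) + 3 * z * (1 - z) ^ 2 * (117 / 2560000) + 3 * z ^ 2 * (1 - z) * (2521 / 40960000) + z ^ 3 * (53823 / 1024000000) := by
    ring
  have h3 : (0 : ℝ) ≤ (1 - z) ^ 3 * (5127 / 256000000) + 3 * z * (1 - z) ^ 2 * (117 / 2560000) + 3 * z ^ 2 * (1 - z) * (2521 / 40960000) + z ^ 3 * (53823 / 1024000000) := by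
    positivity
  linarith

theorem d5 (z : ℝ) (h0 : 0 ≤ z) (h1 : z ≤ 1) :
    B3 (f 15 one3) (f 16 one3) (f 17 one3) (f 18 one3) z ≤
      (br 5 + z * (br 6 - br 5)) - (1 / 65536) * (br 5 + z * (br 6 - br 5)) ^ 2 := by
  rw [v15, v16, v17, v18]
  have h2 : 0 ≤ 1 - z := by linarith
  simp only [B3, br]
  have key : (((9 / 5) + z * ((72 / 25) - (9 / 5))) - (1 / 65536) * ((9 / 5) + z * ((72 / 25) - (9 / 5))) ^ 2) -
      ((1 - z) ^ 3 * (899949 / 500000) + 3 * z * (1 - z) ^ 2 * (2159803 / 1000000) + 3 * z ^ 2 * (1 - z) * (625183 / 250000) + z ^ 3 * (1439893 / 500000)) =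
      (1 - z) ^ 3 * (53823 / 1024000000) + 3 * z * (1 - z) ^ 2 * (130853 / 1024000000) + 3 * z ^ 2 * (1 - z) * (1227077 / 64000000) + z ^ 3 * (1399 / 16000000) := by
    ring
  have h3 : (0 : ℝ) ≤ (1 - z) ^ 3 * (53823 / 1024000000) + 3 * z * (1 - z) ^ 2 * (130853 / 1024000000) + 3 * z ^ 2 * (1 - z) * (1227077 / 64000000) + z ^ 3 * (1399 / 16000000) := by
    positivity
  linarith

theorem certPW : CertPW (72/25) 6 br f (1 / 65536) where
  br0 := by norm_num [br]
  brS := by norm_num [br]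
  brm := by
    intro j hj
    interval_cases j <;> norm_num [br]
  rng := by
    have h := ctrP.2
    have e : (288 / 100 : ℝ) = 72 / 25 := by norm_num
    rw [e] at h
    exact h
  ctr := ctrP.1
  bdd := by
    refine ⟨57501246, ?_⟩
    intro i hi A hA
    have key : ∀ (d : ℕ) (l : List ℤ), 0 < d → absS l ≤ 57501246 → |pv d l A| ≤ 57501246 := by
      intro d l hd hl
      refine (pv_abs hd l hA).trans ?_
      exact_mod_cast hl
    have hi' : i < 19 := by omega
    interval_cases i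
    · rw [f0 hA]; exact key _ _ (by norm_num) (by decide +kernel)
    · rw [f1 hA]; exact key _ _ (by norm_num) (by decide +kernel)
    · rw [f2 hA]; exact key _ _ (by norm_num) (by decide +kernel)
    · rw [f3 hA]; exact key _ _ (by norm_num) (by decide +kernel)
    · rw [f4 hA]; exact key _ _ (by norm_num) (by decide +kernel)
    · rw [f5 hA]; exact key _ _ (by norm_num) (by decide +kernel)
    · rw [f6 hA]; exact key _ _ (by norm_num) (by decide +kernel)
    · rw [f7 hA]; exact key _ _ (by norm_num) (by decide +kernel)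
    · rw [f8 hA]; exact key _ _ (by norm_num) (by decide +kernel)
    · rw [f9 hA]; exact key _ _ (by norm_num) (by decide +kernel)
    · rw [f10 hA]; exact key _ _ (by norm_num) (by decide +kernel)
    · rw [f11 hA]; exact key _ _ (by norm_num) (by decide +kernel)
    · rw [f12 hA]; exact key _ _ (by norm_num) (by decide +kernel)
    · rw [f13 hA]; exact key _ _ (by norm_num) (by decide +kernel)
    · rw [f14 hA]; exact key _ _ (by norm_num) (by decide +kernel)
    · rw [f15 hA]; exact key _ _ (by norm_num) (by decide +kernel)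
    · rw [f16 hA]; exact key _ _ (by norm_num) (by decide +kernel)
    · rw [f17 hA]; exact key _ _ (by norm_num) (by decide +kernel)
    · rw [f18 hA]; exact key _ _ (by norm_num) (by decide +kernel)
  u0 := by
    intro j hj
    interval_cases j
    · exact s00
    · exact s10
    · exact s20
    · exact s30
    · exact s40
    · exact s50
  u1 := by
    intro j hj
    interval_cases j
    · exact s01
    · exact s11
    · exact s21
    · exact s31
    · exact s41
    · exact s51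
  u2 := by
    intro j hj
    interval_cases j
    · exact s02
    · exact s12
    · exact s22
    · exact s32
    · exact s42
    · exact s52
  u3 := by
    intro j hj
    interval_cases j
    · exact s03
    · exact s13
    · exact s23
    · exact s33
    · exact s43
    · exact s53
  c_pos := by norm_num
  cS := by norm_num
  damp := by
    intro j hj z h0 h1
    interval_cases j
    · exact d0 z h0 h1
    · exact d1 z h0 h1
    · exact d2 z h0 h1
    · exact d3 z h0 h1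
    · exact d4 z h0 h1
    · exact d5 z h0 h1

end Vale.Agent.P154.FP.CertP
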