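import Vale.Agent.P154.Pt3

/-! Behaviour of the functional `psi` under the channel, q = 3. -/

namespace Vale.Agent.P154.Q3

open Finset

theorem u_sc (A : Fin 3 → ℝ) (lam : ℝ) : uFn 3 (fun i => 1 + lam * (A i - 1)) = lam ^ 2 * uFn 3 A := by
  unfold uFn
  rw [Finset.mul_sum, Finset.mul_sum, Finset.mul_sum]
  exact Finset.sum_congr rfl fun i _ => by ring

theorem w_sc (A : Fin 3 → ℝ) (lam : ℝ) : w (fun i => 1 + lam * (A i - 1)) = lam ^ 3 * w A := by
  unfold w
  rw [Finset.mul_sum, Finset.mul_sum, Finset.mul_sum]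
  exact Finset.sum_congr rfl fun i _ => by ring

theorem contr (A : Fin 3 → ℝ) (_ : Norm 3 A) (lam : ℝ) (h0 : 0 ≤ lam) (h1 : lam ≤ 1) :
    lam ^ 3 * psi A ≤ psi (fun i => 1 + lam * (A i - 1)) := by
  unfold psi
  rw [u_sc, w_sc]
  set U := uFn 3 A
  set W := w A
  have key : psiU (lam ^ 2 * U) (lam ^ 3 * W) - lam ^ 3 * psiU U W =
      lam ^ 3 * (1 - lam) * ((29 / 100) * U ^ 2) := by
    simp only [psiU]
    ring
  have h2 : 0 ≤ 1 - lam := by linarith
  have : 0 ≤ lam ^ 3 * (1 - lam) * ((29 / 100) * U ^ 2) := by positivity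
  linarith

theorem w_inv : Inv w := by
  intro s A
  unfold w
  congr 1
  exact Equiv.sum_comp s (fun i => (A i - 1) ^ 3)

theorem psi_inv : Inv psi := by
  intro s A
  unfold psi
  rw [uFn_inv 3 s A, w_inv s A]

theorem f_inv : Inv f := by
  intro s A
  unfold f
  rw [uFn_inv 3 s A, w_inv s A]

theorem g_inv : Inv g := by
  intro s A
  unfold g
  rw [uFn_inv 3 s A, w_inv s A]

theorem psi_one : 0 ≤ psi (fun _ => 1) := by
  norm_num [psi, psiU, uFn, w]

theorem psi_vertex (i : Fin 3) : 0 ≤ psi (fun j => if j = i then ((3 : ℕ) : ℝ) else 0) := by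
  fin_cases i <;> simp +decide [psi, psiU, uFn, w, Fin.sum_univ_three] <;> norm_num

end Vale.Agent.P154.Q3
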