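import Vale.Agent.P154.Avg3
import Vale.Agent.P154.AvgGen
import Vale.Agent.P154.Cert3Data

/-! The averaged certificate identities, q = 3 (generated). -/

set_option linter.style.longLine false
set_option linter.unusedSimpArgs false
set_option linter.unusedVariables false

namespace Vale.Agent.P154

open Finset

/-- polynomial upper bound -/
noncomputable def LU3 (D n2 n3 : ℝ) : ℝ :=
    -(26/3 * n2)
    + 2 * D
    + 44/3 * D * n2
    - 12 * D ^ 2 * n2
    + 14/3 * D ^ 3 * n2
    - 2/3 * D ^ 4 * n2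

/-- polynomial lower bound -/
noncomputable def LP3 (D n2 n3 : ℝ) : ℝ :=
    -(137/800)
    + 29/25 * n3
    - 241/25 * n2
    - 893/100 * n2 ^ 2
    + 19/50 * D
    + 9/2 * D * n3
    + 2467/100 * D * n2
    + 603/50 * D * n2 ^ 2
    + 2031/800 * D ^ 2
    - 187/25 * D ^ 2 * n3
    - 2469/100 * D ^ 2 * n2
    - 429/100 * D ^ 2 * n2 ^ 2
    - 71/20 * D ^ 3
    + 141/50 * D ^ 3 * n3
    + 1053/100 * D ^ 3 * n2
    + 1813/800 * D ^ 4
    - 31/20 * D ^ 4 * n2
    - 71/100 * D ^ 5
    + 69/800 * D ^ 6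

/-- certificate polynomial in the normalised elementary symmetric functions -/
noncomputable def psi3 (E2 E3 : ℝ) : ℝ :=
    21/25
    + 1 * E3
    - 17/25 * E2
    - 29/25 * E2 ^ 2

/-- certificate polynomial in the normalised elementary symmetric functions -/
noncomputable def f3 (E2 E3 : ℝ) : ℝ :=
    3/5
    - 19/50 * E3
    - 11/50 * E2

/-- certificate polynomial in the normalised elementary symmetric functions -/
noncomputable def g3 (E2 E3 : ℝ) : ℝ :=
    6/25
    - 57/50 * E3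
    - 31/50 * E2
    + 21/10 * E2 * E3
    + 21/50 * E2 ^ 2

/-- certificate polynomial in the normalised elementary symmetric functions -/
noncomputable def u3 (E2 _E3 : ℝ) : ℝ :=
    2
    - 2 * E2

/-- upper bound polynomial of a vector -/
noncomputable def LUx3 (x : Fin 3 → ℝ) : ℝ := LU3 (s31 x / 3) (s32 x / 3) (s33 x)

/-- lower bound polynomial of a vector -/
noncomputable def LPx3 (x : Fin 3 → ℝ) : ℝ := LP3 (s31 x / 3) (s32 x / 3) (s33 x)

/-- certificate function of a vector -/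
noncomputable def psix3 (x : Fin 3 → ℝ) : ℝ := psi3 (s32 x / 3) (s33 x)

/-- certificate function of a vector -/
noncomputable def fx3 (x : Fin 3 → ℝ) : ℝ := f3 (s32 x / 3) (s33 x)

/-- certificate function of a vector -/
noncomputable def gx3 (x : Fin 3 → ℝ) : ℝ := g3 (s32 x / 3) (s33 x)

/-- certificate function of a vector -/
noncomputable def ux3 (x : Fin 3 → ℝ) : ℝ := u3 (s32 x / 3) (s33 x)

theorem avgL3 (l r : List ℤ) (h : isZL (addL (vecMat r T3) (smulL (-6) l)) = true)
    (A B : Fin 3 → ℝ) (hA : s31 A = 3) (hB : s31 B = 3) :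
    6 * 3 ^ 12 * ∑ p : Equiv.Perm (Fin 3), evL l (evec3 (fun i => A i * B (p i)))
      = bil (diagForm (scl 9 6 r mw3) V3) (vvec3 A) (vvec3 B) := by
  have h1 : ∀ x : Fin 3 → ℝ, 6 * evL l (evec3 x) = evL r (mw3.map (fun e => Msym e.1 x)) := by
    intro x
    have := evL_isZL _ h (evec3 x)
    rw [evL_addL, evL_smulL, evL_vecMat, ← Mvec3] at this
    push_cast at this
    linarith
  have h2 := scl_diag A B 3 6 r mw3 (by decide)
  have h3 := Vvec3 A
  have h4 := Vvec3 B
  rw [hA] at h3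
  rw [hB] at h4
  push_cast at h2
  rw [h3, h4, ← bil_diagForm, ← sum_ev_M] at h2
  rw [h2, mul_comm (6:ℝ), mul_assoc, Finset.mul_sum]
  congr 1
  exact Finset.sum_congr rfl fun p _ => h1 _

/-- coefficients -/
def lU3 : List ℤ := [0, 486, 0, -2106, 0, 1188, 0, 0, -324, 0, 0, 0, 42, 0, 0, 0, 0, -2]

/-- coefficients -/
def rU3 : List ℤ := [0, 1458, 0, -6318, 0, 7128, 3564, 0, -1944, -1944, -4860, 0, 252, 756, 882, 1512, 0, -12, -48, -54, -36, -264, -72]

lemma lU3_eq (x : Fin 3 → ℝ) : evL lU3 (evec3 x) = 729 * LUx3 x := by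
  simp only [lU3, evec3, evL_cons, evL_nil_left, LUx3, LU3]
  push_cast
  ring

/-- coefficients -/
def lP3 : List ℤ := [-33291, 24624, 54837, -624672, -25560, 532872, 225504, 5439, -177768, 291600, -192888, -568, 25272, -161568, 86832, 0, 23, -1240, 20304, -10296]

/-- coefficients -/
def rP3 : List ℤ := [-33291, 73872, 164511, -1544994, -76680, 2737152, 1670760, 16317, -936072, -1547370, -2753244, -1704, 134592, 941808, 532920, 1191744, 69, -6612, -89466, -32274, -82716, -284136, -75186]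

lemma lP3_eq (x : Fin 3 → ℝ) : evL lP3 (evec3 x) = 194400 * LPx3 x := by
  simp only [lP3, evec3, evL_cons, evL_nil_left, LPx3, LP3]
  push_cast
  ring

/-- coefficients -/
def uv3 : List ℤ := [2, -6]

lemma uv3_eq (x : Fin 3 → ℝ) (hx : s31 x = 3) : evL uv3 (vvec3 x) = 729 * ux3 x := by
  simp only [uv3, vvec3, evL_cons, evL_nil_left, ux3, u3, hx]
  push_cast
  ring

/-- coefficients -/
def psiv3 : List ℤ := [7, -17, 225, -87]

lemma psiv3_eq (x : Fin 3 → ℝ) (hx : s31 x = 3) : evL psiv3 (vvec3 x) = 6075 * psix3 x := by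
  simp only [psiv3, vvec3, evL_cons, evL_nil_left, psix3, psi3, hx]
  push_cast
  ring

/-- coefficients -/
def fv3 : List ℤ := [10, -11, -171]

lemma fv3_eq (x : Fin 3 → ℝ) (hx : s31 x = 3) : evL fv3 (vvec3 x) = 12150 * fx3 x := by
  simp only [fv3, vvec3, evL_cons, evL_nil_left, fx3, f3, hx]
  push_cast
  ring

/-- coefficients -/
def gv3 : List ℤ := [4, -31, -513, 63, 2835]

lemma gv3_eq (x : Fin 3 → ℝ) (hx : s31 x = 3) : evL gv3 (vvec3 x) = 12150 * gx3 x := by
  simp only [gv3, vvec3, evL_cons, evL_nil_left, gx3, g3, hx]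
  push_cast
  ring

/-- coefficients -/
def uuv3 : List ℤ := [4, -24, 0, 36]

lemma uuv3_eq (x : Fin 3 → ℝ) (hx : s31 x = 3) : evL uuv3 (vvec3 x) = 729 * ux3 x ^ 2 := by
  simp only [uuv3, vvec3, evL_cons, evL_nil_left, ux3, u3, hx]
  push_cast
  ring

lemma onev3_eq (x : Fin 3 → ℝ) (hx : s31 x = 3) : evL [1] (vvec3 x) = 729 := by
  simp only [vvec3, evL_cons, evL_nil_left, hx]
  push_cast
  norm_num

theorem finU3 (A B : Fin 3 → ℝ) (hA : s31 A = 3) (hB : s31 B = 3) :
    ux3 A + ux3 B - (psix3 A * fx3 B + fx3 A * psix3 B)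
      - 1/50 * (ux3 A * ux3 B * (ux3 A + ux3 B))
      - (1 / 6) * ∑ p : Equiv.Perm (Fin 3), LUx3 (fun i => A i * B (p i))
      = (1 / 221433750) * (bil (toZ D3.CUp) (vvec3 A) (vvec3 B) - bil (toZ D3.CUm) (vvec3 A) (vvec3 B)) := by
  have key := bil_isZM (
      addM (smulM (16402500) (addM (outer uv3 [1]) (outer [1] uv3))) (
      addM (smulM (-118098) (addM (outer psiv3 fv3) (outer fv3 psiv3))) (
      addM (smulM (-328050) (addM (outer uuv3 uv3) (outer uv3 uuv3))) (
      addM (smulM (-625) (diagForm (scl 9 6 rU3 mw3) V3)) (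
      addM (smulM (-39366) (toZ D3.CUp)) (
      smulM (39366) (toZ D3.CUm)))))))
    (by decide +kernel) (vvec3 A) (vvec3 B)
  simp only [bil_addM, bil_smulM, bil_outer, ← avgL3 lU3 rU3 (by decide +kernel) A B hA hB,
    lU3_eq, ← Finset.mul_sum,
    uv3_eq A hA, uv3_eq B hB, uuv3_eq A hA, uuv3_eq B hB, psiv3_eq A hA, psiv3_eq B hB,
    fv3_eq A hA, fv3_eq B hB, gv3_eq A hA, gv3_eq B hB, onev3_eq A hA, onev3_eq B hB] at key
  push_cast at key
  linear_combination (1 / 8716961002500) * key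

theorem finP3 (A B : Fin 3 → ℝ) (hA : s31 A = 3) (hB : s31 B = 3) :
    (1 / 6) * ∑ p : Equiv.Perm (Fin 3), LPx3 (fun i => A i * B (p i))
      - (psix3 A * gx3 B + gx3 A * psix3 B)
      = (1 / 21257640000) * (bil (toZ D3.CPp) (vvec3 A) (vvec3 B) - bil (toZ D3.CPm) (vvec3 A) (vvec3 B)) := by
  have key := bil_isZM (
      addM (smulM (25) (diagForm (scl 9 6 rP3 mw3) V3)) (
      addM (smulM (-1259712) (addM (outer psiv3 gv3) (outer gv3 psiv3))) (
      addM (smulM (-4374) (toZ D3.CPp)) (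
      smulM (4374) (toZ D3.CPm)))))
    (by decide +kernel) (vvec3 A) (vvec3 B)
  simp only [bil_addM, bil_smulM, bil_outer, ← avgL3 lP3 rP3 (by decide +kernel) A B hA hB,
    lP3_eq, ← Finset.mul_sum,
    uv3_eq A hA, uv3_eq B hB, uuv3_eq A hA, uuv3_eq B hB, psiv3_eq A hA, psiv3_eq B hB,
    fv3_eq A hA, fv3_eq B hB, gv3_eq A hA, gv3_eq B hB, onev3_eq A hA, onev3_eq B hB] at key
  push_cast at key
  linear_combination (1 / 92980917360000) * key

end Vale.Agent.P154
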