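import Vale.Agent.P154.Min3
import Vale.Agent.P154.Con3
import Vale.Agent.P154.Fin3
import Vale.Agent.P154.Bridge

/-! The certificate for q = 3 (helper file). -/

set_option linter.unusedSimpArgs false
set_option linter.unreachableTactic false
set_option linter.unusedTactic false

namespace Vale.Agent.P154.Q3

open Finset Vale.Agent.P154

theorem vvec_eq (y : Fin 3 → ℝ) : D3.exps.map (fun ex => Refl.mon ex (Refl.E3 y)) = vvec3 y := by
  simp [D3.exps, Refl.mon, Refl.E3, vvec3, s31, s32, s33, mul_assoc]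

theorem sumq {y : Fin 3 → ℝ} (h : Norm 3 y) : y 0 + y 1 + y 2 = 3 := by
  have := h.2
  rw [Fin.sum_univ_three] at this
  push_cast at this
  exact this

theorem sumq' {y : Fin 3 → ℝ} (h : Norm 3 y) : ∑ i, y i = 3 := by
  have := h.2
  push_cast at this
  exact this

theorem f_nonneg (y : Fin 3 → ℝ) (h : Norm 3 y) : 0 ≤ f y := by
  have h1 := Checks.f3 y h.1
  simp only [Refl.PV, Refl.pvs, Refl.mon, D3.tsf, Refl.E3, if_true, Bool.false_eq_true,
    if_false, Refl.hor, sumq h] at h1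
  rw [f_eq y (sumq' h)]
  unfold fE E2 E3
  generalize y 0 * y 1 + y 0 * y 2 + y 1 * y 2 = e2 at h1 ⊢
  generalize y 0 * y 1 * y 2 = e3 at h1 ⊢
  norm_num at h1
  linarith

theorem g_nonneg (y : Fin 3 → ℝ) (h : Norm 3 y) : 0 ≤ g y := by
  have h1 := Checks.g3 y h.1
  simp only [Refl.PV, Refl.pvs, Refl.mon, D3.tsg, Refl.E3, if_true, Bool.false_eq_true,
    if_false, Refl.hor, sumq h] at h1
  rw [g_eq y (sumq' h)]
  unfold gE E2 E3
  generalize y 0 * y 1 + y 0 * y 2 + y 1 * y 2 = e2 at h1 ⊢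
  generalize y 0 * y 1 * y 2 = e3 at h1 ⊢
  norm_num at h1
  linarith

theorem pv_A (y : Fin 3 → ℝ) (h : Norm 3 y) (D : ℝ) :
    Refl.PV D3.tsA D (Refl.E3 y) = 64800 * Qa D (E2 y) (E3 y) := by
  simp only [Refl.PV, Refl.pvs, Refl.mon, D3.tsA, Refl.E3, if_true, Bool.false_eq_true,
    if_false, Refl.hor, sumq h]
  unfold Qa E2 E3
  generalize y 0 * y 1 + y 0 * y 2 + y 1 * y 2 = e2
  generalize y 0 * y 1 * y 2 = e3
  push_cast
  ring

theorem qaPos : QaPos := by
  intro y h D h0 h1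
  have hu : D ≤ 3 - 2 * E2 y := by
    rw [u_eq y (sumq' h)] at h1
    linarith
  have hs := sumq h
  have hE : 0 ≤ E2 y := E2_nonneg h.1
  have h2 := Checks.A3 y h.1 D h0 (by linarith) (by
    simp only [Refl.E3, List.getD_cons_zero, List.getD_cons_succ, hs]
    unfold E2 at hu
    linarith) (by
    simp only [Refl.E3, List.getD_cons_zero, hs]
    norm_num)
  rw [pv_A y h D] at h2
  linarith

theorem psi_br (y : Fin 3 → ℝ) (h : Norm 3 y) : psix3 y = psi y := by
  rw [psi_eq y (sumq' h)]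
  simp only [psix3, psi3, psiE, E2, E3, s31, s32, s33] <;> ring

theorem f_br (y : Fin 3 → ℝ) (h : Norm 3 y) : fx3 y = f y := by
  rw [f_eq y (sumq' h)]
  simp only [fx3, f3, fE, E2, E3, s31, s32, s33] <;> ring

theorem g_br (y : Fin 3 → ℝ) (h : Norm 3 y) : gx3 y = g y := by
  rw [g_eq y (sumq' h)]
  simp only [gx3, g3, gE, E2, E3, s31, s32, s33] <;> ring

theorem u_br (y : Fin 3 → ℝ) (h : Norm 3 y) : ux3 y = uFn 3 y := by
  rw [u_eq y (sumq' h)]
  simp only [ux3, u3, E2, E3, s31, s32, s33] <;> ring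

theorem LU_br (x : Fin 3 → ℝ) : LUx3 x = LU (mass x) (E2 x) := by
  simp only [LUx3, LU3, LU, mD, mass, E2, s31, s32, Fin.sum_univ_three]
  push_cast
  ring

theorem LP_br (x : Fin 3 → ℝ) : LPx3 x = LP (mass x) (E2 x) (E3 x) := by
  have h1 : mass x = s31 x / 3 := by
    simp only [mass, s31, Fin.sum_univ_three]
    push_cast
    ring
  have h2 : E2 x = s32 x / 3 := by
    simp only [E2, s32]
  have h3 : E3 x = s33 x := by
    simp only [E3, s33]
  rw [h1, h2, h3]
  simp only [LPx3, LP3, LP] <;> ring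

theorem hU (A B : Fin 3 → ℝ) (hA : Norm 3 A) (hB : Norm 3 B) :
    kern 3 (uFn 3) A B ≤ uFn 3 A + uFn 3 B - (psi A * f B + f A * psi B) -
      (1 / 50) * (uFn 3 A * uFn 3 B * (uFn 3 A + uFn 3 B)) := by
  have h1 := kern_U hA hB
  have h2 := finU3 A B (by unfold s31; exact sumq hA) (by unfold s31; exact sumq hB)
  have h3 := Checks.U3 A B hA.1 hB.1
  unfold Refl.biv at h3
  rw [vvec_eq, vvec_eq, ← bil_refl, ← bil_refl] at h3
  rw [psi_br A hA, psi_br B hB, f_br A hA, f_br B hB, u_br A hA, u_br B hB] at h2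
  simp only [LU_br] at h2
  have h4 : ∀ p : Equiv.Perm (Fin 3), (fun i => A i * B (p i)) = pr A B p := fun p => rfl
  simp only [h4] at h2
  linarith

theorem hP (A B : Fin 3 → ℝ) (hA : Norm 3 A) (hB : Norm 3 B) :
    psi A * g B + g A * psi B ≤ kern 3 psi A B := by
  have h1 := kern_P qaPos hA hB
  have h2 := finP3 A B (by unfold s31; exact sumq hA) (by unfold s31; exact sumq hB)
  have h3 := Checks.P3 A B hA.1 hB.1
  unfold Refl.biv at h3
  rw [vvec_eq, vvec_eq, ← bil_refl, ← bil_refl] at h3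
  rw [psi_br A hA, psi_br B hB, g_br A hA, g_br B hB] at h2
  simp only [LP_br] at h2
  have h4 : ∀ p : Equiv.Perm (Fin 3), (fun i => A i * B (p i)) = pr A B p := fun p => rfl
  simp only [h4] at h2
  linarith

/-- the certificate -/
noncomputable def cert : Cert 3 where
  psi := psi
  f := f
  g := g
  t := (1 / 50)
  t_pos := by norm_num
  cf := 0
  cg := 0
  cf_nonneg := le_rfl
  cg_nonneg := le_rfl
  hf := fun A hA => by rw [zero_mul]; exact f_nonneg A hA
  hg := fun A hA => by rw [zero_mul]; exact g_nonneg A hA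
  psi_one := psi_one
  psi_vertex := psi_vertex
  psi_perm := psi_inv
  f_perm := f_inv
  g_perm := g_inv
  psi_contr := contr
  hU := hU
  hP := hP

end Vale.Agent.P154.Q3
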