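import Vale.Agent.P154.Pt4

/-! Behaviour of the functional `psi` under the channel, q = 4. -/

namespace Vale.Agent.P154.Q4

open Finset

noncomputable def H4 (u x : ℝ) : ℝ := (177 / 500) * x + (221 / 1000) * u ^ 2
noncomputable def H5 (u w : ℝ) : ℝ := -(419 / 1000) * u * w
noncomputable def H6 (u w x : ℝ) : ℝ := (2 / 125) * w ^ 2 + (109 / 1000) * u * x - (7 / 40) * u ^ 3

/-- the three positivity statements used for the contraction -/
def HPos : Prop := ∀ y : Fin 4 → ℝ, Norm 4 y →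
  0 ≤ H4 (uFn 4 y) (x y) + H5 (uFn 4 y) (w y) + H6 (uFn 4 y) (w y) (x y) ∧
  0 ≤ H4 (uFn 4 y) (x y) + (3 / 2) * H5 (uFn 4 y) (w y) + (3 / 2) * H6 (uFn 4 y) (w y) (x y) ∧
  0 ≤ H4 (uFn 4 y) (x y) + 2 * H5 (uFn 4 y) (w y) + 3 * H6 (uFn 4 y) (w y) (x y)

theorem u_sc (A : Fin 4 → ℝ) (lam : ℝ) : uFn 4 (fun i => 1 + lam * (A i - 1)) = lam ^ 2 * uFn 4 A := by
  unfold uFn
  rw [Finset.mul_sum, Finset.mul_sum, Finset.mul_sum]
  exact Finset.sum_congr rfl fun i _ => by ring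

theorem w_sc (A : Fin 4 → ℝ) (lam : ℝ) : w (fun i => 1 + lam * (A i - 1)) = lam ^ 3 * w A := by
  unfold w
  rw [Finset.mul_sum, Finset.mul_sum, Finset.mul_sum]
  exact Finset.sum_congr rfl fun i _ => by ring

theorem x_sc (A : Fin 4 → ℝ) (lam : ℝ) : x (fun i => 1 + lam * (A i - 1)) = lam ^ 4 * x A := by
  unfold x
  rw [Finset.mul_sum, Finset.mul_sum, Finset.mul_sum]
  exact Finset.sum_congr rfl fun i _ => by ring

theorem contr (hH : HPos) (A : Fin 4 → ℝ) (hA : Norm 4 A) (lam : ℝ) (h0 : 0 ≤ lam) (h1 : lam ≤ 1) :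
    lam ^ 3 * psi A ≤ psi (fun i => 1 + lam * (A i - 1)) := by
  obtain ⟨a, b, c⟩ := hH A hA
  unfold psi
  rw [u_sc, w_sc, x_sc]
  set U := uFn 4 A
  set W := w A
  set X := x A
  have key : psiU (lam ^ 2 * U) (lam ^ 3 * W) (lam ^ 4 * X) - lam ^ 3 * psiU U W X =
      lam ^ 3 * (1 - lam) * ((1 - lam) ^ 2 * (H4 U X + H5 U W + H6 U W X) +
        2 * lam * (1 - lam) * (H4 U X + (3 / 2) * H5 U W + (3 / 2) * H6 U W X) +
        lam ^ 2 * (H4 U X + 2 * H5 U W + 3 * H6 U W X)) := by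
    simp only [psiU, H4, H5, H6]
    ring
  have h2 : 0 ≤ 1 - lam := by linarith
  have : 0 ≤ lam ^ 3 * (1 - lam) * ((1 - lam) ^ 2 * (H4 U X + H5 U W + H6 U W X) +
        2 * lam * (1 - lam) * (H4 U X + (3 / 2) * H5 U W + (3 / 2) * H6 U W X) +
        lam ^ 2 * (H4 U X + 2 * H5 U W + 3 * H6 U W X)) := by positivity
  linarith

theorem w_inv : Inv w := by
  intro s A
  unfold w
  congr 1
  exact Equiv.sum_comp s (fun i => (A i - 1) ^ 3)

theorem x_inv : Inv x := by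
  intro s A
  unfold x
  congr 1
  exact Equiv.sum_comp s (fun i => (A i - 1) ^ 4)

theorem psi_inv : Inv psi := by
  intro s A
  unfold psi
  rw [uFn_inv 4 s A, w_inv s A, x_inv s A]

theorem f_inv : Inv f := by
  intro s A
  unfold f
  rw [uFn_inv 4 s A, w_inv s A, x_inv s A]

theorem g_inv : Inv g := by
  intro s A
  unfold g
  rw [uFn_inv 4 s A, w_inv s A, x_inv s A]

theorem psi_one : 0 ≤ psi (fun _ => 1) := by
  norm_num [psi, psiU, uFn, w, x]

theorem psi_vertex (i : Fin 4) : 0 ≤ psi (fun j => if j = i then ((4 : ℕ) : ℝ) else 0) := by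
  fin_cases i <;> simp +decide [psi, psiU, uFn, w, x, Fin.sum_univ_four] <;> norm_num

end Vale.Agent.P154.Q4
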