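import Vale.Agent.P154.Cert

/-! Symmetry reductions for pointwise certificates. -/

namespace Vale.Agent.P154

open Finset

/-- invariance under permutation of coordinates -/
def Inv {q : ℕ} (phi : (Fin q → ℝ) → ℝ) : Prop :=
  ∀ (s : Equiv.Perm (Fin q)) A, phi (fun i => A (s i)) = phi A

theorem uFn_inv (q : ℕ) : Inv (uFn q) := by
  intro s A
  unfold uFn
  congr 1
  exact Equiv.sum_comp s (fun i => (A i - 1) ^ 2)

theorem exists_sorted {q : ℕ} (A : Fin q → ℝ) :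
    ∃ s : Equiv.Perm (Fin q), Antitone (fun i => A (s i)) := by
  refine ⟨Fin.revPerm.trans (Tuple.sort A), ?_⟩
  intro i j hij
  have := Tuple.monotone_sort A (Fin.rev_le_rev.mpr hij)
  simpa using this

theorem norm_perm {q : ℕ} {A : Fin q → ℝ} (h : Norm q A) (s : Equiv.Perm (Fin q)) :
    Norm q (fun i => A (s i)) :=
  ⟨fun i => h.1 _, by rw [Equiv.sum_comp s A]; exact h.2⟩

theorem kern_left {q : ℕ} {phi : (Fin q → ℝ) → ℝ} (hphi : Inv phi)
    (s : Equiv.Perm (Fin q)) (A B : Fin q → ℝ) :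
    kern q phi (fun i => A (s i)) B = kern q phi A B := by
  unfold kern
  congr 1
  rw [← Equiv.sum_comp (Equiv.mulRight s)]
  refine Finset.sum_congr rfl fun p _ => ?_
  have h1 : ∑ i, A (s i) * B ((Equiv.mulRight s p) i) = ∑ i, A i * B (p i) := by
    rw [← Equiv.sum_comp s (fun i => A i * B (p i))]
    rfl
  rw [h1]
  congr 1
  exact hphi s (fun i => A i * B (p i) / (1 / (q:ℝ) * ∑ k, A k * B (p k)))

theorem kern_right {q : ℕ} {phi : (Fin q → ℝ) → ℝ}
    (s : Equiv.Perm (Fin q)) (A B : Fin q → ℝ) :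
    kern q phi A (fun i => B (s i)) = kern q phi A B := by
  unfold kern
  congr 1
  rw [← Equiv.sum_comp (Equiv.mulLeft s⁻¹)]
  refine Finset.sum_congr rfl fun p _ => ?_
  simp

/-- power mean inequality used to bound the mass `D` of a product by the chi-square
function of the normalised product -/
theorem cube_le (q : ℕ) (A B : Fin q → ℝ) (hA : ∀ i, 0 ≤ A i) (hB : ∀ i, 0 ≤ B i)
    (sA : ∑ i, A i = q) (sB : ∑ i, B i = q) :
    (∑ i, A i * B i) ^ 3 ≤ (q:ℝ) ^ 2 * ∑ i, (A i * B i) ^ 2 := by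
  set z : Fin q → ℝ := fun i => Real.sqrt (A i * B i) with hz
  have hz0 : ∀ i, 0 ≤ z i := fun i => Real.sqrt_nonneg _
  have hz2 : ∀ i, z i ^ 2 = A i * B i := fun i => Real.sq_sqrt (mul_nonneg (hA i) (hB i))
  set S1 := ∑ i, z i with hS1
  set S2 := ∑ i, z i ^ 2 with hS2
  set S3 := ∑ i, z i ^ 3 with hS3
  set S4 := ∑ i, z i ^ 4 with hS4
  have e2 : ∑ i, A i * B i = S2 := by simp only [hS2, hz2]
  have e4 : ∑ i, (A i * B i) ^ 2 = S4 := by
    simp only [hS4]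
    refine Finset.sum_congr rfl fun i _ => ?_
    rw [← hz2 i]; ring
  rw [e2, e4]
  have n1 : 0 ≤ S1 := Finset.sum_nonneg fun i _ => hz0 i
  have n2 : 0 ≤ S2 := Finset.sum_nonneg fun i _ => by positivity
  have n3 : 0 ≤ S3 := Finset.sum_nonneg fun i _ => pow_nonneg (hz0 i) 3
  have n4 : 0 ≤ S4 := Finset.sum_nonneg fun i _ => by positivity
  have b1 : S1 ≤ q := by
    have : ∀ i, z i ≤ (A i + B i) / 2 := by
      intro i
      rw [hz]
      simp only
      rw [Real.sqrt_le_left (by have := hA i; have := hB i; linarith)]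
      nlinarith [sq_nonneg (A i - B i)]
    calc S1 ≤ ∑ i, (A i + B i) / 2 := Finset.sum_le_sum fun i _ => this i
      _ = q := by rw [← Finset.sum_div, Finset.sum_add_distrib, sA, sB]; ring
  have c1 : S2 ^ 2 ≤ S1 * S3 := by
    have := Finset.sum_mul_sq_le_sq_mul_sq Finset.univ (fun i => Real.sqrt (z i))
      (fun i => Real.sqrt (z i) ^ 3)
    have h1 : ∀ i, Real.sqrt (z i) * Real.sqrt (z i) ^ 3 = z i ^ 2 := by
      intro i
      have := Real.sq_sqrt (hz0 i)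
      calc Real.sqrt (z i) * Real.sqrt (z i) ^ 3 = (Real.sqrt (z i) ^ 2) ^ 2 := by ring
        _ = z i ^ 2 := by rw [this]
    have h2 : ∀ i, Real.sqrt (z i) ^ 2 = z i := fun i => Real.sq_sqrt (hz0 i)
    have h3 : ∀ i, (Real.sqrt (z i) ^ 3) ^ 2 = z i ^ 3 := by
      intro i
      have := Real.sq_sqrt (hz0 i)
      calc (Real.sqrt (z i) ^ 3) ^ 2 = (Real.sqrt (z i) ^ 2) ^ 3 := by ring
        _ = z i ^ 3 := by rw [this]
    simp only [h1, h2, h3] at this
    exact this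
  have c2 : S3 ^ 2 ≤ S2 * S4 := by
    have := Finset.sum_mul_sq_le_sq_mul_sq Finset.univ (fun i => z i) (fun i => z i ^ 2)
    have h1 : ∀ i, z i * z i ^ 2 = z i ^ 3 := fun i => by ring
    have h3 : ∀ i, (z i ^ 2) ^ 2 = z i ^ 4 := fun i => by ring
    simp only [h1, h3] at this
    exact this
  rcases n2.eq_or_lt with h | h
  · rw [← h]
    simp only [ne_eq, OfNat.ofNat_ne_zero, not_false_eq_true, zero_pow]
    positivity
  · have k1 : S2 ^ 4 ≤ S1 ^ 2 * S3 ^ 2 := by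
      calc S2 ^ 4 = (S2 ^ 2) ^ 2 := by ring
        _ ≤ (S1 * S3) ^ 2 := by gcongr
        _ = S1 ^ 2 * S3 ^ 2 := by ring
    have k2 : S2 ^ 4 ≤ S1 ^ 2 * (S2 * S4) :=
      k1.trans (mul_le_mul_of_nonneg_left c2 (by positivity))
    have k3 : S2 * S2 ^ 3 ≤ S2 * (S1 ^ 2 * S4) := by
      calc S2 * S2 ^ 3 = S2 ^ 4 := by ring
        _ ≤ _ := k2
        _ = S2 * (S1 ^ 2 * S4) := by ring
    have k4 : S2 ^ 3 ≤ S1 ^ 2 * S4 := le_of_mul_le_mul_left k3 h
    refine k4.trans (mul_le_mul_of_nonneg_right ?_ n4)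
    gcongr

theorem norm_le {q : ℕ} {A : Fin q → ℝ} (h : Norm q A) (i : Fin q) : A i ≤ q := by
  rw [← h.2]
  exact Finset.single_le_sum (fun j _ => h.1 j) (Finset.mem_univ i)

theorem mass_nonneg {q : ℕ} {A B : Fin q → ℝ} (hA : Norm q A) (hB : Norm q B) :
    0 ≤ (1 / (q:ℝ)) * ∑ i, A i * B i :=
  mul_nonneg (by positivity) (Finset.sum_nonneg fun i _ => mul_nonneg (hA.1 i) (hB.1 i))

theorem mass_le {q : ℕ} (hq : 0 < q) {A B : Fin q → ℝ} (hA : Norm q A) (hB : Norm q B) :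
    (1 / (q:ℝ)) * ∑ i, A i * B i ≤ q := by
  have hq' : (0:ℝ) < q := by exact_mod_cast hq
  have h1 : ∑ i, A i * B i ≤ ∑ i, A i * (q:ℝ) :=
    Finset.sum_le_sum fun i _ => mul_le_mul_of_nonneg_left (norm_le hB i) (hA.1 i)
  rw [← Finset.sum_mul, hA.2] at h1
  calc (1 / (q:ℝ)) * ∑ i, A i * B i ≤ (1 / (q:ℝ)) * (q * q) :=
        mul_le_mul_of_nonneg_left h1 (by positivity)
    _ = q := by field_simp

theorem norm_div {q : ℕ} (hq : 0 < q) {x : Fin q → ℝ} (hx : ∀ i, 0 ≤ x i)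
    (hD : 0 < (1 / (q:ℝ)) * ∑ i, x i) :
    Norm q (fun i => x i / ((1 / (q:ℝ)) * ∑ k, x k)) := by
  have hq' : (0:ℝ) < q := by exact_mod_cast hq
  refine ⟨fun i => div_nonneg (hx i) hD.le, ?_⟩
  rw [← Finset.sum_div, div_eq_iff hD.ne']
  field_simp

theorem mass_le_u {q : ℕ} (hq : 0 < q) {A B : Fin q → ℝ} (hA : Norm q A) (hB : Norm q B)
    (hD : 0 < (1 / (q:ℝ)) * ∑ i, A i * B i) :
    (1 / (q:ℝ)) * ∑ i, A i * B i ≤
      1 + uFn q (fun i => A i * B i / ((1 / (q:ℝ)) * ∑ k, A k * B k)) := by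
  have hq' : (0:ℝ) < q := by exact_mod_cast hq
  have hc := cube_le q A B hA.1 hB.1 hA.2 hB.2
  set D := (1 / (q:ℝ)) * ∑ i, A i * B i with hDdef
  have hn := norm_div hq (x := fun i => A i * B i) (fun i => mul_nonneg (hA.1 i) (hB.1 i)) hD
  have hsum : ∑ i, A i * B i = q * D := by rw [hDdef]; field_simp
  have hu : uFn q (fun i => A i * B i / D) =
      (1 / q) * ((∑ i, (A i * B i) ^ 2) / D ^ 2) - 1 := by
    unfold uFn
    have h1 : ∀ i, (A i * B i / D - 1) ^ 2 =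
        (A i * B i) ^ 2 / D ^ 2 - 2 * (A i * B i / D) + 1 := by
      intro i
      field_simp
      ring
    simp only [h1]
    rw [Finset.sum_add_distrib, Finset.sum_sub_distrib, ← Finset.sum_div, ← Finset.mul_sum]
    have h2 : ∑ i, A i * B i / D = q := hn.2
    rw [h2]
    simp only [Finset.sum_const, Finset.card_univ, Fintype.card_fin, nsmul_eq_mul, mul_one]
    field_simp
    ring
  rw [hu]
  rw [hsum] at hc
  have h3 : D * D ^ 2 ≤ (1 / q) * ∑ i, (A i * B i) ^ 2 := by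
    have : (q:ℝ) ^ 2 * ((q:ℝ) * D ^ 3) ≤ (q:ℝ) ^ 2 * ∑ i, (A i * B i) ^ 2 := by
      calc (q:ℝ) ^ 2 * ((q:ℝ) * D ^ 3) = (q * D) ^ 3 := by ring
        _ ≤ _ := hc
    have h4 := le_of_mul_le_mul_left this (by positivity)
    rw [one_div, ← div_eq_inv_mul, le_div_iff₀ hq']
    linarith
  have h5 : D ≤ (1 / q) * ((∑ i, (A i * B i) ^ 2) / D ^ 2) := by
    rw [← mul_div_assoc, le_div_iff₀ (by positivity)]
    exact h3
  linarith

end Vale.Agent.P154
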