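import Mathlib

namespace Vale.Agent.P154

open Filter Topology

/-- Transition matrix of the `q`-state Potts channel with nontrivial eigenvalue `lam`. -/
noncomputable def potts (q : ℕ) (lam : ℝ) (i j : Fin q) : ℝ :=
  lam * (if i = j then 1 else 0) + (1 - lam) / q

/-- Finite rooted (ordered) trees cut at height `n`: every vertex at distance less than `n`
from the root has an arbitrary finite number of children. -/
def Tree : ℕ → Type
  | 0 => Unit
  | n + 1 => Σ k : ℕ, (Fin k → Tree n)

/-- Assignments of a spin in `Fin q` to every vertex at distance exactly `n` from the root. -/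
def Bdry (q : ℕ) : (n : ℕ) → Tree n → Type
  | 0, _ => Fin q
  | n + 1, T => ∀ c : Fin T.1, Bdry q n (T.2 c)

noncomputable instance instFintypeBdry (q : ℕ) : (n : ℕ) → (T : Tree n) → Fintype (Bdry q n T)
  | 0, _ => inferInstanceAs (Fintype (Fin q))
  | n + 1, T =>
    haveI : ∀ c : Fin T.1, Fintype (Bdry q n (T.2 c)) := fun c => instFintypeBdry q n (T.2 c)
    inferInstanceAs (Fintype (∀ c : Fin T.1, Bdry q n (T.2 c)))

/-- Probability that the spins at level `n` are `s` when the root spin is `i`. -/
noncomputable def like (q : ℕ) (lam : ℝ) : (n : ℕ) → (T : Tree n) → Fin q → Bdry q n T → ℝ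
  | 0, _, i, s => if (show Fin q from s) = i then 1 else 0
  | n + 1, T, i, s => ∏ c : Fin T.1, ∑ j : Fin q, potts q lam i j * like q lam n (T.2 c) j (s c)

/-- Probability that the spins at level `n` are `s` (uniform root spin). -/
noncomputable def prob (q : ℕ) (lam : ℝ) (n : ℕ) (T : Tree n) (s : Bdry q n T) : ℝ :=
  (1 / q) * ∑ i : Fin q, like q lam n T i s

/-- Conditional probability that the root spin is `i` given that the spins at level `n` are `s`. -/
noncomputable def post (q : ℕ) (lam : ℝ) (n : ℕ) (T : Tree n) (i : Fin q) (s : Bdry q n T) : ℝ :=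
  (1 / q) * like q lam n T i s / prob q lam n T s

/-- Expected total variation distance between the posterior law of the root spin and the uniform
law, on the fixed tree `T`. -/
noncomputable def adv (q : ℕ) (lam : ℝ) (n : ℕ) (T : Tree n) : ℝ :=
  ∑ s : Bdry q n T, prob q lam n T s * ((1 / 2) * ∑ i : Fin q, |post q lam n T i s - 1 / q|)

/-- The `d`-ary tree cut at height `n`. -/
def dary (d : ℕ) : (n : ℕ) → Tree n
  | 0 => ()
  | n + 1 => ⟨d, fun _ => dary d n⟩

/-- Probability of the tree `T` under the Galton-Watson law with Poisson(`d`) offspring. -/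
noncomputable def gwProb (d : ℝ) : (n : ℕ) → Tree n → ℝ
  | 0, _ => 1
  | n + 1, T => Real.exp (-d) * d ^ T.1 / (T.1).factorial * ∏ c : Fin T.1, gwProb d n (T.2 c)

/-- The quantity `a_n` for the `d`-ary tree. -/
noncomputable def aReg (q : ℕ) (d : ℕ) (lam : ℝ) (n : ℕ) : ℝ := adv q lam n (dary d n)

/-- The quantity `a_n` for the Galton-Watson tree with Poisson(`d`) offspring. -/
noncomputable def aGW (q : ℕ) (d : ℝ) (lam : ℝ) (n : ℕ) : ℝ :=
  ∑' T : Tree n, gwProb d n T * adv q lam n T

/-- Reconstruction: the limit of `a_n` exists and is positive. -/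
def Reconstruction (a : ℕ → ℝ) : Prop := ∃ L : ℝ, 0 < L ∧ Tendsto a atTop (𝓝 L)

/-- Nonreconstruction: `a_n` tends to zero. -/
def Nonreconstruction (a : ℕ → ℝ) : Prop := Tendsto a atTop (𝓝 0)

end Vale.Agent.P154
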