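import Vale.Agent.P154.Refl

/-! Fast comparison of bilinear combinations: digits, rows, products (helper file). -/

namespace Vale.Agent.P154.FP

open Finset Vale.Agent.P154.Refl

/-! ### digits of polynomials -/

/-- sum of the coefficients with Kronecker exponent `t` -/
noncomputable def dg {n : ℕ} (d : ℕ) (p : MvPolynomial (Fin n) ℕ) (t : ℕ) : ℕ :=
  ∑ m ∈ p.support with kap d m = t, p.coeff m

theorem dg_packed {n : ℕ} {p : MvPolynomial (Fin n) ℕ} {k d : ℕ}
    (hd : ∀ m ∈ p.support, ∀ i, m i ≤ d) :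
    MvPolynomial.eval (fun i : Fin n => (2 ^ k) ^ ((d + 1) ^ (i : ℕ))) p =
      ∑ t ∈ range ((d + 1) ^ n), dg d p t * (2 ^ k) ^ t :=
  eval_packed hd

theorem dg_le {n : ℕ} (p : MvPolynomial (Fin n) ℕ) (d t : ℕ) :
    dg d p t ≤ MvPolynomial.eval (fun _ => 1) p :=
  Nat.le_of_lt_succ (coeff_sum_lt (Nat.lt_succ_self _) d t)

theorem dg_value {n : ℕ} {p : MvPolynomial (Fin n) ℕ} {d : ℕ}
    (hdp : ∀ m ∈ p.support, ∀ i, m i ≤ d) (x : Fin n → ℝ) :
    MvPolynomial.aeval x p = ∑ t ∈ range ((d + 1) ^ n), (dg d p t : ℝ) * kmon d x t := by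
  rw [MvPolynomial.aeval_def, MvPolynomial.eval₂_eq']
  have hmap : ∀ m ∈ p.support, kap d m ∈ range ((d + 1) ^ n) := by
    intro m hm
    rw [mem_range]
    exact kap_lt (hdp m hm)
  rw [← sum_fiberwise_of_maps_to hmap]
  apply sum_congr rfl
  intro t ht
  unfold dg
  push_cast
  rw [sum_mul]
  apply sum_congr rfl
  intro m hm
  rw [mem_filter] at hm
  congr 1
  unfold kmon
  apply prod_congr rfl
  intro i _
  rw [← hm.2, kap_digit (hdp m hm.1) i]

/-! ### regrouping -/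

theorem sum_regroup {M : Type} [AddCommMonoid M] (m : ℕ) (f : ℕ → M) : ∀ R : ℕ,
    ∑ t ∈ range (m * R), f t = ∑ s ∈ range R, ∑ i ∈ range m, f (i + m * s) := by
  intro R
  induction R with
  | zero => simp
  | succ R ih =>
    rw [Nat.mul_succ, sum_range_add, ih, sum_range_succ]
    congr 1
    apply sum_congr rfl
    intro i _
    rw [add_comm]

theorem digit_sum_lt {z : ℕ} (e : ℕ → ℕ) (he : ∀ t, e t < z) : ∀ m : ℕ,
    ∑ i ∈ range m, e i * z ^ i < z ^ m := by
  intro m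
  induction m with
  | zero => simp
  | succ m ih =>
    rw [sum_range_succ, pow_succ]
    have h1 : e m * z ^ m ≤ (z - 1) * z ^ m :=
      Nat.mul_le_mul_right _ (by have := he m; omega)
    have h2 : (z - 1) * z ^ m + z ^ m = z ^ m * z := by
      have hz : 1 ≤ z := by have := he m; omega
      obtain ⟨w, rfl⟩ : ∃ w, z = w + 1 := ⟨z - 1, by omega⟩
      simp only [Nat.add_sub_cancel]
      ring
    omega

theorem row_eq {k m R : ℕ} (e : ℕ → ℕ) (he : ∀ t, e t < 2 ^ k) {s : ℕ} (hs : s < R) :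
    (∑ t ∈ range (m * R), e t * (2 ^ k) ^ t) / 2 ^ (k * m * s) % 2 ^ (k * m) =
      ∑ i ∈ range m, e (i + m * s) * (2 ^ k) ^ i := by
  rw [sum_regroup]
  have h1 : ∀ s ∈ range R, ∑ i ∈ range m, e (i + m * s) * (2 ^ k) ^ (i + m * s) =
      (∑ i ∈ range m, e (i + m * s) * (2 ^ k) ^ i) * (2 ^ (k * m)) ^ s := by
    intro s _
    rw [sum_mul]
    apply sum_congr rfl
    intro i _
    rw [mul_assoc, ← pow_mul, ← pow_mul, ← pow_mul, ← pow_add]
    congr 2
    ring
  rw [sum_congr rfl h1]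
  have h2 : 2 ^ (k * m * s) = (2 ^ (k * m)) ^ s := by rw [← pow_mul]
  rw [h2]
  refine sum_div_mod (by positivity) R (fun s => ∑ i ∈ range m, e (i + m * s) * (2 ^ k) ^ i) ?_ s hs
  intro t
  rw [pow_mul]
  exact digit_sum_lt (fun i => e (i + m * t)) (fun i => he _) m

theorem prod_eq {z m U : ℕ} (hm : 0 < m) (r b : ℕ → ℕ) :
    (∑ i ∈ range m, r i * z ^ i) * (∑ u ∈ range U, b u * (z ^ m) ^ u) =
      ∑ t ∈ range (m * U), r (t % m) * b (t / m) * z ^ t := by
  rw [sum_regroup, sum_mul_sum, sum_comm]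
  apply sum_congr rfl
  intro u _
  apply sum_congr rfl
  intro i hi
  rw [mem_range] at hi
  have h1 : (i + m * u) % m = i := by
    rw [Nat.add_mul_mod_self_left]
    exact Nat.mod_eq_of_lt hi
  have h2 : (i + m * u) / m = u := by
    rw [Nat.add_mul_div_left _ _ hm, Nat.div_eq_of_lt hi, zero_add]
  rw [h1, h2, pow_add, pow_mul]
  ring

/-! ### lists -/

/-- sum of products -/
def dot {α : Type} [CommSemiring α] : List α → List α → α
  | a :: as, b :: bs => a * b + dot as bs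
  | _, _ => 0

/-- rows of the first list against the second list -/
def rdot (R sh : ℕ) : List ℕ → List ℕ → ℕ
  | c :: cs, b :: bs => c / sh % R * b + rdot R sh cs bs
  | _, _ => 0

/-- digits of a sum of products -/
noncomputable def cdot {n n' : ℕ} (d : ℕ) :
    List (MvPolynomial (Fin n) ℕ) → List (MvPolynomial (Fin n') ℕ) → ℕ → ℕ → ℕ
  | c :: cs, b :: bs, t, u => dg d c t * dg d b u + cdot d cs bs t u
  | _, _, _, _ => 0

/-- degree bound -/
def DB {n : ℕ} (d : ℕ) (p : MvPolynomial (Fin n) ℕ) : Prop := ∀ m ∈ p.support, ∀ i, m i ≤ d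

/-- packed value -/
noncomputable def pk {n : ℕ} (k d : ℕ) (p : MvPolynomial (Fin n) ℕ) : ℕ :=
  MvPolynomial.eval (fun i : Fin n => (2 ^ k) ^ ((d + 1) ^ (i : ℕ))) p

/-- value at ones -/
noncomputable def on {n : ℕ} (p : MvPolynomial (Fin n) ℕ) : ℕ := MvPolynomial.eval (fun _ => 1) p

theorem cdot_le {n n' : ℕ} (d t u : ℕ) : ∀ (cs : List (MvPolynomial (Fin n) ℕ))
    (bs : List (MvPolynomial (Fin n') ℕ)), cdot d cs bs t u ≤ dot (cs.map on) (bs.map on)
  | [], _ => by simp [cdot, dot]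
  | _ :: _, [] => by simp [cdot, dot]
  | c :: cs, b :: bs => by
    simp only [cdot, dot, List.map_cons]
    exact add_le_add (Nat.mul_le_mul (dg_le c d t) (dg_le b d u)) (cdot_le d t u cs bs)

theorem dot_value {n n' : ℕ} {d : ℕ} (x : Fin n → ℝ) (y : Fin n' → ℝ) :
    ∀ (cs : List (MvPolynomial (Fin n) ℕ)) (bs : List (MvPolynomial (Fin n') ℕ)),
      (∀ c ∈ cs, DB d c) → (∀ b ∈ bs, DB d b) →
      dot (cs.map (MvPolynomial.aeval x)) (bs.map (MvPolynomial.aeval y)) =
        ∑ t ∈ range ((d + 1) ^ n), ∑ u ∈ range ((d + 1) ^ n'),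
          (cdot d cs bs t u : ℝ) * (kmon d x t * kmon d y u)
  | [], _, _, _ => by simp [cdot, dot]
  | _ :: _, [], _, _ => by simp [cdot, dot]
  | c :: cs, b :: bs, hc, hb => by
    simp only [cdot, dot, List.map_cons]
    rw [dot_value x y cs bs (fun e he => hc e (List.mem_cons_of_mem _ he))
      (fun e he => hb e (List.mem_cons_of_mem _ he)),
      dg_value (hc c List.mem_cons_self) x, dg_value (hb b List.mem_cons_self) y, sum_mul_sum,
      ← sum_add_distrib]
    apply sum_congr rfl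
    intro t _
    rw [← sum_add_distrib]
    apply sum_congr rfl
    intro u _
    push_cast
    ring

/-- one row of one product -/
theorem row_prod {r n' k d s : ℕ} {c : MvPolynomial (Fin (r + 1)) ℕ}
    {b : MvPolynomial (Fin n') ℕ} (hc : DB d c) (hb : DB d b) (h1 : on c < 2 ^ k)
    (hs : s < (d + 1) ^ r) :
    pk k d c / 2 ^ (k * (d + 1) * s) % 2 ^ (k * (d + 1)) * pk (k * (d + 1)) d b =
      ∑ t ∈ range ((d + 1) * (d + 1) ^ n'),
        (dg d c (t % (d + 1) + (d + 1) * s) * dg d b (t / (d + 1))) * (2 ^ k) ^ t := by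
  have e1 : pk k d c = ∑ t ∈ range ((d + 1) * (d + 1) ^ r), dg d c t * (2 ^ k) ^ t := by
    unfold pk
    rw [dg_packed hc, pow_succ']
  have e2 : pk (k * (d + 1)) d b = ∑ u ∈ range ((d + 1) ^ n'), dg d b u * ((2 ^ k) ^ (d + 1)) ^ u := by
    unfold pk
    rw [dg_packed hb]
    apply sum_congr rfl
    intro u _
    rw [← pow_mul 2 k (d + 1)]
  rw [e1, e2, row_eq _ (fun t => lt_of_le_of_lt (dg_le c d t) h1) hs,
    prod_eq (Nat.succ_pos d) (fun i => dg d c (i + (d + 1) * s)) (fun u => dg d b u)]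

/-- one row of a sum of products -/
theorem rdot_eq {r n' k d s : ℕ} (hs : s < (d + 1) ^ r) :
    ∀ (cs : List (MvPolynomial (Fin (r + 1)) ℕ)) (bs : List (MvPolynomial (Fin n') ℕ)),
      (∀ c ∈ cs, DB d c) → (∀ b ∈ bs, DB d b) → (∀ c ∈ cs, on c < 2 ^ k) →
      rdot (2 ^ (k * (d + 1))) (2 ^ (k * (d + 1) * s)) (cs.map (pk k d))
          (bs.map (pk (k * (d + 1)) d)) =
        ∑ t ∈ range ((d + 1) * (d + 1) ^ n'),
          cdot d cs bs (t % (d + 1) + (d + 1) * s) (t / (d + 1)) * (2 ^ k) ^ t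
  | [], _, _, _, _ => by simp [cdot, rdot]
  | _ :: _, [], _, _, _ => by simp [cdot, rdot]
  | c :: cs, b :: bs, hc, hb, h1 => by
    simp only [List.map_cons, rdot, cdot]
    rw [row_prod (hc c List.mem_cons_self) (hb b List.mem_cons_self) (h1 c List.mem_cons_self) hs,
      rdot_eq hs cs bs (fun e he => hc e (List.mem_cons_of_mem _ he))
        (fun e he => hb e (List.mem_cons_of_mem _ he))
        (fun e he => h1 e (List.mem_cons_of_mem _ he)), ← sum_add_distrib]
    apply sum_congr rfl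
    intro t _
    ring

/-- the comparison of digits, all rows -/
theorem rows_sound {r n' k d : ℕ} (hk : 1 ≤ k) {q : MvPolynomial (Fin (r + 1)) ℕ}
    {S : MvPolynomial (Fin n') ℕ}
    {cs : List (MvPolynomial (Fin (r + 1)) ℕ)} {bs : List (MvPolynomial (Fin n') ℕ)}
    (hq : DB d q) (hS : DB d S) (hcs : ∀ c ∈ cs, DB d c) (hbs : ∀ b ∈ bs, DB d b)
    (hq1 : on q < 2 ^ k) (hc1 : ∀ c ∈ cs, on c < 2 ^ k)
    (hqS : on q * on S < 2 ^ (k - 1)) (hcb : dot (cs.map on) (bs.map on) < 2 ^ (k - 1))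
    (h : ∀ s < (d + 1) ^ r, digLE k ((d + 1) * (d + 1) ^ n')
      (pk k d q / 2 ^ (k * (d + 1) * s) % 2 ^ (k * (d + 1)) * pk (k * (d + 1)) d S)
      (rdot (2 ^ (k * (d + 1))) (2 ^ (k * (d + 1) * s)) (cs.map (pk k d))
        (bs.map (pk (k * (d + 1)) d))) = true)
    (x : Fin (r + 1) → ℝ) (y : Fin n' → ℝ) (hx : ∀ i, 0 ≤ x i) (hy : ∀ i, 0 ≤ y i) :
    MvPolynomial.aeval x q * MvPolynomial.aeval y S ≤
      dot (cs.map (MvPolynomial.aeval x)) (bs.map (MvPolynomial.aeval y)) := by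
  rw [dot_value x y cs bs hcs hbs, dg_value hq x, dg_value hS y, sum_mul_sum]
  apply sum_le_sum
  intro t ht
  apply sum_le_sum
  intro u hu
  rw [mem_range] at ht hu
  have hkm : ∀ {n : ℕ} (z : Fin n → ℝ), (∀ i, 0 ≤ z i) → ∀ t, 0 ≤ kmon d z t := by
    intro n z hz t
    unfold kmon
    exact prod_nonneg fun i _ => pow_nonneg (hz i) _
  have key : dg d q t * dg d S u ≤ cdot d cs bs t u := by
    have hd : 0 < d + 1 := Nat.succ_pos d
    set s := t / (d + 1) with hs
    set i := t % (d + 1) with hi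
    have hsl : s < (d + 1) ^ r := by
      rw [hs, Nat.div_lt_iff_lt_mul hd, ← pow_succ]
      exact ht
    have htt : i + (d + 1) * s = t := Nat.mod_add_div t (d + 1)
    have hil : i < d + 1 := Nat.mod_lt _ hd
    have hT : i + (d + 1) * u < (d + 1) * (d + 1) ^ n' := by
      calc i + (d + 1) * u < (d + 1) + (d + 1) * u := by omega
        _ = (d + 1) * (u + 1) := by ring
        _ ≤ _ := Nat.mul_le_mul_left _ hu
    have hh := h s hsl
    rw [row_prod hq hS hq1 hsl, rdot_eq hsl cs bs hcs hbs hc1] at hh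
    have h3 := digLE_sound hk _
      (fun T => dg d q (T % (d + 1) + (d + 1) * s) * dg d S (T / (d + 1)))
      (fun T => cdot d cs bs (T % (d + 1) + (d + 1) * s) (T / (d + 1)))
      (fun T => lt_of_le_of_lt (Nat.mul_le_mul (dg_le q d _) (dg_le S d _)) hqS)
      (fun T => lt_of_le_of_lt (cdot_le d _ _ cs bs) hcb) hh hT
    have e1 : (i + (d + 1) * u) % (d + 1) = i := by
      rw [Nat.add_mul_mod_self_left]
      exact Nat.mod_eq_of_lt hil
    have e2 : (i + (d + 1) * u) / (d + 1) = u := by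
      rw [Nat.add_mul_div_left _ _ hd, Nat.div_eq_of_lt hil, zero_add]
    simp only [e1, e2, htt] at h3
    exact h3
  have key' : (dg d q t : ℝ) * dg d S u ≤ (cdot d cs bs t u : ℝ) := by exact_mod_cast key
  calc (dg d q t : ℝ) * kmon d x t * ((dg d S u : ℝ) * kmon d y u)
      = (dg d q t : ℝ) * dg d S u * (kmon d x t * kmon d y u) := by ring
    _ ≤ _ := mul_le_mul_of_nonneg_right key' (mul_nonneg (hkm x hx t) (hkm y hy u))

end Vale.Agent.P154.FP
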