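import Vale.Agent.P154.FP1

/-! Families of polynomials on cells, leaf soundness, trees (helper file). -/

namespace Vale.Agent.P154.FP

open Finset Vale.Agent.P154.Refl

/-- a family of homogeneous polynomial expressions of degree `W` in `q` variables -/
structure Fam where
  q : ℕ
  W : ℕ
  G : ∀ (α : Type) [CommSemiring α], List α → List α
  nat : ∀ (α β : Type) [CommSemiring α] [CommSemiring β] (φ : α →+* β) (xs : List α),
    (G α xs).map φ = G β (xs.map φ)
  deg : ∀ (n : ℕ) (ys : List (MvPolynomial (Fin n) ℕ)), ys.length = q →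
    (∀ y ∈ ys, y.totalDegree ≤ 1) → ∀ z ∈ G _ ys, z.totalDegree ≤ W
  hom : ∀ (t : ℝ) (ys : List ℝ), ys.length = q →
    G ℝ (ys.map fun y => t * y) = (G ℝ ys).map fun z => t ^ W * z

/-- left side of the inequality -/
def lhs {α : Type} [CommSemiring α] (u v' : List ℕ) (w v : List α) : α := lin u w * lin v' v

/-- right side of the inequality -/
def rhs {α : Type} [CommSemiring α] (K : List (List ℕ)) (w v : List α) : α :=
  dot (K.map fun r => lin r w) v

theorem dot_nat {α β : Type} [CommSemiring α] [CommSemiring β] (φ : α →+* β) :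
    ∀ (as bs : List α), φ (dot as bs) = dot (as.map φ) (bs.map φ)
  | [], _ => by simp [dot]
  | _ :: _, [] => by simp [dot]
  | a :: as, b :: bs => by simp [dot, dot_nat φ as bs]

theorem lhs_nat {α β : Type} [CommSemiring α] [CommSemiring β] (φ : α →+* β) (u v' : List ℕ)
    (w v : List α) : φ (lhs u v' w v) = lhs u v' (w.map φ) (v.map φ) := by
  unfold lhs
  rw [map_mul, lin_nat, lin_nat]

theorem rhs_nat {α β : Type} [CommSemiring α] [CommSemiring β] (φ : α →+* β)
    (K : List (List ℕ)) (w v : List α) : φ (rhs K w v) = rhs K (w.map φ) (v.map φ) := by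
  unfold rhs
  rw [dot_nat, List.map_map]
  congr 1
  apply List.map_congr_left
  intro r _
  simp only [Function.comp]
  rw [lin_nat]

theorem dot_smul (s t : ℝ) : ∀ (as bs : List ℝ),
    dot (as.map fun a => s * a) (bs.map fun b => t * b) = s * t * dot as bs
  | [], _ => by simp [dot]
  | _ :: _, [] => by simp [dot]
  | a :: as, b :: bs => by
    simp only [List.map_cons, dot, dot_smul s t as bs]
    ring

theorem lhs_smul (s t : ℝ) (u v' : List ℕ) (w v : List ℝ) :
    lhs u v' (w.map fun a => s * a) (v.map fun b => t * b) = s * t * lhs u v' w v := by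
  unfold lhs
  rw [lin_smul, lin_smul]
  ring

theorem rhs_smul (s t : ℝ) (K : List (List ℕ)) (w v : List ℝ) :
    rhs K (w.map fun a => s * a) (v.map fun b => t * b) = s * t * rhs K w v := by
  unfold rhs
  rw [← dot_smul, List.map_map]
  congr 1
  apply List.map_congr_left
  intro r _
  simp only [Function.comp]
  rw [lin_smul]

/-- values of a family on a cell -/
def val (F : Fam) (cell : List (List ℕ)) {α : Type} [CommSemiring α] (b : List α) : List α :=
  F.G α (coords F.q cell b)

theorem val_nat (F : Fam) (cell : List (List ℕ)) {α β : Type} [CommSemiring α] [CommSemiring β]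
    (φ : α →+* β) (b : List α) : (val F cell b).map φ = val F cell (b.map φ) := by
  unfold val
  rw [F.nat, coords_nat]

theorem val_scale (F : Fam) (cell : List (List ℕ)) (t : ℝ) (b : List ℝ) :
    val F cell (b.map fun y => t * y) = (val F cell b).map fun z => t ^ F.W * z := by
  unfold val
  rw [coords_scale, F.hom]
  exact coords_length _ _ _

/-- the variables -/
noncomputable def vars (n : ℕ) : List (MvPolynomial (Fin n) ℕ) := List.ofFn fun i => MvPolynomial.X i

theorem td_sumTo {n : ℕ} (f : ℕ → MvPolynomial (Fin n) ℕ) (hf : ∀ k, (f k).totalDegree ≤ 1) :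
    ∀ q, (sumTo f q).totalDegree ≤ 1
  | 0 => by simp [sumTo]
  | q + 1 => by
    rw [sumTo]
    refine (MvPolynomial.totalDegree_add _ _).trans ?_
    exact max_le (td_sumTo f hf q) (hf q)

theorem td_coords {n : ℕ} (q : ℕ) (cell : List (List ℕ)) :
    ∀ y ∈ coords q cell (1 :: vars n), y.totalDegree ≤ 1 := by
  intro y hy
  unfold coords at hy
  obtain ⟨i, _, rfl⟩ := List.mem_map.mp hy
  apply td_sumTo
  intro k
  refine (MvPolynomial.totalDegree_mul _ _).trans ?_
  have h1 : (((((cell.getD k []).getD i 0 : ℕ)) : MvPolynomial (Fin n) ℕ)).totalDegree = 0 := by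
    have : ((((cell.getD k []).getD i 0 : ℕ)) : MvPolynomial (Fin n) ℕ) =
        MvPolynomial.C ((cell.getD k []).getD i 0) := by
      simp
    rw [this]
    exact MvPolynomial.totalDegree_C _
  rw [h1, add_zero]
  rcases lt_or_ge k (1 :: vars n).length with hk | hk
  · rw [List.getD_eq_getElem _ _ hk]
    cases k with
    | zero => simp
    | succ k =>
      simp only [List.getElem_cons_succ, vars, List.getElem_ofFn]
      exact (MvPolynomial.totalDegree_X _).le
  · rw [List.getD_eq_default _ _ hk]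
    simp

theorem db_val (F : Fam) (cell : List (List ℕ)) {n d : ℕ} (hW : F.W ≤ d) :
    ∀ z ∈ val F cell (1 :: vars n), DB d z := by
  intro z hz m hm i
  have h1 := F.deg n (coords F.q cell (1 :: vars n)) (coords_length _ _ _)
    (td_coords F.q cell) z hz
  have h2 := MvPolynomial.le_totalDegree hm
  have h3 : m i ≤ m.sum fun _ e => e := by
    rw [Finsupp.sum]
    by_cases hi : i ∈ m.support
    · exact single_le_sum (f := fun a => m a) (fun _ _ => Nat.zero_le _) hi
    · rw [Finsupp.notMem_support_iff.mp hi]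
      exact Nat.zero_le _
  omega

theorem db_add {n d : ℕ} {p p' : MvPolynomial (Fin n) ℕ} (h : DB d p) (h' : DB d p') :
    DB d (p + p') := by
  intro m hm i
  rcases mem_union.mp (MvPolynomial.support_add hm) with h1 | h1
  · exact h m h1 i
  · exact h' m h1 i

theorem db_nat_mul {n d : ℕ} {p : MvPolynomial (Fin n) ℕ} (c : ℕ) (h : DB d p) :
    DB d ((c : MvPolynomial (Fin n) ℕ) * p) := by
  intro m hm i
  have h1 : (c : MvPolynomial (Fin n) ℕ) = MvPolynomial.C c := by simp
  rw [h1, MvPolynomial.mem_support_iff, MvPolynomial.coeff_C_mul] at hm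
  apply h m
  rw [MvPolynomial.mem_support_iff]
  intro h0
  exact hm (by rw [h0, mul_zero])

theorem db_lin {n d : ℕ} : ∀ (cs : List ℕ) (vs : List (MvPolynomial (Fin n) ℕ)),
    (∀ v ∈ vs, DB d v) → DB d (lin cs vs)
  | [], vs, _ => by simp [lin, DB]
  | c :: cs, [], _ => by simp [lin, DB]
  | c :: cs, v :: vs, h => by
    rw [lin]
    exact db_add (db_nat_mul c (h v List.mem_cons_self))
      (db_lin cs vs fun x hx => h x (List.mem_cons_of_mem _ hx))

/-- packed powers -/
def pws (k d n : ℕ) : List ℕ := (List.range n).map fun i => 2 ^ (k * (d + 1) ^ i)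

theorem vars_pk (k d n : ℕ) : (vars n).map (MvPolynomial.eval fun i : Fin n =>
    (2 ^ k) ^ ((d + 1) ^ (i : ℕ))) = pws k d n := by
  unfold vars pws
  rw [List.map_ofFn, range_map_eq]
  congr 1
  funext i
  simp only [Function.comp, MvPolynomial.eval_X]
  rw [← pow_mul]

theorem vars_on (n : ℕ) : (vars n).map (MvPolynomial.eval fun _ : Fin n => 1) =
    List.replicate n 1 := by
  unfold vars
  rw [List.map_ofFn, replicate_eq]
  congr 1
  funext i
  simp

theorem vars_real {n : ℕ} (x : Fin n → ℝ) : (vars n).map (MvPolynomial.aeval x) = List.ofFn x := by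
  unfold vars
  rw [List.map_ofFn]
  congr 1
  funext i
  simp

/-- the conditions checked at a leaf -/
structure LeafOK (FL FR : Fam) (k d : ℕ) (u v' : List ℕ) (K L R : List (List ℕ)) : Prop where
  hk : 1 ≤ k
  hq1 : lin u (val FL L (1 :: List.replicate (FL.q - 1) 1)) < 2 ^ k
  hc1 : ∀ r ∈ K, lin r (val FL L (1 :: List.replicate (FL.q - 1) 1)) < 2 ^ k
  hl : lhs u v' (val FL L (1 :: List.replicate (FL.q - 1) 1))
    (val FR R (1 :: List.replicate (FR.q - 1) 1)) < 2 ^ (k - 1)
  hr : rhs K (val FL L (1 :: List.replicate (FL.q - 1) 1))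
    (val FR R (1 :: List.replicate (FR.q - 1) 1)) < 2 ^ (k - 1)
  rows : ∀ s < (d + 1) ^ (FL.q - 2), digLE k ((d + 1) * (d + 1) ^ (FR.q - 1))
    (lin u (val FL L (1 :: pws k d (FL.q - 1))) / 2 ^ (k * (d + 1) * s) % 2 ^ (k * (d + 1)) *
      lin v' (val FR R (1 :: pws (k * (d + 1)) d (FR.q - 1))))
    (rdot (2 ^ (k * (d + 1))) (2 ^ (k * (d + 1) * s))
      (K.map fun r => lin r (val FL L (1 :: pws k d (FL.q - 1))))
      (val FR R (1 :: pws (k * (d + 1)) d (FR.q - 1)))) = true

theorem leaf1 {FL FR : Fam} {k d : ℕ} {u v' : List ℕ} {K L R : List (List ℕ)}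
    (hqL : 2 ≤ FL.q) (hWL : FL.W ≤ d) (hWR : FR.W ≤ d)
    (h : LeafOK FL FR k d u v' K L R) (a b : List ℝ) (ha : a.length + 1 = FL.q)
    (hb : b.length + 1 = FR.q) (ha0 : ∀ x ∈ a, 0 ≤ x) (hb0 : ∀ x ∈ b, 0 ≤ x) :
    lhs u v' (val FL L (1 :: a)) (val FR R (1 :: b)) ≤
      rhs K (val FL L (1 :: a)) (val FR R (1 :: b)) := by
  obtain ⟨r, hr⟩ : ∃ r, FL.q = r + 2 := ⟨FL.q - 2, by omega⟩
  obtain ⟨n', hn'⟩ : ∃ n', FR.q = n' + 1 := ⟨FR.q - 1, by omega⟩
  obtain ⟨x, hx⟩ := exists_ofFn (n := r + 1) a (by omega)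
  obtain ⟨y, hy⟩ := exists_ofFn (n := n') b (by omega)
  have hx0 : ∀ i, 0 ≤ x i := by
    intro i
    apply ha0
    rw [← hx]
    exact (List.mem_ofFn' x _).mpr ⟨i, rfl⟩
  have hy0 : ∀ i, 0 ≤ y i := by
    intro i
    apply hb0
    rw [← hy]
    exact (List.mem_ofFn' y _).mpr ⟨i, rfl⟩
  have e1 : FL.q - 1 = r + 1 := by omega
  have e2 : FL.q - 2 = r := by omega
  have e3 : FR.q - 1 = n' := by omega
  obtain ⟨hk, hq1, hc1, hl, hr', hrows⟩ := h
  rw [e1, e3] at hl hr'
  rw [e1] at hq1 hc1
  rw [e1, e2, e3] at hrows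
  -- the polynomials
  set w : List (MvPolynomial (Fin (r + 1)) ℕ) := val FL L (1 :: vars (r + 1)) with hw
  set v : List (MvPolynomial (Fin n') ℕ) := val FR R (1 :: vars n') with hv
  have w1 : w.map on = val FL L (1 :: List.replicate (r + 1) 1) := by
    have := val_nat FL L (MvPolynomial.eval fun _ : Fin (r + 1) => 1) (1 :: vars (r + 1))
    rw [List.map_cons, map_one, vars_on] at this
    exact this
  have v1 : v.map on = val FR R (1 :: List.replicate n' 1) := by
    have := val_nat FR R (MvPolynomial.eval fun _ : Fin n' => 1) (1 :: vars n')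
    rw [List.map_cons, map_one, vars_on] at this
    exact this
  have wp : ∀ k, w.map (pk k d) = val FL L (1 :: pws k d (r + 1)) := by
    intro k
    have := val_nat FL L (MvPolynomial.eval fun i : Fin (r + 1) => (2 ^ k) ^ ((d + 1) ^ (i : ℕ)))
      (1 :: vars (r + 1))
    rw [List.map_cons, map_one, vars_pk] at this
    exact this
  have vp : ∀ k, v.map (pk k d) = val FR R (1 :: pws k d n') := by
    intro k
    have := val_nat FR R (MvPolynomial.eval fun i : Fin n' => (2 ^ k) ^ ((d + 1) ^ (i : ℕ)))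
      (1 :: vars n')
    rw [List.map_cons, map_one, vars_pk] at this
    exact this
  have wx : w.map (MvPolynomial.aeval x) = val FL L (1 :: a) := by
    have := val_nat FL L (MvPolynomial.aeval x : MvPolynomial (Fin (r + 1)) ℕ →ₐ[ℕ] ℝ).toRingHom
      (1 :: vars (r + 1))
    rw [List.map_cons, map_one] at this
    have e : (vars (r + 1)).map
        (MvPolynomial.aeval x : MvPolynomial (Fin (r + 1)) ℕ →ₐ[ℕ] ℝ).toRingHom = a := by
      rw [← hx]
      exact vars_real x
    rw [e] at this
    exact this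
  have vy : v.map (MvPolynomial.aeval y) = val FR R (1 :: b) := by
    have := val_nat FR R (MvPolynomial.aeval y : MvPolynomial (Fin n') ℕ →ₐ[ℕ] ℝ).toRingHom
      (1 :: vars n')
    rw [List.map_cons, map_one] at this
    have e : (vars n').map
        (MvPolynomial.aeval y : MvPolynomial (Fin n') ℕ →ₐ[ℕ] ℝ).toRingHom = b := by
      rw [← hy]
      exact vars_real y
    rw [e] at this
    exact this
  have hwd : ∀ z ∈ w, DB d z := db_val FL L hWL
  have hvd : ∀ z ∈ v, DB d z := db_val FR R hWR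
  have onl : ∀ cs, on (lin cs w) = lin cs (w.map on) := fun cs =>
    lin_nat (MvPolynomial.eval fun _ : Fin (r + 1) => 1) cs w
  have onl' : ∀ cs, on (lin cs v) = lin cs (v.map on) := fun cs =>
    lin_nat (MvPolynomial.eval fun _ : Fin n' => 1) cs v
  have pkl : ∀ cs, pk k d (lin cs w) = lin cs (w.map (pk k d)) := fun cs =>
    lin_nat (MvPolynomial.eval fun i : Fin (r + 1) => (2 ^ k) ^ ((d + 1) ^ (i : ℕ))) cs w
  have pkl' : ∀ cs, pk (k * (d + 1)) d (lin cs v) = lin cs (v.map (pk (k * (d + 1)) d)) := fun cs =>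
    lin_nat (MvPolynomial.eval fun i : Fin n' => (2 ^ (k * (d + 1))) ^ ((d + 1) ^ (i : ℕ))) cs v
  have mapon : ∀ k, (K.map fun r => lin r w).map (pk k d) =
      K.map fun r => lin r (w.map (pk k d)) := by
    intro k
    rw [List.map_map]
    apply List.map_congr_left
    intro row _
    exact lin_nat (MvPolynomial.eval fun i : Fin (r + 1) => (2 ^ k) ^ ((d + 1) ^ (i : ℕ))) row w
  have mapon1 : (K.map fun r => lin r w).map on = K.map fun r => lin r (w.map on) := by
    rw [List.map_map]
    apply List.map_congr_left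
    intro row _
    exact onl row
  have main := rows_sound (r := r) (n' := n') (k := k) (d := d) hk (q := lin u w)
    (S := lin v' v) (cs := K.map fun r => lin r w) (bs := v)
    (db_lin u w hwd) (db_lin v' v hvd)
    (by
      intro c hc
      obtain ⟨row, _, rfl⟩ := List.mem_map.mp hc
      exact db_lin row w hwd) hvd
    (by rw [onl, w1]; exact hq1)
    (by
      intro c hc
      obtain ⟨row, hrow, rfl⟩ := List.mem_map.mp hc
      rw [onl, w1]
      exact hc1 row hrow)
    (by rw [onl, onl', w1, v1]; exact hl)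
    (by rw [mapon1, w1, v1]; exact hr')
    (by
      intro s hs
      rw [pkl, pkl', mapon, wp, vp]
      exact hrows s hs) x y hx0 hy0
  have m1 : MvPolynomial.aeval x (lin u w) = lin u (w.map (MvPolynomial.aeval x)) :=
    lin_nat (MvPolynomial.aeval x : MvPolynomial (Fin (r + 1)) ℕ →ₐ[ℕ] ℝ).toRingHom u w
  have m2 : MvPolynomial.aeval y (lin v' v) = lin v' (v.map (MvPolynomial.aeval y)) :=
    lin_nat (MvPolynomial.aeval y : MvPolynomial (Fin n') ℕ →ₐ[ℕ] ℝ).toRingHom v' v
  have m3 : (K.map fun r => lin r w).map (MvPolynomial.aeval x) =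
      K.map fun r => lin r (w.map (MvPolynomial.aeval x)) := by
    rw [List.map_map]
    apply List.map_congr_left
    intro row _
    exact lin_nat (MvPolynomial.aeval x : MvPolynomial (Fin (r + 1)) ℕ →ₐ[ℕ] ℝ).toRingHom row w
  rw [m1, m2, m3, wx, vy] at main
  exact main

/-- the value functions of the concatenated coordinates -/
def lF (FL FR : Fam) (u v' : List ℕ) (L R : List (List ℕ)) (α : Type) [CommSemiring α]
    (xs : List α) : α :=
  lhs u v' (val FL L (xs.take FL.q)) (val FR R (xs.drop FL.q))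

def rF (FL FR : Fam) (K : List (List ℕ)) (L R : List (List ℕ)) (α : Type) [CommSemiring α]
    (xs : List α) : α :=
  rhs K (val FL L (xs.take FL.q)) (val FR R (xs.drop FL.q))

theorem lF_nat (FL FR : Fam) (u v' : List ℕ) (L R : List (List ℕ)) (α β : Type)
    [CommSemiring α] [CommSemiring β] (φ : α →+* β) (xs : List α) :
    φ (lF FL FR u v' L R α xs) = lF FL FR u v' L R β (xs.map φ) := by
  unfold lF
  rw [lhs_nat, val_nat, val_nat, List.map_take, List.map_drop]

theorem rF_nat (FL FR : Fam) (K : List (List ℕ)) (L R : List (List ℕ)) (α β : Type)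
    [CommSemiring α] [CommSemiring β] (φ : α →+* β) (xs : List α) :
    φ (rF FL FR K L R α xs) = rF FL FR K L R β (xs.map φ) := by
  unfold rF
  rw [rhs_nat, val_nat, val_nat, List.map_take, List.map_drop]

/-- soundness of a leaf -/
theorem leaf_sound {FL FR : Fam} {k d : ℕ} {u v' : List ℕ} {K L R : List (List ℕ)}
    (hqL : 2 ≤ FL.q) (hqR : 1 ≤ FR.q) (hWL : FL.W ≤ d) (hWR : FR.W ≤ d)
    (h : LeafOK FL FR k d u v' K L R) (a b : List ℝ) (ha : a.length = FL.q)
    (hb : b.length = FR.q) (ha0 : ∀ x ∈ a, 0 ≤ x) (hb0 : ∀ x ∈ b, 0 ≤ x) :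
    lhs u v' (val FL L a) (val FR R b) ≤ rhs K (val FL L a) (val FR R b) := by
  have step2 : ∀ (a0 : ℝ) (as : List ℝ) (b0 : ℝ) (bs : List ℝ), 0 < a0 → 0 < b0 →
      as.length + 1 = FL.q → bs.length + 1 = FR.q → (∀ x ∈ as, 0 ≤ x) → (∀ x ∈ bs, 0 ≤ x) →
      lhs u v' (val FL L (a0 :: as)) (val FR R (b0 :: bs)) ≤
        rhs K (val FL L (a0 :: as)) (val FR R (b0 :: bs)) := by
    intro a0 as b0 bs ha' hb' hla hlb hna hnb
    rw [cons_scale ha' as, cons_scale hb' bs, val_scale, val_scale, lhs_smul, rhs_smul]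
    apply mul_le_mul_of_nonneg_left _ (by positivity)
    apply leaf1 hqL hWL hWR h
    · simpa using hla
    · simpa using hlb
    · intro y hy
      obtain ⟨z, hz, rfl⟩ := List.mem_map.mp hy
      exact mul_nonneg (inv_nonneg.mpr ha'.le) (hna z hz)
    · intro y hy
      obtain ⟨z, hz, rfl⟩ := List.mem_map.mp hy
      exact mul_nonneg (inv_nonneg.mpr hb'.le) (hnb z hz)
  obtain ⟨a0, as, rfl⟩ : ∃ a0 as, a = a0 :: as := by
    cases a with
    | nil => simp at ha; omega
    | cons x xs => exact ⟨x, xs, rfl⟩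
  obtain ⟨b0, bs, rfl⟩ : ∃ b0 bs, b = b0 :: bs := by
    cases b with
    | nil => simp at hb; omega
    | cons x xs => exact ⟨x, xs, rfl⟩
  have hla : as.length + 1 = FL.q := by simpa using ha
  have hlb : bs.length + 1 = FR.q := by simpa using hb
  have hna : ∀ x ∈ as, 0 ≤ x := fun x hx => ha0 x (List.mem_cons_of_mem _ hx)
  have hnb : ∀ x ∈ bs, 0 ≤ x := fun x hx => hb0 x (List.mem_cons_of_mem _ hx)
  have eL : ∀ (a' b' : List ℝ), a'.length = FL.q →
      lF FL FR u v' L R ℝ (a' ++ b') = lhs u v' (val FL L a') (val FR R b') := by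
    intro a' b' h'
    unfold lF
    rw [List.drop_left' h', List.take_left' h']
  have eR : ∀ (a' b' : List ℝ), a'.length = FL.q →
      rF FL FR K L R ℝ (a' ++ b') = rhs K (val FL L a') (val FR R b') := by
    intro a' b' h'
    unfold rF
    rw [List.drop_left' h', List.take_left' h']
  have lim := fun pre post hh => lim_le (fun α _ xs => lF FL FR u v' L R α xs)
    (fun α _ xs => rF FL FR K L R α xs)
    (fun α β _ _ φ xs => lF_nat FL FR u v' L R α β φ xs)
    (fun α β _ _ φ xs => rF_nat FL FR K L R α β φ xs) pre post hh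
  have step3 : ∀ b0 : ℝ, 0 < b0 → lhs u v' (val FL L (a0 :: as)) (val FR R (b0 :: bs)) ≤
        rhs K (val FL L (a0 :: as)) (val FR R (b0 :: bs)) := by
    intro b0 hb'
    rcases lt_or_eq_of_le (ha0 a0 List.mem_cons_self) with hpos | hzero
    · exact step2 a0 as b0 bs hpos hb' hla hlb hna hnb
    · rw [← hzero]
      have := lim [] (as ++ b0 :: bs) (by
        intro ε hε
        have e1 := eL (ε :: as) (b0 :: bs) (by simpa using hla)
        have e2 := eR (ε :: as) (b0 :: bs) (by simpa using hla)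
        have e3 : ([] : List ℝ) ++ ε :: (as ++ b0 :: bs) = (ε :: as) ++ (b0 :: bs) := rfl
        rw [e3, e1, e2]
        exact step2 ε as b0 bs hε hb' hla hlb hna hnb)
      have e1 := eL (0 :: as) (b0 :: bs) (by simpa using hla)
      have e2 := eR (0 :: as) (b0 :: bs) (by simpa using hla)
      have e3 : ([] : List ℝ) ++ 0 :: (as ++ b0 :: bs) = (0 :: as) ++ (b0 :: bs) := rfl
      rw [e3, e1, e2] at this
      exact this
  rcases lt_or_eq_of_le (hb0 b0 List.mem_cons_self) with hpos | hzero
  · exact step3 b0 hpos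
  · rw [← hzero]
    have := lim (a0 :: as) bs (by
      intro ε hε
      rw [eL _ _ ha, eR _ _ ha]
      exact step3 ε hε)
    rw [eL _ _ ha, eR _ _ ha] at this
    exact this

end Vale.Agent.P154.FP
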