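import Vale.Agent.P154.FP2

/-! Trees and raw evaluation (helper file). -/

namespace Vale.Agent.P154.FP

open Finset Vale.Agent.P154.Refl

/-! ### trees -/

/-- the claim for a pair of cells -/
def Good (FL FR : Fam) (u v' : List ℕ) (K L R : List (List ℕ)) : Prop :=
  ∀ a b : List ℝ, a.length = FL.q → b.length = FR.q → (∀ x ∈ a, 0 ≤ x) → (∀ x ∈ b, 0 ≤ x) →
    lhs u v' (val FL L a) (val FR R b) ≤ rhs K (val FL L a) (val FR R b)

/-- conditions for a cut at the point `m = (al v_i + be v_j) / g` -/
def okn (q i j al be g : ℕ) (m : List ℕ) (cell : List (List ℕ)) : Bool :=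
  (Nat.blt i q && (Nat.blt j q && (Nat.blt i cell.length && (Nat.blt j cell.length &&
      !Nat.beq i j)))) && (Nat.blt 0 al && (Nat.blt 0 be &&
  (List.range q).all fun l => Nat.beq (Nat.mul g (m.getD l 0))
    (Nat.add (Nat.mul al ((cell.getD i []).getD l 0)) (Nat.mul be ((cell.getD j []).getD l 0)))))

theorem okn_spec {q i j al be g : ℕ} {m : List ℕ} {cell : List (List ℕ)}
    (h : okn q i j al be g m cell = true) :
    (i < q ∧ j < q ∧ i < cell.length ∧ j < cell.length ∧ i ≠ j) ∧ 0 < al ∧ 0 < be ∧
      ∀ l < q, g * m.getD l 0 = al * (cell.getD i []).getD l 0 + be * (cell.getD j []).getD l 0 := by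
  unfold okn at h
  simp only [Bool.and_eq_true, List.all_eq_true, List.mem_range] at h
  obtain ⟨⟨hi', hj', hic', hjc', hij'⟩, ha, hb, hm⟩ := h
  refine ⟨⟨Nat.le_of_ble_eq_true hi', Nat.le_of_ble_eq_true hj', Nat.le_of_ble_eq_true hic',
    Nat.le_of_ble_eq_true hjc', ?_⟩, Nat.le_of_ble_eq_true ha, Nat.le_of_ble_eq_true hb, ?_⟩
  · intro e
    subst e
    simp at hij'
  · intro l hl
    exact Nat.eq_of_beq_eq_true (hm l hl)

/-- a cut of a cell -/
theorem coords_cut {q i j al be g : ℕ} (m : List ℕ) (cell : List (List ℕ)) (b : List ℝ)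
    (hi : i < q) (hj : j < q) (hib : i < b.length) (hjb : j < b.length)
    (hic : i < cell.length) (hij : i ≠ j) (hal : 0 < al)
    (hm : ∀ l < q, g * m.getD l 0 =
      al * (cell.getD i []).getD l 0 + be * (cell.getD j []).getD l 0) :
    coords q (cell.set i m) ((b.set i (g / al * b.getD i 0)).set j
      (b.getD j 0 - be / al * b.getD i 0)) = coords q cell b := by
  unfold coords
  apply List.map_congr_left
  intro l hl
  rw [List.mem_range] at hl
  rw [sumTo_eq, sumTo_eq]
  rw [← sub_eq_zero, ← sum_sub_distrib]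
  have hal' : (al : ℝ) ≠ 0 := by positivity
  have hml : (g : ℝ) * (m.getD l 0 : ℕ) = al * ((cell.getD i []).getD l 0 : ℕ) +
      be * ((cell.getD j []).getD l 0 : ℕ) := by exact_mod_cast hm l hl
  have hterm : ∀ k ∈ range q,
      ((b.set i (g / al * b.getD i 0)).set j (b.getD j 0 - be / al * b.getD i 0)).getD k 0 *
        ((((cell.set i m).getD k []).getD l 0 : ℕ) : ℝ) -
        b.getD k 0 * (((cell.getD k []).getD l 0 : ℕ) : ℝ) =
      (if k = i then be / al * b.getD i 0 * (((cell.getD j []).getD l 0 : ℕ) : ℝ) else 0) -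
      (if k = j then be / al * b.getD i 0 * (((cell.getD j []).getD l 0 : ℕ) : ℝ) else 0) := by
    intro k _
    by_cases hki : k = i
    · subst hki
      rw [getD_set_ne _ hij, getD_set_self b hib, getD_set_self cell hic]
      simp only [if_true, if_neg hij]
      have : (g : ℝ) / al * b.getD k 0 * (m.getD l 0 : ℕ) =
          b.getD k 0 / al * (g * (m.getD l 0 : ℕ)) := by ring
      rw [this, hml]
      field_simp
      ring
    · rw [getD_set_ne cell hki]
      by_cases hkj : k = j
      · subst hkj
        rw [getD_set_self _ (by simpa using hjb)]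
        simp only [if_neg hki, if_true]
        ring
      · rw [getD_set_ne _ hkj, getD_set_ne _ hki]
        simp only [if_neg hki, if_neg hkj]
        ring
  rw [sum_congr rfl hterm, sum_sub_distrib, sum_ite_eq' (range q) i, sum_ite_eq' (range q) j]
  simp [hi, hj]

theorem cut_cases {q i j al be g : ℕ} {m : List ℕ} {cell : List (List ℕ)}
    (h : okn q i j al be g m cell = true) (b : List ℝ) (hb : b.length = q)
    (hb0 : ∀ x ∈ b, 0 ≤ x) :
    (∃ b' : List ℝ, b'.length = q ∧ (∀ x ∈ b', 0 ≤ x) ∧
      coords q (cell.set i m) b' = coords q cell b) ∨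
    (∃ b' : List ℝ, b'.length = q ∧ (∀ x ∈ b', 0 ≤ x) ∧
      coords q (cell.set j m) b' = coords q cell b) := by
  obtain ⟨⟨hi, hj, hic, hjc, hij⟩, hal, hbe, hm⟩ := okn_spec h
  have hib : i < b.length := by omega
  have hjb : j < b.length := by omega
  have hal' : (0 : ℝ) < al := by exact_mod_cast hal
  have hbe' : (0 : ℝ) < be := by exact_mod_cast hbe
  have hgi : 0 ≤ b.getD i 0 := by
    rw [List.getD_eq_getElem _ _ hib]
    exact hb0 _ (List.getElem_mem _)
  have hgj : 0 ≤ b.getD j 0 := by
    rw [List.getD_eq_getElem _ _ hjb]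
    exact hb0 _ (List.getElem_mem _)
  rcases le_total (be * b.getD i 0) (al * b.getD j 0) with hle | hle
  · left
    refine ⟨_, ?_, ?_, coords_cut m cell b hi hj hib hjb hic hij hal hm⟩
    · simpa using hb
    · apply set_nonneg
      · exact set_nonneg hb0 (by positivity)
      · have : be / al * b.getD i 0 ≤ b.getD j 0 := by
          rw [div_mul_eq_mul_div, div_le_iff₀ hal']
          linarith
        linarith
  · right
    refine ⟨_, ?_, ?_, coords_cut m cell b hj hi hjb hib hjc hij.symm hbe
      (al := be) (be := al) (g := g) (fun l hl => by rw [hm l hl]; ring)⟩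
    · simpa using hb
    · apply set_nonneg
      · exact set_nonneg hb0 (by positivity)
      · have : al / be * b.getD j 0 ≤ b.getD i 0 := by
          rw [div_mul_eq_mul_div, div_le_iff₀ hbe']
          linarith
        linarith

theorem good_right {FL FR : Fam} {u v' : List ℕ} {K L R : List (List ℕ)} {i j al be g : ℕ}
    {m : List ℕ} (h : okn FR.q i j al be g m R = true) (h1 : Good FL FR u v' K L (R.set i m))
    (h2 : Good FL FR u v' K L (R.set j m)) : Good FL FR u v' K L R := by
  intro a b ha hb ha0 hb0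
  unfold val
  rcases cut_cases h b hb hb0 with ⟨b', hb', hb0', e⟩ | ⟨b', hb', hb0', e⟩
  · have := h1 a b' ha hb' ha0 hb0'
    unfold val at this
    rw [e] at this
    exact this
  · have := h2 a b' ha hb' ha0 hb0'
    unfold val at this
    rw [e] at this
    exact this

theorem good_left {FL FR : Fam} {u v' : List ℕ} {K L R : List (List ℕ)} {i j al be g : ℕ}
    {m : List ℕ} (h : okn FL.q i j al be g m L = true) (h1 : Good FL FR u v' K (L.set i m) R)
    (h2 : Good FL FR u v' K (L.set j m) R) : Good FL FR u v' K L R := by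
  intro a b ha hb ha0 hb0
  unfold val
  rcases cut_cases h a ha ha0 with ⟨b', hb', hb0', e⟩ | ⟨b', hb', hb0', e⟩
  · have := h1 b' b hb' hb hb0' hb0
    unfold val at this
    rw [e] at this
    exact this
  · have := h2 b' b hb' hb hb0' hb0
    unfold val at this
    rw [e] at this
    exact this

/-- inner trees: cuts of the right cell -/
inductive TB where
  | lf : TB
  | sp : ℕ → ℕ → ℕ → ℕ → ℕ → List ℕ → TB → TB → TB

/-- outer trees: cuts of the left cell (`sl`) and of the right cell (`sr`) -/
inductive TA where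
  | inn : ℕ → TB → TA
  | sl : ℕ → ℕ → ℕ → ℕ → ℕ → List ℕ → TA → TA → TA
  | sr : ℕ → ℕ → ℕ → ℕ → ℕ → List ℕ → TA → TA → TA

/-- run an inner tree -/
def runB (q : ℕ) (leafc : List (List ℕ) → Bool) : TB → List (List ℕ) → Bool
  | .lf, R => leafc R
  | .sp i j al be g m t1 t2, R => okn q i j al be g m R &&
    (runB q leafc t1 (R.set i m) && runB q leafc t2 (R.set j m))

/-- run an outer tree -/
def runA (qL qR : ℕ) (inner : ℕ → TB → List (List ℕ) → List (List ℕ) → Bool) :
    TA → List (List ℕ) → List (List ℕ) → Bool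
  | .inn k t, L, R => inner k t L R
  | .sl i j al be g m t1 t2, L, R => okn qL i j al be g m L &&
    (runA qL qR inner t1 (L.set i m) R && runA qL qR inner t2 (L.set j m) R)
  | .sr i j al be g m t1 t2, L, R => okn qR i j al be g m R &&
    (runA qL qR inner t1 L (R.set i m) && runA qL qR inner t2 L (R.set j m))

theorem runB_sound {FL FR : Fam} {u v' : List ℕ} {K L : List (List ℕ)}
    {leafc : List (List ℕ) → Bool} (hl : ∀ R, leafc R = true → Good FL FR u v' K L R) (t : TB) :
    ∀ R, runB FR.q leafc t R = true → Good FL FR u v' K L R := by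
  induction t with
  | lf => exact hl
  | sp i j al be g m t1 t2 ih1 ih2 =>
    intro R h
    simp only [runB, Bool.and_eq_true] at h
    exact good_right h.1 (ih1 _ h.2.1) (ih2 _ h.2.2)

theorem runA_sound {FL FR : Fam} {u v' : List ℕ} {K : List (List ℕ)}
    {inner : ℕ → TB → List (List ℕ) → List (List ℕ) → Bool}
    (hl : ∀ k t L R, inner k t L R = true → Good FL FR u v' K L R) (t : TA) :
    ∀ L R, runA FL.q FR.q inner t L R = true → Good FL FR u v' K L R := by
  induction t with
  | inn k t => exact fun L R h => hl k t L R h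
  | sl i j al be g m t1 t2 ih1 ih2 =>
    intro L R h
    simp only [runA, Bool.and_eq_true] at h
    exact good_left h.1 (ih1 _ _ h.2.1) (ih2 _ _ h.2.2)
  | sr i j al be g m t1 t2 ih1 ih2 =>
    intro L R h
    simp only [runA, Bool.and_eq_true] at h
    exact good_right h.1 (ih1 _ _ h.2.1) (ih2 _ _ h.2.2)

/-! ### raw evaluation -/

/-- evaluate the argument to a literal first -/
noncomputable def frc {β : Type} (x : ℕ) (k : ℕ → β) : β :=
  Nat.rec (motive := fun _ => β) (k 0) (fun n _ => k (Nat.succ n)) x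

theorem frc_eq {β : Type} (x : ℕ) (k : ℕ → β) : frc x k = k x := by
  cases x <;> rfl

/-- evaluate all entries first -/
noncomputable def frcL {β : Type} (xs : List ℕ) : (List ℕ → β) → β :=
  List.rec (motive := fun _ => (List ℕ → β) → β) (fun k => k [])
    (fun x _ ih k => frc x fun x' => ih fun xs' => k (x' :: xs')) xs

theorem frcL_eq {β : Type} (xs : List ℕ) : ∀ k : List ℕ → β, frcL xs k = k xs := by
  induction xs with
  | nil => intro k; rfl
  | cons x xs ih =>
    intro k
    show frc x (fun x' => frcL xs fun xs' => k (x' :: xs')) = _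
    rw [frc_eq, ih]

/-- linear combination, raw -/
noncomputable def linN (cs : List ℕ) : List ℕ → ℕ :=
  List.rec (motive := fun _ => List ℕ → ℕ) (fun _ => 0)
    (fun c _ ih vs => List.rec (motive := fun _ => ℕ) 0
      (fun v vs' _ => Nat.add (Nat.mul c v) (ih vs')) vs) cs

theorem linN_eq : ∀ cs vs : List ℕ, linN cs vs = lin cs vs
  | [], vs => rfl
  | c :: cs, [] => rfl
  | c :: cs, v :: vs => by
    show c * v + linN cs vs = _
    rw [linN_eq cs vs]
    rfl

/-- sum of products, raw -/
noncomputable def dotN (cs : List ℕ) : List ℕ → ℕ :=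
  List.rec (motive := fun _ => List ℕ → ℕ) (fun _ => 0)
    (fun c _ ih vs => List.rec (motive := fun _ => ℕ) 0
      (fun v vs' _ => Nat.add (Nat.mul c v) (ih vs')) vs) cs

theorem dotN_eq : ∀ cs vs : List ℕ, dotN cs vs = dot cs vs
  | [], vs => rfl
  | c :: cs, [] => rfl
  | c :: cs, v :: vs => by
    show c * v + dotN cs vs = _
    rw [dotN_eq cs vs]
    rfl

/-- rows of the first list against the second list, raw -/
noncomputable def rdotN (R sh : ℕ) (cs : List ℕ) : List ℕ → ℕ :=
  List.rec (motive := fun _ => List ℕ → ℕ) (fun _ => 0)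
    (fun c _ ih vs => List.rec (motive := fun _ => ℕ) 0
      (fun v vs' _ => Nat.add (Nat.mul (Nat.mod (Nat.shiftRight c sh) R) v) (ih vs')) vs) cs

theorem rdotN_eq (R sh : ℕ) : ∀ cs vs : List ℕ, rdotN R sh cs vs = rdot R (2 ^ sh) cs vs
  | [], vs => rfl
  | c :: cs, [] => rfl
  | c :: cs, v :: vs => by
    show (c >>> sh) % R * v + rdotN R sh cs vs = _
    rw [rdotN_eq R sh cs vs, Nat.shiftRight_eq_div_pow]
    rfl

/-- images under linear forms, raw -/
noncomputable def mapN (f : List ℕ → ℕ) (K : List (List ℕ)) : List ℕ :=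
  List.rec (motive := fun _ => List ℕ) [] (fun r _ ih => f r :: ih) K

theorem mapN_eq (f : List ℕ → ℕ) : ∀ K : List (List ℕ), mapN f K = K.map f
  | [] => rfl
  | r :: K => by
    show f r :: mapN f K = _
    rw [mapN_eq f K]
    rfl

/-- all entries smaller than `B` -/
noncomputable def allN (B : ℕ) (xs : List ℕ) : Bool :=
  List.rec (motive := fun _ => Bool) true (fun x _ ih => Bool.rec false ih (Nat.blt x B)) xs

theorem allN_spec (B : ℕ) : ∀ xs : List ℕ, allN B xs = true → ∀ x ∈ xs, x < B
  | [], _ => by simp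
  | x :: xs, h => by
    have h' : (Bool.rec false (allN B xs) (Nat.blt x B) : Bool) = true := h
    cases hx : Nat.blt x B with
    | false => rw [hx] at h'; cases h'
    | true =>
      rw [hx] at h'
      intro y hy
      rcases List.mem_cons.mp hy with rfl | hy
      · exact Nat.le_of_ble_eq_true hx
      · exact allN_spec B xs h' y hy

/-- all rows -/
noncomputable def rowsN (kd R M q S : ℕ) (cs vs : List ℕ) (cnt : ℕ) : Bool :=
  Nat.rec (motive := fun _ => Bool) true (fun s ih => Bool.rec false ih
    (frc (Nat.mul kd s) fun sh =>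
      Nat.beq (Nat.land (Nat.sub (Nat.add (rdotN R sh cs vs) M)
        (Nat.mul (Nat.mod (Nat.shiftRight q sh) R) S)) M) M)) cnt

theorem rowsN_spec (kd R M q S : ℕ) (cs vs : List ℕ) : ∀ cnt : ℕ,
    rowsN kd R M q S cs vs cnt = true → ∀ s < cnt,
      Nat.beq (Nat.land (Nat.sub (Nat.add (rdot R (2 ^ (kd * s)) cs vs) M)
        (q / 2 ^ (kd * s) % R * S)) M) M = true
  | 0, _ => by simp
  | cnt + 1, h => by
    have h' : (Bool.rec false (rowsN kd R M q S cs vs cnt)
      (frc (Nat.mul kd cnt) fun sh =>
      Nat.beq (Nat.land (Nat.sub (Nat.add (rdotN R sh cs vs) M)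
        (Nat.mul (Nat.mod (Nat.shiftRight q sh) R) S)) M) M) : Bool) = true := h
    rw [frc_eq, rdotN_eq] at h'
    have e : Nat.shiftRight q (Nat.mul kd cnt) = q / 2 ^ (kd * cnt) :=
      Nat.shiftRight_eq_div_pow q (kd * cnt)
    rw [e] at h'
    cases hx : Nat.beq (Nat.land (Nat.sub (Nat.add (rdot R (2 ^ (Nat.mul kd cnt)) cs vs) M)
        (Nat.mul (Nat.mod (q / 2 ^ (kd * cnt)) R) S)) M) M with
    | false => rw [hx] at h'; cases h'
    | true =>
      rw [hx] at h'
      intro s hs
      rcases Nat.lt_succ_iff_lt_or_eq.mp hs with hs | rfl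
      · exact rowsN_spec kd R M q S cs vs cnt h' s hs
      · exact hx

end Vale.Agent.P154.FP
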