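import Vale.Agent.P154.FP3

/-! The raw checker and the concrete families (helper file). -/

namespace Vale.Agent.P154.FP

open Finset Vale.Agent.P154.Refl

/-- a family with a raw evaluator -/
structure RFam extends Fam where
  gC : List ℕ → (List ℕ → Bool) → Bool
  gC_eq : ∀ (ys : List ℕ) (f : List ℕ → Bool), gC ys f = f (G ℕ ys)

/-- check of one leaf, raw -/
noncomputable def leafN (FR : RFam) (d kd Rr M B q q1 cnt : ℕ) (v' cs cs1 : List ℕ)
    (R : List (List ℕ)) : Bool :=
  FR.gC (coords FR.q R (1 :: pws kd d (FR.q - 1))) fun vp =>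
  frc (linN v' vp) fun S =>
  FR.gC (coords FR.q R (1 :: List.replicate (FR.q - 1) 1)) fun v1 =>
  (Nat.blt (Nat.mul q1 (linN v' v1)) B && Nat.blt (dotN cs1 v1) B) &&
    rowsN kd Rr M q S cs vp cnt

/-- check with the left cell fixed, raw -/
noncomputable def innerN (FL FR : RFam) (d : ℕ) (u v' : List ℕ) (K : List (List ℕ)) (k : ℕ)
    (t : TB) (L R : List (List ℕ)) : Bool :=
  frc (Nat.mul k (d + 1)) fun kd =>
  frc (2 ^ kd) fun Rr =>
  frc (mask k ((d + 1) * (d + 1) ^ (FR.q - 1))) fun M =>
  frc (2 ^ (k - 1)) fun B =>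
  frc ((d + 1) ^ (FL.q - 2)) fun cnt =>
  FL.gC (coords FL.q L (1 :: pws k d (FL.q - 1))) fun wp =>
  frcL (mapN (fun r => linN r wp) K) fun cs =>
  frc (linN u wp) fun q =>
  FL.gC (coords FL.q L (1 :: List.replicate (FL.q - 1) 1)) fun w1 =>
  frcL (mapN (fun r => linN r w1) K) fun cs1 =>
  frc (linN u w1) fun q1 =>
  (Nat.ble 1 k && (allN B cs1 && Nat.blt q1 B)) &&
    runB FR.q (fun Rc => leafN FR d kd Rr M B q q1 cnt v' cs cs1 Rc) t R

theorem leafN_sound {FL FR : RFam} {d k : ℕ} {u v' : List ℕ} {K L R : List (List ℕ)}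
    (hqL : 2 ≤ FL.q) (hqR : 1 ≤ FR.q) (hWL : FL.W ≤ d) (hWR : FR.W ≤ d) (hk : 1 ≤ k)
    (hc : ∀ r ∈ K, lin r (val FL.toFam L (1 :: List.replicate (FL.q - 1) 1)) < 2 ^ (k - 1))
    (hq : lin u (val FL.toFam L (1 :: List.replicate (FL.q - 1) 1)) < 2 ^ (k - 1))
    (h : leafN FR d (k * (d + 1)) (2 ^ (k * (d + 1)))
      (mask k ((d + 1) * (d + 1) ^ (FR.q - 1))) (2 ^ (k - 1))
      (lin u (val FL.toFam L (1 :: pws k d (FL.q - 1))))
      (lin u (val FL.toFam L (1 :: List.replicate (FL.q - 1) 1)))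
      ((d + 1) ^ (FL.q - 2)) v'
      (K.map fun r => lin r (val FL.toFam L (1 :: pws k d (FL.q - 1))))
      (K.map fun r => lin r (val FL.toFam L (1 :: List.replicate (FL.q - 1) 1))) R = true) :
    Good FL.toFam FR.toFam u v' K L R := by
  unfold leafN at h
  rw [FR.gC_eq, frc_eq, FR.gC_eq] at h
  simp only [Bool.and_eq_true, linN_eq, dotN_eq] at h
  obtain ⟨⟨h1, h2⟩, h3⟩ := h
  have hB : 2 ^ (k - 1) ≤ 2 ^ k := Nat.pow_le_pow_right (by norm_num) (by omega)
  refine fun a b ha hb ha0 hb0 => leaf_sound hqL hqR hWL hWR (k := k) ?_ a b ha hb ha0 hb0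
  refine ⟨hk, lt_of_lt_of_le hq hB, fun r hr => lt_of_lt_of_le (hc r hr) hB,
    Nat.le_of_ble_eq_true h1, Nat.le_of_ble_eq_true h2, ?_⟩
  intro s hs
  exact rowsN_spec _ _ _ _ _ _ _ _ h3 s hs

theorem innerN_sound {FL FR : RFam} {d : ℕ} {u v' : List ℕ} {K : List (List ℕ)}
    (hqL : 2 ≤ FL.q) (hqR : 1 ≤ FR.q) (hWL : FL.W ≤ d) (hWR : FR.W ≤ d) (k : ℕ) (t : TB)
    (L R : List (List ℕ)) (h : innerN FL FR d u v' K k t L R = true) :
    Good FL.toFam FR.toFam u v' K L R := by
  unfold innerN at h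
  simp only [frc_eq, FL.gC_eq, frcL_eq, mapN_eq, linN_eq, Bool.and_eq_true] at h
  obtain ⟨⟨hk, hc, hq⟩, hB⟩ := h
  have hk' : 1 ≤ k := Nat.le_of_ble_eq_true hk
  have hc' := allN_spec _ _ hc
  refine runB_sound ?_ t R hB
  intro Rc hR
  refine leafN_sound hqL hqR hWL hWR hk' ?_ (Nat.le_of_ble_eq_true hq) hR
  intro r hr
  exact hc' _ (List.mem_map.mpr ⟨r, hr, rfl⟩)

/-- the complete check -/
noncomputable def fchk (FL FR : RFam) (d : ℕ) (u v' : List ℕ) (K : List (List ℕ)) (t : TA)
    (L R : List (List ℕ)) : Bool :=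
  (Nat.ble 2 FL.q && (Nat.ble 1 FR.q && (Nat.ble FL.W d && Nat.ble FR.W d))) &&
    runA FL.q FR.q (innerN FL FR d u v' K) t L R

theorem fchk_sound {FL FR : RFam} {d : ℕ} {u v' : List ℕ} {K : List (List ℕ)} {t : TA}
    {L R : List (List ℕ)} (h : fchk FL FR d u v' K t L R = true) :
    Good FL.toFam FR.toFam u v' K L R := by
  unfold fchk at h
  simp only [Bool.and_eq_true] at h
  obtain ⟨⟨h1, h2, h3, h4⟩, h5⟩ := h
  exact runA_sound (innerN_sound (Nat.le_of_ble_eq_true h1) (Nat.le_of_ble_eq_true h2)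
    (Nat.le_of_ble_eq_true h3) (Nat.le_of_ble_eq_true h4)) t L R h5

/-! ### symmetric polynomials of three variables -/

theorem esl3' {α : Type} [CommSemiring α] (a b c : α) : esl [a, b, c] =
    [1, a + (b + c), a * b + (a + b) * c, a * b * c] := by
  simp only [esl, addL, List.map_cons, List.map_nil]
  refine congrArg₂ List.cons (by ring) (congrArg₂ List.cons (by ring)
    (congrArg₂ List.cons (by ring) (congrArg₂ List.cons (by ring) rfl)))

/-- monomial, raw -/
noncomputable def monN (e1 e2 e3 : ℕ) (ex : List ℕ) : ℕ :=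
  match ex with
  | [i, j, k] => Nat.mul (Nat.pow e1 i) (Nat.mul (Nat.pow e2 j) (Nat.pow e3 k))
  | ex => mon ex [e1, e2, e3]

theorem monN_eq (e1 e2 e3 : ℕ) (ex : List ℕ) : monN e1 e2 e3 ex = mon ex [e1, e2, e3] := by
  match ex with
  | [] => rfl
  | [_] => rfl
  | [_, _] => rfl
  | [i, j, k] =>
    show e1 ^ i * (e2 ^ j * e3 ^ k) = _
    simp [mon]
  | _ :: _ :: _ :: _ :: _ => rfl

/-- raw evaluator -/
noncomputable def g3C (exps : List (List ℕ)) (ys : List ℕ) (f : List ℕ → Bool) : Bool :=
  match ys with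
  | [a, b, c] => frc a fun a => frc b fun b => frc c fun c =>
    frc (Nat.add a (Nat.add b c)) fun e1 =>
    frc (Nat.add (Nat.mul a b) (Nat.mul (Nat.add a b) c)) fun e2 =>
    frc (Nat.mul (Nat.mul a b) c) fun e3 =>
    frcL (mapN (fun ex => monN e1 e2 e3 ex) exps) f
  | ys => f (exps.map fun ex => mon ex (esl ys).tail)

theorem g3C_eq (exps : List (List ℕ)) (ys : List ℕ) (f : List ℕ → Bool) :
    g3C exps ys f = f (exps.map fun ex => mon ex (esl ys).tail) := by
  match ys with
  | [] => rfl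
  | [_] => rfl
  | [_, _] => rfl
  | [a, b, c] =>
    unfold g3C
    simp only [frc_eq, frcL_eq, mapN_eq]
    congr 1
    apply List.map_congr_left
    intro ex _
    rw [monN_eq, esl3']
    rfl
  | _ :: _ :: _ :: _ :: _ => rfl

/-- degrees of the entries of a list increase by at most one -/
def DegL {n : ℕ} : ℕ → List (MvPolynomial (Fin n) ℕ) → Prop
  | _, [] => True
  | j, e :: es => e.totalDegree ≤ j ∧ DegL (j + 1) es

theorem degL_addL {n : ℕ} : ∀ (j : ℕ) (xs ys : List (MvPolynomial (Fin n) ℕ)), DegL j xs →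
    DegL j ys → DegL j (addL xs ys)
  | j, [], ys, _, h => by simpa [addL] using h
  | j, x :: xs, [], h, _ => by simpa [addL] using h
  | j, x :: xs, y :: ys, h, h' => by
    simp only [addL]
    exact ⟨(MvPolynomial.totalDegree_add _ _).trans (max_le h.1 h'.1),
      degL_addL (j + 1) xs ys h.2 h'.2⟩

theorem degL_map {n : ℕ} (y : MvPolynomial (Fin n) ℕ) (hy : y.totalDegree ≤ 1) :
    ∀ (j : ℕ) (xs : List (MvPolynomial (Fin n) ℕ)), DegL j xs →
      DegL (j + 1) (xs.map fun z => y * z)
  | j, [], _ => trivial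
  | j, x :: xs, h => by
    refine ⟨(MvPolynomial.totalDegree_mul _ _).trans ?_, degL_map y hy (j + 1) xs h.2⟩
    have := h.1
    omega

theorem degL_esl {n : ℕ} : ∀ (ys : List (MvPolynomial (Fin n) ℕ)),
    (∀ y ∈ ys, y.totalDegree ≤ 1) → DegL 0 (esl ys)
  | [], _ => by simp [esl, DegL]
  | y :: ys, h => by
    simp only [esl]
    apply degL_addL
    · exact degL_esl ys fun z hz => h z (List.mem_cons_of_mem _ hz)
    · refine ⟨by simp, degL_map y (h y List.mem_cons_self) 0 _ ?_⟩
      exact degL_esl ys fun z hz => h z (List.mem_cons_of_mem _ hz)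

theorem degL_tail {n : ℕ} (j : ℕ) (xs : List (MvPolynomial (Fin n) ℕ)) (h : DegL j xs) :
    DegL (j + 1) xs.tail := by
  cases xs with
  | nil => trivial
  | cons x xs => exact h.2

theorem deg_mon {n : ℕ} : ∀ (j : ℕ) (cs : List ℕ) (es : List (MvPolynomial (Fin n) ℕ)),
    DegL j es → (mon cs es).totalDegree ≤ wt j cs
  | j, [], es, _ => by simp [mon]
  | j, c :: cs, [], _ => by simp [mon]
  | j, c :: cs, e :: es, h => by
    simp only [mon, wt]
    refine (MvPolynomial.totalDegree_mul _ _).trans ?_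
    refine add_le_add ?_ (deg_mon (j + 1) cs es h.2)
    refine (MvPolynomial.totalDegree_pow _ _).trans ?_
    rw [mul_comm]
    exact Nat.mul_le_mul_right _ h.1

/-- structural check -/
def okx (W : ℕ) (exps : List (List ℕ)) : Bool :=
  exps.all fun ex => Nat.beq ex.length 3 && Nat.beq (wt 1 ex) W

theorem okx_spec {W : ℕ} {exps : List (List ℕ)} (h : okx W exps = true) :
    ∀ ex ∈ exps, ex.length = 3 ∧ wt 1 ex = W := by
  unfold okx at h
  simp only [List.all_eq_true, Bool.and_eq_true] at h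
  exact fun ex he => ⟨Nat.eq_of_beq_eq_true (h ex he).1, Nat.eq_of_beq_eq_true (h ex he).2⟩

/-- the family of monomials in the elementary symmetric functions of three variables -/
noncomputable def fam3 (exps : List (List ℕ)) (W : ℕ) (h : okx W exps = true) : RFam where
  q := 3
  W := W
  G := fun α _ ys => exps.map fun ex => mon ex (esl ys).tail
  nat := by
    intro α β _ _ φ ys
    rw [List.map_map]
    apply List.map_congr_left
    intro ex _
    simp only [Function.comp]
    rw [mon_nat, List.map_tail, esl_nat]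
  deg := by
    intro n ys _ hy z hz
    obtain ⟨ex, hex, rfl⟩ := List.mem_map.mp hz
    rw [← (okx_spec h ex hex).2]
    exact deg_mon 1 ex _ (degL_tail 0 _ (degL_esl ys hy))
  hom := by
    intro t ys hys
    rw [List.map_map]
    apply List.map_congr_left
    intro ex hex
    simp only [Function.comp]
    have h1 := okx_spec h ex hex
    rw [esl_scale, scale_tail, mon_scale, h1.2]
    rw [h1.1, List.length_tail, esl_length, hys]
  gC := g3C exps
  gC_eq := g3C_eq exps

/-! ### powers on an interval -/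

/-- `[Q^n, P Q^(n-1), ..., P^n]` -/
def gD {α : Type} [CommSemiring α] (n : ℕ) (ys : List α) : List α :=
  match ys with
  | [P, Q] => (List.range (n + 1)).map fun w => P ^ w * Q ^ (n - w)
  | _ => []

/-- raw evaluator -/
noncomputable def gDC (n : ℕ) (ys : List ℕ) (f : List ℕ → Bool) : Bool :=
  match ys with
  | [P, Q] => frc P fun P => frc Q fun Q =>
    frcL ((List.range (n + 1)).map fun w => Nat.mul (Nat.pow P w) (Nat.pow Q (n - w))) f
  | _ => f []

theorem gDC_eq (n : ℕ) (ys : List ℕ) (f : List ℕ → Bool) : gDC n ys f = f (gD n ys) := by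
  match ys with
  | [] => rfl
  | [_] => rfl
  | [P, Q] =>
    unfold gDC gD
    simp only [frc_eq, frcL_eq]
    rfl
  | _ :: _ :: _ :: _ => rfl

/-- the family of powers -/
noncomputable def famD (n : ℕ) : RFam where
  q := 2
  W := n
  G := fun α _ ys => gD n ys
  nat := by
    intro α β _ _ φ ys
    match ys with
    | [] => rfl
    | [_] => rfl
    | [P, Q] =>
      simp only [gD, List.map_cons, List.map_nil, List.map_map]
      apply List.map_congr_left
      intro w _
      simp
    | _ :: _ :: _ :: _ => rfl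
  deg := by
    intro m ys hl hy z hz
    match ys, hl with
    | [P, Q], _ =>
      simp only [gD] at hz
      obtain ⟨w, hw, rfl⟩ := List.mem_map.mp hz
      rw [List.mem_range] at hw
      have h1 := hy P (by simp)
      have h2 := hy Q (by simp)
      refine (MvPolynomial.totalDegree_mul _ _).trans ?_
      have h3 : (P ^ w).totalDegree ≤ w := by
        refine (MvPolynomial.totalDegree_pow _ _).trans ?_
        calc w * P.totalDegree ≤ w * 1 := Nat.mul_le_mul_left _ h1
          _ = w := mul_one w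
      have h4 : (Q ^ (n - w)).totalDegree ≤ n - w := by
        refine (MvPolynomial.totalDegree_pow _ _).trans ?_
        calc (n - w) * Q.totalDegree ≤ (n - w) * 1 := Nat.mul_le_mul_left _ h2
          _ = n - w := mul_one _
      omega
  hom := by
    intro t ys hl
    match ys, hl with
    | [P, Q], _ =>
      simp only [gD, List.map_cons, List.map_nil, List.map_map]
      apply List.map_congr_left
      intro w hw
      rw [List.mem_range] at hw
      simp only [Function.comp]
      rw [mul_pow, mul_pow]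
      have : t ^ n = t ^ w * t ^ (n - w) := by
        rw [← pow_add]
        congr 1
        omega
      rw [this]
      ring
  gC := gDC n
  gC_eq := gDC_eq n

end Vale.Agent.P154.FP
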