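import Vale.Agent.P154.Refl

/-! A tree checker for bilinear forms on pairs of cones (helper file). -/

namespace Vale.Agent.P154.PTree

open Finset Vale.Agent.P154.Refl

/-- certificate trees on pairs of cells; `leaf k` compares with `k` bits per digit, `sa i j`
splits the first cell along the edge `i j`, `sb i j` the second cell -/
inductive PT where
  | leaf : ℕ → PT
  | sa : ℕ → ℕ → PT → PT → PT
  | sb : ℕ → ℕ → PT → PT → PT

/-- the bilinear form on a pair of cells, both first coordinates equal to `1` -/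
def prF (q : ℕ) (cellA cellB exA exB C : List (List ℕ)) (α : Type) [CommSemiring α]
    (xs : List α) : α :=
  bil (exB.map fun ex => vecF q cellB ex α (xs.drop (q - 1))) C
    (exA.map fun ex => vecF q cellA ex α (xs.take (q - 1)))

theorem prF_nat (q : ℕ) (cellA cellB exA exB C : List (List ℕ)) (α β : Type) [CommSemiring α]
    [CommSemiring β] (φ : α →+* β) (xs : List α) :
    φ (prF q cellA cellB exA exB C α xs) = prF q cellA cellB exA exB C β (xs.map φ) := by
  unfold prF
  rw [bil_nat, List.map_map, List.map_map]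
  congr 1
  · apply List.map_congr_left
    intro ex _
    simp only [Function.comp]
    rw [vecF_nat, List.map_drop]
  · apply List.map_congr_left
    intro ex _
    simp only [Function.comp]
    rw [vecF_nat, List.map_take]

/-- structural checks on the exponents -/
def okex (q W : ℕ) (exps : List (List ℕ)) : Bool :=
  exps.all fun ex => Nat.beq ex.length q && Nat.beq (wt 1 ex) W

/-- splitting of one cell -/
def okij (q i j : ℕ) (cell : List (List ℕ)) : Bool :=
  Nat.blt i q && (Nat.blt j q && (Nat.blt i cell.length && (Nat.blt j cell.length &&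
      !Nat.beq i j)))

/-- the tree checker -/
def ptc (q d : ℕ) (exA exB Cp Cm : List (List ℕ)) :
    PT → List (List ℕ) → List (List ℕ) → Bool
  | .leaf kb, cellA, cellB =>
    test ((q - 1) + (q - 1)) kb d (prF q cellA cellB exA exB Cm ℕ)
      (prF q cellA cellB exA exB Cp ℕ)
  | .sa i j a b, cellA, cellB => okij q i j cellA &&
    (ptc q d exA exB Cp Cm a (cellA.set i (addL (cellA.getD i []) (cellA.getD j []))) cellB &&
    ptc q d exA exB Cp Cm b (cellA.set j (addL (cellA.getD i []) (cellA.getD j []))) cellB)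
  | .sb i j a b, cellA, cellB => okij q i j cellB &&
    (ptc q d exA exB Cp Cm a cellA (cellB.set i (addL (cellB.getD i []) (cellB.getD j []))) &&
    ptc q d exA exB Cp Cm b cellA (cellB.set j (addL (cellB.getD i []) (cellB.getD j []))))

/-- value of the bilinear form as a function of the concatenated coordinates -/
def tvF (q : ℕ) (exA exB C cellA cellB : List (List ℕ)) (α : Type) [CommSemiring α]
    (xs : List α) : α :=
  bil (exB.map fun ex => mon ex (esl (coords q cellB (xs.drop q))).tail) C
    (exA.map fun ex => mon ex (esl (coords q cellA (xs.take q))).tail)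

theorem tvF_nat (q : ℕ) (exA exB C cellA cellB : List (List ℕ)) (α β : Type) [CommSemiring α]
    [CommSemiring β] (φ : α →+* β) (xs : List α) :
    φ (tvF q exA exB C cellA cellB α xs) = tvF q exA exB C cellA cellB β (xs.map φ) := by
  unfold tvF
  rw [bil_nat, List.map_map, List.map_map]
  congr 1
  · apply List.map_congr_left
    intro ex _
    simp only [Function.comp]
    rw [mon_nat, List.map_tail, esl_nat, coords_nat, List.map_drop]
  · apply List.map_congr_left
    intro ex _
    simp only [Function.comp]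
    rw [mon_nat, List.map_tail, esl_nat, coords_nat, List.map_take]

/-- the value of the form at a pair of points given by cell coordinates -/
noncomputable def tVal (q : ℕ) (exA exB C cellA cellB : List (List ℕ)) (a b : List ℝ) : ℝ :=
  bil (exB.map fun ex => mon ex (esl (coords q cellB b)).tail) C
    (exA.map fun ex => mon ex (esl (coords q cellA a)).tail)

theorem tvF_append {q : ℕ} (exA exB C cellA cellB : List (List ℕ)) (a b : List ℝ)
    (ha : a.length = q) :
    tvF q exA exB C cellA cellB ℝ (a ++ b) = tVal q exA exB C cellA cellB a b := by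
  unfold tvF tVal
  rw [List.drop_left' ha, List.take_left' ha]

theorem tVal_scale {q : ℕ} (exA exB C cellA cellB : List (List ℕ)) (a b : List ℝ) (s t : ℝ)
    {WA WB : ℕ} (hA : ∀ ex ∈ exA, ex.length = q ∧ wt 1 ex = WA)
    (hB : ∀ ex ∈ exB, ex.length = q ∧ wt 1 ex = WB) :
    tVal q exA exB C cellA cellB (a.map fun y => t * y) (b.map fun y => s * y) =
      s ^ WB * t ^ WA * tVal q exA exB C cellA cellB a b := by
  unfold tVal
  rw [← bil_smul, List.map_map, List.map_map]
  congr 1
  · apply List.map_congr_left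
    intro ex hex
    exact mon_coords_scale cellB b s ex (hB ex hex).1 (hB ex hex).2
  · apply List.map_congr_left
    intro ex hex
    exact mon_coords_scale cellA a t ex (hA ex hex).1 (hA ex hex).2

theorem okex_spec {q W : ℕ} {exps : List (List ℕ)} (h : okex q W exps = true) :
    ∀ ex ∈ exps, ex.length = q ∧ wt 1 ex = W := by
  unfold okex at h
  simp only [List.all_eq_true, Bool.and_eq_true] at h
  exact fun ex he => ⟨Nat.eq_of_beq_eq_true (h ex he).1, Nat.eq_of_beq_eq_true (h ex he).2⟩

/-- soundness of a leaf -/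
theorem leaf_pair_sound {q kb d WA WB : ℕ} (hq : 1 ≤ q) {exA exB Cp Cm : List (List ℕ)}
    (hA : ∀ ex ∈ exA, ex.length = q ∧ wt 1 ex = WA)
    (hB : ∀ ex ∈ exB, ex.length = q ∧ wt 1 ex = WB) {cellA cellB : List (List ℕ)}
    (h : test ((q - 1) + (q - 1)) kb d (prF q cellA cellB exA exB Cm ℕ)
      (prF q cellA cellB exA exB Cp ℕ) = true) (a b : List ℝ) (ha : a.length = q)
    (hb : b.length = q) (ha0 : ∀ x ∈ a, 0 ≤ x) (hb0 : ∀ x ∈ b, 0 ≤ x) :
    tVal q exA exB Cm cellA cellB a b ≤ tVal q exA exB Cp cellA cellB a b := by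
  obtain ⟨n, rfl⟩ : ∃ n, q = n + 1 := ⟨q - 1, by omega⟩
  -- step 1: first coordinates equal to one
  have step1 : ∀ (as bs : List ℝ), as.length = n → bs.length = n → (∀ x ∈ as, 0 ≤ x) →
      (∀ x ∈ bs, 0 ≤ x) → tVal (n + 1) exA exB Cm cellA cellB (1 :: as) (1 :: bs) ≤
        tVal (n + 1) exA exB Cp cellA cellB (1 :: as) (1 :: bs) := by
    intro as bs hla hlb hna hnb
    have ht := test_sound
      (fun α _ xs => prF (n + 1) cellA cellB exA exB Cm α xs)
      (fun α _ xs => prF (n + 1) cellA cellB exA exB Cp α xs)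
      (fun α β _ _ φ xs => prF_nat (n + 1) cellA cellB exA exB Cm α β φ xs)
      (fun α β _ _ φ xs => prF_nat (n + 1) cellA cellB exA exB Cp α β φ xs) h (as ++ bs)
      (by simp [hla, hlb]) (by
        intro x hx
        rcases List.mem_append.mp hx with hx | hx
        · exact hna x hx
        · exact hnb x hx)
    have e : ∀ C : List (List ℕ), prF (n + 1) cellA cellB exA exB C ℝ (as ++ bs) =
        tVal (n + 1) exA exB C cellA cellB (1 :: as) (1 :: bs) := by
      intro C
      unfold prF tVal vecF
      rw [Nat.add_sub_cancel, List.drop_left' hla, List.take_left' hla]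
    simp only [e] at ht
    exact ht
  -- step 2: positive first coordinates
  have step2 : ∀ (a0 : ℝ) (as : List ℝ) (b0 : ℝ) (bs : List ℝ), 0 < a0 → 0 < b0 →
      as.length = n → bs.length = n → (∀ x ∈ as, 0 ≤ x) → (∀ x ∈ bs, 0 ≤ x) →
      tVal (n + 1) exA exB Cm cellA cellB (a0 :: as) (b0 :: bs) ≤
        tVal (n + 1) exA exB Cp cellA cellB (a0 :: as) (b0 :: bs) := by
    intro a0 as b0 bs ha' hb' hla hlb hna hnb
    rw [cons_scale ha' as, cons_scale hb' bs, tVal_scale _ _ _ _ _ _ _ _ _ hA hB,
      tVal_scale _ _ _ _ _ _ _ _ _ hA hB]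
    apply mul_le_mul_of_nonneg_left _ (by positivity)
    apply step1
    · simpa using hla
    · simpa using hlb
    · intro y hy
      obtain ⟨z, hz, rfl⟩ := List.mem_map.mp hy
      exact mul_nonneg (inv_nonneg.mpr ha'.le) (hna z hz)
    · intro y hy
      obtain ⟨z, hz, rfl⟩ := List.mem_map.mp hy
      exact mul_nonneg (inv_nonneg.mpr hb'.le) (hnb z hz)
  obtain ⟨a0, as, rfl⟩ : ∃ a0 as, a = a0 :: as := by
    cases a with
    | nil => simp at ha
    | cons x xs => exact ⟨x, xs, rfl⟩
  obtain ⟨b0, bs, rfl⟩ : ∃ b0 bs, b = b0 :: bs := by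
    cases b with
    | nil => simp at hb
    | cons x xs => exact ⟨x, xs, rfl⟩
  have hla : as.length = n := by simpa using ha
  have hlb : bs.length = n := by simpa using hb
  have hna : ∀ x ∈ as, 0 ≤ x := fun x hx => ha0 x (List.mem_cons_of_mem _ hx)
  have hnb : ∀ x ∈ bs, 0 ≤ x := fun x hx => hb0 x (List.mem_cons_of_mem _ hx)
  have lim := fun pre post hh => lim_le (fun α _ xs => tvF (n + 1) exA exB Cm cellA cellB α xs)
    (fun α _ xs => tvF (n + 1) exA exB Cp cellA cellB α xs)
    (fun α β _ _ φ xs => tvF_nat (n + 1) exA exB Cm cellA cellB α β φ xs)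
    (fun α β _ _ φ xs => tvF_nat (n + 1) exA exB Cp cellA cellB α β φ xs) pre post hh
  -- step 3: nonnegative first coordinate of `a`
  have step3 : ∀ b0 : ℝ, 0 < b0 → tVal (n + 1) exA exB Cm cellA cellB (a0 :: as) (b0 :: bs) ≤
        tVal (n + 1) exA exB Cp cellA cellB (a0 :: as) (b0 :: bs) := by
    intro b0 hb'
    rcases lt_or_eq_of_le (ha0 a0 List.mem_cons_self) with hpos | hzero
    · exact step2 a0 as b0 bs hpos hb' hla hlb hna hnb
    · rw [← hzero]
      have := lim [] (as ++ b0 :: bs) (by
        intro ε hε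
        have e : ∀ C : List (List ℕ), tvF (n + 1) exA exB C cellA cellB ℝ
            ([] ++ ε :: (as ++ b0 :: bs)) =
            tVal (n + 1) exA exB C cellA cellB (ε :: as) (b0 :: bs) := fun C =>
          tvF_append exA exB C cellA cellB (ε :: as) (b0 :: bs) (by simpa using hla)
        rw [e, e]
        exact step2 ε as b0 bs hε hb' hla hlb hna hnb)
      have e : ∀ C : List (List ℕ), tvF (n + 1) exA exB C cellA cellB ℝ
          ([] ++ 0 :: (as ++ b0 :: bs)) =
          tVal (n + 1) exA exB C cellA cellB (0 :: as) (b0 :: bs) := fun C =>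
        tvF_append exA exB C cellA cellB (0 :: as) (b0 :: bs) (by simpa using hla)
      rw [e, e] at this
      exact this
  rcases lt_or_eq_of_le (hb0 b0 List.mem_cons_self) with hpos | hzero
  · exact step3 b0 hpos
  · rw [← hzero]
    have := lim (a0 :: as) bs (by
      intro ε hε
      rw [tvF_append _ _ _ _ _ _ _ ha, tvF_append _ _ _ _ _ _ _ ha]
      exact step3 ε hε)
    rw [tvF_append _ _ _ _ _ _ _ ha, tvF_append _ _ _ _ _ _ _ ha] at this
    exact this

theorem okij_spec {q i j : ℕ} {cell : List (List ℕ)} (h : okij q i j cell = true) :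
    i < q ∧ j < q ∧ i < cell.length ∧ j < cell.length ∧ i ≠ j := by
  unfold okij at h
  simp only [Bool.and_eq_true] at h
  obtain ⟨hi', hj', hic', hjc', hij'⟩ := h
  refine ⟨Nat.le_of_ble_eq_true hi', Nat.le_of_ble_eq_true hj', Nat.le_of_ble_eq_true hic',
    Nat.le_of_ble_eq_true hjc', ?_⟩
  intro e
  subst e
  simp at hij'

/-- soundness of the tree checker -/
theorem ptc_sound {q d WA WB : ℕ} (hq : 1 ≤ q) {exA exB Cp Cm : List (List ℕ)}
    (hA : ∀ ex ∈ exA, ex.length = q ∧ wt 1 ex = WA)
    (hB : ∀ ex ∈ exB, ex.length = q ∧ wt 1 ex = WB) (t : PT) :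
    ∀ cellA cellB : List (List ℕ), ptc q d exA exB Cp Cm t cellA cellB = true →
    ∀ a b : List ℝ, a.length = q → b.length = q → (∀ x ∈ a, 0 ≤ x) → (∀ x ∈ b, 0 ≤ x) →
    tVal q exA exB Cm cellA cellB a b ≤ tVal q exA exB Cp cellA cellB a b := by
  induction t with
  | leaf kb =>
    intro cellA cellB h a b ha hb ha0 hb0
    exact leaf_pair_sound hq hA hB h a b ha hb ha0 hb0
  | sa i j t1 t2 ih1 ih2 =>
    intro cellA cellB h a b ha hb ha0 hb0
    simp only [ptc, Bool.and_eq_true] at h
    obtain ⟨hij, h1, h2⟩ := h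
    obtain ⟨hiq, hjq, hic, hjc, hne⟩ := okij_spec hij
    have hib : i < a.length := by rw [ha]; exact hiq
    have hjb : j < a.length := by rw [ha]; exact hjq
    rcases le_total (a.getD i 0) (a.getD j 0) with hle | hle
    · have hc := coords_split cellA a hiq hjq hib hjb hic hne
      have := ih1 _ cellB h1 (a.set j (a.getD j 0 - a.getD i 0)) b (by simpa using ha) hb
        (set_nonneg ha0 (by linarith)) hb0
      unfold tVal at this ⊢
      rw [hc] at this
      exact this
    · have hc := coords_split' cellA a hiq hjq hib hjb hjc hne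
      have := ih2 _ cellB h2 (a.set i (a.getD i 0 - a.getD j 0)) b (by simpa using ha) hb
        (set_nonneg ha0 (by linarith)) hb0
      unfold tVal at this ⊢
      rw [hc] at this
      exact this
  | sb i j t1 t2 ih1 ih2 =>
    intro cellA cellB h a b ha hb ha0 hb0
    simp only [ptc, Bool.and_eq_true] at h
    obtain ⟨hij, h1, h2⟩ := h
    obtain ⟨hiq, hjq, hic, hjc, hne⟩ := okij_spec hij
    have hib : i < b.length := by rw [hb]; exact hiq
    have hjb : j < b.length := by rw [hb]; exact hjq
    rcases le_total (b.getD i 0) (b.getD j 0) with hle | hle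
    · have hc := coords_split cellB b hiq hjq hib hjb hic hne
      have := ih1 cellA _ h1 a (b.set j (b.getD j 0 - b.getD i 0)) ha (by simpa using hb) ha0
        (set_nonneg hb0 (by linarith))
      unfold tVal at this ⊢
      rw [hc] at this
      exact this
    · have hc := coords_split' cellB b hiq hjq hib hjb hjc hne
      have := ih2 cellA _ h2 a (b.set i (b.getD i 0 - b.getD j 0)) ha (by simpa using hb) ha0
        (set_nonneg hb0 (by linarith))
      unfold tVal at this ⊢
      rw [hc] at this
      exact this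

/-! ### the case of three states -/

/-- the bilinear form `∑ C_ij e^(exA_i)(y) e^(exB_j)(z)` -/
def biv2 (exA exB C : List (List ℕ)) (ey ez : List ℝ) : ℝ :=
  bil (exB.map fun ex => mon ex ez) C (exA.map fun ex => mon ex ey)

theorem biv2_self (exps C : List (List ℕ)) (ey ez : List ℝ) :
    biv2 exps exps C ey ez = biv exps C ey ez := rfl

/-- the tree check for two arbitrary cones of vectors in `ℝ³` -/
theorem ptree3 {d WA WB : ℕ} {exA exB Cp Cm cellA cellB : List (List ℕ)} {t : PT}
    (hA : okex 3 WA exA = true) (hB : okex 3 WB exB = true)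
    (h : ptc 3 d exA exB Cp Cm t cellA cellB = true) (y z : Fin 3 → ℝ)
    (a b : List ℝ) (ha : a.length = 3) (hb : b.length = 3) (ha0 : ∀ x ∈ a, 0 ≤ x)
    (hb0 : ∀ x ∈ b, 0 ≤ x) (hy : coords 3 cellA a = [y 0, y 1, y 2])
    (hz : coords 3 cellB b = [z 0, z 1, z 2]) :
    biv2 exA exB Cm (E3 y) (E3 z) ≤ biv2 exA exB Cp (E3 y) (E3 z) := by
  have := ptc_sound (by norm_num) (okex_spec hA) (okex_spec hB) t cellA cellB h a b ha hb ha0 hb0
  unfold tVal at this
  rw [hy, hz, esl3, esl3] at this
  exact this

/-- both vectors nonnegative -/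
theorem ptree_nn {d WA WB : ℕ} {exA exB Cp Cm : List (List ℕ)} {t : PT}
    (hA : okex 3 WA exA = true) (hB : okex 3 WB exB = true)
    (h : ptc 3 d exA exB Cp Cm t scell3 scell3 = true) (y z : Fin 3 → ℝ)
    (hy : ∀ i, 0 ≤ y i) (hz : ∀ i, 0 ≤ z i) :
    biv2 exA exB Cm (E3 y) (E3 z) ≤ biv2 exA exB Cp (E3 y) (E3 z) := by
  obtain ⟨s, hs⟩ := exists_sort y
  obtain ⟨u, hu⟩ := exists_sort z
  rw [← E3_perm y s, ← E3_perm z u]
  have h01 := hs 0 1 (by decide)
  have h12 := hs 1 2 (by decide)
  have h2 := hy (s 2)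
  have k01 := hu 0 1 (by decide)
  have k12 := hu 1 2 (by decide)
  have k2 := hz (u 2)
  exact ptree3 hA hB h _ _
    [(y (s 0) - y (s 1)) / 6, (y (s 1) - y (s 2)) / 3, y (s 2) / 2]
    [(z (u 0) - z (u 1)) / 6, (z (u 1) - z (u 2)) / 3, z (u 2) / 2] rfl rfl
    (by
      intro x hx
      simp only [List.mem_cons, List.not_mem_nil, or_false] at hx
      rcases hx with rfl | rfl | rfl <;> linarith)
    (by
      intro x hx
      simp only [List.mem_cons, List.not_mem_nil, or_false] at hx
      rcases hx with rfl | rfl | rfl <;> linarith)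
    (coords_scell3 _ _ _) (coords_scell3 _ _ _)

/-- the image of the simplex under `b ↦ 1 + lam (b - 1)`: three rays with integer coordinates -/
def ecell (u v w n : ℕ) : List (List ℕ) := [[u, v, v], [w, w, v], [n, n, n]]

theorem coords_ecell {u v w n : ℕ} {lam : ℝ} (hn : 0 < n) (hu : (u : ℝ) = n * (1 + 2 * lam))
    (hv : (v : ℝ) = n * (1 - lam)) (hw : 2 * (w : ℝ) = n * (2 + lam)) (b : Fin 3 → ℝ)
    (hb : b 0 + b 1 + b 2 = 3) :
    coords 3 (ecell u v w n) [(b 0 - b 1) / (3 * n), 2 * (b 1 - b 2) / (3 * n), b 2 / n] =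
      [1 + lam * (b 0 - 1), 1 + lam * (b 1 - 1), 1 + lam * (b 2 - 1)] := by
  have hn' : (n : ℝ) ≠ 0 := by positivity
  have hw' : (w : ℝ) = n * (2 + lam) / 2 := by linarith
  have e : b 2 = 3 - b 0 - b 1 := by linarith
  simp only [coords, ecell, sumTo, List.range, List.range.loop, List.map_cons, List.map_nil,
    List.getD_cons_zero, List.getD_cons_succ, hu, hv, hw', zero_add]
  rw [e]
  refine congrArg₂ List.cons ?_ (congrArg₂ List.cons ?_ (congrArg₂ List.cons ?_ rfl)) <;>
  · field_simp
    ring

/-- first vector nonnegative, second vector in the image of the simplex -/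
theorem ptree_en {d WA WB u v w n : ℕ} {exA exB Cp Cm : List (List ℕ)} {t : PT}
    (hA : okex 3 WA exA = true) (hB : okex 3 WB exB = true)
    (h : ptc 3 d exA exB Cp Cm t scell3 (ecell u v w n) = true) {lam : ℝ} (hn : 0 < n)
    (hu : (u : ℝ) = n * (1 + 2 * lam)) (hv : (v : ℝ) = n * (1 - lam))
    (hw : 2 * (w : ℝ) = n * (2 + lam)) (y b : Fin 3 → ℝ)
    (hy : ∀ i, 0 ≤ y i) (hb : ∀ i, 0 ≤ b i) (hb3 : b 0 + b 1 + b 2 = 3) :
    biv2 exA exB Cm (E3 y) (E3 fun i => 1 + lam * (b i - 1)) ≤
      biv2 exA exB Cp (E3 y) (E3 fun i => 1 + lam * (b i - 1)) := by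
  obtain ⟨s, hs⟩ := exists_sort y
  obtain ⟨p, hp⟩ := exists_sort b
  have hb3' : b (p 0) + b (p 1) + b (p 2) = 3 := by
    have h1 : ∑ i, b (p i) = ∑ i, b i := Equiv.sum_comp p b
    simp only [Fin.sum_univ_three] at h1
    linarith
  rw [← E3_perm y s, ← E3_perm (fun i => 1 + lam * (b i - 1)) p]
  have h01 := hs 0 1 (by decide)
  have h12 := hs 1 2 (by decide)
  have h2 := hy (s 2)
  have k01 := hp 0 1 (by decide)
  have k12 := hp 1 2 (by decide)
  have k2 := hb (p 2)
  have hn' : (0 : ℝ) < n := by exact_mod_cast hn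
  exact ptree3 hA hB h _ _
    [(y (s 0) - y (s 1)) / 6, (y (s 1) - y (s 2)) / 3, y (s 2) / 2]
    [(b (p 0) - b (p 1)) / (3 * n), 2 * (b (p 1) - b (p 2)) / (3 * n), b (p 2) / n] rfl rfl
    (by
      intro x hx
      simp only [List.mem_cons, List.not_mem_nil, or_false] at hx
      rcases hx with rfl | rfl | rfl <;> linarith)
    (by
      intro x hx
      simp only [List.mem_cons, List.not_mem_nil, or_false] at hx
      rcases hx with rfl | rfl | rfl
      · exact div_nonneg (by linarith) (by positivity)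
      · exact div_nonneg (by linarith) (by positivity)
      · exact div_nonneg (by linarith) (by positivity))
    (coords_scell3 _ _ _) (coords_ecell hn hu hv hw (fun i => b (p i)) hb3')

end Vale.Agent.P154.PTree
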