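import Vale.Agent.P154.Avg10
import Vale.Agent.P154.PTree
import Vale.Agent.P154.BilL

/-! Averaged inequalities from integer data, q = 3, weight 10 (helper file). -/

set_option linter.style.longLine false

namespace Vale.Agent.P154.A10

open Finset Vale.Agent.P154

/-- exponents of `vvec` -/
def exps : List (List ℕ) :=
  [[10, 0, 0], [8, 1, 0], [7, 0, 1], [6, 2, 0], [5, 1, 1], [4, 0, 2], [4, 3, 0], [3, 2, 1],
   [2, 1, 2], [1, 0, 3], [2, 4, 0], [1, 3, 1], [0, 2, 2], [0, 5, 0]]

theorem vvec_eq (y : Fin 3 → ℝ) : exps.map (fun ex => Refl.mon ex (Refl.E3 y)) = vvec y := by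
  simp [exps, Refl.mon, Refl.E3, vvec, s31, s32, s33, mul_assoc]

theorem evL_lin' (r : List ℕ) (w : List ℝ) :
    evL (r.map (fun n : ℕ => (n : ℤ))) w = Refl.lin r w := by
  induction r generalizing w with
  | nil => simp [Refl.lin]
  | cons a r ih =>
    cases w with
    | nil => simp [Refl.lin]
    | cons x w => simp [evL_cons, Refl.lin, ih]

theorem bil_refl' (C : List (List ℕ)) (v w : List ℝ) :
    bil (toZ C) v w = Refl.bil w C v := by
  induction C generalizing v with
  | nil => simp [toZ, Refl.bil]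
  | cons r C ih =>
    cases v with
    | nil => simp [toZ, Refl.bil]
    | cons x v =>
      have := ih v
      simp only [toZ] at this
      simp only [toZ, List.map_cons, bil_cons, Refl.bil, evL_lin']
      rw [this]

/-- upper bound for an averaged polynomial: `c1 * avg = K - c2 (Cp - Cm)` with `Cm ≤ Cp` as
forms gives `c1 * avg ≤ K` -/
theorem master (l r : List ℤ) (K : List (List ℤ)) (Cp Cm : List (List ℕ)) (c1 : ℤ) (c2 : ℕ)
    (h1 : isZL (addL (vecMat r T) (smulL (-6) l)) = true)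
    (h2 : isZM (addM (smulM c1 (diagForm (scl 9 10 r mw) V)) (addM (smulM (-1) K)
      (addM (smulM (c2 : ℤ) (toZ Cp)) (smulM (-(c2 : ℤ)) (toZ Cm))))) = true)
    (A B : Fin 3 → ℝ) (hA : s31 A = 3) (hB : s31 B = 3)
    (hpos : PTree.biv2 exps exps Cm (Refl.E3 A) (Refl.E3 B) ≤
      PTree.biv2 exps exps Cp (Refl.E3 A) (Refl.E3 B)) :
    (c1 : ℝ) * (6 * 3 ^ 20 * ∑ p : Equiv.Perm (Fin 3), evL l (evec (fun i => A i * B (p i))))
      ≤ bil K (vvec A) (vvec B) := by
  have key := bil_isZM _ h2 (vvec A) (vvec B)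
  simp only [bil_addM, bil_smulM, ← avgL l r h1 A B hA hB, bil_refl'] at key
  unfold PTree.biv2 at hpos
  rw [vvec_eq, vvec_eq] at hpos
  have hc : (0 : ℝ) ≤ (c2 : ℝ) := Nat.cast_nonneg _
  have h3 := mul_le_mul_of_nonneg_left hpos hc
  push_cast at key
  linarith

end Vale.Agent.P154.A10
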