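import Vale.Agent.P154.FP4
import Vale.Agent.P154.Master10
import Vale.Agent.P154.Min3

/-! Certificate units from integer data (helper file). -/

set_option linter.style.longLine false
set_option linter.unusedSimpArgs false

namespace Vale.Agent.P154.FP

open Finset Vale.Agent.P154 Vale.Agent.P154.A10

/-- monomials in the normalised elementary symmetric functions, same order as `vvec` -/
noncomputable def wvec (x : Fin 3 → ℝ) : List ℝ :=
  [1, s32 x / 3, s33 x, (s32 x / 3) ^ 2, (s32 x / 3) * s33 x, s33 x ^ 2, (s32 x / 3) ^ 3,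
   (s32 x / 3) ^ 2 * s33 x, (s32 x / 3) * s33 x ^ 2, s33 x ^ 3, (s32 x / 3) ^ 4,
   (s32 x / 3) ^ 3 * s33 x, (s32 x / 3) ^ 2 * s33 x ^ 2, (s32 x / 3) ^ 5]

/-- polynomial with integer coefficients and a denominator -/
noncomputable def pv (d : ℕ) (l : List ℤ) (x : Fin 3 → ℝ) : ℝ := evL l (wvec x) / d

/-- entrywise product -/
def mulL : List ℤ → List ℤ → List ℤ
  | a :: s, b :: t => (a * b) :: mulL s t
  | _, _ => []

/-- entrywise product -/
def mulR : List ℤ → List ℝ → List ℝ
  | a :: s, x :: v => ((a : ℝ) * x) :: mulR s v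
  | _, _ => []

theorem evL_mulL : ∀ (w l : List ℤ) (v : List ℝ), evL (mulL w l) v = evL l (mulR w v)
  | [], l, v => by simp [mulL, mulR]
  | a :: w, [], v => by simp [mulL, mulR]
  | a :: w, b :: l, [] => by simp [mulL, mulR]
  | a :: w, b :: l, x :: v => by
    simp only [mulL, mulR, evL_cons, evL_mulL w l v]
    push_cast
    ring

theorem evL_smul (c : ℝ) : ∀ (l : List ℤ) (v : List ℝ), evL l (v.map fun x => c * x) = c * evL l v
  | [], v => by simp
  | a :: l, [] => by simp
  | a :: l, x :: v => by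
    simp only [List.map_cons, evL_cons, evL_smul c l v]
    ring

/-- weights -/
def w3 : List ℤ := [1, 3, 27, 9, 81, 729, 27, 243, 2187, 19683, 81, 729, 6561, 243]

theorem mulR_w3 (x : Fin 3 → ℝ) (hx : s31 x = 3) :
    mulR w3 (vvec x) = (wvec x).map fun z => 3 ^ 10 * z := by
  simp only [w3, vvec, wvec, mulR, hx, List.map_cons, List.map_nil]
  push_cast
  refine congrArg₂ List.cons (by ring) ?_
  refine congrArg₂ List.cons (by ring) ?_
  refine congrArg₂ List.cons (by ring) ?_
  refine congrArg₂ List.cons (by ring) ?_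
  refine congrArg₂ List.cons (by ring) ?_
  refine congrArg₂ List.cons (by ring) ?_
  refine congrArg₂ List.cons (by ring) ?_
  refine congrArg₂ List.cons (by ring) ?_
  refine congrArg₂ List.cons (by ring) ?_
  refine congrArg₂ List.cons (by ring) ?_
  refine congrArg₂ List.cons (by ring) ?_
  refine congrArg₂ List.cons (by ring) ?_
  refine congrArg₂ List.cons (by ring) ?_
  refine congrArg₂ List.cons (by ring) ?_
  rfl

theorem evL_w3 (l : List ℤ) (x : Fin 3 → ℝ) (hx : s31 x = 3) :
    evL (mulL w3 l) (vvec x) = 3 ^ 10 * evL l (wvec x) := by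
  rw [evL_mulL, mulR_w3 x hx, evL_smul]

/-! ### dilations -/

/-- powers -/
noncomputable def dpow (D : ℝ) : List ℝ := [1, D, D ^ 2, D ^ 3, D ^ 4, D ^ 5, D ^ 6, D ^ 7, D ^ 8, D ^ 9, D ^ 10]

/-- unit matrix with one entry -/
def unitM : ℕ → ℕ → ℤ → List (List ℤ)
  | 0, w, c => [List.replicate w 0 ++ [c]]
  | i + 1, w, c => [] :: unitM i w c

theorem evL_rep (c : ℤ) : ∀ (w : ℕ) (z : List ℝ),
    evL (List.replicate w 0 ++ [c]) z = c * z.getD w 0
  | 0, [] => by simp
  | 0, x :: z => by simp [evL_cons]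
  | w + 1, [] => by simp
  | w + 1, x :: z => by
    simp only [List.replicate_succ, List.cons_append, evL_cons, evL_rep c w z]
    simp

theorem bil_unitM (w : ℕ) (c : ℤ) : ∀ (i : ℕ) (v z : List ℝ),
    bil (unitM i w c) v z = c * (v.getD i 0 * z.getD w 0)
  | 0, [], z => by simp [unitM]
  | 0, x :: v, z => by
    simp only [unitM, bil_cons, evL_rep, bil_nil_left, List.getD_cons_zero]
    ring
  | i + 1, [], z => by simp [unitM]
  | i + 1, x :: v, z => by
    simp only [unitM, bil_cons, bil_unitM w c i v z, evL_nil_left, List.getD_cons_succ]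
    ring

/-- scattered matrix -/
def scat : List ℤ → List (ℕ × ℕ) → List (List ℤ)
  | a :: l, m :: ms => addM (unitM m.2 m.1 (a * 3 ^ m.1)) (scat l ms)
  | _, _ => []

theorem bil_scat (v z : List ℝ) : ∀ (l : List ℤ) (ms : List (ℕ × ℕ)),
    bil (scat l ms) v z = evL l (ms.map fun m => 3 ^ m.1 * (v.getD m.2 0 * z.getD m.1 0))
  | [], ms => by simp [scat]
  | a :: l, [] => by simp [scat]
  | a :: l, m :: ms => by
    simp only [scat, bil_addM, bil_unitM, bil_scat v z l ms, List.map_cons, evL_cons]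
    push_cast
    ring

/-- degrees and positions of the entries of `evec` -/
def meta1 : List (ℕ × ℕ) :=
  [(0, 0), (1, 0), (2, 0), (2, 1), (3, 0), (3, 1), (3, 2), (4, 0), (4, 1), (4, 2), (4, 3), (5, 0), (5, 1), (5, 2), (5, 3), (5, 4), (6, 0), (6, 1), (6, 2), (6, 3), (6, 4), (6, 6), (6, 5), (7, 0), (7, 1), (7, 2), (7, 3), (7, 4), (7, 6), (7, 5), (7, 7), (8, 0), (8, 1), (8, 2), (8, 3), (8, 4), (8, 6), (8, 5), (8, 7), (8, 10), (8, 8), (9, 0), (9, 1), (9, 2), (9, 3), (9, 4), (9, 6), (9, 5), (9, 7), (9, 10), (9, 8), (9, 11), (9, 9), (10, 0), (10, 1), (10, 2), (10, 3), (10, 4), (10, 6), (10, 5), (10, 7), (10, 10), (10, 8), (10, 11), (10, 9), (10, 13), (10, 12)]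

theorem s31_dil (D : ℝ) (x : Fin 3 → ℝ) : s31 (fun i => D * x i) = D * s31 x := by
  simp only [s31]; ring

theorem s32_dil (D : ℝ) (x : Fin 3 → ℝ) : s32 (fun i => D * x i) = D ^ 2 * s32 x := by
  simp only [s32]; ring

theorem s33_dil (D : ℝ) (x : Fin 3 → ℝ) : s33 (fun i => D * x i) = D ^ 3 * s33 x := by
  simp only [s33]; ring

theorem evec_dil (D : ℝ) (x : Fin 3 → ℝ) (hx : s31 x = 3) :
    (evec (fun i => D * x i)).map (fun z => 3 ^ 10 * z) =
      meta1.map fun m => 3 ^ m.1 * ((vvec x).getD m.2 0 * (dpow D).getD m.1 0) := by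
  simp only [evec, s31_dil, s32_dil, s33_dil, hx, meta1, List.map_cons, List.map_nil, vvec, dpow,
    List.getD_cons_zero, List.getD_cons_succ]
  refine congrArg₂ List.cons (by ring) ?_
  refine congrArg₂ List.cons (by ring) ?_
  refine congrArg₂ List.cons (by ring) ?_
  refine congrArg₂ List.cons (by ring) ?_
  refine congrArg₂ List.cons (by ring) ?_
  refine congrArg₂ List.cons (by ring) ?_
  refine congrArg₂ List.cons (by ring) ?_
  refine congrArg₂ List.cons (by ring) ?_
  refine congrArg₂ List.cons (by ring) ?_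
  refine congrArg₂ List.cons (by ring) ?_
  refine congrArg₂ List.cons (by ring) ?_
  refine congrArg₂ List.cons (by ring) ?_
  refine congrArg₂ List.cons (by ring) ?_
  refine congrArg₂ List.cons (by ring) ?_
  refine congrArg₂ List.cons (by ring) ?_
  refine congrArg₂ List.cons (by ring) ?_
  refine congrArg₂ List.cons (by ring) ?_
  refine congrArg₂ List.cons (by ring) ?_
  refine congrArg₂ List.cons (by ring) ?_
  refine congrArg₂ List.cons (by ring) ?_
  refine congrArg₂ List.cons (by ring) ?_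
  refine congrArg₂ List.cons (by ring) ?_
  refine congrArg₂ List.cons (by ring) ?_
  refine congrArg₂ List.cons (by ring) ?_
  refine congrArg₂ List.cons (by ring) ?_
  refine congrArg₂ List.cons (by ring) ?_
  refine congrArg₂ List.cons (by ring) ?_
  refine congrArg₂ List.cons (by ring) ?_
  refine congrArg₂ List.cons (by ring) ?_
  refine congrArg₂ List.cons (by ring) ?_
  refine congrArg₂ List.cons (by ring) ?_
  refine congrArg₂ List.cons (by ring) ?_
  refine congrArg₂ List.cons (by ring) ?_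
  refine congrArg₂ List.cons (by ring) ?_
  refine congrArg₂ List.cons (by ring) ?_
  refine congrArg₂ List.cons (by ring) ?_
  refine congrArg₂ List.cons (by ring) ?_
  refine congrArg₂ List.cons (by ring) ?_
  refine congrArg₂ List.cons (by ring) ?_
  refine congrArg₂ List.cons (by ring) ?_
  refine congrArg₂ List.cons (by ring) ?_
  refine congrArg₂ List.cons (by ring) ?_
  refine congrArg₂ List.cons (by ring) ?_
  refine congrArg₂ List.cons (by ring) ?_
  refine congrArg₂ List.cons (by ring) ?_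
  refine congrArg₂ List.cons (by ring) ?_
  refine congrArg₂ List.cons (by ring) ?_
  refine congrArg₂ List.cons (by ring) ?_
  refine congrArg₂ List.cons (by ring) ?_
  refine congrArg₂ List.cons (by ring) ?_
  refine congrArg₂ List.cons (by ring) ?_
  refine congrArg₂ List.cons (by ring) ?_
  refine congrArg₂ List.cons (by ring) ?_
  refine congrArg₂ List.cons (by ring) ?_
  refine congrArg₂ List.cons (by ring) ?_
  refine congrArg₂ List.cons (by ring) ?_
  refine congrArg₂ List.cons (by ring) ?_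
  refine congrArg₂ List.cons (by ring) ?_
  refine congrArg₂ List.cons (by ring) ?_
  refine congrArg₂ List.cons (by ring) ?_
  refine congrArg₂ List.cons (by ring) ?_
  refine congrArg₂ List.cons (by ring) ?_
  refine congrArg₂ List.cons (by ring) ?_
  refine congrArg₂ List.cons (by ring) ?_
  refine congrArg₂ List.cons (by ring) ?_
  refine congrArg₂ List.cons (by ring) ?_
  refine congrArg₂ List.cons (by ring) ?_
  rfl

theorem scat_dil (l : List ℤ) (D : ℝ) (x : Fin 3 → ℝ) (hx : s31 x = 3) :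
    bil (scat l meta1) (vvec x) (dpow D) = 3 ^ 10 * evL l (evec (fun i => D * x i)) := by
  rw [bil_scat, ← evec_dil D x hx, evL_smul]

/-! ### substitution -/

theorem bil_sub (c : ℝ) (S : List (List ℤ)) (w w' : List ℝ)
    (h : (w'.map fun z => c * z) = S.map fun t => evL t w) : ∀ (K : List (List ℤ)) (v : List ℝ),
    bil (K.map fun r => vecMat r S) v w = c * bil K v w'
  | [], v => by simp
  | r :: K, [] => by simp
  | r :: K, x :: v => by
    simp only [List.map_cons, bil_cons, bil_sub c S w w' h K v, evL_vecMat, ← h, evL_smul]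
    ring

/-! ### from the checker to bilinear forms -/

theorem dot_bil (K : List (List ℕ)) (w : List ℝ) : ∀ v : List ℝ,
    dot (K.map fun r => Refl.lin r w) v = bil (toZ K) v w := by
  induction K with
  | nil => intro v; simp [dot, toZ]
  | cons r K ih =>
    intro v
    cases v with
    | nil => simp [dot]
    | cons x v =>
      have := ih v
      simp only [toZ] at this
      simp only [toZ, List.map_cons, dot, bil_cons, evL_lin']
      rw [this]
      ring

/-- integer list from a list of naturals -/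
def toZl (l : List ℕ) : List ℤ := l.map (fun n : ℕ => (n : ℤ))

/-- the integer matrix of the unit equals the checked one -/
theorem pos_of_check {K : List (List ℕ)} {u v' : List ℕ} {w v : List ℝ} {M : List (List ℤ)}
    {g : ℕ} (h : isZM (addM M (addM (smulM (-(g : ℤ)) (toZ K))
      (smulM (g : ℤ) (outer (toZl v') (toZl u))))) = true)
    (hp : lhs u v' w v ≤ rhs K w v) : 0 ≤ bil M v w := by
  have key := bil_isZM _ h v w
  simp only [bil_addM, bil_smulM, bil_outer] at key
  unfold lhs rhs at hp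
  rw [dot_bil, ← evL_lin', ← evL_lin'] at hp
  unfold toZl at key
  have hg : (0 : ℝ) ≤ (g : ℝ) := Nat.cast_nonneg _
  have h3 := mul_le_mul_of_nonneg_left hp hg
  push_cast at key
  nlinarith

theorem okx10 : okx 10 A10.exps = true := by decide +kernel

/-- the family used for vectors -/
noncomputable def F3 : RFam := fam3 A10.exps 10 okx10

/-- the family used for the mass -/
noncomputable def FD : RFam := famD 10

/-- the cone of decreasing vectors -/
def root3 : List (List ℕ) := [[6, 0, 0], [3, 3, 0], [2, 2, 2]]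

theorem val_root3 (y : Fin 3 → ℝ) (hy : ∀ i, 0 ≤ y i) : ∃ b : List ℝ, b.length = 3 ∧
    (∀ x ∈ b, 0 ≤ x) ∧ val F3.toFam root3 b = vvec y := by
  obtain ⟨s, hs⟩ := Refl.exists_sort y
  have h01 := hs 0 1 (by decide)
  have h12 := hs 1 2 (by decide)
  have h2 := hy (s 2)
  refine ⟨[(y (s 0) - y (s 1)) / 6, (y (s 1) - y (s 2)) / 3, y (s 2) / 2], rfl, ?_, ?_⟩
  · intro x hx
    simp only [List.mem_cons, List.not_mem_nil, or_false] at hx
    rcases hx with rfl | rfl | rfl <;> linarith
  · show A10.exps.map (fun ex => Refl.mon ex (Refl.esl (Refl.coords 3 Refl.scell3 _)).tail) = _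
    rw [Refl.coords_scell3, Refl.esl3, ← vvec_eq, ← Refl.E3_perm y s]
    rfl

theorem val_D {P0 Q0 P1 Q1 : ℕ} {lo hi D : ℝ} (h0 : 0 < Q0) (h1 : 0 < Q1)
    (hlo : (P0 : ℝ) = Q0 * lo) (hhi : (P1 : ℝ) = Q1 * hi) (hlh : lo < hi) (hD0 : lo ≤ D)
    (hD1 : D ≤ hi) : ∃ b : List ℝ, b.length = 2 ∧ (∀ x ∈ b, 0 ≤ x) ∧
      val FD.toFam [[P0, Q0], [P1, Q1]] b = dpow D := by
  have h0' : (0 : ℝ) < Q0 := by exact_mod_cast h0
  have h1' : (0 : ℝ) < Q1 := by exact_mod_cast h1
  have hd : 0 < hi - lo := by linarith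
  refine ⟨[(hi - D) / (hi - lo) / Q0, (D - lo) / (hi - lo) / Q1], rfl, ?_, ?_⟩
  · intro x hx
    simp only [List.mem_cons, List.not_mem_nil, or_false] at hx
    rcases hx with rfl | rfl
    · exact div_nonneg (div_nonneg (by linarith) hd.le) h0'.le
    · exact div_nonneg (div_nonneg (by linarith) hd.le) h1'.le
  · show gD 10 (Refl.coords 2 [[P0, Q0], [P1, Q1]] _) = _
    have e : Refl.coords 2 [[P0, Q0], [P1, Q1]]
        [(hi - D) / (hi - lo) / Q0, (D - lo) / (hi - lo) / Q1] = [D, 1] := by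
      simp only [Refl.coords, Refl.sumTo, List.range, List.range.loop, List.map_cons, List.map_nil,
        List.getD_cons_zero, List.getD_cons_succ, hlo, hhi, zero_add]
      refine congrArg₂ List.cons ?_ (congrArg₂ List.cons ?_ rfl)
      · field_simp
        ring
      · field_simp
        ring
    rw [e]
    simp [gD, dpow, List.range, List.range.loop]

/-! ### the unit theorem -/

theorem unit_pt {fl pl : List ℤ} {a1 g1 : ℕ} {u1 v1 : List ℕ} {K1 : List (List ℕ)} {t1 : TA}
    {P0 Q0 P1 Q1 : ℕ} {lo hi : ℝ} (h0 : 0 < Q0) (h1 : 0 < Q1)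
    (hlo : (P0 : ℝ) = Q0 * lo) (hhi : (P1 : ℝ) = Q1 * hi) (hlh : lo < hi)
    (hM : isZM (addM (addM (scat pl meta1) (smulM (-(a1 : ℤ)) (outer (mulL w3 fl) [0, 1])))
      (addM (smulM (-(g1 : ℤ)) (toZ K1)) (smulM (g1 : ℤ) (outer (toZl v1) (toZl u1))))) = true)
    (hT : fchk FD F3 10 u1 v1 K1 t1 [[P0, Q0], [P1, Q1]] root3 = true)
    (X : Fin 3 → ℝ) (hX : ∀ i, 0 ≤ X i) (hX3 : s31 X = 3) (D : ℝ) (hD0 : lo ≤ D) (hD1 : D ≤ hi) :
    a1 * (D * evL fl (wvec X)) ≤ evL pl (evec (fun i => D * X i)) := by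
  obtain ⟨b, hb, hb0, eb⟩ := val_root3 X hX
  obtain ⟨a, ha, ha0, ea⟩ := val_D h0 h1 hlo hhi hlh hD0 hD1
  have h := fchk_sound hT a b ha hb ha0 hb0
  rw [ea, eb] at h
  have h2 := pos_of_check hM h
  simp only [bil_addM, bil_smulM, bil_outer, scat_dil pl D X hX3, evL_w3 fl X hX3] at h2
  have h3 : evL [0, 1] (dpow D) = D := by
    simp [dpow, evL_cons]
  rw [h3] at h2
  push_cast at h2
  nlinarith

theorem evL_one (x : Fin 3 → ℝ) (hx : s31 x = 3) : evL [1] (vvec x) = 3 ^ 10 := by
  simp only [vvec, evL_cons, evL_nil_left, hx]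
  push_cast
  ring

theorem unit_pair {fl Fl el pl r : List ℤ} {a2 a3 a4 g2 : ℕ} {cS : ℝ} {S : List (List ℤ)}
    {u2 v2 : List ℕ} {K2 : List (List ℕ)} {t2 : TA} {lam : ℝ}
    (hS : ∀ b : Fin 3 → ℝ, s31 b = 3 → ((vvec fun i => 1 + lam * (b i - 1)).map fun z => cS * z) =
      S.map fun t => evL t (vvec b))
    (hr : isZL (addL (vecMat r T) (smulL (-6) pl)) = true)
    (hM : isZM (addM (addM (smulM (a2 : ℤ) (outer (mulL w3 fl) [1]))
      (addM (smulM (a4 : ℤ) (outer (mulL w3 el) (mulL w3 Fl)))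
        (smulM (-(a3 : ℤ)) ((diagForm (scl 9 10 r mw) V).map fun r => vecMat r S))))
      (addM (smulM (-(g2 : ℤ)) (toZ K2)) (smulM (g2 : ℤ) (outer (toZl v2) (toZl u2))))) = true)
    (hT : fchk F3 F3 10 u2 v2 K2 t2 root3 root3 = true)
    (A b : Fin 3 → ℝ) (hA : ∀ i, 0 ≤ A i) (hA3 : s31 A = 3) (hb : ∀ i, 0 ≤ b i)
    (hb3 : s31 b = 3) :
    a3 * cS * 6 * ∑ p : Equiv.Perm (Fin 3), evL pl (evec (fun i => A i * (1 + lam * (b (p i) - 1))))
      ≤ a2 * evL fl (wvec A) + a4 * (evL el (wvec A) * evL Fl (wvec b)) := by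
  obtain ⟨x, hx, hx0, ex⟩ := val_root3 b hb
  obtain ⟨y, hy, hy0, ey⟩ := val_root3 A hA
  have h := fchk_sound hT x y hx hy hx0 hy0
  rw [ex, ey] at h
  have h2 := pos_of_check hM h
  have hB3 : s31 (fun i => 1 + lam * (b i - 1)) = 3 := by
    unfold s31 at hb3 ⊢
    linear_combination lam * hb3
  have h3 := avgL pl r hr A (fun i => 1 + lam * (b i - 1)) hA3 hB3
  have h4 := bil_sub cS S (vvec b) (vvec fun i => 1 + lam * (b i - 1)) (hS b hb3)
    (diagForm (scl 9 10 r mw) V) (vvec A)
  simp only [bil_addM, bil_smulM, bil_outer] at h2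
  rw [h4, ← h3, evL_w3 fl A hA3, evL_w3 el A hA3, evL_w3 Fl b hb3, evL_one b hb3] at h2
  push_cast at h2
  have h5 : (0 : ℝ) ≤ 3 ^ 20 * (a2 * evL fl (wvec A) + a4 * (evL el (wvec A) * evL Fl (wvec b)) -
      a3 * cS * 6 * ∑ p : Equiv.Perm (Fin 3),
        evL pl (evec (fun i => A i * (1 + lam * (b (p i) - 1))))) := by
    nlinarith
  have h6 : (0 : ℝ) < 3 ^ 20 := by positivity
  have h7 := nonneg_of_mul_nonneg_right h5 h6
  linarith

end Vale.Agent.P154.FP
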