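import Vale.Agent.P154.FP5
import Vale.Agent.P154AF.Core

/-! The step inequality from integer data (helper file). -/

set_option linter.style.longLine false

namespace Vale.Agent.P154.FP

open Finset Vale.Agent.P154 Vale.Agent.P154.A10

/-- substitution matrix of an edge -/
def SubOK (lam : ℝ) (cS : ℕ) (S : List (List ℤ)) : Prop :=
  ∀ b : Fin 3 → ℝ, s31 b = 3 → ((vvec fun i => 1 + lam * (b i - 1)).map fun z => (cS : ℝ) * z) =
    S.map fun t => evL t (vvec b)

theorem mass_eq (x : Fin 3 → ℝ) : Q3.mass x = s31 x / 3 := by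
  unfold Q3.mass s31
  rw [Fin.sum_univ_three]
  push_cast
  ring

theorem norm_s31 {x : Fin 3 → ℝ} (h : Norm 3 x) : s31 x = 3 := by
  have := h.2
  rw [Fin.sum_univ_three] at this
  push_cast at this
  unfold s31
  exact this

/-- the step inequality -/
theorem unit_stp {fl Fl el pl r : List ℤ} {df dF de a1 a2 a3 a4 g1 g2 cS ln ld : ℕ}
    {S : List (List ℤ)} {u1 v1 u2 v2 : List ℕ} {K1 K2 : List (List ℕ)} {t1 t2 : TA} {lam : ℝ}
    (hlam : lam = -(ln : ℝ) / ld)
    (hnum : (Nat.blt 0 ln && (Nat.ble (2 * ln) ld && (Nat.blt 0 df && (Nat.blt 0 dF &&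
      (Nat.blt 0 de && (Nat.blt 0 a1 && (Nat.blt 0 a3 && (Nat.blt 0 cS &&
      (Nat.beq a2 (36 * a1 * a3 * cS) && Nat.beq (a4 * (dF * de * ld ^ 2))
        (36 * a1 * a3 * cS * df * ln ^ 2)))))))))) = true)
    (hS : SubOK lam cS S)
    (hr : isZL (addL (vecMat r T) (smulL (-6) pl)) = true)
    (hM1 : isZM (addM (addM (scat pl meta1) (smulM (-(a1 : ℤ)) (outer (mulL w3 fl) [0, 1])))
      (addM (smulM (-(g1 : ℤ)) (toZ K1)) (smulM (g1 : ℤ) (outer (toZl v1) (toZl u1))))) = true)
    (hT1 : fchk FD F3 10 u1 v1 K1 t1 [[ld - 2 * ln, ld], [ld + ln, ld]] root3 = true)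
    (hM2 : isZM (addM (addM (smulM (a2 : ℤ) (outer (mulL w3 fl) [1]))
      (addM (smulM (a4 : ℤ) (outer (mulL w3 el) (mulL w3 Fl)))
        (smulM (-(a3 : ℤ)) ((diagForm (scl 9 10 r mw) V).map fun r => vecMat r S))))
      (addM (smulM (-(g2 : ℤ)) (toZ K2)) (smulM (g2 : ℤ) (outer (toZl v2) (toZl u2))))) = true)
    (hT2 : fchk F3 F3 10 u2 v2 K2 t2 root3 root3 = true) :
    AF.Stp lam (pv dF Fl) (pv df fl) (pv de el) := by
  simp only [Bool.and_eq_true] at hnum
  obtain ⟨n1, n2, n3, n4, n5, n6, n7, n8, n9, n10⟩ := hnum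
  have hln : 0 < ln := Nat.le_of_ble_eq_true n1
  have hld2 : 2 * ln ≤ ld := Nat.le_of_ble_eq_true n2
  have hdf : 0 < df := Nat.le_of_ble_eq_true n3
  have hdF : 0 < dF := Nat.le_of_ble_eq_true n4
  have hde : 0 < de := Nat.le_of_ble_eq_true n5
  have ha1 : 0 < a1 := Nat.le_of_ble_eq_true n6
  have ha3 : 0 < a3 := Nat.le_of_ble_eq_true n7
  have hcS : 0 < cS := Nat.le_of_ble_eq_true n8
  have ha2 : a2 = 36 * a1 * a3 * cS := Nat.eq_of_beq_eq_true n9
  have ha4 : a4 * (dF * de * ld ^ 2) = 36 * a1 * a3 * cS * df * ln ^ 2 :=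
    Nat.eq_of_beq_eq_true n10
  have hld : 0 < ld := by omega
  have hld' : (0 : ℝ) < ld := by exact_mod_cast hld
  have hln' : (0 : ℝ) < ln := by exact_mod_cast hln
  have hlam0 : lam < 0 := by
    rw [hlam]
    exact div_neg_of_neg_of_pos (by linarith) hld'
  have hlamh : 0 ≤ 1 + 2 * lam := by
    rw [hlam]
    have : (2 * ln : ℝ) ≤ ld := by exact_mod_cast hld2
    rw [show (1 : ℝ) + 2 * (-(ln : ℝ) / ld) = (ld - 2 * ln) / ld by field_simp; ring]
    exact div_nonneg (by linarith) hld'.le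
  have pt : ∀ X : Fin 3 → ℝ, (∀ i, 0 ≤ X i) → s31 X = 3 → ∀ D : ℝ, 1 + 2 * lam ≤ D →
      D ≤ 1 - lam → (a1 : ℝ) * (D * evL fl (wvec X)) ≤ evL pl (evec (fun i => D * X i)) := by
    intro X hX hX3 D hD0 hD1
    refine unit_pt hld hld (lo := 1 + 2 * lam) (hi := 1 - lam) ?_ ?_ (by linarith) hM1 hT1 X hX
      hX3 D hD0 hD1
    · rw [hlam, Nat.cast_sub hld2]
      push_cast
      field_simp
      ring
    · rw [hlam]
      push_cast
      field_simp
      ring
  intro A b hA hb
  have hA3 := norm_s31 hA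
  have hb3 := norm_s31 hb
  set B : Fin 3 → ℝ := AF.en lam b with hB
  have hb3' : ∀ j, b j ≤ 3 := by
    intro j
    have h0 := hb.1 0
    have h1 := hb.1 1
    have h2 := hb.1 2
    unfold s31 at hb3
    fin_cases j <;> simp only [Fin.zero_eta, Fin.mk_one, Fin.reduceFinMk] <;> linarith
  have hBlo : ∀ j, 1 + 2 * lam ≤ B j := by
    intro j
    have : lam * (b j - 1) ≥ lam * 2 := mul_le_mul_of_nonpos_left (by linarith [hb3' j]) hlam0.le
    rw [hB]
    unfold AF.en
    linarith
  have hBhi : ∀ j, B j ≤ 1 - lam := by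
    intro j
    have h1 := hb.1 j
    rw [hB]
    unfold AF.en
    nlinarith
  have hB0 : ∀ j, 0 ≤ B j := fun j => hlamh.trans (hBlo j)
  have pair := unit_pair (cS := (cS : ℝ)) hS hr hM2 hT2 A b hA.1 hA3 hb.1 hb3
  -- one permutation
  have one : ∀ p : Equiv.Perm (Fin 3), (a1 : ℝ) * (Q3.mass (Q3.pr A B p) *
      evL fl (wvec fun i => Q3.pr A B p i / Q3.mass (Q3.pr A B p))) ≤
      evL pl (evec (Q3.pr A B p)) := by
    intro p
    have hZ : ∀ i, 0 ≤ Q3.pr A B p i := fun i => mul_nonneg (hA.1 i) (hB0 _)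
    have hm0 : 0 ≤ Q3.mass (Q3.pr A B p) :=
      mul_nonneg (by norm_num) (Finset.sum_nonneg fun i _ => hZ i)
    rcases hm0.eq_or_lt with h | h
    · have hz := Q3.zero_of_mass hZ h.symm
      have h1 := pt (fun _ => 1) (fun _ => by norm_num) (by unfold s31; norm_num) 0
      have hlo : 1 + 2 * lam ≤ 0 := by
        have hm := mass_eq (Q3.pr A B p)
        rw [← h] at hm
        have hs : s31 (Q3.pr A B p) = 0 := by linarith
        have : (1 + 2 * lam) * 3 ≤ s31 (Q3.pr A B p) := by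
          rw [← hA3]
          unfold s31 Q3.pr
          have e0 := mul_le_mul_of_nonneg_left (hBlo (p 0)) (hA.1 0)
          have e1 := mul_le_mul_of_nonneg_left (hBlo (p 1)) (hA.1 1)
          have e2 := mul_le_mul_of_nonneg_left (hBlo (p 2)) (hA.1 2)
          linarith
        linarith
      have h2 := h1 hlo (by linarith)
      rw [← h, zero_mul, mul_zero]
      rw [zero_mul, mul_zero] at h2
      have e : (Q3.pr A B p) = fun _ : Fin 3 => (0 : ℝ) * 1 := by
        rw [hz]
        funext i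
        simp
      rw [e]
      exact h2
    · set D := Q3.mass (Q3.pr A B p) with hD
      have hm := mass_eq (Q3.pr A B p)
      rw [← hD] at hm
      have hs : s31 (Q3.pr A B p) = 3 * D := by linarith
      have hlo : 1 + 2 * lam ≤ D := by
        have : (1 + 2 * lam) * 3 ≤ s31 (Q3.pr A B p) := by
          rw [← hA3]
          unfold s31 Q3.pr
          have e0 := mul_le_mul_of_nonneg_left (hBlo (p 0)) (hA.1 0)
          have e1 := mul_le_mul_of_nonneg_left (hBlo (p 1)) (hA.1 1)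
          have e2 := mul_le_mul_of_nonneg_left (hBlo (p 2)) (hA.1 2)
          linarith
        linarith
      have hhi : D ≤ 1 - lam := by
        have : s31 (Q3.pr A B p) ≤ (1 - lam) * 3 := by
          rw [← hA3]
          unfold s31 Q3.pr
          have e0 := mul_le_mul_of_nonneg_left (hBhi (p 0)) (hA.1 0)
          have e1 := mul_le_mul_of_nonneg_left (hBhi (p 1)) (hA.1 1)
          have e2 := mul_le_mul_of_nonneg_left (hBhi (p 2)) (hA.1 2)
          linarith
        linarith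
      have h1 := pt (fun i => Q3.pr A B p i / D) (fun i => div_nonneg (hZ i) h.le) (by
        have : s31 (fun i => Q3.pr A B p i / D) = s31 (Q3.pr A B p) / D := by
          unfold s31
          ring
        rw [this, hs]
        field_simp) D hlo hhi
      have e : (fun i => D * (Q3.pr A B p i / D)) = Q3.pr A B p := by
        funext i
        field_simp
      rw [e] at h1
      exact h1
  have hkern : 6 * (df : ℝ) * kern 3 (pv df fl) A B =
      ∑ p : Equiv.Perm (Fin 3), Q3.mass (Q3.pr A B p) *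
        evL fl (wvec fun i => Q3.pr A B p i / Q3.mass (Q3.pr A B p)) := by
    rw [Q3.kern_eq, mul_comm (6 : ℝ), mul_assoc, ← mul_assoc (6 : ℝ), show (6 : ℝ) * (1 / 6) = 1 by norm_num,
      one_mul, Finset.mul_sum]
    apply Finset.sum_congr rfl
    intro p _
    unfold pv
    have : (df : ℝ) ≠ 0 := by positivity
    field_simp
  have hsum : (a1 : ℝ) * (6 * (df : ℝ) * kern 3 (pv df fl) A B) ≤
      ∑ p : Equiv.Perm (Fin 3), evL pl (evec (Q3.pr A B p)) := by
    rw [hkern, Finset.mul_sum]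
    exact Finset.sum_le_sum fun p _ => one p
  have hpr : ∀ p : Equiv.Perm (Fin 3), (fun i => A i * (1 + lam * (b (p i) - 1))) =
      Q3.pr A B p := fun p => rfl
  simp only [hpr] at pair
  have hdf' : (0 : ℝ) < df := by exact_mod_cast hdf
  have hdF' : (0 : ℝ) < dF := by exact_mod_cast hdF
  have hde' : (0 : ℝ) < de := by exact_mod_cast hde
  have ha1' : (0 : ℝ) < a1 := by exact_mod_cast ha1
  have ha3' : (0 : ℝ) < a3 := by exact_mod_cast ha3
  have hcS' : (0 : ℝ) < cS := by exact_mod_cast hcS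
  have ha2' : (a2 : ℝ) = 36 * a1 * a3 * cS := by exact_mod_cast ha2
  have ha4' : (a4 : ℝ) * (dF * de * ld ^ 2) = 36 * a1 * a3 * cS * df * ln ^ 2 := by
    exact_mod_cast ha4
  set κ := kern 3 (pv df fl) A B with hκ
  set f := evL fl (wvec A) with hf
  set e := evL el (wvec A) with he
  set F := evL Fl (wvec b) with hF
  have h1 : (a3 : ℝ) * cS * 6 * ((a1 : ℝ) * (6 * (df : ℝ) * κ)) ≤ a2 * f + a4 * (e * F) :=
    (mul_le_mul_of_nonneg_left hsum (by positivity)).trans pair
  have hl2 : lam ^ 2 = (ln : ℝ) ^ 2 / ld ^ 2 := by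
    rw [hlam]
    ring
  have ha4'' : (a4 : ℝ) = 36 * a1 * a3 * cS * df * (lam ^ 2 / (dF * de)) := by
    rw [hl2]
    field_simp
    linarith
  rw [ha2', ha4''] at h1
  show κ ≤ f / df + lam ^ 2 * (F / dF) * (e / de)
  have hc : (0 : ℝ) < 36 * a1 * a3 * cS * df := by positivity
  have h2 : 36 * a1 * a3 * cS * df * κ ≤
      36 * a1 * a3 * cS * df * (f / df + lam ^ 2 * (F / dF) * (e / de)) := by
    have e1 : 36 * a1 * a3 * cS * df * (f / df + lam ^ 2 * (F / dF) * (e / de)) =
        36 * a1 * a3 * cS * f + 36 * a1 * a3 * cS * df * (lam ^ 2 / (dF * de)) * (e * F) := by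
      field_simp
    rw [e1]
    linarith
  exact le_of_mul_le_mul_left h2 hc

end Vale.Agent.P154.FP
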