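import Vale.Agent.P154.FP6

/-! Single-variable units and glue (helper file). -/

set_option linter.style.longLine false

namespace Vale.Agent.P154.FP

open Finset Vale.Agent.P154 Vale.Agent.P154.A10

/-- single-variable positivity -/
theorem one_pos {n : List ℤ} {g : ℕ} {u v : List ℕ} {K : List (List ℕ)} {t : TA}
    (hM : isZM (addM (outer n [1]) (addM (smulM (-(g : ℤ)) (toZ K))
      (smulM (g : ℤ) (outer (toZl v) (toZl u))))) = true)
    (hT : fchk FD F3 10 u v K t [[0, 1], [1, 1]] root3 = true)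
    (b : Fin 3 → ℝ) (hb : ∀ i, 0 ≤ b i) : 0 ≤ evL n (vvec b) := by
  obtain ⟨y, hy, hy0, ey⟩ := val_root3 b hb
  obtain ⟨a, ha, ha0, ea⟩ := val_D (P0 := 0) (Q0 := 1) (P1 := 1) (Q1 := 1) (lo := 0) (hi := 1)
    (D := 0) (by norm_num) (by norm_num) (by norm_num) (by norm_num) (by norm_num) le_rfl
    (by norm_num)
  have h := fchk_sound hT a y ha hy ha0 hy0
  rw [ea, ey] at h
  have h2 := pos_of_check hM h
  rw [bil_outer] at h2
  have h3 : evL [1] (dpow 0) = 1 := by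
    simp [dpow, evL_cons]
  rwa [h3, mul_one] at h2

theorem unit_one {fl Fl : List ℤ} {df dF a0 a3 a4 g cS : ℕ} {S : List (List ℤ)}
    {u v : List ℕ} {K : List (List ℕ)} {t : TA} {lam : ℝ}
    (hnum : (Nat.blt 0 df && (Nat.blt 0 dF && (Nat.blt 0 a3 && Nat.blt 0 cS))) = true)
    (hS : SubOK lam cS S)
    (hM : isZM (addM (outer (Vale.Agent.P154.addL (smulL (a0 : ℤ) [1])
      (Vale.Agent.P154.addL (smulL (a4 : ℤ) (mulL w3 Fl))
        (smulL (-(a3 : ℤ)) (vecMat (mulL w3 fl) S)))) [1])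
      (addM (smulM (-(g : ℤ)) (toZ K)) (smulM (g : ℤ) (outer (toZl v) (toZl u))))) = true)
    (hT : fchk FD F3 10 u v K t [[0, 1], [1, 1]] root3 = true)
    (b : Fin 3 → ℝ) (hb : Norm 3 b) :
    pv df fl (AF.en lam b) ≤ (a0 : ℝ) / (a3 * cS * df) +
      (a4 * dF : ℝ) / (a3 * cS * df) * pv dF Fl b := by
  simp only [Bool.and_eq_true] at hnum
  obtain ⟨n2, n3, n4, n5⟩ := hnum
  have hdf : (0 : ℝ) < df := by exact_mod_cast (Nat.le_of_ble_eq_true n2 : 0 < df)
  have hdF : (0 : ℝ) < dF := by exact_mod_cast (Nat.le_of_ble_eq_true n3 : 0 < dF)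
  have ha3 : (0 : ℝ) < a3 := by exact_mod_cast (Nat.le_of_ble_eq_true n4 : 0 < a3)
  have hcS : (0 : ℝ) < cS := by exact_mod_cast (Nat.le_of_ble_eq_true n5 : 0 < cS)
  have hb3 := norm_s31 hb
  have hB3 : s31 (AF.en lam b) = 3 := by
    unfold AF.en
    unfold s31 at hb3 ⊢
    linear_combination lam * hb3
  have h := one_pos hM hT b hb.1
  rw [evL_addL, evL_addL, evL_smulL, evL_smulL, evL_smulL, evL_vecMat, ← hS b hb3, evL_smul,
    evL_one b hb3, evL_w3 Fl b hb3] at h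
  have e : (vvec fun i => 1 + lam * (b i - 1)) = vvec (AF.en lam b) := rfl
  rw [e, evL_w3 fl _ hB3] at h
  push_cast at h
  have h5 : (0 : ℝ) ≤ 3 ^ 10 * (a0 + a4 * evL Fl (wvec b) -
      a3 * cS * evL fl (wvec (AF.en lam b))) := by
    nlinarith
  have h7 := nonneg_of_mul_nonneg_right h5 (by positivity)
  unfold pv
  have h8 : (a0 : ℝ) / (a3 * cS * df) + (a4 * dF : ℝ) / (a3 * cS * df) *
      (evL Fl (wvec b) / dF) = (a0 + a4 * evL Fl (wvec b)) / (a3 * cS * df) := by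
    field_simp
  rw [h8, div_le_div_iff₀ hdf (by positivity)]
  nlinarith

/-! ### glue -/

theorem uFn_E {A : Fin 3 → ℝ} (h : Norm 3 A) : uFn 3 A = 2 - 2 * (s32 A / 3) := by
  have h3 := norm_s31 h
  unfold s31 at h3
  have e : A 2 = 3 - A 0 - A 1 := by linarith
  simp only [uFn, s32, Fin.sum_univ_three, e]
  push_cast
  ring

theorem wFn_E {A : Fin 3 → ℝ} (h : Norm 3 A) : AF.wFn A = 2 - 3 * (s32 A / 3) + s33 A := by
  have h3 := norm_s31 h
  unfold s31 at h3
  have e : A 2 = 3 - A 0 - A 1 := by linarith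
  simp only [AF.wFn, s32, s33, e]
  ring

theorem kern_congr {H H' : (Fin 3 → ℝ) → ℝ} (hH : ∀ A, Norm 3 A → H A = H' A)
    {A B : Fin 3 → ℝ} (hA : ∀ i, 0 ≤ A i) (hB : ∀ i, 0 ≤ B i) :
    kern 3 H A B = kern 3 H' A B := by
  rw [Q3.kern_eq, Q3.kern_eq]
  congr 1
  apply Finset.sum_congr rfl
  intro p _
  have hZ : ∀ i, 0 ≤ Q3.pr A B p i := fun i => mul_nonneg (hA i) (hB _)
  have hm0 : 0 ≤ Q3.mass (Q3.pr A B p) :=
    mul_nonneg (by norm_num) (Finset.sum_nonneg fun i _ => hZ i)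
  rcases hm0.eq_or_lt with h | h
  · rw [← h, zero_mul, zero_mul]
  · rw [hH]
    have hm := mass_eq (Q3.pr A B p)
    refine ⟨fun i => div_nonneg (hZ i) h.le, ?_⟩
    rw [← Finset.sum_div, Fin.sum_univ_three]
    unfold s31 at hm
    rw [div_eq_iff h.ne']
    push_cast
    linarith

theorem en_nonneg {lam : ℝ} (h0 : -1/2 ≤ lam) (h1 : lam ≤ 0) {b : Fin 3 → ℝ} (hb : Norm 3 b)
    (i : Fin 3) : 0 ≤ AF.en lam b i := by
  have hb3 := norm_s31 hb
  have h2 : b i ≤ 3 := by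
    have h0 := hb.1 0
    have h1 := hb.1 1
    have h2 := hb.1 2
    unfold s31 at hb3
    fin_cases i <;> simp only [Fin.zero_eta, Fin.mk_one, Fin.reduceFinMk] <;> linarith
  have h3 := hb.1 i
  unfold AF.en
  nlinarith

theorem stp_congr {lam : ℝ} (h0 : -1/2 ≤ lam) (h1 : lam ≤ 0) {F F' H H' e e' : (Fin 3 → ℝ) → ℝ}
    (hF : ∀ A, Norm 3 A → F A = F' A) (hH : ∀ A, Norm 3 A → H A = H' A)
    (he : ∀ A, Norm 3 A → e A = e' A) (h : AF.Stp lam F' H' e') : AF.Stp lam F H e := by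
  intro A b hA hb
  rw [kern_congr hH hA.1 (fun i => en_nonneg h0 h1 hb i), hH A hA, hF b hb, he A hA]
  exact h A b hA hb

theorem wvec_perm (x : Fin 3 → ℝ) (s : Equiv.Perm (Fin 3)) : wvec (fun i => x (s i)) = wvec x := by
  have h := Refl.E3_perm x s
  simp only [Refl.E3, List.cons.injEq, and_true] at h
  obtain ⟨_, h2, h3⟩ := h
  have e2 : s32 (fun i => x (s i)) = s32 x := h2
  have e3 : s33 (fun i => x (s i)) = s33 x := h3
  simp only [wvec, e2, e3]

theorem pv_perm (d : ℕ) (l : List ℤ) (x : Fin 3 → ℝ) (s : Equiv.Perm (Fin 3)) :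
    pv d l (fun i => x (s i)) = pv d l x := by
  unfold pv
  rw [wvec_perm]

/-- the kernel at the vector of ones -/
theorem kern_ones (d : ℕ) (l : List ℤ) {B : Fin 3 → ℝ} (hB : s31 B = 3) :
    kern 3 (pv d l) AF.one3 B = pv d l B := by
  rw [Q3.kern_eq]
  have h : ∀ p : Equiv.Perm (Fin 3), Q3.mass (Q3.pr AF.one3 B p) *
      pv d l (fun i => Q3.pr AF.one3 B p i / Q3.mass (Q3.pr AF.one3 B p)) = pv d l B := by
    intro p
    have e : Q3.pr AF.one3 B p = fun i => B (p i) := by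
      funext i
      simp [Q3.pr, AF.one3]
    have hm : Q3.mass (Q3.pr AF.one3 B p) = 1 := by
      rw [mass_eq, e]
      have : ∑ i, B (p i) = ∑ i, B i := Equiv.sum_comp p B
      simp only [Fin.sum_univ_three] at this
      unfold s31 at hB ⊢
      rw [this, hB]
      norm_num
    rw [hm, e, one_mul]
    simp only [div_one]
    exact pv_perm d l B p
  rw [Finset.sum_congr rfl fun p _ => h p]
  simp [Fintype.card_perm]
  norm_num [Nat.factorial]
  ring

theorem en_s31 (lam : ℝ) {b : Fin 3 → ℝ} (hb : Norm 3 b) : s31 (AF.en lam b) = 3 := by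
  have hb3 := norm_s31 hb
  unfold AF.en
  unfold s31 at hb3 ⊢
  linear_combination lam * hb3

end Vale.Agent.P154.FP
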