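import Vale.Agent.P154.FP7

/-! Bounds for the certificate functions (helper file). -/

namespace Vale.Agent.P154.FP

open Finset Vale.Agent.P154 Vale.Agent.P154.A10

/-- sum of absolute values -/
def absS : List ℤ → ℤ
  | [] => 0
  | a :: l => |a| + absS l

theorem absS_nonneg : ∀ l : List ℤ, 0 ≤ absS l
  | [] => le_rfl
  | a :: l => add_nonneg (abs_nonneg a) (absS_nonneg l)

theorem evL_abs : ∀ (l : List ℤ) (v : List ℝ), (∀ x ∈ v, |x| ≤ 1) → |evL l v| ≤ absS l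
  | [], v, _ => by simp [absS]
  | a :: l, [], _ => by
    have : (0 : ℝ) ≤ (absS (a :: l) : ℤ) := by exact_mod_cast absS_nonneg (a :: l)
    simpa using this
  | a :: l, x :: v, h => by
    rw [evL_cons]
    have h1 := evL_abs l v fun y hy => h y (List.mem_cons_of_mem _ hy)
    have h2 := h x List.mem_cons_self
    have h3 : |(a : ℝ) * x| ≤ |(a : ℝ)| := by
      rw [abs_mul]
      calc |(a : ℝ)| * |x| ≤ |(a : ℝ)| * 1 := mul_le_mul_of_nonneg_left h2 (abs_nonneg _)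
        _ = |(a : ℝ)| := mul_one _
    calc |(a : ℝ) * x + evL l v| ≤ |(a : ℝ) * x| + |evL l v| := abs_add_le _ _
      _ ≤ |(a : ℝ)| + absS l := add_le_add h3 h1
      _ = ((|a| + absS l : ℤ) : ℝ) := by push_cast; ring

theorem E2_mem {A : Fin 3 → ℝ} (h : Norm 3 A) : 0 ≤ s32 A / 3 ∧ s32 A / 3 ≤ 1 := by
  have h3 := norm_s31 h
  have h0 := h.1 0
  have h1 := h.1 1
  have h2 := h.1 2
  unfold s31 at h3
  unfold s32
  constructor
  · positivity
  · have : A 2 = 3 - A 0 - A 1 := by linarith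
    rw [this]
    nlinarith [sq_nonneg (A 0 - A 1), sq_nonneg (A 0 + A 1 - 2)]

theorem E3_mem {A : Fin 3 → ℝ} (h : Norm 3 A) : 0 ≤ s33 A ∧ s33 A ≤ 1 := by
  have h3 := norm_s31 h
  have h0 := h.1 0
  have h1 := h.1 1
  have h2 := h.1 2
  unfold s31 at h3
  unfold s33
  constructor
  · positivity
  · have e2 := (E2_mem h).2
    unfold s32 at e2
    have : A 2 = 3 - A 0 - A 1 := by linarith
    have h4 : A 0 * A 1 ≤ ((A 0 + A 1) / 2) ^ 2 := by nlinarith [sq_nonneg (A 0 - A 1)]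
    have h5 : A 0 * A 1 * A 2 ≤ ((A 0 + A 1) / 2) ^ 2 * A 2 := mul_le_mul_of_nonneg_right h4 h2
    have h6 : ((A 0 + A 1) / 2) ^ 2 * A 2 ≤ 1 := by
      have hs : A 0 + A 1 = 3 - A 2 := by linarith
      rw [hs]
      have h7 : A 2 ≤ 3 := by linarith
      nlinarith [mul_nonneg h2 (sq_nonneg (A 2 - 1)), sq_nonneg (A 2 - 1),
        mul_nonneg (sub_nonneg.mpr h7) (sq_nonneg (A 2 - 1))]
    linarith

theorem abs_pow_le {x : ℝ} (h : 0 ≤ x ∧ x ≤ 1) (n : ℕ) : 0 ≤ x ^ n ∧ x ^ n ≤ 1 :=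
  ⟨pow_nonneg h.1 n, pow_le_one₀ h.1 h.2⟩

theorem mul_mem {x y : ℝ} (h : 0 ≤ x ∧ x ≤ 1) (h' : 0 ≤ y ∧ y ≤ 1) : 0 ≤ x * y ∧ x * y ≤ 1 :=
  ⟨mul_nonneg h.1 h'.1, mul_le_one₀ h.2 h'.1 h'.2⟩

theorem wvec_mem {A : Fin 3 → ℝ} (h : Norm 3 A) : ∀ x ∈ wvec A, |x| ≤ 1 := by
  have h2 := E2_mem h
  have h3 := E3_mem h
  have key : ∀ x ∈ wvec A, 0 ≤ x ∧ x ≤ 1 := by
    intro x hx
    unfold wvec at hx
    generalize s32 A / 3 = a at *
    generalize s33 A = c at *
    simp only [List.mem_cons, List.not_mem_nil, or_false] at hx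
    rcases hx with rfl | rfl | rfl | rfl | rfl | rfl | rfl | rfl | rfl | rfl | rfl | rfl | rfl | rfl
    · exact ⟨by norm_num, le_rfl⟩
    · exact h2
    · exact h3
    · exact abs_pow_le h2 2
    · exact mul_mem h2 h3
    · exact abs_pow_le h3 2
    · exact abs_pow_le h2 3
    · exact mul_mem (abs_pow_le h2 2) h3
    · exact mul_mem h2 (abs_pow_le h3 2)
    · exact abs_pow_le h3 3
    · exact abs_pow_le h2 4
    · exact mul_mem (abs_pow_le h2 3) h3
    · exact mul_mem (abs_pow_le h2 2) (abs_pow_le h3 2)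
    · exact abs_pow_le h2 5
  intro x hx
  rw [abs_le]
  have := key x hx
  constructor <;> linarith

theorem pv_abs {d : ℕ} (hd : 0 < d) (l : List ℤ) {A : Fin 3 → ℝ} (h : Norm 3 A) :
    |pv d l A| ≤ absS l := by
  unfold pv
  have hd' : (1 : ℝ) ≤ d := by exact_mod_cast hd
  rw [abs_div, abs_of_pos (by linarith : (0 : ℝ) < d)]
  rw [div_le_iff₀ (by linarith)]
  have h1 := evL_abs l _ (wvec_mem h)
  have h2 : (0 : ℝ) ≤ (absS l : ℤ) := by exact_mod_cast absS_nonneg l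
  nlinarith

theorem pv_one3 (d : ℕ) (l : List ℤ) : pv d l AF.one3 = evL l (List.replicate 14 1) / d := by
  unfold pv
  have e : wvec AF.one3 = List.replicate 14 1 := by
    simp [wvec, AF.one3, s32, s33, List.replicate]
    norm_num
  rw [e]

end Vale.Agent.P154.FP
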