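import Vale.Agent.P154.KS3

/-! Summary of the Kesten-Stigum direction and monotonicity (helper file). -/

namespace Vale.Agent.P154

open Finset Filter Topology

/-- Kesten-Stigum direction, `d`-ary tree -/
theorem KS_reg {q : ℕ} (hq : 2 ≤ q) {lam : ℝ} (h1 : -1 / ((q : ℝ) - 1) ≤ lam) (h2 : lam ≤ 1)
    {d : ℕ} (hr : 1 < (d : ℝ) * lam ^ 2) : Reconstruction (aReg q d lam) :=
  recon_reg hq h1 h2 hr

/-- Kesten-Stigum direction, Galton-Watson tree -/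
theorem KS_gw {q : ℕ} (hq : 2 ≤ q) {lam : ℝ} (h1 : -1 / ((q : ℝ) - 1) ≤ lam) (h2 : lam ≤ 1)
    {d : ℝ} (hd : 0 < d) (hr : 1 < d * lam ^ 2) : Reconstruction (aGW q d lam) :=
  recon_gw hq h1 h2 hd hr

theorem antitone_reg {q : ℕ} (hq : 2 ≤ q) {lam : ℝ} (h1 : -1 / ((q : ℝ) - 1) ≤ lam)
    (h2 : lam ≤ 1) (d : ℕ) : Antitone (aReg q d lam) :=
  aReg_antitone (by omega) (potts_nonneg hq h1 h2) d

theorem antitone_gw {q : ℕ} (hq : 2 ≤ q) {lam : ℝ} (h1 : -1 / ((q : ℝ) - 1) ≤ lam)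
    (h2 : lam ≤ 1) {d : ℝ} (hd : 0 < d) : Antitone (aGW q d lam) :=
  aGW_antitone (by omega) (potts_nonneg hq h1 h2) hd.le

end Vale.Agent.P154
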