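import Vale.Agent.P154.Defs

/-! Basic facts on the broadcast process (helper file, not used in the final statement). -/

namespace Vale.Agent.P154

open Finset

variable {q : ℕ} {lam : ℝ}

theorem potts_nonneg (hq : 2 ≤ q) (h1 : -1 / ((q : ℝ) - 1) ≤ lam) (h2 : lam ≤ 1) (i j : Fin q) :
    0 ≤ potts q lam i j := by
  have hq' : (2 : ℝ) ≤ q := by exact_mod_cast hq
  have hq0 : (0 : ℝ) < q := by linarith
  have hq1 : (0 : ℝ) < (q : ℝ) - 1 := by linarith
  unfold potts
  by_cases h : i = j
  · simp only [h, if_true, mul_one]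
    have h3 : -1 ≤ lam * ((q : ℝ) - 1) := by
      rw [div_le_iff₀ hq1] at h1
      exact h1
    have : lam + (1 - lam) / q = (1 + lam * ((q : ℝ) - 1)) / q := by
      field_simp
      ring
    rw [this]
    apply div_nonneg _ hq0.le
    linarith
  · simp only [h, if_false, mul_zero, zero_add]
    apply div_nonneg _ hq0.le
    linarith

theorem potts_symm (i j : Fin q) : potts q lam i j = potts q lam j i := by
  unfold potts
  by_cases h : i = j
  · simp [h]
  · have h' : ¬ j = i := fun e => h e.symm
    simp [h, h']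

theorem potts_sum (hq : 0 < q) (i : Fin q) : ∑ j, potts q lam i j = 1 := by
  have hq0 : (q : ℝ) ≠ 0 := by exact_mod_cast hq.ne'
  unfold potts
  rw [sum_add_distrib, ← mul_sum]
  simp
  field_simp
  ring

theorem potts_sum' (hq : 0 < q) (j : Fin q) : ∑ i, potts q lam i j = 1 := by
  simp_rw [potts_symm (lam := lam) _ j]
  exact potts_sum hq j

/-- sums over the boundary of a tree of height `n + 1` -/
theorem sum_bdry_succ {n : ℕ} (T : Tree (n + 1)) (F : Bdry q (n + 1) T → ℝ) :
    ∑ s : Bdry q (n + 1) T, F s = ∑ s : (∀ c : Fin T.1, Bdry q n (T.2 c)), F s :=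
  Fintype.sum_equiv (Equiv.refl _) _ _ (fun _ => rfl)

/-- product formula -/
theorem sum_bdry_prod {n : ℕ} (T : Tree (n + 1)) (f : ∀ c : Fin T.1, Bdry q n (T.2 c) → ℝ) :
    ∑ s : Bdry q (n + 1) T, ∏ c : Fin T.1, f c (s c) = ∏ c : Fin T.1, ∑ x : Bdry q n (T.2 c), f c x := by
  rw [sum_bdry_succ]
  rw [prod_univ_sum]
  rw [Fintype.piFinset_univ]

theorem sum_bdry_zero (T : Tree 0) (F : Bdry q 0 T → ℝ) :
    ∑ s : Bdry q 0 T, F s = ∑ s : Fin q, F s :=
  Fintype.sum_equiv (Equiv.refl _) _ _ (fun _ => rfl)

theorem like_zero (T : Tree 0) (i : Fin q) (s : Bdry q 0 T) :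
    like q lam 0 T i s = if (show Fin q from s) = i then 1 else 0 := rfl

theorem like_succ {n : ℕ} (T : Tree (n + 1)) (i : Fin q) (s : Bdry q (n + 1) T) :
    like q lam (n + 1) T i s =
      ∏ c : Fin T.1, ∑ j : Fin q, potts q lam i j * like q lam n (T.2 c) j (s c) := rfl

theorem like_nonneg (hp : ∀ i j : Fin q, 0 ≤ potts q lam i j) :
    ∀ (n : ℕ) (T : Tree n) (i : Fin q) (s : Bdry q n T), 0 ≤ like q lam n T i s := by
  intro n
  induction n with
  | zero =>
    intro T i s
    rw [like_zero]
    split_ifs <;> norm_num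
  | succ n ih =>
    intro T i s
    rw [like_succ]
    exact prod_nonneg fun c _ => sum_nonneg fun j _ => mul_nonneg (hp i j) (ih _ _ _)

theorem like_sum (hq : 0 < q) :
    ∀ (n : ℕ) (T : Tree n) (i : Fin q), ∑ s : Bdry q n T, like q lam n T i s = 1 := by
  intro n
  induction n with
  | zero =>
    intro T i
    have h : ∑ s : Bdry q 0 T, like q lam 0 T i s = ∑ s : Fin q, (if s = i then (1 : ℝ) else 0) :=
      Fintype.sum_equiv (Equiv.refl _) _ _ (fun _ => rfl)
    rw [h]
    simp
  | succ n ih =>
    intro T i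
    simp only [like_succ]
    rw [sum_bdry_prod T (fun c x => ∑ j : Fin q, potts q lam i j * like q lam n (T.2 c) j x)]
    apply prod_eq_one
    intro c _
    rw [sum_comm]
    simp_rw [← mul_sum, ih, mul_one]
    exact potts_sum hq i

/-- one-step weights sum to one -/
theorem step_sum (hq : 0 < q) {n : ℕ} (T : Tree n) (i : Fin q) :
    ∑ x : Bdry q n T, ∑ j : Fin q, potts q lam i j * like q lam n T j x = 1 := by
  rw [sum_comm]
  simp_rw [← mul_sum, like_sum hq, mul_one]
  exact potts_sum hq i

theorem prob_nonneg (hp : ∀ i j : Fin q, 0 ≤ potts q lam i j) {n : ℕ} (T : Tree n)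
    (s : Bdry q n T) : 0 ≤ prob q lam n T s := by
  unfold prob
  apply mul_nonneg (by positivity)
  exact sum_nonneg fun i _ => like_nonneg hp n T i s

theorem prob_sum (hq : 0 < q) {n : ℕ} (T : Tree n) : ∑ s : Bdry q n T, prob q lam n T s = 1 := by
  have hq0 : (q : ℝ) ≠ 0 := by exact_mod_cast hq.ne'
  unfold prob
  rw [← mul_sum, sum_comm]
  simp_rw [like_sum hq]
  simp
  field_simp

theorem prob_mul_post (hq : 0 < q) (hp : ∀ i j : Fin q, 0 ≤ potts q lam i j) {n : ℕ} (T : Tree n)
    (s : Bdry q n T) (i : Fin q) :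
    prob q lam n T s * post q lam n T i s = (1 / q) * like q lam n T i s := by
  have hq0 : (q : ℝ) ≠ 0 := by exact_mod_cast hq.ne'
  unfold post
  by_cases h : prob q lam n T s = 0
  · have h2 : like q lam n T i s = 0 := by
      unfold prob at h
      have h3 : ∑ i : Fin q, like q lam n T i s = 0 := by
        rcases mul_eq_zero.mp h with h4 | h4
        · exfalso
          have : (1 : ℝ) / q ≠ 0 := by positivity
          exact this h4
        · exact h4
      rw [sum_eq_zero_iff_of_nonneg (fun i _ => like_nonneg hp n T i s)] at h3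
      exact h3 i (mem_univ i)
    rw [h2, h]
    simp
  · field_simp

/-- the total variation formula for `adv` -/
theorem adv_eq (hq : 0 < q) (hp : ∀ i j : Fin q, 0 ≤ potts q lam i j) {n : ℕ} (T : Tree n) :
    adv q lam n T = (1 / (2 * q)) * ∑ i : Fin q, ∑ s : Bdry q n T,
      |like q lam n T i s - prob q lam n T s| := by
  unfold adv
  rw [sum_comm, mul_sum]
  apply sum_congr rfl
  intro s _
  rw [mul_sum, mul_sum, mul_sum]
  apply sum_congr rfl
  intro i _
  have h1 : prob q lam n T s * |post q lam n T i s - 1 / q| =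
      |prob q lam n T s * (post q lam n T i s - 1 / q)| := by
    rw [abs_mul, abs_of_nonneg (prob_nonneg hp T s)]
  have h2 : prob q lam n T s * (post q lam n T i s - 1 / q) =
      (1 / q) * (like q lam n T i s - prob q lam n T s) := by
    rw [mul_sub, prob_mul_post hq hp]
    ring
  have h3 : |prob q lam n T s * (post q lam n T i s - 1 / q)| =
      (1 / q) * |like q lam n T i s - prob q lam n T s| := by
    rw [h2, abs_mul, abs_of_nonneg (by positivity : (0 : ℝ) ≤ 1 / q)]
  calc prob q lam n T s * (1 / 2 * |post q lam n T i s - 1 / q|)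
      = (1 / 2) * (prob q lam n T s * |post q lam n T i s - 1 / q|) := by ring
    _ = 1 / (2 * q) * |like q lam n T i s - prob q lam n T s| := by
        rw [h1, h3]
        have hq0 : (q : ℝ) ≠ 0 := by exact_mod_cast hq.ne'
        field_simp

theorem adv_nonneg (hp : ∀ i j : Fin q, 0 ≤ potts q lam i j) {n : ℕ} (T : Tree n) :
    0 ≤ adv q lam n T := by
  unfold adv
  apply sum_nonneg
  intro s _
  apply mul_nonneg (prob_nonneg hp T s)
  apply mul_nonneg (by norm_num)
  exact sum_nonneg fun i _ => abs_nonneg _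

theorem adv_le_one (hq : 0 < q) (hp : ∀ i j : Fin q, 0 ≤ potts q lam i j) {n : ℕ} (T : Tree n) :
    adv q lam n T ≤ 1 := by
  have hq0 : (0 : ℝ) < q := by exact_mod_cast hq
  rw [adv_eq hq hp]
  have h1 : ∑ i : Fin q, ∑ s : Bdry q n T, |like q lam n T i s - prob q lam n T s| ≤
      ∑ i : Fin q, ((1 : ℝ) + 1) := by
    apply sum_le_sum
    intro i _
    calc ∑ s : Bdry q n T, |like q lam n T i s - prob q lam n T s|
        ≤ ∑ s : Bdry q n T, (like q lam n T i s + prob q lam n T s) := by
          apply sum_le_sum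
          intro s _
          have a := like_nonneg hp n T i s
          have b := prob_nonneg hp T s
          rw [abs_le]
          constructor <;> linarith
      _ = 1 + 1 := by rw [sum_add_distrib, like_sum hq, prob_sum hq]
  have h2 : ∑ i : Fin q, ((1 : ℝ) + 1) = 2 * q := by
    simp
    ring
  rw [h2] at h1
  calc 1 / (2 * (q : ℝ)) * _ ≤ 1 / (2 * (q : ℝ)) * (2 * q) := by
        apply mul_le_mul_of_nonneg_left h1 (by positivity)
    _ = 1 := by field_simp

/-! ### Truncation and data processing -/

/-- forget the last level of a tree -/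
def trunc : (n : ℕ) → Tree (n + 1) → Tree n
  | 0, _ => ()
  | n + 1, T => ⟨T.1, fun c => trunc n (T.2 c)⟩

/-- the stochastic kernel from level `n` to level `n + 1` -/
noncomputable def kernN (q : ℕ) (lam : ℝ) : (n : ℕ) → (T : Tree (n + 1)) → Bdry q n (trunc n T) →
    Bdry q (n + 1) T → ℝ
  | 0, T, s, s' => like q lam 1 T s s'
  | n + 1, T, s, s' => ∏ c : Fin T.1, kernN q lam n (T.2 c) (s c) (s' c)

theorem kernN_nonneg (hp : ∀ i j : Fin q, 0 ≤ potts q lam i j) :
    ∀ (n : ℕ) (T : Tree (n + 1)) (s : Bdry q n (trunc n T)) (s' : Bdry q (n + 1) T),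
      0 ≤ kernN q lam n T s s' := by
  intro n
  induction n with
  | zero =>
    intro T s s'
    exact like_nonneg hp 1 T s s'
  | succ n ih =>
    intro T s s'
    exact prod_nonneg fun c _ => ih _ _ _

theorem kernN_sum (hq : 0 < q) :
    ∀ (n : ℕ) (T : Tree (n + 1)) (s : Bdry q n (trunc n T)),
      ∑ s' : Bdry q (n + 1) T, kernN q lam n T s s' = 1 := by
  intro n
  induction n with
  | zero =>
    intro T s
    exact like_sum hq 1 T s
  | succ n ih =>
    intro T s
    have : ∀ s' : Bdry q (n + 1 + 1) T, kernN q lam (n + 1) T s s' =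
      ∏ c : Fin T.1, kernN q lam n (T.2 c) (s c) (s' c) := fun _ => rfl
    simp only [this]
    rw [sum_bdry_prod T (fun c x => kernN q lam n (T.2 c) (s c) x)]
    exact prod_eq_one fun c _ => ih _ _

theorem like_trunc :
    ∀ (n : ℕ) (T : Tree (n + 1)) (i : Fin q) (s' : Bdry q (n + 1) T),
      like q lam (n + 1) T i s' =
        ∑ s : Bdry q n (trunc n T), like q lam n (trunc n T) i s * kernN q lam n T s s' := by
  intro n
  induction n with
  | zero =>
    intro T i s'
    have h : ∑ s : Bdry q 0 (trunc 0 T), like q lam 0 (trunc 0 T) i s * kernN q lam 0 T s s' =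
        ∑ s : Fin q, (if s = i then (1 : ℝ) else 0) * like q lam 1 T s s' :=
      Fintype.sum_equiv (Equiv.refl _) _ _ (fun _ => rfl)
    rw [h]
    simp
  | succ n ih =>
    intro T i s'
    rw [like_succ]
    have h1 : ∀ c : Fin T.1, ∑ j : Fin q, potts q lam i j * like q lam (n + 1) (T.2 c) j (s' c) =
        ∑ x : Bdry q n (trunc n (T.2 c)),
          (∑ j : Fin q, potts q lam i j * like q lam n (trunc n (T.2 c)) j x) *
            kernN q lam n (T.2 c) x (s' c) := by
      intro c
      simp_rw [ih, mul_sum, sum_mul]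
      rw [sum_comm]
      apply sum_congr rfl
      intro x _
      apply sum_congr rfl
      intro j _
      ring
    simp_rw [h1]
    have h2 := sum_bdry_prod (q := q) (trunc (n + 1) T) (fun c x =>
          (∑ j : Fin q, potts q lam i j * like q lam n (trunc n (T.2 c)) j x) *
            kernN q lam n (T.2 c) x (s' c))
    refine Eq.trans h2.symm ?_
    apply sum_congr rfl
    intro s _
    rw [prod_mul_distrib]
    rfl

theorem prob_trunc (n : ℕ) (T : Tree (n + 1)) (s' : Bdry q (n + 1) T) :
    prob q lam (n + 1) T s' =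
      ∑ s : Bdry q n (trunc n T), prob q lam n (trunc n T) s * kernN q lam n T s s' := by
  unfold prob
  simp_rw [like_trunc, mul_assoc, ← mul_sum, sum_mul]
  rw [sum_comm]

theorem adv_trunc (hq : 0 < q) (hp : ∀ i j : Fin q, 0 ≤ potts q lam i j) (n : ℕ)
    (T : Tree (n + 1)) : adv q lam (n + 1) T ≤ adv q lam n (trunc n T) := by
  rw [adv_eq hq hp, adv_eq hq hp]
  apply mul_le_mul_of_nonneg_left _ (by positivity)
  apply sum_le_sum
  intro i _
  calc ∑ s' : Bdry q (n + 1) T, |like q lam (n + 1) T i s' - prob q lam (n + 1) T s'|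
      ≤ ∑ s' : Bdry q (n + 1) T, ∑ s : Bdry q n (trunc n T),
          |like q lam n (trunc n T) i s - prob q lam n (trunc n T) s| * kernN q lam n T s s' := by
        apply sum_le_sum
        intro s' _
        rw [like_trunc, prob_trunc, ← sum_sub_distrib]
        refine (abs_sum_le_sum_abs _ _).trans ?_
        apply sum_le_sum
        intro s _
        rw [← sub_mul, abs_mul, abs_of_nonneg (kernN_nonneg hp n T s s')]
    _ = ∑ s : Bdry q n (trunc n T), |like q lam n (trunc n T) i s - prob q lam n (trunc n T) s| := by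
        rw [sum_comm]
        apply sum_congr rfl
        intro s _
        rw [← mul_sum, kernN_sum hq, mul_one]

theorem trunc_dary (d : ℕ) : ∀ n : ℕ, trunc n (dary d (n + 1)) = dary d n := by
  intro n
  induction n with
  | zero => rfl
  | succ n ih =>
    show (⟨d, fun _ => trunc n (dary d (n + 1))⟩ : Σ k : ℕ, (Fin k → Tree n)) = ⟨d, fun _ => dary d n⟩
    rw [ih]

theorem aReg_antitone (hq : 0 < q) (hp : ∀ i j : Fin q, 0 ≤ potts q lam i j) (d : ℕ) :
    Antitone (aReg q d lam) := by
  apply antitone_nat_of_succ_le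
  intro n
  unfold aReg
  have := adv_trunc hq hp n (dary d (n + 1))
  rwa [trunc_dary] at this

end Vale.Agent.P154
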