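import Vale.Agent.P154.KS1

/-! Second moment method on a fixed tree (helper file, not used in the final statement). -/

namespace Vale.Agent.P154

open Finset

variable {q : ℕ} {lam : ℝ}

/-- number of vertices at level `n` -/
noncomputable def Zn : (n : ℕ) → Tree n → ℝ
  | 0, _ => 1
  | n + 1, T => ∑ c : Fin T.1, Zn n (T.2 c)

theorem Zn_nonneg : ∀ (n : ℕ) (T : Tree n), 0 ≤ Zn n T := by
  intro n
  induction n with
  | zero => intro T; exact zero_le_one
  | succ n ih => intro T; exact sum_nonneg fun c _ => ih _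

/-- the linear statistic -/
noncomputable def Hn (q : ℕ) : (n : ℕ) → (T : Tree n) → Fin q → Bdry q n T → ℝ
  | 0, _, i, s => (if (show Fin q from s) = i then 1 else 0) - 1 / q
  | n + 1, T, i, s => ∑ c : Fin T.1, Hn q n (T.2 c) i (s c)

/-- `E[F(s_c)]` on a product space -/
theorem prod_expect_one {n : ℕ} (T : Tree (n + 1)) (w f : ∀ c : Fin T.1, Bdry q n (T.2 c) → ℝ)
    (hw : ∀ c, ∑ x : Bdry q n (T.2 c), w c x = 1) (c0 : Fin T.1) :
    ∑ s : Bdry q (n + 1) T, (∏ c : Fin T.1, w c (s c)) * f c0 (s c0) =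
      ∑ x : Bdry q n (T.2 c0), w c0 x * f c0 x := by
  have h1 : ∀ s : Bdry q (n + 1) T, (∏ c : Fin T.1, w c (s c)) * f c0 (s c0) =
      ∏ c : Fin T.1, (w c (s c) * (if c = c0 then f c (s c) else 1)) := by
    intro s
    rw [prod_mul_distrib, prod_ite_eq' univ c0 (fun c => f c (s c))]
    simp
  simp_rw [h1]
  rw [sum_bdry_prod T (fun c x => w c x * (if c = c0 then f c x else 1))]
  have h2 : ∀ c : Fin T.1, ∑ x : Bdry q n (T.2 c), w c x * (if c = c0 then f c x else 1) =
      if c = c0 then ∑ x : Bdry q n (T.2 c), w c x * f c x else 1 := by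
    intro c
    split_ifs with h
    · rfl
    · simp_rw [mul_one]
      exact hw c
  simp_rw [h2]
  rw [prod_ite_eq' univ c0 (fun c => ∑ x : Bdry q n (T.2 c), w c x * f c x)]
  simp

/-- `E[F(s_c) F(s_c')]` on a product space -/
theorem prod_expect_two {n : ℕ} (T : Tree (n + 1)) (w f : ∀ c : Fin T.1, Bdry q n (T.2 c) → ℝ)
    (hw : ∀ c, ∑ x : Bdry q n (T.2 c), w c x = 1) (c0 c1 : Fin T.1) (hc : c0 ≠ c1) :
    ∑ s : Bdry q (n + 1) T, (∏ c : Fin T.1, w c (s c)) * (f c0 (s c0) * f c1 (s c1)) =
      (∑ x : Bdry q n (T.2 c0), w c0 x * f c0 x) * ∑ x : Bdry q n (T.2 c1), w c1 x * f c1 x := by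
  have h1 : ∀ s : Bdry q (n + 1) T, (∏ c : Fin T.1, w c (s c)) * (f c0 (s c0) * f c1 (s c1)) =
      ∏ c : Fin T.1, (w c (s c) * ((if c = c0 then f c (s c) else 1) *
        (if c = c1 then f c (s c) else 1))) := by
    intro s
    rw [prod_mul_distrib, prod_mul_distrib, prod_ite_eq' univ c0 (fun c => f c (s c)),
      prod_ite_eq' univ c1 (fun c => f c (s c))]
    simp
  simp_rw [h1]
  rw [sum_bdry_prod T (fun c x => w c x * ((if c = c0 then f c x else 1) *
        (if c = c1 then f c x else 1)))]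
  have h2 : ∀ c : Fin T.1, ∑ x : Bdry q n (T.2 c), w c x * ((if c = c0 then f c x else 1) *
        (if c = c1 then f c x else 1)) =
      (if c = c0 then ∑ x : Bdry q n (T.2 c), w c x * f c x else 1) *
      (if c = c1 then ∑ x : Bdry q n (T.2 c), w c x * f c x else 1) := by
    intro c
    by_cases h : c = c0
    · have h' : c ≠ c1 := by rw [h]; exact hc
      simp [h, hc]
    · by_cases h' : c = c1
      · simp [h', hc.symm]
      · simp [h, h', hw c]
  simp_rw [h2]
  rw [prod_mul_distrib, prod_ite_eq' univ c0 (fun c => ∑ x : Bdry q n (T.2 c), w c x * f c x),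
    prod_ite_eq' univ c1 (fun c => ∑ x : Bdry q n (T.2 c), w c x * f c x)]
  simp

/-- mean of the linear statistic -/
theorem Hn_mean (hq : 0 < q) :
    ∀ (n : ℕ) (T : Tree n) (i j : Fin q), ∑ s : Bdry q n T, like q lam n T j s * Hn q n T i s =
      lam ^ n * Zn n T * ((if j = i then 1 else 0) - 1 / q) := by
  intro n
  induction n with
  | zero =>
    intro T i j
    have h : ∑ s : Bdry q 0 T, like q lam 0 T j s * Hn q 0 T i s =
        ∑ s : Fin q, (if s = j then (1 : ℝ) else 0) * ((if s = i then 1 else 0) - 1 / q) :=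
      Fintype.sum_equiv (Equiv.refl _) _ _ (fun _ => rfl)
    rw [h]
    simp [Zn]
  | succ n ih =>
    intro T i j
    have hq0 : (q : ℝ) ≠ 0 := by exact_mod_cast hq.ne'
    have h1 : ∀ s : Bdry q (n + 1) T, like q lam (n + 1) T j s * Hn q (n + 1) T i s =
        ∑ c : Fin T.1, (∏ c : Fin T.1, ∑ k : Fin q, potts q lam j k * like q lam n (T.2 c) k (s c)) *
          Hn q n (T.2 c) i (s c) := by
      intro s
      rw [← mul_sum]
      rfl
    simp_rw [h1]
    rw [sum_comm]
    have h2 : ∀ c : Fin T.1, ∑ s : Bdry q (n + 1) T,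
        (∏ c : Fin T.1, ∑ k : Fin q, potts q lam j k * like q lam n (T.2 c) k (s c)) *
          Hn q n (T.2 c) i (s c) =
        lam ^ (n + 1) * Zn n (T.2 c) * ((if j = i then 1 else 0) - 1 / q) := by
      intro c
      rw [prod_expect_one T (fun c x => ∑ k : Fin q, potts q lam j k * like q lam n (T.2 c) k x)
        (fun c x => Hn q n (T.2 c) i x) (fun c => step_sum hq _ _) c]
      simp_rw [sum_mul, mul_assoc]
      rw [sum_comm]
      simp_rw [← mul_sum, ih]
      have h3 : ∀ k : Fin q, potts q lam j k * (lam ^ n * Zn n (T.2 c) *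
          ((if k = i then 1 else 0) - 1 / (q : ℝ))) =
          lam ^ n * Zn n (T.2 c) * (if k = i then potts q lam j k else 0) -
          lam ^ n * Zn n (T.2 c) * (1 / q) * potts q lam j k := by
        intro k
        split_ifs <;> ring
      simp_rw [h3]
      rw [sum_sub_distrib, ← mul_sum, ← mul_sum, potts_sum hq, sum_ite_eq']
      simp only [mem_univ, if_true]
      unfold potts
      rw [pow_succ]
      field_simp
      ring
    simp_rw [h2]
    rw [← sum_mul, ← mul_sum]
    rfl

/-- second moment of the linear statistic -/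
noncomputable def Vn (q : ℕ) (lam : ℝ) (n : ℕ) (T : Tree n) : ℝ :=
  ∑ i : Fin q, ∑ s : Bdry q n T, prob q lam n T s * (Hn q n T i s) ^ 2

theorem Vn_nonneg (hp : ∀ i j : Fin q, 0 ≤ potts q lam i j) (n : ℕ) (T : Tree n) :
    0 ≤ Vn q lam n T :=
  sum_nonneg fun _ _ => sum_nonneg fun s _ => mul_nonneg (prob_nonneg hp T s) (sq_nonneg _)

theorem sum_delta_sq (hq : 0 < q) :
    ∑ i : Fin q, ∑ j : Fin q, ((if j = i then (1 : ℝ) else 0) - 1 / (q : ℝ)) ^ 2 = (q : ℝ) - 1 := by
  have hq0 : (q : ℝ) ≠ 0 := by exact_mod_cast hq.ne'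
  have h : ∀ i j : Fin q, ((if j = i then (1 : ℝ) else 0) - 1 / q) ^ 2 =
      (if j = i then (1 - 2 / (q : ℝ)) else 0) + 1 / (q : ℝ) ^ 2 := by
    intro i j
    split_ifs
    · field_simp
      ring
    · field_simp
      ring
  simp_rw [h, sum_add_distrib]
  simp
  field_simp
  ring

theorem Vn_zero (hq : 0 < q) (T : Tree 0) : Vn q lam 0 T = 1 - 1 / q := by
  have hq0 : (q : ℝ) ≠ 0 := by exact_mod_cast hq.ne'
  have h : Vn q lam 0 T = ∑ i : Fin q, ∑ s : Fin q,
      ((1 / q) * ∑ j : Fin q, (if s = j then (1 : ℝ) else 0)) *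
        ((if s = i then 1 else 0) - 1 / q) ^ 2 := by
    unfold Vn
    apply sum_congr rfl
    intro i _
    exact Fintype.sum_equiv (Equiv.refl _) _ _ (fun _ => rfl)
  rw [h]
  simp only [sum_ite_eq, mem_univ, if_true, mul_one]
  simp_rw [← mul_sum]
  rw [sum_delta_sq hq]
  field_simp

theorem sum_split {ι : Type*} [Fintype ι] [DecidableEq ι] (A : ι → ℝ) (B : ι → ι → ℝ) (a b : ℝ) :
    ∑ c, ∑ c', (if c = c' then A c else a * b * B c c') =
      ∑ c, A c + b * (a * ∑ c, ∑ c', (if c = c' then 0 else B c c')) := by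
  have h : ∀ c c' : ι, (if c = c' then A c else a * b * B c c') =
      (if c = c' then A c else 0) + b * (a * (if c = c' then 0 else B c c')) := by
    intro c c'
    split_ifs <;> ring
  simp_rw [h, sum_add_distrib, ← mul_sum, sum_ite_eq]
  simp

theorem Vn_succ (hq : 0 < q) (n : ℕ) (T : Tree (n + 1)) :
    Vn q lam (n + 1) T = ∑ c : Fin T.1, Vn q lam n (T.2 c) +
      (1 - 1 / q) * lam ^ (2 * (n + 1)) *
        ∑ c : Fin T.1, ∑ c' : Fin T.1, (if c = c' then 0 else Zn n (T.2 c) * Zn n (T.2 c')) := by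
  have hq0 : (q : ℝ) ≠ 0 := by exact_mod_cast hq.ne'
  -- expand with respect to the root
  have key : ∀ i j : Fin q, ∑ s : Bdry q (n + 1) T,
      like q lam (n + 1) T j s * (Hn q (n + 1) T i s) ^ 2 =
      ∑ c : Fin T.1, ∑ c' : Fin T.1, (if c = c' then
        ∑ x : Bdry q n (T.2 c), (∑ k : Fin q, potts q lam j k * like q lam n (T.2 c) k x) *
          (Hn q n (T.2 c) i x) ^ 2
        else lam ^ (2 * (n + 1)) * ((if j = i then (1 : ℝ) else 0) - 1 / q) ^ 2 *
          (Zn n (T.2 c) * Zn n (T.2 c'))) := by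
    intro i j
    have h1 : ∀ s : Bdry q (n + 1) T, like q lam (n + 1) T j s * (Hn q (n + 1) T i s) ^ 2 =
        ∑ c : Fin T.1, ∑ c' : Fin T.1,
          (∏ c : Fin T.1, ∑ k : Fin q, potts q lam j k * like q lam n (T.2 c) k (s c)) *
          (Hn q n (T.2 c) i (s c) * Hn q n (T.2 c') i (s c')) := by
      intro s
      simp_rw [← mul_sum]
      rw [← sum_mul, ← sq]
      rfl
    simp_rw [h1]
    rw [sum_comm]
    apply sum_congr rfl
    intro c _
    rw [sum_comm]
    apply sum_congr rfl
    intro c' _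
    by_cases hc : c = c'
    · subst hc
      simp only [if_true]
      have := prod_expect_one T
        (fun c x => ∑ k : Fin q, potts q lam j k * like q lam n (T.2 c) k x)
        (fun c x => (Hn q n (T.2 c) i x) ^ 2) (fun c => step_sum hq _ _) c
      rw [← this]
      apply sum_congr rfl
      intro s _
      rw [sq]
    · simp only [hc, if_false]
      rw [prod_expect_two T
        (fun c x => ∑ k : Fin q, potts q lam j k * like q lam n (T.2 c) k x)
        (fun c x => Hn q n (T.2 c) i x) (fun c => step_sum hq _ _) c c' hc]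
      have h4 : ∀ c : Fin T.1, ∑ x : Bdry q n (T.2 c),
          (∑ k : Fin q, potts q lam j k * like q lam n (T.2 c) k x) * Hn q n (T.2 c) i x =
          lam ^ (n + 1) * Zn n (T.2 c) * ((if j = i then 1 else 0) - 1 / q) := by
        intro c
        simp_rw [sum_mul, mul_assoc]
        rw [sum_comm]
        simp_rw [← mul_sum, Hn_mean hq]
        have h3 : ∀ k : Fin q, potts q lam j k * (lam ^ n * Zn n (T.2 c) *
            ((if k = i then 1 else 0) - 1 / (q : ℝ))) =
            lam ^ n * Zn n (T.2 c) * (if k = i then potts q lam j k else 0) -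
            lam ^ n * Zn n (T.2 c) * (1 / q) * potts q lam j k := by
          intro k
          split_ifs <;> ring
        simp_rw [h3]
        rw [sum_sub_distrib, ← mul_sum, ← mul_sum, potts_sum hq, sum_ite_eq']
        simp only [mem_univ, if_true]
        unfold potts
        rw [pow_succ]
        field_simp
        ring
      rw [h4, h4]
      ring
  have h5 : Vn q lam (n + 1) T = (1 / q) * ∑ j : Fin q, ∑ i : Fin q, ∑ s : Bdry q (n + 1) T,
      like q lam (n + 1) T j s * (Hn q (n + 1) T i s) ^ 2 := by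
    unfold Vn prob
    have e1 : ∀ i : Fin q, ∑ s : Bdry q (n + 1) T,
        (1 / (q : ℝ) * ∑ j : Fin q, like q lam (n + 1) T j s) * (Hn q (n + 1) T i s) ^ 2 =
        (1 / (q : ℝ)) * ∑ j : Fin q, ∑ s : Bdry q (n + 1) T,
          like q lam (n + 1) T j s * (Hn q (n + 1) T i s) ^ 2 := by
      intro i
      rw [sum_comm, mul_sum]
      apply sum_congr rfl
      intro s _
      rw [mul_assoc, sum_mul]
    simp_rw [e1]
    rw [← mul_sum, sum_comm]
  have h6 : ∑ c : Fin T.1, Vn q lam n (T.2 c) = (1 / q) * ∑ j : Fin q, ∑ i : Fin q, ∑ c : Fin T.1,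
      ∑ x : Bdry q n (T.2 c), (∑ k : Fin q, potts q lam j k * like q lam n (T.2 c) k x) *
          (Hn q n (T.2 c) i x) ^ 2 := by
    have h7 : ∀ c : Fin T.1, ∀ i : Fin q, ∑ j : Fin q,
        ∑ x : Bdry q n (T.2 c), (∑ k : Fin q, potts q lam j k * like q lam n (T.2 c) k x) *
          (Hn q n (T.2 c) i x) ^ 2 =
        ∑ x : Bdry q n (T.2 c), (∑ k : Fin q, like q lam n (T.2 c) k x) *
          (Hn q n (T.2 c) i x) ^ 2 := by
      intro c i
      rw [sum_comm]
      apply sum_congr rfl
      intro x _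
      rw [← sum_mul, sum_comm]
      simp_rw [← sum_mul, potts_sum' hq, one_mul]
    rw [mul_sum]
    unfold Vn prob
    have h8 : ∑ j : Fin q, 1 / (q : ℝ) * ∑ i : Fin q, ∑ c : Fin T.1,
      ∑ x : Bdry q n (T.2 c), (∑ k : Fin q, potts q lam j k * like q lam n (T.2 c) k x) *
          (Hn q n (T.2 c) i x) ^ 2 = 1 / (q : ℝ) * ∑ c : Fin T.1, ∑ i : Fin q, ∑ j : Fin q,
      ∑ x : Bdry q n (T.2 c), (∑ k : Fin q, potts q lam j k * like q lam n (T.2 c) k x) *
          (Hn q n (T.2 c) i x) ^ 2 := by
      rw [← mul_sum]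
      congr 1
      rw [sum_comm]
      rw [sum_comm (s := (univ : Finset (Fin T.1)))]
      apply sum_congr rfl
      intro i _
      rw [sum_comm]
    rw [h8]
    simp_rw [h7]
    rw [mul_sum]
    apply sum_congr rfl
    intro c _
    rw [mul_sum]
    apply sum_congr rfl
    intro i _
    rw [mul_sum]
    apply sum_congr rfl
    intro x _
    ring
  rw [h5, h6]
  simp_rw [key]
  have h9 : ∀ i j : Fin q, ∑ c : Fin T.1, ∑ c' : Fin T.1, (if c = c' then
        ∑ x : Bdry q n (T.2 c), (∑ k : Fin q, potts q lam j k * like q lam n (T.2 c) k x) *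
          (Hn q n (T.2 c) i x) ^ 2
        else lam ^ (2 * (n + 1)) * ((if j = i then (1 : ℝ) else 0) - 1 / q) ^ 2 *
          (Zn n (T.2 c) * Zn n (T.2 c'))) =
      ∑ c : Fin T.1, ∑ x : Bdry q n (T.2 c),
        (∑ k : Fin q, potts q lam j k * like q lam n (T.2 c) k x) * (Hn q n (T.2 c) i x) ^ 2 +
      ((if j = i then (1 : ℝ) else 0) - 1 / q) ^ 2 * (lam ^ (2 * (n + 1)) *
        ∑ c : Fin T.1, ∑ c' : Fin T.1, (if c = c' then 0 else Zn n (T.2 c) * Zn n (T.2 c'))) := by
    intro i j
    exact sum_split (fun c : Fin T.1 => ∑ x : Bdry q n (T.2 c),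
        (∑ k : Fin q, potts q lam j k * like q lam n (T.2 c) k x) * (Hn q n (T.2 c) i x) ^ 2)
      (fun c c' => Zn n (T.2 c) * Zn n (T.2 c')) (lam ^ (2 * (n + 1)))
      (((if j = i then (1 : ℝ) else 0) - 1 / q) ^ 2)
  simp_rw [h9, sum_add_distrib, ← sum_mul]
  rw [mul_add]
  congr 1
  rw [sum_comm, sum_delta_sq hq]
  field_simp

/-- The Cauchy-Schwarz lower bound for the advantage. -/
theorem adv_lower (hq : 0 < q) (hp : ∀ i j : Fin q, 0 ≤ potts q lam i j) (n : ℕ) (T : Tree n)
    (eta : ℝ) :
    eta * (1 - 1 / q) * |lam| ^ n * Zn n T ≤ adv q lam n T + eta ^ 2 / 2 * Vn q lam n T := by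
  have hq0 : (0 : ℝ) < q := by exact_mod_cast hq
  -- choose the sign
  obtain ⟨e, he, hesq⟩ : ∃ e : ℝ, e * lam ^ n = |lam| ^ n ∧ e ^ 2 = 1 := by
    rcases le_total 0 (lam ^ n) with h | h
    · refine ⟨1, ?_, by norm_num⟩
      rw [one_mul, ← abs_pow, abs_of_nonneg h]
    · refine ⟨-1, ?_, by norm_num⟩
      rw [← abs_pow, abs_of_nonpos h]
      ring
  have h1 : ∀ i : Fin q, ∑ s : Bdry q n T,
      (1 / q) * (like q lam n T i s - prob q lam n T s) * (e * Hn q n T i s) =
      (1 / q) * (1 - 1 / q) * (|lam| ^ n * Zn n T) := by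
    intro i
    have h2 : ∑ s : Bdry q n T, prob q lam n T s * Hn q n T i s = 0 := by
      unfold prob
      simp_rw [mul_assoc, sum_mul]
      rw [← mul_sum, sum_comm]
      simp_rw [Hn_mean hq]
      rw [← mul_sum, sum_sub_distrib]
      simp
      right; right
      field_simp
      norm_num
    have h3 : ∑ s : Bdry q n T,
      (1 / q) * (like q lam n T i s - prob q lam n T s) * (e * Hn q n T i s) =
      (1 / q) * e * (∑ s : Bdry q n T, like q lam n T i s * Hn q n T i s -
        ∑ s : Bdry q n T, prob q lam n T s * Hn q n T i s) := by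
      rw [← sum_sub_distrib, mul_sum]
      apply sum_congr rfl
      intro s _
      ring
    rw [h3, h2, Hn_mean hq, ← he]
    simp only [if_true]
    ring
  have h4 : ∀ (i : Fin q) (s : Bdry q n T),
      eta * ((1 / q) * (like q lam n T i s - prob q lam n T s) * (e * Hn q n T i s)) ≤
      prob q lam n T s * (1 / 2 * |post q lam n T i s - 1 / q|) +
        eta ^ 2 / 2 * (prob q lam n T s * (Hn q n T i s) ^ 2) := by
    intro i s
    have h5 : (1 / q) * (like q lam n T i s - prob q lam n T s) =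
        prob q lam n T s * (post q lam n T i s - 1 / q) := by
      rw [mul_sub (prob q lam n T s), prob_mul_post hq hp]
      ring
    rw [h5]
    have hpr := prob_nonneg hp T s
    -- posterior bounds
    by_cases hz : prob q lam n T s = 0
    · rw [hz]; simp
    · have hpos : 0 < prob q lam n T s := lt_of_le_of_ne hpr (Ne.symm hz)
      have h6 : 0 ≤ post q lam n T i s := by
        unfold post
        have := like_nonneg hp n T i s
        positivity
      have h7 : post q lam n T i s ≤ 1 := by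
        unfold post
        rw [div_le_one hpos]
        unfold prob
        apply mul_le_mul_of_nonneg_left _ (by positivity)
        exact single_le_sum (f := fun i => like q lam n T i s)
          (fun i _ => like_nonneg hp n T i s) (mem_univ i)
      have hq1 : 1 / (q : ℝ) ≤ 1 := by
        rw [div_le_one hq0]
        exact_mod_cast hq
      have h8 : |post q lam n T i s - 1 / q| ≤ 1 := by
        rw [abs_le]
        have : 0 ≤ 1 / (q : ℝ) := by positivity
        constructor <;> linarith
      have h9 : (post q lam n T i s - 1 / q) ^ 2 ≤ |post q lam n T i s - 1 / q| := by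
        rw [← sq_abs]
        have := abs_nonneg (post q lam n T i s - 1 / q)
        nlinarith
      have h10 : eta * ((post q lam n T i s - 1 / q) * (e * Hn q n T i s)) ≤
          1 / 2 * |post q lam n T i s - 1 / q| + eta ^ 2 / 2 * (Hn q n T i s) ^ 2 := by
        have h11 : (eta * e * Hn q n T i s) ^ 2 = eta ^ 2 * (Hn q n T i s) ^ 2 := by
          rw [mul_pow, mul_pow, hesq]
          ring
        nlinarith [sq_nonneg ((post q lam n T i s - 1 / q) - eta * e * Hn q n T i s)]
      calc eta * (prob q lam n T s * (post q lam n T i s - 1 / q) * (e * Hn q n T i s))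
          = prob q lam n T s * (eta * ((post q lam n T i s - 1 / q) * (e * Hn q n T i s))) := by ring
        _ ≤ prob q lam n T s * (1 / 2 * |post q lam n T i s - 1 / q| +
              eta ^ 2 / 2 * (Hn q n T i s) ^ 2) := mul_le_mul_of_nonneg_left h10 hpr
        _ = _ := by ring
  have h12 : ∑ i : Fin q, ∑ s : Bdry q n T,
      eta * ((1 / q) * (like q lam n T i s - prob q lam n T s) * (e * Hn q n T i s)) ≤
      ∑ i : Fin q, ∑ s : Bdry q n T, (prob q lam n T s * (1 / 2 * |post q lam n T i s - 1 / q|) +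
        eta ^ 2 / 2 * (prob q lam n T s * (Hn q n T i s) ^ 2)) :=
    sum_le_sum fun i _ => sum_le_sum fun s _ => h4 i s
  have h13 : ∑ i : Fin q, ∑ s : Bdry q n T,
      eta * ((1 / q) * (like q lam n T i s - prob q lam n T s) * (e * Hn q n T i s)) =
      eta * (1 - 1 / q) * |lam| ^ n * Zn n T := by
    simp_rw [← mul_sum]
    simp_rw [h1]
    simp
    field_simp
  have h14 : ∑ i : Fin q, ∑ s : Bdry q n T,
      (prob q lam n T s * (1 / 2 * |post q lam n T i s - 1 / q|) +
        eta ^ 2 / 2 * (prob q lam n T s * (Hn q n T i s) ^ 2)) =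
      adv q lam n T + eta ^ 2 / 2 * Vn q lam n T := by
    simp_rw [sum_add_distrib, ← mul_sum]
    congr 1
    unfold adv
    rw [sum_comm]
    apply sum_congr rfl
    intro s _
    rw [mul_sum, mul_sum]
  rw [h13, h14] at h12
  exact h12

end Vale.Agent.P154
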