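import Vale.Agent.P154.KS2

/-! Kesten-Stigum direction and monotonicity for both tree models (helper file). -/

namespace Vale.Agent.P154

open Finset Filter Topology
open scoped ENNReal

/-! ### weighted sums over finite powers -/

section pk

variable {α β : Type*}

/-- expectation over `k` independent samples -/
noncomputable def pk (w : α → ℝ≥0∞) (k : ℕ) (G : (Fin k → α) → ℝ≥0∞) : ℝ≥0∞ :=
  ∑' t : Fin k → α, (∏ c, w (t c)) * G t

theorem pk_zero (w : α → ℝ≥0∞) (G : (Fin 0 → α) → ℝ≥0∞) : pk w 0 G = G Fin.elim0 := by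
  unfold pk
  rw [tsum_eq_single Fin.elim0]
  · simp
  · intro b hb
    exact absurd (Subsingleton.elim _ _) hb

theorem pk_succ (w : α → ℝ≥0∞) (k : ℕ) (G : (Fin (k + 1) → α) → ℝ≥0∞) :
    pk w (k + 1) G = ∑' a, w a * pk w k (fun t => G (Fin.cons a t)) := by
  unfold pk
  rw [← (Fin.consEquiv (fun _ : Fin (k + 1) => α)).tsum_eq, ENNReal.tsum_prod']
  apply tsum_congr
  intro a
  rw [← ENNReal.tsum_mul_left]
  apply tsum_congr
  intro t
  simp only [Fin.consEquiv_apply]
  rw [Fin.prod_univ_succ]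
  simp only [Fin.cons_zero, Fin.cons_succ]
  rw [mul_assoc]
  rfl

theorem pk_add (w : α → ℝ≥0∞) (k : ℕ) (G H : (Fin k → α) → ℝ≥0∞) :
    pk w k (fun t => G t + H t) = pk w k G + pk w k H := by
  unfold pk
  simp_rw [mul_add]
  exact ENNReal.tsum_add

theorem pk_mul_left (w : α → ℝ≥0∞) (k : ℕ) (a : ℝ≥0∞) (G : (Fin k → α) → ℝ≥0∞) :
    pk w k (fun t => a * G t) = a * pk w k G := by
  unfold pk
  rw [← ENNReal.tsum_mul_left]
  apply tsum_congr
  intro t
  ring

theorem pk_one {w : α → ℝ≥0∞} (hw : ∑' a, w a = 1) (k : ℕ) : pk w k (fun _ => 1) = 1 := by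
  induction k with
  | zero => rw [pk_zero]
  | succ k ih =>
    rw [pk_succ]
    simp_rw [ih, mul_one]
    exact hw

theorem pk_const {w : α → ℝ≥0∞} (hw : ∑' a, w a = 1) (k : ℕ) (a : ℝ≥0∞) :
    pk w k (fun _ => a) = a := by
  have := pk_mul_left w k a (fun _ => 1)
  simp only [mul_one] at this
  rw [this, pk_one hw, mul_one]

theorem pk_sum {w : α → ℝ≥0∞} (hw : ∑' a, w a = 1) (f : α → ℝ≥0∞) (k : ℕ) :
    pk w k (fun t => ∑ c, f (t c)) = k * ∑' a, w a * f a := by
  induction k with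
  | zero => rw [pk_zero]; simp
  | succ k ih =>
    rw [pk_succ]
    simp only [Fin.sum_univ_succ, Fin.cons_zero, Fin.cons_succ]
    simp_rw [pk_add, pk_const hw, ih, mul_add]
    rw [ENNReal.tsum_add, ENNReal.tsum_mul_right, hw]
    push_cast
    ring

theorem pk_pair {w : α → ℝ≥0∞} (hw : ∑' a, w a = 1) (f : α → ℝ≥0∞) (k : ℕ) :
    pk w k (fun t => ∑ c, ∑ c', (if c = c' then 0 else f (t c) * f (t c'))) =
      ((k * (k - 1) : ℕ) : ℝ≥0∞) * (∑' a, w a * f a) ^ 2 := by
  induction k with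
  | zero => rw [pk_zero]; simp
  | succ k ih =>
    rw [pk_succ]
    have h1 : ∀ (a : α) (t : Fin k → α), ∑ c : Fin (k + 1), ∑ c' : Fin (k + 1),
        (if c = c' then 0 else f (Fin.cons (α := fun _ => α) a t c) * f (Fin.cons (α := fun _ => α) a t c')) =
        (2 * f a) * ∑ c, f (t c) + ∑ c, ∑ c', (if c = c' then 0 else f (t c) * f (t c')) := by
      intro a t
      simp only [Fin.sum_univ_succ, Fin.cons_zero, Fin.cons_succ, Fin.succ_ne_zero,
        (Fin.succ_ne_zero _).symm, if_true, if_false, zero_add, Fin.succ_inj, sum_add_distrib]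
      rw [← mul_sum, ← sum_mul]
      ring
    simp_rw [h1, pk_add, pk_mul_left, pk_sum hw, ih, mul_add]
    rw [ENNReal.tsum_add, ENNReal.tsum_mul_right, hw, one_mul]
    have h2 : ∀ a, w a * (2 * f a * (k * ∑' a, w a * f a)) =
        (w a * f a) * (2 * k * ∑' a, w a * f a) := by
      intro a
      ring
    simp_rw [h2]
    rw [ENNReal.tsum_mul_right]
    have h3 : (k + 1) * (k + 1 - 1) = 2 * k + k * (k - 1) := by
      rcases k with _ | k
      · rfl
      · simp only [Nat.add_sub_cancel]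
        ring
    rw [h3]
    push_cast
    ring

theorem pk_map {w : α → ℝ≥0∞} {w' : β → ℝ≥0∞} (φ : α → β)
    (h : ∀ F : β → ℝ≥0∞, ∑' a, w a * F (φ a) = ∑' b, w' b * F b) (k : ℕ) :
    ∀ G : (Fin k → β) → ℝ≥0∞, pk w k (fun t => G (fun c => φ (t c))) = pk w' k G := by
  induction k with
  | zero =>
    intro G
    rw [pk_zero, pk_zero]
    congr 1
    exact Subsingleton.elim _ _
  | succ k ih =>
    intro G
    rw [pk_succ, pk_succ]
    rw [← h (fun b => pk w' k (fun t => G (Fin.cons b t)))]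
    apply tsum_congr
    intro a
    congr 1
    rw [← ih]
    congr 1
    funext t
    congr 1
    funext c
    refine Fin.cases ?_ (fun i => ?_) c
    · simp
    · simp

end pk

/-! ### the Galton-Watson expectation -/

/-- Poisson weights -/
noncomputable def pw (d : ℝ) (k : ℕ) : ℝ≥0∞ := ENNReal.ofReal (Real.exp (-d) * d ^ k / k.factorial)

theorem pw_sum {d : ℝ} (hd : 0 ≤ d) : ∑' k, pw d k = 1 := by
  unfold pw
  rw [← ENNReal.ofReal_tsum_of_nonneg]
  · have h : ∑' k : ℕ, Real.exp (-d) * d ^ k / k.factorial = 1 := by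
      have h2 : ∀ k : ℕ, Real.exp (-d) * d ^ k / k.factorial =
          Real.exp (-d) * (d ^ k / k.factorial) := fun k => by ring
      simp_rw [h2]
      rw [tsum_mul_left]
      have h3 : ∑' k : ℕ, d ^ k / (k.factorial : ℝ) = Real.exp d := by
        rw [Real.exp_eq_exp_ℝ, NormedSpace.exp_eq_tsum_div]
      rw [h3, ← Real.exp_add]
      simp
    rw [h]
    simp
  · intro k
    positivity
  · have h2 : (fun k : ℕ => Real.exp (-d) * d ^ k / k.factorial) =
          fun k : ℕ => Real.exp (-d) * (d ^ k / k.factorial) := by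
      funext k
      ring
    rw [h2]
    exact (Real.summable_pow_div_factorial d).mul_left _

theorem pw_succ {d : ℝ} (hd : 0 ≤ d) (k : ℕ) :
    pw d (k + 1) * ((k + 1 : ℕ) : ℝ≥0∞) = ENNReal.ofReal d * pw d k := by
  unfold pw
  rw [← ENNReal.ofReal_natCast, ← ENNReal.ofReal_mul (by positivity), ← ENNReal.ofReal_mul hd]
  congr 1
  rw [Nat.factorial_succ, pow_succ]
  have : ((k : ℝ) + 1) ≠ 0 := by positivity
  have h2 : (k.factorial : ℝ) ≠ 0 := by positivity
  push_cast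
  field_simp

theorem pw_mean {d : ℝ} (hd : 0 ≤ d) : ∑' k, pw d k * (k : ℝ≥0∞) = ENNReal.ofReal d := by
  rw [tsum_eq_zero_add' ENNReal.summable]
  simp_rw [pw_succ hd]
  rw [ENNReal.tsum_mul_left, pw_sum hd]
  simp

theorem pw_fact {d : ℝ} (hd : 0 ≤ d) :
    ∑' k, pw d k * ((k * (k - 1) : ℕ) : ℝ≥0∞) = ENNReal.ofReal d ^ 2 := by
  rw [tsum_eq_zero_add' ENNReal.summable]
  have h : ∀ k : ℕ, pw d (k + 1) * (((k + 1) * (k + 1 - 1) : ℕ) : ℝ≥0∞) =
      ENNReal.ofReal d * (pw d k * (k : ℝ≥0∞)) := by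
    intro k
    rw [Nat.add_sub_cancel, Nat.cast_mul, ← mul_assoc, pw_succ hd, mul_assoc]
  simp_rw [h]
  rw [ENNReal.tsum_mul_left, pw_mean hd]
  simp [sq]

theorem gwProb_nonneg {d : ℝ} (hd : 0 ≤ d) : ∀ (n : ℕ) (T : Tree n), 0 ≤ gwProb d n T := by
  intro n
  induction n with
  | zero => intro T; exact zero_le_one
  | succ n ih =>
    intro T
    show 0 ≤ Real.exp (-d) * d ^ T.1 / (T.1).factorial * ∏ c : Fin T.1, gwProb d n (T.2 c)
    have : 0 ≤ ∏ c : Fin T.1, gwProb d n (T.2 c) := prod_nonneg fun c _ => ih _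
    positivity

/-- expectation under the Galton-Watson law -/
noncomputable def gE (d : ℝ) (n : ℕ) (F : Tree n → ℝ≥0∞) : ℝ≥0∞ :=
  ∑' T : Tree n, ENNReal.ofReal (gwProb d n T) * F T

theorem gE_zero (d : ℝ) (F : Tree 0 → ℝ≥0∞) : gE d 0 F = F () := by
  have h : gE d 0 F = ∑' T : Unit, ENNReal.ofReal 1 * F T := rfl
  rw [h, tsum_eq_single ()]
  · simp
  · intro b hb
    exact absurd rfl hb

theorem gE_succ {d : ℝ} (hd : 0 ≤ d) (n : ℕ) (F : Tree (n + 1) → ℝ≥0∞) :
    gE d (n + 1) F = ∑' k : ℕ, pw d k *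
      pk (fun T => ENNReal.ofReal (gwProb d n T)) k (fun t => F ⟨k, t⟩) := by
  have h : gE d (n + 1) F = ∑' T : (Σ k : ℕ, (Fin k → Tree n)),
      ENNReal.ofReal (Real.exp (-d) * d ^ T.1 / (T.1).factorial *
        ∏ c : Fin T.1, gwProb d n (T.2 c)) * F T := rfl
  rw [h, ENNReal.tsum_sigma']
  apply tsum_congr
  intro k
  unfold pk pw
  rw [← ENNReal.tsum_mul_left]
  apply tsum_congr
  intro t
  rw [ENNReal.ofReal_mul (by positivity),
    ENNReal.ofReal_prod_of_nonneg (fun c _ => gwProb_nonneg hd n (t c)), mul_assoc]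

theorem gE_one {d : ℝ} (hd : 0 ≤ d) : ∀ n : ℕ, gE d n (fun _ => 1) = 1 := by
  intro n
  induction n with
  | zero => rw [gE_zero]
  | succ n ih =>
    rw [gE_succ hd]
    have hw : ∑' T : Tree n, ENNReal.ofReal (gwProb d n T) = 1 := by
      unfold gE at ih
      simpa using ih
    simp_rw [pk_one hw, mul_one]
    exact pw_sum hd

theorem gw_total {d : ℝ} (hd : 0 ≤ d) (n : ℕ) : ∑' T : Tree n, ENNReal.ofReal (gwProb d n T) = 1 := by
  have := gE_one hd n
  unfold gE at this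
  simpa using this

theorem gE_trunc {d : ℝ} (hd : 0 ≤ d) :
    ∀ (n : ℕ) (F : Tree n → ℝ≥0∞), gE d (n + 1) (fun T => F (trunc n T)) = gE d n F := by
  intro n
  induction n with
  | zero =>
    intro F
    rw [gE_zero]
    have h : ∀ T : Tree (0 + 1), F (trunc 0 T) = F () := fun _ => rfl
    simp_rw [h]
    have h2 : gE d (0 + 1) (fun _ => F ()) = gE d (0 + 1) (fun _ => 1) * F () := by
      unfold gE
      rw [← ENNReal.tsum_mul_right]
      simp
    rw [h2, gE_one hd, one_mul]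
  | succ n ih =>
    intro F
    rw [gE_succ hd, gE_succ hd]
    apply tsum_congr
    intro k
    congr 1
    exact pk_map (w := fun T => ENNReal.ofReal (gwProb d (n + 1) T))
      (w' := fun T => ENNReal.ofReal (gwProb d n T)) (trunc n) ih k (fun t => F ⟨k, t⟩)

theorem gE_Zn {d : ℝ} (hd : 0 ≤ d) :
    ∀ n : ℕ, gE d n (fun T => ENNReal.ofReal (Zn n T)) = ENNReal.ofReal d ^ n := by
  intro n
  induction n with
  | zero =>
    rw [gE_zero]
    simp [Zn]
  | succ n ih =>
    rw [gE_succ hd]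
    have h : ∀ (k : ℕ) (t : Fin k → Tree n),
        ENNReal.ofReal (Zn (n + 1) (⟨k, t⟩ : Σ k : ℕ, (Fin k → Tree n))) =
        ∑ c, ENNReal.ofReal (Zn n (t c)) := by
      intro k t
      show ENNReal.ofReal (∑ c : Fin k, Zn n (t c)) = _
      rw [ENNReal.ofReal_sum_of_nonneg (fun c _ => Zn_nonneg n (t c))]
    have h2 : ∀ k : ℕ, pw d k * pk (fun T => ENNReal.ofReal (gwProb d n T)) k
        (fun t => ENNReal.ofReal (Zn (n + 1) (⟨k, t⟩ : Σ k : ℕ, (Fin k → Tree n)))) =
        (pw d k * k) * ENNReal.ofReal d ^ n := by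
      intro k
      simp_rw [h]
      rw [pk_sum (gw_total hd n) (fun T => ENNReal.ofReal (Zn n T)) k]
      unfold gE at ih
      rw [ih, mul_assoc]
    refine (tsum_congr h2).trans ?_
    rw [ENNReal.tsum_mul_right, pw_mean hd, pow_succ]
    ring

/-- the common upper bound for second moments -/
noncomputable def vSeq (q : ℕ) (d lam : ℝ) : ℕ → ℝ
  | 0 => 1 - 1 / q
  | n + 1 => d * vSeq q d lam n + (1 - 1 / q) * lam ^ (2 * (n + 1)) * d ^ (2 * (n + 1))

variable {q : ℕ} {lam : ℝ}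

theorem one_sub_nonneg (hq : 0 < q) : (0 : ℝ) ≤ 1 - 1 / q := by
  have hq0 : (0 : ℝ) < q := by exact_mod_cast hq
  have : 1 / (q : ℝ) ≤ 1 := by
    rw [div_le_one hq0]
    exact_mod_cast hq
  linarith

theorem vSeq_nonneg (hq : 0 < q) {d : ℝ} (hd : 0 ≤ d) : ∀ n, 0 ≤ vSeq q d lam n := by
  intro n
  induction n with
  | zero => exact one_sub_nonneg hq
  | succ n ih =>
    show 0 ≤ d * vSeq q d lam n + (1 - 1 / q) * lam ^ (2 * (n + 1)) * d ^ (2 * (n + 1))
    have h1 := one_sub_nonneg hq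
    have h2 : 0 ≤ lam ^ (2 * (n + 1)) := by
      rw [pow_mul]
      positivity
    positivity

theorem gE_Vn (hq : 0 < q) (hp : ∀ i j : Fin q, 0 ≤ potts q lam i j) {d : ℝ} (hd : 0 ≤ d) :
    ∀ n : ℕ, gE d n (fun T => ENNReal.ofReal (Vn q lam n T)) = ENNReal.ofReal (vSeq q d lam n) := by
  intro n
  induction n with
  | zero =>
    rw [gE_zero]
    exact congrArg ENNReal.ofReal (Vn_zero hq _)
  | succ n ih =>
    rw [gE_succ hd]
    set C : ℝ := (1 - 1 / q) * lam ^ (2 * (n + 1)) with hC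
    have hC0 : 0 ≤ C := by
      apply mul_nonneg (one_sub_nonneg hq)
      rw [pow_mul]
      positivity
    have h : ∀ (k : ℕ) (t : Fin k → Tree n),
        ENNReal.ofReal (Vn q lam (n + 1) (⟨k, t⟩ : Σ k : ℕ, (Fin k → Tree n))) =
        ∑ c, ENNReal.ofReal (Vn q lam n (t c)) + ENNReal.ofReal C *
          ∑ c, ∑ c', (if c = c' then 0 else
            ENNReal.ofReal (Zn n (t c)) * ENNReal.ofReal (Zn n (t c'))) := by
      intro k t
      have h3 := Vn_succ (q := q) (lam := lam) hq n (⟨k, t⟩ : Σ k : ℕ, (Fin k → Tree n))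
      have h3' : Vn q lam (n + 1) (⟨k, t⟩ : Σ k : ℕ, (Fin k → Tree n)) =
        ∑ c : Fin k, Vn q lam n (t c) + C *
          ∑ c : Fin k, ∑ c' : Fin k, (if c = c' then 0 else Zn n (t c) * Zn n (t c')) := h3
      rw [h3']
      have h4 : ∀ c c' : Fin k, 0 ≤ (if c = c' then 0 else Zn n (t c) * Zn n (t c')) := by
        intro c c'
        split_ifs
        · exact le_refl _
        · exact mul_nonneg (Zn_nonneg _ _) (Zn_nonneg _ _)
      rw [ENNReal.ofReal_add (sum_nonneg fun c _ => Vn_nonneg hp n (t c))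
        (mul_nonneg hC0 (sum_nonneg fun c _ => sum_nonneg fun c' _ => h4 c c'))]
      rw [ENNReal.ofReal_sum_of_nonneg (fun c _ => Vn_nonneg hp n (t c)),
        ENNReal.ofReal_mul hC0]
      congr 2
      rw [ENNReal.ofReal_sum_of_nonneg (fun c _ => sum_nonneg fun c' _ => h4 c c')]
      apply sum_congr rfl
      intro c _
      rw [ENNReal.ofReal_sum_of_nonneg (fun c' _ => h4 c c')]
      apply sum_congr rfl
      intro c' _
      split_ifs
      · simp
      · rw [ENNReal.ofReal_mul (Zn_nonneg _ _)]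
    have h2 : ∀ k : ℕ, pw d k * pk (fun T => ENNReal.ofReal (gwProb d n T)) k
        (fun t => ENNReal.ofReal (Vn q lam (n + 1) (⟨k, t⟩ : Σ k : ℕ, (Fin k → Tree n)))) =
        (pw d k * k) * ENNReal.ofReal (vSeq q d lam n) +
        (pw d k * ((k * (k - 1) : ℕ) : ℝ≥0∞)) * (ENNReal.ofReal C * (ENNReal.ofReal d ^ n) ^ 2) := by
      intro k
      simp_rw [h]
      rw [pk_add, pk_mul_left, pk_sum (gw_total hd n) (fun T => ENNReal.ofReal (Vn q lam n T)) k,
        pk_pair (gw_total hd n) (fun T => ENNReal.ofReal (Zn n T)) k]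
      have hz := gE_Zn hd n
      unfold gE at ih hz
      rw [ih, hz]
      ring
    refine (tsum_congr h2).trans ?_
    rw [ENNReal.tsum_add, ENNReal.tsum_mul_right, ENNReal.tsum_mul_right, pw_mean hd, pw_fact hd]
    have h5 : vSeq q d lam (n + 1) = d * vSeq q d lam n + C * d ^ (2 * (n + 1)) := rfl
    rw [h5, ENNReal.ofReal_add (mul_nonneg hd (vSeq_nonneg hq hd n)) (by positivity),
      ENNReal.ofReal_mul hd, ENNReal.ofReal_mul hC0, ENNReal.ofReal_pow hd]
    congr 1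
    ring

theorem vSeq_formula {d : ℝ} (n : ℕ) :
    vSeq q d lam n * (d * lam ^ 2 - 1) = (1 - 1 / q) * d ^ n * ((d * lam ^ 2) ^ (n + 1) - 1) := by
  induction n with
  | zero =>
    show (1 - 1 / (q : ℝ)) * _ = _
    ring
  | succ n ih =>
    show (d * vSeq q d lam n + (1 - 1 / q) * lam ^ (2 * (n + 1)) * d ^ (2 * (n + 1))) * _ = _
    have : (d * vSeq q d lam n + (1 - 1 / q) * lam ^ (2 * (n + 1)) * d ^ (2 * (n + 1))) *
        (d * lam ^ 2 - 1) = d * (vSeq q d lam n * (d * lam ^ 2 - 1)) +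
        (1 - 1 / q) * lam ^ (2 * (n + 1)) * d ^ (2 * (n + 1)) * (d * lam ^ 2 - 1) := by ring
    rw [this, ih]
    ring

/-- from the family of quadratic inequalities to a uniform lower bound -/
theorem lower_of_quad (hq : 2 ≤ q) {d : ℝ} (hd : 0 < d) (hr : 1 < d * lam ^ 2) (n : ℕ) {a : ℝ}
    (h : ∀ eta : ℝ, 0 ≤ eta →
      eta * (1 - 1 / q) * |lam| ^ n * d ^ n ≤ a + eta ^ 2 / 2 * vSeq q d lam n) :
    (1 - 1 / q) * (d * lam ^ 2 - 1) / (2 * (d * lam ^ 2)) ≤ a := by
  have hq2 : (2 : ℝ) ≤ q := by exact_mod_cast hq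
  have hq0 : (0 : ℝ) < q := by linarith
  have hc : (0 : ℝ) < 1 - 1 / q := by
    have : 1 / (q : ℝ) ≤ 1 / 2 := one_div_le_one_div_of_le (by norm_num) hq2
    linarith
  set r : ℝ := d * lam ^ 2 with hrdef
  have hr0 : 0 < r - 1 := by linarith
  have hrp : 0 < r := by linarith
  have hlam : lam ≠ 0 := by
    intro h0
    rw [h0] at hrdef
    simp at hrdef
    linarith
  have habs : 0 < |lam| := abs_pos.mpr hlam
  set W : ℝ := (1 - 1 / q) * d ^ n * r ^ (n + 1) / (r - 1) with hW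
  have hWpos : 0 < W := by positivity
  have hvW : vSeq q d lam n ≤ W := by
    rw [hW, le_div_iff₀ hr0, vSeq_formula n]
    have : 0 ≤ (1 - 1 / (q : ℝ)) * d ^ n := by positivity
    nlinarith
  set X : ℝ := (1 - 1 / q) * |lam| ^ n * d ^ n with hX
  have hXpos : 0 < X := by positivity
  have h1 := h (X / W) (by positivity)
  have h2 : (X / W) ^ 2 / 2 * vSeq q d lam n ≤ (X / W) ^ 2 / 2 * W :=
    mul_le_mul_of_nonneg_left hvW (by positivity)
  have h3 : X ^ 2 / (2 * W) ≤ a := by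
    have e1 : X / W * (1 - 1 / q) * |lam| ^ n * d ^ n = X ^ 2 / W := by
      rw [hX]
      ring
    have e2 : (X / W) ^ 2 / 2 * W = X ^ 2 / W / 2 := by
      field_simp
    have e3 : X ^ 2 / (2 * W) = X ^ 2 / W / 2 := by
      field_simp
    rw [e1] at h1
    rw [e3]
    linarith
  refine le_trans (le_of_eq ?_) h3
  have e4 : X ^ 2 = (1 - 1 / q) ^ 2 * r ^ n * d ^ n := by
    rw [hX, hrdef, mul_pow, mul_pow, ← pow_mul, mul_comm n 2, pow_mul, sq_abs, ← pow_mul,
      mul_pow d, ← pow_mul lam]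
    ring
  rw [e4, hW, pow_succ]
  field_simp
  ring

theorem Zn_dary (d : ℕ) : ∀ n, Zn n (dary d n) = (d : ℝ) ^ n := by
  intro n
  induction n with
  | zero => simp [Zn]
  | succ n ih =>
    show ∑ c : Fin d, Zn n (dary d n) = _
    rw [ih]
    simp
    ring

theorem Vn_dary (hq : 0 < q) (d : ℕ) : ∀ n, Vn q lam n (dary d n) ≤ vSeq q d lam n := by
  intro n
  induction n with
  | zero => rw [Vn_zero hq]; exact le_refl _
  | succ n ih =>
    rw [Vn_succ hq]
    show ∑ c : Fin d, Vn q lam n (dary d n) + (1 - 1 / q) * lam ^ (2 * (n + 1)) *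
      ∑ c : Fin d, ∑ c' : Fin d, (if c = c' then 0 else Zn n (dary d n) * Zn n (dary d n)) ≤
      d * vSeq q d lam n + (1 - 1 / q) * lam ^ (2 * (n + 1)) * (d : ℝ) ^ (2 * (n + 1))
    rw [Zn_dary]
    have h1 : ∑ c : Fin d, Vn q lam n (dary d n) ≤ d * vSeq q d lam n := by
      simp only [sum_const, card_univ, Fintype.card_fin, nsmul_eq_mul]
      exact mul_le_mul_of_nonneg_left ih (by positivity)
    have h2 : ∑ c : Fin d, ∑ c' : Fin d, (if c = c' then 0 else (d : ℝ) ^ n * (d : ℝ) ^ n) ≤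
        (d : ℝ) ^ (2 * (n + 1)) := by
      calc ∑ c : Fin d, ∑ c' : Fin d, (if c = c' then 0 else (d : ℝ) ^ n * (d : ℝ) ^ n)
          ≤ ∑ c : Fin d, ∑ c' : Fin d, (d : ℝ) ^ n * (d : ℝ) ^ n := by
            apply sum_le_sum
            intro c _
            apply sum_le_sum
            intro c' _
            split_ifs
            · positivity
            · exact le_refl _
        _ = (d : ℝ) ^ (2 * (n + 1)) := by
            simp only [sum_const, card_univ, Fintype.card_fin, nsmul_eq_mul]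
            ring
    have h3 : 0 ≤ (1 - 1 / (q : ℝ)) * lam ^ (2 * (n + 1)) := by
      apply mul_nonneg (one_sub_nonneg hq)
      rw [pow_mul]
      positivity
    have h4 := mul_le_mul_of_nonneg_left h2 h3
    linarith

theorem aReg_lower (hq : 2 ≤ q) (h1 : -1 / ((q : ℝ) - 1) ≤ lam) (h2 : lam ≤ 1) {d : ℕ}
    (hr : 1 < (d : ℝ) * lam ^ 2) (n : ℕ) :
    (1 - 1 / q) * ((d : ℝ) * lam ^ 2 - 1) / (2 * ((d : ℝ) * lam ^ 2)) ≤ aReg q d lam n := by
  have hq0 : 0 < q := by omega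
  have hp := potts_nonneg hq h1 h2
  have hd : (0 : ℝ) < d := by
    rcases Nat.eq_zero_or_pos d with h | h
    · rw [h] at hr
      simp at hr
      linarith
    · exact_mod_cast h
  apply lower_of_quad hq hd hr n
  intro eta heta
  have h3 := adv_lower hq0 hp n (dary d n) eta
  rw [Zn_dary] at h3
  have h4 := Vn_dary (lam := lam) hq0 d n
  have h5 : eta ^ 2 / 2 * Vn q lam n (dary d n) ≤ eta ^ 2 / 2 * vSeq q d lam n :=
    mul_le_mul_of_nonneg_left h4 (by positivity)
  unfold aReg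
  linarith

/-- `aGW` as an extended expectation -/
theorem aGW_eq (hp : ∀ i j : Fin q, 0 ≤ potts q lam i j) {d : ℝ} (hd : 0 ≤ d)
    (n : ℕ) : aGW q d lam n = (gE d n (fun T => ENNReal.ofReal (adv q lam n T))).toReal := by
  unfold aGW gE
  rw [ENNReal.tsum_toReal_eq]
  · apply tsum_congr
    intro T
    rw [ENNReal.toReal_mul, ENNReal.toReal_ofReal (gwProb_nonneg hd n T),
      ENNReal.toReal_ofReal (adv_nonneg hp T)]
  · intro T
    exact ENNReal.mul_ne_top ENNReal.ofReal_ne_top ENNReal.ofReal_ne_top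

theorem gE_mono {d : ℝ} {n : ℕ} {F G : Tree n → ℝ≥0∞} (h : ∀ T, F T ≤ G T) :
    gE d n F ≤ gE d n G :=
  ENNReal.tsum_le_tsum fun T => mul_le_mul_right (h T) _

theorem gE_adv_le_one (hq : 0 < q) (hp : ∀ i j : Fin q, 0 ≤ potts q lam i j) {d : ℝ} (hd : 0 ≤ d)
    (n : ℕ) : gE d n (fun T => ENNReal.ofReal (adv q lam n T)) ≤ 1 := by
  rw [← gE_one hd n]
  apply gE_mono
  intro T
  rw [← ENNReal.ofReal_one]
  exact ENNReal.ofReal_le_ofReal (adv_le_one hq hp T)

theorem aGW_antitone (hq : 0 < q) (hp : ∀ i j : Fin q, 0 ≤ potts q lam i j) {d : ℝ}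
    (hd : 0 ≤ d) : Antitone (aGW q d lam) := by
  apply antitone_nat_of_succ_le
  intro n
  rw [aGW_eq hp hd, aGW_eq hp hd]
  apply ENNReal.toReal_mono
  · exact ne_top_of_le_ne_top ENNReal.one_ne_top (gE_adv_le_one hq hp hd n)
  · rw [← gE_trunc hd n (fun T => ENNReal.ofReal (adv q lam n T))]
    apply gE_mono
    intro T
    exact ENNReal.ofReal_le_ofReal (adv_trunc hq hp n T)

theorem aGW_nonneg (hp : ∀ i j : Fin q, 0 ≤ potts q lam i j) {d : ℝ} (hd : 0 ≤ d) (n : ℕ) :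
    0 ≤ aGW q d lam n := by
  rw [aGW_eq hp hd]
  exact ENNReal.toReal_nonneg

theorem aGW_le_one (hq : 0 < q) (hp : ∀ i j : Fin q, 0 ≤ potts q lam i j) {d : ℝ} (hd : 0 ≤ d)
    (n : ℕ) : aGW q d lam n ≤ 1 := by
  rw [aGW_eq hp hd]
  exact ENNReal.toReal_le_of_le_ofReal (by norm_num) (by simpa using gE_adv_le_one hq hp hd n)

theorem gE_add {d : ℝ} {n : ℕ} (F G : Tree n → ℝ≥0∞) :
    gE d n (fun T => F T + G T) = gE d n F + gE d n G := by
  unfold gE
  simp_rw [mul_add]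
  exact ENNReal.tsum_add

theorem gE_mul_left {d : ℝ} {n : ℕ} (a : ℝ≥0∞) (F : Tree n → ℝ≥0∞) :
    gE d n (fun T => a * F T) = a * gE d n F := by
  unfold gE
  rw [← ENNReal.tsum_mul_left]
  apply tsum_congr
  intro T
  ring

theorem aGW_lower (hq : 2 ≤ q) (h1 : -1 / ((q : ℝ) - 1) ≤ lam) (h2 : lam ≤ 1) {d : ℝ}
    (hd : 0 < d) (hr : 1 < d * lam ^ 2) (n : ℕ) :
    (1 - 1 / q) * (d * lam ^ 2 - 1) / (2 * (d * lam ^ 2)) ≤ aGW q d lam n := by
  have hq0 : 0 < q := by omega
  have hp := potts_nonneg hq h1 h2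
  apply lower_of_quad hq hd hr n
  intro eta heta
  have hc := one_sub_nonneg hq0
  have h3 : gE d n (fun T => ENNReal.ofReal (eta * (1 - 1 / q) * |lam| ^ n) *
      ENNReal.ofReal (Zn n T)) ≤
      gE d n (fun T => ENNReal.ofReal (adv q lam n T) +
        ENNReal.ofReal (eta ^ 2 / 2) * ENNReal.ofReal (Vn q lam n T)) := by
    apply gE_mono
    intro T
    rw [← ENNReal.ofReal_mul (by positivity), ← ENNReal.ofReal_mul (by positivity),
      ← ENNReal.ofReal_add (adv_nonneg hp T) (mul_nonneg (by positivity) (Vn_nonneg hp n T))]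
    exact ENNReal.ofReal_le_ofReal (adv_lower hq0 hp n T eta)
  rw [gE_mul_left, gE_add, gE_mul_left, gE_Zn hd.le, gE_Vn hq0 hp hd.le,
    ← ENNReal.ofReal_pow hd.le, ← ENNReal.ofReal_mul (by positivity),
    ← ENNReal.ofReal_mul (by positivity)] at h3
  have hfin : gE d n (fun T => ENNReal.ofReal (adv q lam n T)) ≠ ⊤ :=
    ne_top_of_le_ne_top ENNReal.one_ne_top (gE_adv_le_one hq0 hp hd.le n)
  have h4 : gE d n (fun T => ENNReal.ofReal (adv q lam n T)) = ENNReal.ofReal (aGW q d lam n) := by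
    rw [aGW_eq hp hd.le, ENNReal.ofReal_toReal hfin]
  rw [h4, ← ENNReal.ofReal_add (aGW_nonneg hp hd.le n)
    (mul_nonneg (by positivity) (vSeq_nonneg hq0 hd.le n))] at h3
  have h5 := (ENNReal.ofReal_le_ofReal_iff (add_nonneg (aGW_nonneg hp hd.le n)
    (mul_nonneg (by positivity) (vSeq_nonneg hq0 hd.le n)))).mp h3
  linarith

/-- an antitone sequence bounded below by a positive constant has a positive limit -/
theorem recon_of_antitone {a : ℕ → ℝ} (ha : Antitone a) {c : ℝ} (hc : 0 < c) (h : ∀ n, c ≤ a n) :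
    Reconstruction a := by
  refine ⟨⨅ n, a n, lt_of_lt_of_le hc (le_ciInf h), ?_⟩
  exact tendsto_atTop_ciInf ha ⟨c, by rintro _ ⟨n, rfl⟩; exact h n⟩

theorem const_pos (hq : 2 ≤ q) {r : ℝ} (hr : 1 < r) : 0 < (1 - 1 / (q : ℝ)) * (r - 1) / (2 * r) := by
  have hq2 : (2 : ℝ) ≤ q := by exact_mod_cast hq
  have hc : (0 : ℝ) < 1 - 1 / q := by
    have : 1 / (q : ℝ) ≤ 1 / 2 := one_div_le_one_div_of_le (by norm_num) hq2
    linarith
  have : 0 < r - 1 := by linarith
  positivity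

theorem recon_reg (hq : 2 ≤ q) (h1 : -1 / ((q : ℝ) - 1) ≤ lam) (h2 : lam ≤ 1) {d : ℕ}
    (hr : 1 < (d : ℝ) * lam ^ 2) : Reconstruction (aReg q d lam) :=
  recon_of_antitone (aReg_antitone (by omega) (potts_nonneg hq h1 h2) d) (const_pos hq hr)
    (aReg_lower hq h1 h2 hr)

theorem recon_gw (hq : 2 ≤ q) (h1 : -1 / ((q : ℝ) - 1) ≤ lam) (h2 : lam ≤ 1) {d : ℝ}
    (hd : 0 < d) (hr : 1 < d * lam ^ 2) : Reconstruction (aGW q d lam) :=
  recon_of_antitone (aGW_antitone (by omega) (potts_nonneg hq h1 h2) hd.le) (const_pos hq hr)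
    (aGW_lower hq h1 h2 hd hr)

/-- reconstruction and nonreconstruction are exclusive -/
theorem not_both {a : ℕ → ℝ} (h1 : Reconstruction a) (h2 : Nonreconstruction a) : False := by
  obtain ⟨L, hL, h⟩ := h1
  have := tendsto_nhds_unique h h2
  linarith

end Vale.Agent.P154
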