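import Vale.Agent.P154.BilL

/-! Symmetrised monomials and their averages over permutations. -/

namespace Vale.Agent.P154

open Finset

/-- symmetrised monomial -/
noncomputable def Msym {q : ℕ} (e : Fin q → ℕ) (x : Fin q → ℝ) : ℝ :=
  ∑ σ : Equiv.Perm (Fin q), ∏ k, x (σ k) ^ e k

lemma Msym_avg {q : ℕ} (e : Fin q → ℕ) (A B : Fin q → ℝ) :
    ∑ p : Equiv.Perm (Fin q), Msym e (fun i => A i * B (p i)) = Msym e A * Msym e B := by
  unfold Msym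
  rw [Finset.sum_comm, Finset.sum_mul]
  refine Finset.sum_congr rfl fun σ _ => ?_
  simp only [mul_pow, Finset.prod_mul_distrib]
  rw [← Finset.mul_sum]
  congr 1
  exact Equiv.sum_comp (Equiv.mulRight σ) (fun τ : Equiv.Perm (Fin q) => ∏ k, B (τ k) ^ e k)

lemma image_perm3 : (univ : Finset (Equiv.Perm (Fin 3))).image (fun σ => (σ 0, σ 1, σ 2))
    = {(0,1,2), (0,2,1), (1,0,2), (1,2,0), (2,0,1), (2,1,0)} := by
  decide +kernel

lemma image_perm4 : (univ : Finset (Equiv.Perm (Fin 4))).image (fun σ => (σ 0, σ 1, σ 2, σ 3))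
    = {(0,1,2,3), (0,1,3,2), (0,2,1,3), (0,2,3,1), (0,3,1,2), (0,3,2,1),
       (1,0,2,3), (1,0,3,2), (1,2,0,3), (1,2,3,0), (1,3,0,2), (1,3,2,0),
       (2,0,1,3), (2,0,3,1), (2,1,0,3), (2,1,3,0), (2,3,0,1), (2,3,1,0),
       (3,0,1,2), (3,0,2,1), (3,1,0,2), (3,1,2,0), (3,2,0,1), (3,2,1,0)} := by
  decide +kernel

lemma sum_perm3 (F : Fin 3 → Fin 3 → Fin 3 → ℝ) :
    ∑ σ : Equiv.Perm (Fin 3), F (σ 0) (σ 1) (σ 2)
      = F 0 1 2 + (F 0 2 1 + (F 1 0 2 + (F 1 2 0 + (F 2 0 1 + F 2 1 0)))) := by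
  have h : ∑ σ : Equiv.Perm (Fin 3), F (σ 0) (σ 1) (σ 2)
      = ∑ t ∈ (univ : Finset (Equiv.Perm (Fin 3))).image (fun σ => (σ 0, σ 1, σ 2)),
          F t.1 t.2.1 t.2.2 := by
    rw [Finset.sum_image]
    intro σ _ τ _ h
    simp only [Prod.mk.injEq] at h
    ext i
    fin_cases i <;> simp [h.1, h.2.1, h.2.2]
  rw [h, image_perm3]
  repeat rw [Finset.sum_insert (by decide)]
  rw [Finset.sum_singleton]

lemma sum_perm4 (F : Fin 4 → Fin 4 → Fin 4 → Fin 4 → ℝ) :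
    ∑ σ : Equiv.Perm (Fin 4), F (σ 0) (σ 1) (σ 2) (σ 3)
      = F 0 1 2 3 + (F 0 1 3 2 + (F 0 2 1 3 + (F 0 2 3 1 + (F 0 3 1 2 + (F 0 3 2 1 +
       (F 1 0 2 3 + (F 1 0 3 2 + (F 1 2 0 3 + (F 1 2 3 0 + (F 1 3 0 2 + (F 1 3 2 0 +
       (F 2 0 1 3 + (F 2 0 3 1 + (F 2 1 0 3 + (F 2 1 3 0 + (F 2 3 0 1 + (F 2 3 1 0 +
       (F 3 0 1 2 + (F 3 0 2 1 + (F 3 1 0 2 + (F 3 1 2 0 + (F 3 2 0 1 + F 3 2 1 0
       )))))))))))))))))))))) := by
  have h : ∑ σ : Equiv.Perm (Fin 4), F (σ 0) (σ 1) (σ 2) (σ 3)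
      = ∑ t ∈ (univ : Finset (Equiv.Perm (Fin 4))).image (fun σ => (σ 0, σ 1, σ 2, σ 3)),
          F t.1 t.2.1 t.2.2.1 t.2.2.2 := by
    rw [Finset.sum_image]
    intro σ _ τ _ h
    simp only [Prod.mk.injEq] at h
    ext i
    fin_cases i <;> simp [h.1, h.2.1, h.2.2.1, h.2.2.2]
  rw [h, image_perm4]
  repeat rw [Finset.sum_insert (by decide)]
  rw [Finset.sum_singleton]

/-- power sums -/
noncomputable def pwM {q : ℕ} (x : Fin q → ℝ) (k : ℕ) : ℝ := ∑ i, x i ^ k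

lemma Msym3_pw (a b c : ℕ) (x : Fin 3 → ℝ) :
    Msym ![a, b, c] x = pwM x a * pwM x b * pwM x c - pwM x (a+b) * pwM x c - pwM x (a+c) * pwM x b
      - pwM x (b+c) * pwM x a + 2 * pwM x (a+b+c) := by
  have h : Msym ![a, b, c] x = ∑ σ : Equiv.Perm (Fin 3),
      (fun i j k => x i ^ a * x j ^ b * x k ^ c) (σ 0) (σ 1) (σ 2) := by
    unfold Msym
    refine Finset.sum_congr rfl fun σ _ => ?_
    rw [Fin.prod_univ_three]
    simp
  rw [h, sum_perm3 (fun i j k => x i ^ a * x j ^ b * x k ^ c)]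
  simp only [pwM, Fin.sum_univ_three]
  ring

lemma Msym4_pw (a b c d : ℕ) (x : Fin 4 → ℝ) :
    Msym ![a, b, c, d] x = pwM x a * pwM x b * pwM x c * pwM x d
      - (pwM x (a+b) * pwM x c * pwM x d + pwM x (a+c) * pwM x b * pwM x d
        + pwM x (a+d) * pwM x b * pwM x c + pwM x (b+c) * pwM x a * pwM x d
        + pwM x (b+d) * pwM x a * pwM x c + pwM x (c+d) * pwM x a * pwM x b)
      + (pwM x (a+b) * pwM x (c+d) + pwM x (a+c) * pwM x (b+d) + pwM x (a+d) * pwM x (b+c))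
      + 2 * (pwM x (a+b+c) * pwM x d + pwM x (a+b+d) * pwM x c + pwM x (a+c+d) * pwM x b
        + pwM x (b+c+d) * pwM x a)
      - 6 * pwM x (a+b+c+d) := by
  have h : Msym ![a, b, c, d] x = ∑ σ : Equiv.Perm (Fin 4),
      (fun i j k l => x i ^ a * x j ^ b * x k ^ c * x l ^ d) (σ 0) (σ 1) (σ 2) (σ 3) := by
    unfold Msym
    refine Finset.sum_congr rfl fun σ _ => ?_
    rw [Fin.prod_univ_four]
    simp
  rw [h, sum_perm4 (fun i j k l => x i ^ a * x j ^ b * x k ^ c * x l ^ d)]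
  simp only [pwM, Fin.sum_univ_four]
  ring

end Vale.Agent.P154
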