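import Vale.Agent.P154.Pt4

/-! Minorants of the kernels for q = 4 (generated). -/

namespace Vale.Agent.P154.Q4

open Finset

/-- coordinatewise product with a permuted vector -/
def pr (A B : Fin 4 → ℝ) (p : Equiv.Perm (Fin 4)) : Fin 4 → ℝ := fun i => A i * B (p i)

noncomputable def mass (x : Fin 4 → ℝ) : ℝ := (1 / ((4 : ℕ) : ℝ)) * ∑ i, x i

theorem kern_eq (phi : (Fin 4 → ℝ) → ℝ) (A B : Fin 4 → ℝ) :
    kern 4 phi A B = (1 / 24) * ∑ p : Equiv.Perm (Fin 4),
      mass (pr A B p) * phi (fun i => pr A B p i / mass (pr A B p)) := by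
  unfold kern mass pr
  norm_num [Nat.factorial]

theorem E2_div (x : Fin 4 → ℝ) (D : ℝ) : E2 (fun i => x i / D) = E2 x / D ^ 2 := by
  unfold E2
  ring

theorem E3_div (x : Fin 4 → ℝ) (D : ℝ) : E3 (fun i => x i / D) = E3 x / D ^ 3 := by
  unfold E3
  ring

theorem E4_div (x : Fin 4 → ℝ) (D : ℝ) : E4 (fun i => x i / D) = E4 x / D ^ 4 := by
  unfold E4
  ring

theorem zero_of_mass {x : Fin 4 → ℝ} (hx : ∀ i, 0 ≤ x i) (h : mass x = 0) : x = 0 := by
  unfold mass at h
  have h1 : ∑ i, x i = 0 := by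
    rcases mul_eq_zero.mp h with h | h
    · norm_num at h
    · exact h
  funext i
  have := (Finset.sum_eq_zero_iff_of_nonneg (fun i _ => hx i)).mp h1 i (Finset.mem_univ i)
  exact this

theorem E2_nonneg {x : Fin 4 → ℝ} (hx : ∀ i, 0 ≤ x i) : 0 ≤ E2 x := by
  unfold E2
  have h0 := hx 0
  have h1 := hx 1
  have h2 := hx 2
  have h3 := hx 3
  positivity

theorem pt_U {x : Fin 4 → ℝ} (hx : ∀ i, 0 ≤ x i) (h1 : mass x ≤ 4) :
    mass x * uFn 4 (fun i => x i / mass x) ≤ LU (mass x) (E2 x) := by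
  rcases (show 0 ≤ mass x from mul_nonneg (by norm_num) (Finset.sum_nonneg fun i _ => hx i)).eq_or_lt
    with h | h
  · have hz := zero_of_mass hx h.symm
    rw [← h, hz]
    simp [LU, E2]
  · set D := mass x with hD
    have hn : Norm 4 (fun i => x i / D) := norm_div (by norm_num) hx h
    have hs : ∑ i, (fun i => x i / D) i = 4 := by
      have := hn.2
      push_cast at this
      exact this
    rw [u_eq _ hs]
    have h2 : E2 (fun i => x i / D) = E2 x / D ^ 2 := E2_div x D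
    rw [h2]
    unfold LU
    have h3 := mD_le h h1
    have h4 : E2 x * mD D ≤ E2 x * (1 / D) := mul_le_mul_of_nonneg_left h3 (E2_nonneg hx)
    have h5 : D * (3 * (1 - E2 x / D ^ 2)) = 3 * (D - E2 x * (1 / D)) := by
      field_simp
    have h6 : (4 - 1 : ℝ) = 3 := by norm_num
    rw [h5]
    nlinarith

/-- the positivity statement proved by the checker -/
def QaPos : Prop := ∀ y : Fin 4 → ℝ, Norm 4 y → ∀ D : ℝ, 0 < D → D ≤ 1 + uFn 4 y →
  0 ≤ Qa D (E2 y) (E3 y) (E4 y)

theorem pt_P (hQ : QaPos) {x : Fin 4 → ℝ} (hx : ∀ i, 0 ≤ x i)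
    (h1 : 0 < mass x → mass x ≤ 1 + uFn 4 (fun i => x i / mass x)) :
    LP (mass x) (E2 x) (E3 x) (E4 x) ≤ mass x * psi (fun i => x i / mass x) := by
  rcases (show 0 ≤ mass x from mul_nonneg (by norm_num) (Finset.sum_nonneg fun i _ => hx i)).eq_or_lt
    with h | h
  · have hz := zero_of_mass hx h.symm
    rw [← h, hz, show E2 (0 : Fin 4 → ℝ) = 0 by simp [E2], show E3 (0 : Fin 4 → ℝ) = 0 by simp [E3], show E4 (0 : Fin 4 → ℝ) = 0 by simp [E4]]
    have h0 := LP_zero
    rw [h0, zero_mul]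
    norm_num [Qa]
  · have hd := h1 h
    set D := mass x with hD
    have hn : Norm 4 (fun i => x i / D) := norm_div (by norm_num) hx h
    have hs : ∑ i, (fun i => x i / D) i = 4 := by
      have := hn.2
      push_cast at this
      exact this
    rw [psi_eq _ hs]
    have h2 := hQ _ hn D h hd
    have e2 : E2 x = D ^ 2 * E2 (fun i => x i / D) := by
      rw [E2_div]
      field_simp
    have e3 : E3 x = D ^ 3 * E3 (fun i => x i / D) := by
      rw [E3_div]
      field_simp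
    have e4 : E4 x = D ^ 4 * E4 (fun i => x i / D) := by
      rw [E4_div]
      field_simp
    have hid := LP_id D (E2 (fun i => x i / D)) (E3 (fun i => x i / D)) (E4 (fun i => x i / D))
    rw [← e2, ← e3, ← e4] at hid
    have h3 : 0 ≤ (D - 1) ^ 2 * Qa D (E2 (fun i => x i / D)) (E3 (fun i => x i / D)) (E4 (fun i => x i / D)) := mul_nonneg (sq_nonneg _) h2
    linarith

theorem kern_U {A B : Fin 4 → ℝ} (hA : Norm 4 A) (hB : Norm 4 B) :
    kern 4 (uFn 4) A B ≤
      (1 / 24) * ∑ p : Equiv.Perm (Fin 4), LU (mass (pr A B p)) (E2 (pr A B p)) := by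
  rw [kern_eq]
  refine mul_le_mul_of_nonneg_left (Finset.sum_le_sum fun p _ => ?_) (by norm_num)
  refine pt_U (fun i => mul_nonneg (hA.1 i) (hB.1 _)) ?_
  have := mass_le (q := 4) (by norm_num) hA (norm_perm hB p)
  exact this

theorem kern_P (hQ : QaPos) {A B : Fin 4 → ℝ} (hA : Norm 4 A) (hB : Norm 4 B) :
    (1 / 24) * ∑ p : Equiv.Perm (Fin 4), LP (mass (pr A B p)) (E2 (pr A B p)) (E3 (pr A B p)) (E4 (pr A B p)) ≤
      kern 4 psi A B := by
  rw [kern_eq]
  refine mul_le_mul_of_nonneg_left (Finset.sum_le_sum fun p _ => ?_) (by norm_num)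
  refine pt_P hQ (fun i => mul_nonneg (hA.1 i) (hB.1 _)) ?_
  intro h
  have := mass_le_u (q := 4) (by norm_num) hA (norm_perm hB p) h
  exact this

end Vale.Agent.P154.Q4
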