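import Vale.Agent.P154.Common

/-! Pointwise minorants for q = 3 (generated). -/

namespace Vale.Agent.P154.Q3

noncomputable def E2 (A : Fin 3 → ℝ) : ℝ := (A 0 * A 1 + A 0 * A 2 + A 1 * A 2) / 3

noncomputable def E3 (A : Fin 3 → ℝ) : ℝ := (A 0 * A 1 * A 2)

noncomputable def w (A : Fin 3 → ℝ) : ℝ := (1 / 3) * ∑ i, (A i - 1) ^ 3

noncomputable def psiU (u w : ℝ) : ℝ := w - (29 / 100) * u ^ 2

noncomputable def fU (u w : ℝ) : ℝ := (17 / 25) * u - (19 / 50) * w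

noncomputable def gU (u w : ℝ) : ℝ := 1 - (13 / 5) * u + (24 / 25) * w + (42 / 25) * u ^ 2 - (21 / 20) * u * w

noncomputable def psi (A : Fin 3 → ℝ) : ℝ := psiU (uFn 3 A) (w A)

noncomputable def f (A : Fin 3 → ℝ) : ℝ := fU (uFn 3 A) (w A)

noncomputable def g (A : Fin 3 → ℝ) : ℝ := gU (uFn 3 A) (w A)

noncomputable def psiE (b c : ℝ) : ℝ :=
    (21 / 25) + (1) * c - (17 / 25) * b - (29 / 25) * b ^ 2

noncomputable def fE (b c : ℝ) : ℝ :=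
    (3 / 5) - (19 / 50) * c - (11 / 50) * b

noncomputable def gE (b c : ℝ) : ℝ :=
    (6 / 25) - (57 / 50) * c - (31 / 50) * b + (21 / 10) * b * c + (21 / 50) * b ^ 2

theorem u_eq (A : Fin 3 → ℝ) (h : ∑ i, A i = 3) : uFn 3 A = 2 * (1 - E2 A) := by
  rw [Fin.sum_univ_three] at h
  have h3 : A 2 = 3 - A 0 - A 1 := by linarith
  simp only [uFn, E2, Fin.sum_univ_three, h3]
  push_cast
  ring

theorem w_eq (A : Fin 3 → ℝ) (h : ∑ i, A i = 3) : w A = 2 - 3 * E2 A + E3 A := by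
  rw [Fin.sum_univ_three] at h
  have h3 : A 2 = 3 - A 0 - A 1 := by linarith
  simp only [w, E2, E3, Fin.sum_univ_three, h3]
  ring

theorem psi_eq (A : Fin 3 → ℝ) (h : ∑ i, A i = 3) : psi A = psiE (E2 A) (E3 A) := by
  simp only [psi, psiU, psiE, u_eq A h, w_eq A h]
  ring

theorem f_eq (A : Fin 3 → ℝ) (h : ∑ i, A i = 3) : f A = fE (E2 A) (E3 A) := by
  simp only [f, fU, fE, u_eq A h, w_eq A h]
  ring

theorem g_eq (A : Fin 3 → ℝ) (h : ∑ i, A i = 3) : g A = gE (E2 A) (E3 A) := by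
  simp only [g, gU, gE, u_eq A h, w_eq A h]
  ring

/-- polynomial upper bound for the chi-square part -/
noncomputable def mD (D : ℝ) : ℝ :=
    (13 / 3) - (22 / 3) * D + (6) * D ^ 2 - (7 / 3) * D ^ 3 + (1 / 3) * D ^ 4

noncomputable def LU (D b : ℝ) : ℝ := 2 * (D - b * mD D)

noncomputable def LP (D b c : ℝ) : ℝ :=
    -(137 / 800) + (29 / 25) * c - (241 / 25) * b - (893 / 100) * b ^ 2 + (19 / 50) * D
    + (9 / 2) * D * c + (2467 / 100) * D * b + (603 / 50) * D * b ^ 2 + (2031 / 800) * D ^ 2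
    - (187 / 25) * D ^ 2 * c - (2469 / 100) * D ^ 2 * b - (429 / 100) * D ^ 2 * b ^ 2
    - (71 / 20) * D ^ 3 + (141 / 50) * D ^ 3 * c + (1053 / 100) * D ^ 3 * b
    + (1813 / 800) * D ^ 4 - (31 / 20) * D ^ 4 * b - (71 / 100) * D ^ 5 + (69 / 800) * D ^ 6

noncomputable def Qa (D b c : ℝ) : ℝ :=
    (137 / 800) + (321 / 400) * D + (1) * D * c - (17 / 25) * D * b - (29 / 25) * D * b ^ 2
    - (221 / 200) * D ^ 2 + (2) * D ^ 2 * c + (207 / 25) * D ^ 2 * b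
    - (58 / 25) * D ^ 2 * b ^ 2 + (43 / 80) * D ^ 3 + (46 / 25) * D ^ 3 * c
    - (743 / 100) * D ^ 3 * b - (87 / 25) * D ^ 3 * b ^ 2 - (69 / 800) * D ^ 4
    - (141 / 50) * D ^ 4 * c + (31 / 20) * D ^ 4 * b + (429 / 100) * D ^ 4 * b ^ 2

theorem LP_id (D b c : ℝ) :
    D * psiE b c - LP D (D ^ 2 * b) (D ^ 3 * c) = (D - 1) ^ 2 * Qa D b c := by
  simp only [psiE, LP, Qa]
  ring

theorem LP_zero : LP 0 0 0 = - Qa 0 0 0 := by
  simp only [LP, Qa]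
  ring

theorem mD_le {D : ℝ} (h0 : 0 < D) (h1 : D ≤ 3) : mD D ≤ 1 / D := by
  rw [le_div_iff₀ h0]
  have : 1 - mD D * D = (D - 1) ^ 4 * ((3 - D) / 3) := by
    simp only [mD]
    ring
  have h2 : 0 ≤ (D - 1) ^ 4 * ((3 - D) / 3) := by
    have : 0 ≤ 3 - D := by linarith
    positivity
  linarith

end Vale.Agent.P154.Q3
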