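import Vale.Agent.P154.Reduce2

/-! From a certificate to nonreconstruction (helper file). -/

namespace Vale.Agent.P154

open Finset Filter Topology
open scoped ENNReal

variable {q : ℕ}

theorem potts_nonneg' (hq : 2 ≤ q) {lam : ℝ} (h0 : 0 ≤ lam) (h1 : lam ≤ 1) (i j : Fin q) :
    0 ≤ potts q lam i j := by
  have hq' : (2 : ℝ) ≤ q := by exact_mod_cast hq
  apply potts_nonneg hq _ h1
  refine le_trans ?_ h0
  apply div_nonpos_of_nonpos_of_nonneg
  · norm_num
  · linarith

/-- the advantage is controlled by the chi-square information -/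
theorem adv_le_U (hq : 2 ≤ q) {lam : ℝ} (h0 : 0 ≤ lam) (h1 : lam ≤ 1) (n : ℕ)
    (T : Tree n) {eta : ℝ} (heta : 0 < eta) :
    adv q lam n T ≤ eta / 4 + 1 / (4 * eta) * Uq q lam n T := by
  have hq0 : 0 < q := by omega
  have hq1 : (0 : ℝ) < q := by exact_mod_cast hq0
  have hp := potts_nonneg' hq h0 h1
  have hch := chan_tree hq h0 h1 n T
  rw [adv_eq hq0 hp, sum_comm]
  have key : ∀ s : Bdry q n T, ∑ i : Fin q, |like q lam n T i s - prob q lam n T s| ≤
      (q * eta / 2) * ms q (tch q lam n T s) + (q / (2 * eta)) * hom q (uFn q) (tch q lam n T s) := by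
    intro s
    have hm : prob q lam n T s = ms q (tch q lam n T s) := rfl
    set v := tch q lam n T s with hv
    have hvi : ∀ i, like q lam n T i s = v i := fun i => rfl
    have hv0 : ∀ i, 0 ≤ v i := hch.nonneg s
    simp only [hm, hvi]
    by_cases hz : ms q v = 0
    · have h2 : ∀ i, v i = 0 := eq_zero_of_ms hq0 hv0 hz
      rw [hom_of_ms_zero _ hz]
      simp [h2, hz]
    have hpos : 0 < ms q v := lt_of_le_of_ne (ms_nonneg hv0) (Ne.symm hz)
    have h3 : ∀ i, |v i - ms q v| ≤ ms q v * (eta / 2 + (v i / ms q v - 1) ^ 2 / (2 * eta)) := by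
      intro i
      set x := v i / ms q v - 1 with hx
      have e1 : v i - ms q v = ms q v * x := by
        rw [hx]
        field_simp
      rw [e1, abs_mul, abs_of_pos hpos]
      apply mul_le_mul_of_nonneg_left _ hpos.le
      have e2 : eta / 2 + x ^ 2 / (2 * eta) - |x| = (|x| - eta) ^ 2 / (2 * eta) := by
        rw [← sq_abs x]
        field_simp
        ring
      have e3 : 0 ≤ (|x| - eta) ^ 2 / (2 * eta) := by positivity
      linarith
    refine (sum_le_sum fun i _ => h3 i).trans (le_of_eq ?_)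
    rw [← mul_sum, sum_add_distrib, hom_eq]
    unfold uFn
    have h6 : ∑ i, (v i / ms q v - 1) ^ 2 / (2 * eta) =
        (∑ i, (v i / ms q v - 1) ^ 2) / (2 * eta) := (sum_div _ _ _).symm
    rw [h6]
    simp only [sum_const, card_univ, Fintype.card_fin, nsmul_eq_mul]
    set Z := ∑ i, (v i / ms q v - 1) ^ 2 with hZ
    clear_value Z
    field_simp
  have h4 := sum_le_sum (fun s (_ : s ∈ (univ : Finset (Bdry q n T))) => key s)
  rw [sum_add_distrib, ← mul_sum, ← mul_sum, hch.ms_sum hq0] at h4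
  have h5 : ∑ s, hom q (uFn q) (tch q lam n T s) = Uq q lam n T := rfl
  rw [h5] at h4
  calc 1 / (2 * (q : ℝ)) * _ ≤ 1 / (2 * (q : ℝ)) * (q * eta / 2 * 1 + q / (2 * eta) * Uq q lam n T) :=
        mul_le_mul_of_nonneg_left h4 (by positivity)
    _ = eta / 4 + 1 / (4 * eta) * Uq q lam n T := by
        field_simp
        ring

/-- cubic damping forces convergence to zero -/
theorem tendsto_of_damping {x : ℕ → ℝ} (h0 : ∀ n, 0 ≤ x n) {c : ℝ} (hc : 0 < c)
    (h : ∀ n, x (n + 1) ≤ x n - c * x n ^ 3) : Tendsto x atTop (𝓝 0) := by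
  have hanti : Antitone x := by
    apply antitone_nat_of_succ_le
    intro n
    have := h n
    have h2 := mul_nonneg hc.le (pow_nonneg (h0 n) 3)
    linarith
  have hlim : Tendsto x atTop (𝓝 (⨅ n, x n)) :=
    tendsto_atTop_ciInf hanti ⟨0, by rintro _ ⟨n, rfl⟩; exact h0 n⟩
  set L := ⨅ n, x n with hL
  have hL0 : 0 ≤ L := ge_of_tendsto' hlim h0
  have h1 : Tendsto (fun n => x (n + 1)) atTop (𝓝 L) := hlim.comp (tendsto_add_atTop_nat 1)
  have h2 : Tendsto (fun n => x n - c * x n ^ 3) atTop (𝓝 (L - c * L ^ 3)) :=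
    hlim.sub ((hlim.pow 3).const_mul c)
  have h3 : L ≤ L - c * L ^ 3 := le_of_tendsto_of_tendsto' h1 h2 h
  have h4 : L = 0 := by
    by_contra hne
    have : 0 < L := lt_of_le_of_ne hL0 (Ne.symm hne)
    have := mul_pos hc (pow_pos this 3)
    linarith
  rw [h4] at hlim
  exact hlim

/-- conclusion from the information to the advantage -/
theorem tendsto_of_bound {a x : ℕ → ℝ} (ha : ∀ n, 0 ≤ a n) (hx : Tendsto x atTop (𝓝 0))
    (h : ∀ eta : ℝ, 0 < eta → ∀ n, a n ≤ eta / 4 + 1 / (4 * eta) * x n) :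
    Tendsto a atTop (𝓝 0) := by
  rw [Metric.tendsto_atTop]
  intro ε hε
  have h1 : Tendsto (fun n => 1 / (4 * ε) * x n) atTop (𝓝 0) := by
    have := hx.const_mul (1 / (4 * ε))
    simpa using this
  obtain ⟨N, hN⟩ := Metric.tendsto_atTop.mp h1 (ε / 2) (by positivity)
  refine ⟨N, fun n hn => ?_⟩
  have h2 := hN n hn
  rw [Real.dist_eq, sub_zero] at h2
  rw [Real.dist_eq, sub_zero, abs_of_nonneg (ha n)]
  have h3 := h ε hε n
  have h4 := (abs_lt.mp h2).2
  linarith

/-- Certificate implies nonreconstruction on the `d`-ary tree up to the Kesten-Stigum bound. -/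
theorem nonrec_reg (hq : 2 ≤ q) (C : Cert q) {lam : ℝ} (h0 : 0 ≤ lam) (h1 : lam ≤ 1) {d : ℕ}
    (hd : 2 ≤ d) (hr : (d : ℝ) * lam ^ 2 ≤ 1) : Nonreconstruction (aReg q d lam) := by
  have hp := potts_nonneg' hq h0 h1
  have hx0 : ∀ n, 0 ≤ Uq q lam n (dary d n) := fun n => Uq_nonneg C hq h0 h1 n _
  apply tendsto_of_bound (x := fun n => Uq q lam n (dary d n))
  · intro n
    exact adv_nonneg hp _
  · obtain ⟨k, rfl⟩ : ∃ k, d = k + 2 := ⟨d - 2, by omega⟩
    have hstep : ∀ n, Uq q lam (n + 1) (dary (k + 2) (n + 1)) ≤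
        ((k + 2 : ℕ) : ℝ) * lam ^ 2 * Uq q lam n (dary (k + 2) n) -
          2 * C.t * lam ^ 6 * Uq q lam n (dary (k + 2) n) ^ 3 := by
      intro n
      have := Uq_gain C hq h0 h1 n k (fun _ => dary (k + 2) n)
      refine this.trans (le_of_eq ?_)
      simp only [sum_const, card_univ, Fintype.card_fin, nsmul_eq_mul]
      ring
    rcases eq_or_lt_of_le h0 with hl | hl
    · subst hl
      rw [← tendsto_add_atTop_iff_nat 1]
      have : (fun n => Uq q 0 (n + 1) (dary (k + 2) (n + 1))) = fun _ => 0 := by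
        funext n
        apply le_antisymm _ (hx0 _)
        have := hstep n
        simpa using this
      rw [this]
      exact tendsto_const_nhds
    · apply tendsto_of_damping hx0 (c := 2 * C.t * lam ^ 6)
        (mul_pos (mul_pos two_pos C.t_pos) (pow_pos hl 6))
      intro n
      refine (hstep n).trans ?_
      have := mul_le_mul_of_nonneg_right hr (hx0 n)
      linarith
  · intro eta heta n
    exact adv_le_U hq h0 h1 n _ heta

/-! ### Galton-Watson trees -/

theorem pk_mono {α : Type*} (w : α → ℝ≥0∞) (k : ℕ) {G H : (Fin k → α) → ℝ≥0∞}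
    (h : ∀ t, G t ≤ H t) : pk w k G ≤ pk w k H :=
  ENNReal.tsum_le_tsum fun t => mul_le_mul_right (h t) _

/-- Jensen for squares -/
theorem sq_le_tsum_sq {α : Type*} {w : α → ℝ≥0∞} (hw : ∑' a, w a = 1) (f : α → ℝ≥0∞)
    (hf : ∑' a, w a * f a ≠ ⊤) : (∑' a, w a * f a) ^ 2 ≤ ∑' a, w a * f a ^ 2 := by
  set X := ∑' a, w a * f a with hX
  have h1 : ∀ a, w a * f a * (2 * X) ≤ w a * f a ^ 2 + w a * X ^ 2 := by
    intro a
    by_cases hfa : f a = ⊤
    · by_cases hwa : w a = 0
      · simp [hwa]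
      · rw [hfa]
        simp [hwa, ENNReal.mul_top]
    · have h2 : 2 * f a * X ≤ f a ^ 2 + X ^ 2 := by
        have e1 : f a = ENNReal.ofReal (f a).toReal := (ENNReal.ofReal_toReal hfa).symm
        have e2 : X = ENNReal.ofReal X.toReal := (ENNReal.ofReal_toReal hf).symm
        rw [e1, e2, ← ENNReal.ofReal_pow ENNReal.toReal_nonneg,
          ← ENNReal.ofReal_pow ENNReal.toReal_nonneg, ← ENNReal.ofReal_add (by positivity)
            (by positivity)]
        have e3 : (2 : ℝ≥0∞) = ENNReal.ofReal 2 := by simp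
        rw [e3, ← ENNReal.ofReal_mul (by norm_num), ← ENNReal.ofReal_mul (by positivity)]
        apply ENNReal.ofReal_le_ofReal
        nlinarith [sq_nonneg ((f a).toReal - X.toReal)]
      calc w a * f a * (2 * X) = w a * (2 * f a * X) := by ring
        _ ≤ w a * (f a ^ 2 + X ^ 2) := mul_le_mul_right h2 _
        _ = _ := by ring
  have h3 := ENNReal.tsum_le_tsum h1
  rw [ENNReal.tsum_mul_right, ENNReal.tsum_add, ENNReal.tsum_mul_right, hw, one_mul, ← hX] at h3
  have hX2 : X ^ 2 ≠ ⊤ := ENNReal.pow_ne_top hf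
  have h4 : X ^ 2 + X ^ 2 ≤ ∑' a, w a * f a ^ 2 + X ^ 2 := by
    refine le_trans (le_of_eq ?_) h3
    ring
  exact (ENNReal.add_le_add_iff_right hX2).mp h4

/-- expectation of the gain of two independent children -/
theorem pk_two {α : Type*} {w : α → ℝ≥0∞} (hw : ∑' a, w a = 1) (f : α → ℝ≥0∞) (k : ℕ) :
    pk w (k + 2) (fun t => f (t 0) * f (t 1) * (f (t 0) + f (t 1))) =
      2 * ((∑' a, w a * f a ^ 2) * ∑' a, w a * f a) := by
  rw [pk_succ]
  simp_rw [pk_succ]
  have h1 : ∀ a b : α, pk w k (fun t =>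
      f ((Fin.cons a (Fin.cons b t : Fin (k + 1) → α) : Fin (k + 2) → α) 0) *
      f ((Fin.cons a (Fin.cons b t : Fin (k + 1) → α) : Fin (k + 2) → α) 1) *
      (f ((Fin.cons a (Fin.cons b t : Fin (k + 1) → α) : Fin (k + 2) → α) 0) +
       f ((Fin.cons a (Fin.cons b t : Fin (k + 1) → α) : Fin (k + 2) → α) 1))) =
      f a * f b * (f a + f b) := by
    intro a b
    have := pk_const hw k (f a * f b * (f a + f b))
    exact this
  simp_rw [h1]
  have h2 : ∀ a b, w b * (f a * f b * (f a + f b)) = f a ^ 2 * (w b * f b) + f a * (w b * f b ^ 2) := by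
    intro a b
    ring
  simp_rw [h2]
  have h3 : ∀ a, ∑' b, (f a ^ 2 * (w b * f b) + f a * (w b * f b ^ 2)) =
      f a ^ 2 * (∑' b, w b * f b) + f a * ∑' b, w b * f b ^ 2 := by
    intro a
    rw [ENNReal.tsum_add, ENNReal.tsum_mul_left, ENNReal.tsum_mul_left]
  simp_rw [h3, mul_add, ← mul_assoc]
  rw [ENNReal.tsum_add, ENNReal.tsum_mul_right, ENNReal.tsum_mul_right]
  ring

/-- expected information -/
noncomputable def XE (q : ℕ) (d lam : ℝ) (n : ℕ) : ℝ≥0∞ :=
  gE d n (fun T => ENNReal.ofReal (Uq q lam n T))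

theorem XE_step (hq : 2 ≤ q) (C : Cert q) {lam : ℝ} (h0 : 0 ≤ lam) (h1 : lam ≤ 1) {d : ℝ}
    (hd : 0 ≤ d) (n : ℕ) (hfin : XE q d lam n ≠ ⊤) :
    XE q d lam (n + 1) + ENNReal.ofReal (C.t * lam ^ 6) * (∑' k, pw d (k + 2)) *
      (2 * XE q d lam n ^ 3) ≤ ENNReal.ofReal (d * lam ^ 2) * XE q d lam n := by
  set w : Tree n → ℝ≥0∞ := fun T => ENNReal.ofReal (gwProb d n T) with hw
  have hw1 : ∑' T, w T = 1 := gw_total hd n
  set f : Tree n → ℝ≥0∞ := fun T => ENNReal.ofReal (Uq q lam n T) with hf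
  have hXf : XE q d lam n = ∑' T, w T * f T := rfl
  have hU0 := Uq_nonneg C hq h0 h1 n
  have ht : 0 ≤ C.t * lam ^ 6 := mul_nonneg C.t_pos.le (pow_nonneg h0 6)
  -- gain terms
  let G : ℕ → ℝ≥0∞ := fun k => if 2 ≤ k then
    ENNReal.ofReal (C.t * lam ^ 6) * (2 * XE q d lam n ^ 3) else 0
  have hk : ∀ k, pk w k (fun t => ENNReal.ofReal (Uq q lam (n + 1) (node k t))) + G k ≤
      (k : ℝ≥0∞) * (ENNReal.ofReal (lam ^ 2) * XE q d lam n) := by
    intro k
    have hsum : pk w k (fun t => ∑ c, ENNReal.ofReal (lam ^ 2) * f (t c)) =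
        (k : ℝ≥0∞) * (ENNReal.ofReal (lam ^ 2) * XE q d lam n) := by
      rw [pk_sum hw1 (fun T => ENNReal.ofReal (lam ^ 2) * f T), hXf]
      congr 1
      rw [← ENNReal.tsum_mul_left]
      apply tsum_congr
      intro T
      ring
    have hof : ∀ (m : ℕ) (t : Fin m → Tree n), ENNReal.ofReal (∑ c, lam ^ 2 * Uq q lam n (t c)) =
        ∑ c, ENNReal.ofReal (lam ^ 2) * f (t c) := by
      intro m t
      rw [ENNReal.ofReal_sum_of_nonneg
        (fun c _ => mul_nonneg (sq_nonneg lam) (hU0 (t c)))]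
      apply sum_congr rfl
      intro c _
      rw [ENNReal.ofReal_mul (sq_nonneg lam)]
    by_cases h2 : 2 ≤ k
    · obtain ⟨m, rfl⟩ : ∃ m, k = m + 2 := ⟨k - 2, by omega⟩
      have hG : G (m + 2) ≤ ENNReal.ofReal (C.t * lam ^ 6) *
          pk w (m + 2) (fun t => f (t 0) * f (t 1) * (f (t 0) + f (t 1))) := by
        simp only [G, h2, if_true]
        rw [pk_two hw1]
        apply mul_le_mul_right
        apply mul_le_mul_right
        rw [← hXf, pow_succ]
        apply mul_le_mul_left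
        exact sq_le_tsum_sq hw1 f hfin
      refine (add_le_add_right hG _).trans ?_
      rw [← pk_mul_left, ← pk_add, ← hsum]
      apply pk_mono
      intro t
      have hgain := Uq_gain C hq h0 h1 n m t
      have hx := Uq_nonneg C hq h0 h1 (n + 1) (node (m + 2) t)
      have ha := hU0 (t 0)
      have hb := hU0 (t 1)
      rw [← hof]
      have e : ENNReal.ofReal (C.t * lam ^ 6) * (f (t 0) * f (t 1) * (f (t 0) + f (t 1))) =
          ENNReal.ofReal (C.t * lam ^ 6 * (Uq q lam n (t 0) * Uq q lam n (t 1) *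
            (Uq q lam n (t 0) + Uq q lam n (t 1)))) := by
        rw [ENNReal.ofReal_mul ht, ENNReal.ofReal_mul (mul_nonneg ha hb), ENNReal.ofReal_mul ha,
          ENNReal.ofReal_add ha hb]
      rw [e, ← ENNReal.ofReal_add hx (by positivity)]
      apply ENNReal.ofReal_le_ofReal
      linarith
    · have hG : G k = 0 := by simp only [G, h2, if_false]
      rw [hG, add_zero, ← hsum]
      apply pk_mono
      intro t
      rw [← hof]
      exact ENNReal.ofReal_le_ofReal (Uq_le C hq h0 h1 n k t)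
  have hX1 : XE q d lam (n + 1) = ∑' k, pw d k *
      pk w k (fun t => ENNReal.ofReal (Uq q lam (n + 1) (node k t))) := gE_succ hd n _
  have hGs : ∑' k, pw d k * G k = ENNReal.ofReal (C.t * lam ^ 6) * (∑' k, pw d (k + 2)) *
      (2 * XE q d lam n ^ 3) := by
    rw [tsum_eq_zero_add' ENNReal.summable, tsum_eq_zero_add' ENNReal.summable]
    have g0 : G 0 = 0 := by simp [G]
    have g1 : G (0 + 1) = 0 := by simp [G]
    have g2 : ∀ k, G (k + 1 + 1) = ENNReal.ofReal (C.t * lam ^ 6) * (2 * XE q d lam n ^ 3) := by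
      intro k
      have : 2 ≤ k + 1 + 1 := by omega
      simp only [G, this, if_true]
    rw [g0, g1]
    simp_rw [g2]
    rw [ENNReal.tsum_mul_right]
    simp only [mul_zero, zero_add]
    ring
  rw [hX1, ← hGs, ← ENNReal.tsum_add]
  calc ∑' k, (pw d k * pk w k (fun t => ENNReal.ofReal (Uq q lam (n + 1) (node k t))) + pw d k * G k)
      ≤ ∑' k, pw d k * (k : ℝ≥0∞) * (ENNReal.ofReal (lam ^ 2) * XE q d lam n) := by
        apply ENNReal.tsum_le_tsum
        intro k
        rw [← mul_add, mul_assoc]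
        exact mul_le_mul_right (hk k) _
    _ = ENNReal.ofReal (d * lam ^ 2) * XE q d lam n := by
        rw [ENNReal.tsum_mul_right, pw_mean hd, ENNReal.ofReal_mul hd]
        ring

theorem XE_fin (hq : 2 ≤ q) (C : Cert q) {lam : ℝ} (h0 : 0 ≤ lam) (h1 : lam ≤ 1) {d : ℝ}
    (hd : 0 ≤ d) : ∀ n, XE q d lam n ≠ ⊤ := by
  intro n
  induction n with
  | zero =>
    unfold XE
    rw [gE_zero]
    exact ENNReal.ofReal_ne_top
  | succ n ih =>
    have h := XE_step hq C h0 h1 hd n ih
    have h2 : XE q d lam (n + 1) ≤ ENNReal.ofReal (d * lam ^ 2) * XE q d lam n :=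
      le_trans le_self_add h
    exact ne_top_of_le_ne_top (ENNReal.mul_ne_top ENNReal.ofReal_ne_top ih) h2

/-- Certificate implies nonreconstruction on the Poisson Galton-Watson tree up to the
Kesten-Stigum bound. -/
theorem nonrec_gw (hq : 2 ≤ q) (C : Cert q) {lam : ℝ} (h0 : 0 ≤ lam) (h1 : lam ≤ 1) {d : ℝ}
    (hd : 0 < d) (hr : d * lam ^ 2 ≤ 1) : Nonreconstruction (aGW q d lam) := by
  have hp := potts_nonneg' hq h0 h1
  have hfin := XE_fin hq C h0 h1 hd.le
  set P : ℝ≥0∞ := ∑' k, pw d (k + 2) with hP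
  have hP1 : P ≤ 1 := by
    rw [← pw_sum hd.le, tsum_eq_zero_add' ENNReal.summable, tsum_eq_zero_add' ENNReal.summable]
    rw [← add_assoc]
    exact le_add_self
  have hPt : P ≠ ⊤ := ne_top_of_le_ne_top ENNReal.one_ne_top hP1
  have hP0 : 0 < P := by
    have h2 : pw d (0 + 2) ≤ P := ENNReal.le_tsum 0
    refine lt_of_lt_of_le ?_ h2
    unfold pw
    rw [ENNReal.ofReal_pos]
    positivity
  have hP0' : 0 < P.toReal := ENNReal.toReal_pos hP0.ne' hPt
  have hx0 : ∀ n, 0 ≤ (XE q d lam n).toReal := fun n => ENNReal.toReal_nonneg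
  have hstep : ∀ n, (XE q d lam (n + 1)).toReal ≤ d * lam ^ 2 * (XE q d lam n).toReal -
      2 * C.t * lam ^ 6 * P.toReal * (XE q d lam n).toReal ^ 3 := by
    intro n
    have h := XE_step hq C h0 h1 hd.le n (hfin n)
    have ht : 0 ≤ C.t * lam ^ 6 := mul_nonneg C.t_pos.le (pow_nonneg h0 6)
    have h2 := ENNReal.toReal_mono (ENNReal.mul_ne_top ENNReal.ofReal_ne_top (hfin n)) h
    have h3 : ENNReal.ofReal (C.t * lam ^ 6) * P * (2 * XE q d lam n ^ 3) ≠ ⊤ :=
      ENNReal.mul_ne_top (ENNReal.mul_ne_top ENNReal.ofReal_ne_top hPt)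
        (ENNReal.mul_ne_top ENNReal.ofNat_ne_top (ENNReal.pow_ne_top (hfin n)))
    rw [ENNReal.toReal_add (hfin (n + 1)) h3] at h2
    simp only [ENNReal.toReal_mul, ENNReal.toReal_pow, ENNReal.toReal_ofReal ht,
      ENNReal.toReal_ofReal (mul_nonneg hd.le (sq_nonneg lam)), ENNReal.toReal_ofNat] at h2
    linarith
  apply tendsto_of_bound (x := fun n => (XE q d lam n).toReal)
  · exact aGW_nonneg hp hd.le
  · rcases eq_or_lt_of_le h0 with hl | hl
    · subst hl
      rw [← tendsto_add_atTop_iff_nat 1]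
      have : (fun n => (XE q d 0 (n + 1)).toReal) = fun _ => 0 := by
        funext n
        apply le_antisymm _ (hx0 _)
        have := hstep n
        simpa using this
      rw [this]
      exact tendsto_const_nhds
    · apply tendsto_of_damping hx0 (c := 2 * C.t * lam ^ 6 * P.toReal)
        (mul_pos (mul_pos (mul_pos two_pos C.t_pos) (pow_pos hl 6)) hP0')
      intro n
      refine (hstep n).trans ?_
      have := mul_le_mul_of_nonneg_right hr (hx0 n)
      linarith
  · intro eta heta n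
    rw [aGW_eq hp hd.le]
    have hb : gE d n (fun T => ENNReal.ofReal (adv q lam n T)) ≤
        ENNReal.ofReal (eta / 4) + ENNReal.ofReal (1 / (4 * eta)) * XE q d lam n := by
      have h2 : gE d n (fun T => ENNReal.ofReal (adv q lam n T)) ≤
          gE d n (fun T => ENNReal.ofReal (eta / 4) * 1 +
            ENNReal.ofReal (1 / (4 * eta)) * ENNReal.ofReal (Uq q lam n T)) := by
        apply gE_mono
        intro T
        rw [mul_one, ← ENNReal.ofReal_mul (by positivity), ← ENNReal.ofReal_add (by positivity)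
          (mul_nonneg (by positivity) (Uq_nonneg C hq h0 h1 n T))]
        exact ENNReal.ofReal_le_ofReal (adv_le_U hq h0 h1 n T heta)
      rw [gE_add, gE_mul_left, gE_mul_left, gE_one hd.le, mul_one] at h2
      exact h2
    have h3 := ENNReal.toReal_mono (ENNReal.add_ne_top.mpr ⟨ENNReal.ofReal_ne_top,
      ENNReal.mul_ne_top ENNReal.ofReal_ne_top (hfin n)⟩) hb
    rw [ENNReal.toReal_add ENNReal.ofReal_ne_top
      (ENNReal.mul_ne_top ENNReal.ofReal_ne_top (hfin n)), ENNReal.toReal_mul,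
      ENNReal.toReal_ofReal (by positivity), ENNReal.toReal_ofReal (by positivity)] at h3
    exact h3

end Vale.Agent.P154
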