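import Vale.Agent.P154.Cert
import Vale.Agent.P154.KS3

/-! From a certificate to nonreconstruction: abstract symmetric channels (helper file). -/

namespace Vale.Agent.P154

open Finset

variable {q : ℕ}

/-- homogeneous extension of a function on normalised vectors -/
noncomputable def hom (q : ℕ) (phi : (Fin q → ℝ) → ℝ) (v : Fin q → ℝ) : ℝ :=
  ((1 / q) * ∑ i, v i) * phi (fun i => v i / ((1 / q) * ∑ k, v k))

theorem kern_eq (phi : (Fin q → ℝ) → ℝ) (A B : Fin q → ℝ) :
    kern q phi A B = (1 / (q.factorial : ℝ)) * ∑ p : Equiv.Perm (Fin q),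
      hom q phi (fun i => A i * B (p i)) := rfl

/-- total mass of a vector -/
noncomputable def ms (q : ℕ) (v : Fin q → ℝ) : ℝ := (1 / q) * ∑ i, v i

theorem hom_eq (phi : (Fin q → ℝ) → ℝ) (v : Fin q → ℝ) :
    hom q phi v = ms q v * phi (fun i => v i / ms q v) := rfl

theorem ms_smul (c : ℝ) (v : Fin q → ℝ) : ms q (fun i => c * v i) = c * ms q v := by
  unfold ms
  rw [← mul_sum]
  ring

theorem hom_smul (phi : (Fin q → ℝ) → ℝ) (c : ℝ) (v : Fin q → ℝ) :
    hom q phi (fun i => c * v i) = c * hom q phi v := by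
  rw [hom_eq, hom_eq, ms_smul]
  by_cases hc : c = 0
  · simp [hc]
  · have : (fun i => c * v i / (c * ms q v)) = fun i => v i / ms q v := by
      funext i
      rw [mul_div_mul_left _ _ hc]
    rw [this]
    ring

theorem ms_nonneg {v : Fin q → ℝ} (hv : ∀ i, 0 ≤ v i) : 0 ≤ ms q v := by
  unfold ms
  exact mul_nonneg (by positivity) (sum_nonneg fun i _ => hv i)

theorem eq_zero_of_ms (hq : 0 < q) {v : Fin q → ℝ} (hv : ∀ i, 0 ≤ v i) (h : ms q v = 0) (i : Fin q) :
    v i = 0 := by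
  have hq0 : (0 : ℝ) < q := by exact_mod_cast hq
  unfold ms at h
  have h3 : ∑ i : Fin q, v i = 0 := by
    rcases mul_eq_zero.mp h with h4 | h4
    · exfalso
      have : (1 : ℝ) / q ≠ 0 := by positivity
      exact this h4
    · exact h4
  rw [sum_eq_zero_iff_of_nonneg (fun i _ => hv i)] at h3
  exact h3 i (mem_univ i)

theorem hom_of_ms_zero (phi : (Fin q → ℝ) → ℝ) {v : Fin q → ℝ} (h : ms q v = 0) :
    hom q phi v = 0 := by
  rw [hom_eq, h, zero_mul]

/-- the normalised vector -/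
theorem norm_of_pos (hq : 0 < q) {v : Fin q → ℝ} (hv : ∀ i, 0 ≤ v i) (h : ms q v ≠ 0) :
    Norm q (fun i => v i / ms q v) := by
  have hq0 : (0 : ℝ) < q := by exact_mod_cast hq
  refine ⟨fun i => div_nonneg (hv i) (ms_nonneg hv), ?_⟩
  rw [← sum_div]
  rw [div_eq_iff h]
  unfold ms
  field_simp

/-- a finite symmetric channel -/
structure Chan {S : Type} [Fintype S] (L : S → Fin q → ℝ) : Prop where
  nonneg : ∀ s i, 0 ≤ L s i
  mass : ∀ i, ∑ s, L s i = 1
  symm : ∀ (p : Equiv.Perm (Fin q)) (F : (Fin q → ℝ) → ℝ),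
    ∑ s, F (fun i => L s (p i)) = ∑ s, F (L s)

/-- expectation of a function of the normalised likelihood -/
noncomputable def ev (phi : (Fin q → ℝ) → ℝ) {S : Type} [Fintype S] (L : S → Fin q → ℝ) : ℝ :=
  ∑ s, hom q phi (L s)

section

variable {S S' : Type} [Fintype S] [Fintype S']

theorem Chan.ms_sum (hq : 0 < q) {L : S → Fin q → ℝ} (h : Chan L) : ∑ s, ms q (L s) = 1 := by
  have hq0 : (q : ℝ) ≠ 0 := by exact_mod_cast hq.ne'
  unfold ms
  rw [← mul_sum, sum_comm]
  simp_rw [h.mass]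
  simp
  field_simp

/-- the product of two channels -/
theorem Chan.prod {L : S → Fin q → ℝ} {L' : S' → Fin q → ℝ} (h : Chan L) (h' : Chan L') :
    Chan (fun (s : S × S') i => L s.1 i * L' s.2 i) where
  nonneg := fun s i => mul_nonneg (h.nonneg _ _) (h'.nonneg _ _)
  mass := by
    intro i
    rw [Fintype.sum_prod_type]
    simp_rw [← mul_sum, h'.mass, mul_one]
    exact h.mass i
  symm := by
    intro p F
    rw [Fintype.sum_prod_type, Fintype.sum_prod_type]
    calc ∑ x : S, ∑ y : S', F (fun i => L x (p i) * L' y (p i))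
        = ∑ x : S, (fun v : Fin q → ℝ => ∑ y : S', F (fun i => v i * L' y (p i)))
            (fun i => L x (p i)) := rfl
      _ = ∑ x : S, (fun v : Fin q → ℝ => ∑ y : S', F (fun i => v i * L' y (p i))) (L x) :=
          h.symm p (fun v : Fin q → ℝ => ∑ y : S', F (fun i => v i * L' y (p i)))
      _ = ∑ x : S, ∑ y : S', F (fun i => L x i * L' y i) := by
          apply sum_congr rfl
          intro x _
          exact h'.symm p (fun w : Fin q → ℝ => F (fun i => L x i * w i))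

theorem ev_prod {L : S → Fin q → ℝ} {L' : S' → Fin q → ℝ} (h' : Chan L')
    (phi : (Fin q → ℝ) → ℝ) :
    ev phi (fun (s : S × S') i => L s.1 i * L' s.2 i) =
      ∑ x : S, ∑ y : S', kern q phi (L x) (L' y) := by
  unfold ev
  rw [Fintype.sum_prod_type]
  apply sum_congr rfl
  intro x _
  simp_rw [kern_eq]
  rw [← mul_sum, sum_comm]
  have h1 : ∀ p : Equiv.Perm (Fin q), ∑ y : S', hom q phi (fun i => L x i * L' y (p i)) =
      ∑ y : S', hom q phi (fun i => L x i * L' y i) := by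
    intro p
    exact h'.symm p (fun w : Fin q → ℝ => hom q phi (fun i => L x i * w i))
  simp_rw [h1]
  rw [sum_const, card_univ, Fintype.card_perm, Fintype.card_fin, nsmul_eq_mul]
  have : (q.factorial : ℝ) ≠ 0 := by positivity
  field_simp

theorem kern_smul (phi : (Fin q → ℝ) → ℝ) (a b : ℝ) (A B : Fin q → ℝ) :
    kern q phi (fun i => a * A i) (fun i => b * B i) = a * b * kern q phi A B := by
  rw [kern_eq, kern_eq, mul_left_comm (a * b)]
  congr 1
  rw [mul_sum]
  apply sum_congr rfl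
  intro p _
  rw [← hom_smul]
  congr 1
  funext i
  ring

/-- a pointwise inequality for kernels, in homogeneous form -/
theorem kern_norm (hq : 0 < q) (phi : (Fin q → ℝ) → ℝ) {A B : Fin q → ℝ} (hA : ∀ i, 0 ≤ A i)
    (hB : ∀ i, 0 ≤ B i) : kern q phi A B =
      ms q A * ms q B * kern q phi (fun i => A i / ms q A) (fun i => B i / ms q B) := by
  rw [← kern_smul]
  congr 1
  · funext i
    by_cases h : ms q A = 0
    · rw [h, eq_zero_of_ms hq hA h i]
      simp
    · field_simp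
  · funext i
    by_cases h : ms q B = 0
    · rw [h, eq_zero_of_ms hq hB h i]
      simp
    · field_simp

theorem kern_zero (hq : 0 < q) (phi : (Fin q → ℝ) → ℝ) {A B : Fin q → ℝ} (hA : ∀ i, 0 ≤ A i)
    (hB : ∀ i, 0 ≤ B i) (h : ms q A = 0 ∨ ms q B = 0) : kern q phi A B = 0 := by
  rw [kern_norm hq phi hA hB]
  rcases h with h | h <;> rw [h] <;> ring

theorem ev_nonneg_of {L : S → Fin q → ℝ} (hq : 0 < q) (h : Chan L) {phi : (Fin q → ℝ) → ℝ}
    (hphi : ∀ A, Norm q A → 0 ≤ phi A) : 0 ≤ ev phi L := by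
  apply sum_nonneg
  intro s _
  by_cases h0 : ms q (L s) = 0
  · rw [hom_of_ms_zero _ h0]
  · rw [hom_eq]
    exact mul_nonneg (ms_nonneg (h.nonneg s)) (hphi _ (norm_of_pos hq (h.nonneg s) h0))

theorem ev_mono_of {L : S → Fin q → ℝ} (hq : 0 < q) (h : Chan L) {phi psi : (Fin q → ℝ) → ℝ}
    (hphi : ∀ A, Norm q A → psi A ≤ phi A) : ev psi L ≤ ev phi L := by
  apply sum_le_sum
  intro s _
  by_cases h0 : ms q (L s) = 0
  · rw [hom_of_ms_zero _ h0, hom_of_ms_zero _ h0]
  · rw [hom_eq, hom_eq]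
    exact mul_le_mul_of_nonneg_left (hphi _ (norm_of_pos hq (h.nonneg s) h0))
      (ms_nonneg (h.nonneg s))

theorem ev_const_mul {L : S → Fin q → ℝ} (c : ℝ) (phi : (Fin q → ℝ) → ℝ) :
    ev (fun A => c * phi A) L = c * ev phi L := by
  unfold ev
  rw [mul_sum]
  apply sum_congr rfl
  intro s _
  rw [hom_eq, hom_eq]
  ring

theorem uFn_nonneg (A : Fin q → ℝ) : 0 ≤ uFn q A := by
  unfold uFn
  exact mul_nonneg (by positivity) (sum_nonneg fun i _ => sq_nonneg _)

/-- Jensen -/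
theorem ev_sq {L : S → Fin q → ℝ} (hq : 0 < q) (h : Chan L) (phi : (Fin q → ℝ) → ℝ) :
    (ev phi L) ^ 2 ≤ ev (fun A => phi A ^ 2) L := by
  set a := ev phi L with ha
  have h1 : ∀ s, 2 * a * hom q phi (L s) - a ^ 2 * ms q (L s) ≤
      hom q (fun A => phi A ^ 2) (L s) := by
    intro s
    rw [hom_eq, hom_eq]
    have h0 := ms_nonneg (h.nonneg s)
    nlinarith [mul_nonneg h0 (sq_nonneg (phi (fun i => L s i / ms q (L s)) - a))]
  have h2 := sum_le_sum (fun s (_ : s ∈ (univ : Finset S)) => h1 s)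
  rw [sum_sub_distrib, ← mul_sum, ← mul_sum, h.ms_sum hq] at h2
  have h3 : ∑ s, hom q phi (L s) = a := rfl
  have h4 : ∑ s, hom q (fun A => phi A ^ 2) (L s) = ev (fun A => phi A ^ 2) L := rfl
  rw [h3, h4] at h2
  linarith

theorem ev_kern_le {L : S → Fin q → ℝ} {L' : S' → Fin q → ℝ} (hq : 0 < q) (h : Chan L)
    (h' : Chan L') (C : Cert q) (hPsi : 0 ≤ ev C.psi L) (hPsi' : 0 ≤ ev C.psi L') :
    ev (uFn q) (fun (s : S × S') i => L s.1 i * L' s.2 i) ≤
      ev (uFn q) L + ev (uFn q) L' -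
        C.t * (ev (uFn q) L * ev (uFn q) L' * (ev (uFn q) L + ev (uFn q) L')) := by
  rw [ev_prod h']
  -- pointwise inequality
  have h1 : ∀ x y, kern q (uFn q) (L x) (L' y) ≤
      hom q (uFn q) (L x) * ms q (L' y) + ms q (L x) * hom q (uFn q) (L' y) -
        (hom q C.psi (L x) * hom q C.f (L' y) + hom q C.f (L x) * hom q C.psi (L' y)) -
        C.t * (hom q (fun A => uFn q A ^ 2) (L x) * hom q (uFn q) (L' y) +
          hom q (uFn q) (L x) * hom q (fun A => uFn q A ^ 2) (L' y)) := by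
    intro x y
    by_cases hx : ms q (L x) = 0
    · rw [kern_zero hq _ (h.nonneg x) (h'.nonneg y) (Or.inl hx)]
      simp only [hom_of_ms_zero _ hx, hx]
      simp
    by_cases hy : ms q (L' y) = 0
    · rw [kern_zero hq _ (h.nonneg x) (h'.nonneg y) (Or.inr hy)]
      simp only [hom_of_ms_zero _ hy, hy]
      simp
    rw [kern_norm hq _ (h.nonneg x) (h'.nonneg y)]
    have h2 := C.hU _ _ (norm_of_pos hq (h.nonneg x) hx) (norm_of_pos hq (h'.nonneg y) hy)
    have h3 : 0 ≤ ms q (L x) * ms q (L' y) :=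
      mul_nonneg (ms_nonneg (h.nonneg x)) (ms_nonneg (h'.nonneg y))
    refine (mul_le_mul_of_nonneg_left h2 h3).trans (le_of_eq ?_)
    simp only [hom_eq]
    ring
  have h2 := sum_le_sum (fun x (_ : x ∈ (univ : Finset S)) =>
    sum_le_sum (fun y (_ : y ∈ (univ : Finset S')) => h1 x y))
  have h3 : ∑ x : S, ∑ y : S', (hom q (uFn q) (L x) * ms q (L' y) + ms q (L x) * hom q (uFn q) (L' y) -
        (hom q C.psi (L x) * hom q C.f (L' y) + hom q C.f (L x) * hom q C.psi (L' y)) -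
        C.t * (hom q (fun A => uFn q A ^ 2) (L x) * hom q (uFn q) (L' y) +
          hom q (uFn q) (L x) * hom q (fun A => uFn q A ^ 2) (L' y))) =
      ev (uFn q) L + ev (uFn q) L' - (ev C.psi L * ev C.f L' + ev C.f L * ev C.psi L') -
        C.t * (ev (fun A => uFn q A ^ 2) L * ev (uFn q) L' +
          ev (uFn q) L * ev (fun A => uFn q A ^ 2) L') := by
    simp only [sum_sub_distrib, sum_add_distrib, ← mul_sum, ← sum_mul, h.ms_sum hq, h'.ms_sum hq]
    unfold ev
    ring
  rw [h3] at h2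
  refine h2.trans ?_
  have hu : 0 ≤ ev (uFn q) L := ev_nonneg_of hq h fun A _ => uFn_nonneg A
  have hu' : 0 ≤ ev (uFn q) L' := ev_nonneg_of hq h' fun A _ => uFn_nonneg A
  have hf : 0 ≤ ev C.f L := by
    refine le_trans (mul_nonneg C.cf_nonneg hPsi) ?_
    rw [← ev_const_mul]
    exact ev_mono_of hq h C.hf
  have hf' : 0 ≤ ev C.f L' := by
    refine le_trans (mul_nonneg C.cf_nonneg hPsi') ?_
    rw [← ev_const_mul]
    exact ev_mono_of hq h' C.hf
  have hs := ev_sq hq h (uFn q)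
  have hs' := ev_sq hq h' (uFn q)
  have a1 := mul_nonneg hPsi hf'
  have a2 := mul_nonneg hf hPsi'
  have a3 : ev (uFn q) L ^ 2 * ev (uFn q) L' ≤ ev (fun A => uFn q A ^ 2) L * ev (uFn q) L' :=
    mul_le_mul_of_nonneg_right hs hu'
  have a4 : ev (uFn q) L * ev (uFn q) L' ^ 2 ≤ ev (uFn q) L * ev (fun A => uFn q A ^ 2) L' :=
    mul_le_mul_of_nonneg_left hs' hu
  have a5 : C.t * (ev (uFn q) L * ev (uFn q) L' * (ev (uFn q) L + ev (uFn q) L')) ≤
      C.t * (ev (fun A => uFn q A ^ 2) L * ev (uFn q) L' +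
          ev (uFn q) L * ev (fun A => uFn q A ^ 2) L') := by
    apply mul_le_mul_of_nonneg_left _ C.t_pos.le
    nlinarith
  linarith

theorem ev_psi_prod {L : S → Fin q → ℝ} {L' : S' → Fin q → ℝ} (hq : 0 < q) (h : Chan L)
    (h' : Chan L') (C : Cert q) (hPsi : 0 ≤ ev C.psi L) (hPsi' : 0 ≤ ev C.psi L') :
    0 ≤ ev C.psi (fun (s : S × S') i => L s.1 i * L' s.2 i) := by
  rw [ev_prod h']
  have h1 : ∀ x y, hom q C.psi (L x) * hom q C.g (L' y) + hom q C.g (L x) * hom q C.psi (L' y) ≤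
      kern q C.psi (L x) (L' y) := by
    intro x y
    by_cases hx : ms q (L x) = 0
    · rw [kern_zero hq _ (h.nonneg x) (h'.nonneg y) (Or.inl hx)]
      simp only [hom_of_ms_zero _ hx]
      simp
    by_cases hy : ms q (L' y) = 0
    · rw [kern_zero hq _ (h.nonneg x) (h'.nonneg y) (Or.inr hy)]
      simp only [hom_of_ms_zero _ hy]
      simp
    rw [kern_norm hq _ (h.nonneg x) (h'.nonneg y)]
    have h2 := C.hP _ _ (norm_of_pos hq (h.nonneg x) hx) (norm_of_pos hq (h'.nonneg y) hy)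
    have h3 : 0 ≤ ms q (L x) * ms q (L' y) :=
      mul_nonneg (ms_nonneg (h.nonneg x)) (ms_nonneg (h'.nonneg y))
    refine le_trans (le_of_eq ?_) (mul_le_mul_of_nonneg_left h2 h3)
    simp only [hom_eq]
    ring
  have h2 := sum_le_sum (fun x (_ : x ∈ (univ : Finset S)) =>
    sum_le_sum (fun y (_ : y ∈ (univ : Finset S')) => h1 x y))
  refine le_trans ?_ h2
  have h3 : ∑ x : S, ∑ y : S', (hom q C.psi (L x) * hom q C.g (L' y) +
      hom q C.g (L x) * hom q C.psi (L' y)) = ev C.psi L * ev C.g L' + ev C.g L * ev C.psi L' := by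
    simp only [sum_add_distrib, ← mul_sum, ← sum_mul]
    unfold ev
    ring
  rw [h3]
  have hf : 0 ≤ ev C.g L := by
    refine le_trans (mul_nonneg C.cg_nonneg hPsi) ?_
    rw [← ev_const_mul]
    exact ev_mono_of hq h C.hg
  have hf' : 0 ≤ ev C.g L' := by
    refine le_trans (mul_nonneg C.cg_nonneg hPsi') ?_
    rw [← ev_const_mul]
    exact ev_mono_of hq h' C.hg
  exact add_nonneg (mul_nonneg hPsi hf') (mul_nonneg hf hPsi')

end

end Vale.Agent.P154
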