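import Vale.Agent.P154.Reduce1

/-! From a certificate to nonreconstruction: the tree recursion (helper file). -/

namespace Vale.Agent.P154

open Finset

variable {q : ℕ}

/-- the effect of one edge on a likelihood vector -/
noncomputable def edge (q : ℕ) (lam : ℝ) (v : Fin q → ℝ) : Fin q → ℝ :=
  fun i => ∑ j, potts q lam i j * v j

theorem edge_eq (lam : ℝ) (v : Fin q → ℝ) (i : Fin q) :
    edge q lam v i = lam * v i + (1 - lam) * ms q v := by
  unfold edge potts ms
  simp only [add_mul, sum_add_distrib]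
  congr 1
  · simp
  · rw [← mul_sum]
    ring

theorem ms_edge (hq : 0 < q) (lam : ℝ) (v : Fin q → ℝ) : ms q (edge q lam v) = ms q v := by
  have hq0 : (q : ℝ) ≠ 0 := by exact_mod_cast hq.ne'
  have : ms q (edge q lam v) = (1 / q) * ∑ i, (lam * v i + (1 - lam) * ms q v) := by
    unfold ms
    congr 1
    apply sum_congr rfl
    intro i _
    rw [edge_eq]
    rfl
  rw [this, sum_add_distrib, ← mul_sum]
  have h2 : ∑ i, v i = q * ms q v := by
    unfold ms
    field_simp
  rw [h2]
  simp
  field_simp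
  ring

section

variable {S : Type} [Fintype S]

theorem Chan.edge (hq : 0 < q) {lam : ℝ} (h0 : 0 ≤ lam) (h1 : lam ≤ 1) {L : S → Fin q → ℝ}
    (h : Chan L) : Chan (fun s => edge q lam (L s)) where
  nonneg := by
    intro s i
    rw [edge_eq]
    have := h.nonneg s i
    have h2 := ms_nonneg (h.nonneg s)
    have h3 : 0 ≤ 1 - lam := by linarith
    positivity
  mass := by
    intro i
    simp_rw [edge_eq]
    rw [sum_add_distrib, ← mul_sum, ← mul_sum, h.mass, h.ms_sum hq]
    ring
  symm := by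
    intro p F
    have h2 := h.symm p (fun v => F (P154.edge q lam v))
    have h3 : ∀ s, F (P154.edge q lam (fun i => L s (p i))) =
        F (fun i => P154.edge q lam (L s) (p i)) := by
      intro s
      congr 1
      funext i
      rw [edge_eq, edge_eq]
      have : ms q (fun i => L s (p i)) = ms q (L s) := by
        unfold ms
        rw [Equiv.sum_comp p (fun i => L s i)]
      rw [this]
    simp_rw [h3] at h2
    exact h2

theorem hom_edge (hq : 0 < q) (lam : ℝ) (phi : (Fin q → ℝ) → ℝ) {v : Fin q → ℝ} :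
    hom q phi (edge q lam v) = hom q (fun A => phi (fun i => 1 + lam * (A i - 1))) v := by
  by_cases h : ms q v = 0
  · rw [hom_of_ms_zero _ h, hom_of_ms_zero]
    rw [ms_edge hq, h]
  rw [hom_eq, hom_eq, ms_edge hq]
  congr 2
  funext i
  rw [edge_eq]
  field_simp
  ring

theorem uFn_edge (lam : ℝ) (A : Fin q → ℝ) :
    uFn q (fun i => 1 + lam * (A i - 1)) = lam ^ 2 * uFn q A := by
  unfold uFn
  rw [mul_left_comm]
  congr 1
  rw [mul_sum]
  apply sum_congr rfl
  intro i _
  ring

theorem ev_u_edge (hq : 0 < q) (lam : ℝ) (L : S → Fin q → ℝ) :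
    ev (uFn q) (fun s => edge q lam (L s)) = lam ^ 2 * ev (uFn q) L := by
  rw [← ev_const_mul]
  unfold ev
  apply sum_congr rfl
  intro s _
  rw [hom_edge hq]
  congr 1
  funext A
  exact uFn_edge lam A

theorem ev_psi_edge (hq : 0 < q) (C : Cert q) {lam : ℝ} (h0 : 0 ≤ lam) (h1 : lam ≤ 1)
    {L : S → Fin q → ℝ} (h : Chan L) (hPsi : 0 ≤ ev C.psi L) :
    0 ≤ ev C.psi (fun s => edge q lam (L s)) := by
  have h2 : ev C.psi (fun s => edge q lam (L s)) =
      ev (fun A => C.psi (fun i => 1 + lam * (A i - 1))) L := by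
    unfold ev
    apply sum_congr rfl
    intro s _
    rw [hom_edge hq]
  rw [h2]
  refine le_trans (mul_nonneg (pow_nonneg h0 3) hPsi) ?_
  rw [← ev_const_mul]
  exact ev_mono_of hq h fun A hA => C.psi_contr A hA lam h0 h1

end

/-! ### good channels -/

/-- channel in the cone of the certificate -/
structure Good (C : Cert q) {S : Type} [Fintype S] (L : S → Fin q → ℝ) : Prop where
  chan : Chan L
  psi : 0 ≤ ev C.psi L

/-- channels are transported along bijections -/
theorem ev_equiv {S S' : Type} [Fintype S] [Fintype S'] (e : S ≃ S') (phi : (Fin q → ℝ) → ℝ)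
    {L : S → Fin q → ℝ} {L' : S' → Fin q → ℝ} (h : ∀ s, L' (e s) = L s) :
    ev phi L' = ev phi L := by
  unfold ev
  rw [← e.sum_comp]
  simp_rw [h]

theorem Chan.equiv {S S' : Type} [Fintype S] [Fintype S'] (e : S ≃ S')
    {L : S → Fin q → ℝ} {L' : S' → Fin q → ℝ} (h : ∀ s, L' (e s) = L s) (hL : Chan L) :
    Chan L' where
  nonneg := by
    intro s i
    obtain ⟨x, rfl⟩ := e.surjective s
    rw [h]
    exact hL.nonneg x i
  mass := by
    intro i
    rw [← e.sum_comp]
    simp_rw [h]
    exact hL.mass i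
  symm := by
    intro p F
    rw [← e.sum_comp, ← e.sum_comp (fun s => F (L' s))]
    simp_rw [h]
    exact hL.symm p F

theorem Good.equiv {C : Cert q} {S S' : Type} [Fintype S] [Fintype S'] (e : S ≃ S')
    {L : S → Fin q → ℝ} {L' : S' → Fin q → ℝ} (h : ∀ s, L' (e s) = L s) (hL : Good C L) :
    Good C L' :=
  ⟨hL.chan.equiv e h, by rw [ev_equiv e _ h]; exact hL.psi⟩

theorem Good.prod {C : Cert q} (hq : 0 < q) {S S' : Type} [Fintype S] [Fintype S']
    {L : S → Fin q → ℝ} {L' : S' → Fin q → ℝ} (h : Good C L) (h' : Good C L') :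
    Good C (fun (s : S × S') i => L s.1 i * L' s.2 i) :=
  ⟨h.chan.prod h'.chan, ev_psi_prod hq h.chan h'.chan C h.psi h'.psi⟩

theorem Good.edge {C : Cert q} (hq : 0 < q) {lam : ℝ} (h0 : 0 ≤ lam) (h1 : lam ≤ 1)
    {S : Type} [Fintype S] {L : S → Fin q → ℝ} (h : Good C L) :
    Good C (fun s => P154.edge q lam (L s)) :=
  ⟨h.chan.edge hq h0 h1, ev_psi_edge hq C h0 h1 h.chan h.psi⟩

theorem Good.u_nonneg {C : Cert q} (hq : 0 < q) {S : Type} [Fintype S] {L : S → Fin q → ℝ}
    (h : Good C L) : 0 ≤ ev (uFn q) L := ev_nonneg_of hq h.chan fun A _ => uFn_nonneg A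

theorem ms_one (hq : 0 < q) : ms q (fun _ => 1) = 1 := by
  have hq0 : (q : ℝ) ≠ 0 := by exact_mod_cast hq.ne'
  unfold ms
  simp
  field_simp

/-- the trivial channel -/
theorem good_triv (C : Cert q) (hq : 0 < q) {S : Type} [Fintype S] [Unique S]
    {L : S → Fin q → ℝ} (h : ∀ s i, L s i = 1) : Good C L ∧ ev (uFn q) L = 0 := by
  have hL : L = fun _ _ => 1 := by
    funext s i
    exact h s i
  subst hL
  refine ⟨⟨⟨fun _ _ => zero_le_one, fun i => ?_, fun p F => rfl⟩, ?_⟩, ?_⟩
  · simp
  · unfold ev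
    rw [Fintype.sum_unique, hom_eq, ms_one hq]
    simpa using C.psi_one
  · unfold ev
    rw [Fintype.sum_unique, hom_eq, ms_one hq]
    simp [uFn]

/-- product over a finite family of children -/
theorem good_family (C : Cert q) (hq : 0 < q) : ∀ (k : ℕ) (S : Fin k → Type)
    [∀ c, Fintype (S c)] (L : ∀ c, S c → Fin q → ℝ) (_ : ∀ c, Good C (L c)),
    Good C (fun (s : ∀ c, S c) i => ∏ c, L c (s c) i) ∧
    ev (uFn q) (fun (s : ∀ c, S c) i => ∏ c, L c (s c) i) ≤ ∑ c, ev (uFn q) (L c) := by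
  intro k
  induction k with
  | zero =>
    intro S _ L h
    obtain ⟨h1, h2⟩ := good_triv C hq (L := fun (s : ∀ c, S c) i => ∏ c, L c (s c) i)
      (fun s i => by simp)
    exact ⟨h1, by rw [h2]; simp⟩
  | succ k ih =>
    intro S _ L h
    obtain ⟨h1, h2⟩ := ih (fun c => S c.succ) (fun c => L c.succ) (fun c => h c.succ)
    have hp := (h 0).prod hq h1
    have he : ∀ s : S 0 × (∀ c : Fin k, S c.succ),
        (fun i => ∏ c, L c ((Fin.consEquiv S) s c) i) =
        fun i => L 0 s.1 i * ∏ c : Fin k, L c.succ (s.2 c) i := by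
      intro s
      funext i
      rw [Fin.prod_univ_succ]
      rfl
    refine ⟨hp.equiv (Fin.consEquiv S) he, ?_⟩
    rw [ev_equiv (Fin.consEquiv S) (uFn q) he, Fin.sum_univ_succ]
    have h3 := ev_kern_le hq (h 0).chan h1.chan C (h 0).psi h1.psi
    have a := (h 0).u_nonneg hq
    have b := h1.u_nonneg hq
    have c := mul_nonneg C.t_pos.le (mul_nonneg (mul_nonneg a b) (add_nonneg a b))
    linarith

/-- product over a family of at least two children, with a gain from the first two -/
theorem family_gain (C : Cert q) (hq : 0 < q) (k : ℕ) (S : Fin (k + 2) → Type)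
    [∀ c, Fintype (S c)] (L : ∀ c, S c → Fin q → ℝ) (h : ∀ c, Good C (L c)) :
    ev (uFn q) (fun (s : ∀ c, S c) i => ∏ c, L c (s c) i) ≤ ∑ c, ev (uFn q) (L c) -
      C.t * (ev (uFn q) (L 0) * ev (uFn q) (L 1) * (ev (uFn q) (L 0) + ev (uFn q) (L 1))) := by
  -- the first two
  have h01 := (h 0).prod hq (h 1)
  have e01 := ev_kern_le hq (h 0).chan (h 1).chan C (h 0).psi (h 1).psi
  obtain ⟨h1, h2⟩ := good_family C hq k (fun c => S c.succ.succ) (fun c => L c.succ.succ)
    (fun c => h c.succ.succ)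
  have e2 := ev_kern_le hq h01.chan h1.chan C h01.psi h1.psi
  let e : (S 0 × S 1) × (∀ c : Fin k, S c.succ.succ) ≃ (∀ c, S c) :=
    (Equiv.prodAssoc _ _ _).trans
      ((Equiv.prodCongr (Equiv.refl _) (Fin.consEquiv (fun c => S c.succ))).trans (Fin.consEquiv S))
  have he : ∀ s : (S 0 × S 1) × (∀ c : Fin k, S c.succ.succ),
      (fun i => ∏ c, L c (e s c) i) =
      fun i => (L 0 s.1.1 i * L 1 s.1.2 i) * ∏ c : Fin k, L c.succ.succ (s.2 c) i := by
    intro s
    funext i
    rw [Fin.prod_univ_succ, Fin.prod_univ_succ, mul_assoc]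
    rfl
  rw [ev_equiv e (uFn q) he, Fin.sum_univ_succ, Fin.sum_univ_succ]
  have a := h01.u_nonneg hq
  have b := h1.u_nonneg hq
  have c := mul_nonneg C.t_pos.le (mul_nonneg (mul_nonneg a b) (add_nonneg a b))
  have e3 : ev (uFn q) (L (Fin.succ 0)) = ev (uFn q) (L 1) := rfl
  rw [e3]
  linarith

/-! ### the tree -/

/-- relabelling of the colours of the boundary -/
def relabel (p : Equiv.Perm (Fin q)) : (n : ℕ) → (T : Tree n) → Bdry q n T ≃ Bdry q n T
  | 0, _ => p
  | n + 1, T => Equiv.piCongrRight fun c : Fin T.1 => relabel p n (T.2 c)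

theorem potts_perm (lam : ℝ) (p : Equiv.Perm (Fin q)) (i j : Fin q) :
    potts q lam (p i) (p j) = potts q lam i j := by
  unfold potts
  simp

theorem like_relabel (lam : ℝ) (p : Equiv.Perm (Fin q)) : ∀ (n : ℕ) (T : Tree n) (i : Fin q)
    (s : Bdry q n T), like q lam n T (p i) (relabel p n T s) = like q lam n T i s := by
  intro n
  induction n with
  | zero =>
    intro T i s
    rw [like_zero, like_zero]
    exact if_congr p.injective.eq_iff rfl rfl
  | succ n ih =>
    intro T i s
    rw [like_succ, like_succ]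
    apply prod_congr rfl
    intro c _
    rw [← Equiv.sum_comp p]
    apply sum_congr rfl
    intro j _
    rw [potts_perm]
    congr 1
    exact ih (T.2 c) j (s c)

/-- the channel of a tree -/
noncomputable def tch (q : ℕ) (lam : ℝ) (n : ℕ) (T : Tree n) (s : Bdry q n T) : Fin q → ℝ :=
  fun i => like q lam n T i s

theorem chan_tree (hq : 2 ≤ q) {lam : ℝ} (h0 : 0 ≤ lam) (h1 : lam ≤ 1) (n : ℕ) (T : Tree n) :
    Chan (tch q lam n T) where
  nonneg := by
    intro s i
    have hq' : (2 : ℝ) ≤ q := by exact_mod_cast hq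
    apply like_nonneg
    apply potts_nonneg hq _ h1
    refine le_trans ?_ h0
    apply div_nonpos_of_nonpos_of_nonneg
    · norm_num
    · linarith
  mass := fun i => like_sum (by omega) n T i
  symm := by
    intro p F
    rw [← (relabel p n T).sum_comp (fun s => F (fun i => tch q lam n T s (p i)))]
    apply sum_congr rfl
    intro s _
    congr 1
    funext i
    exact like_relabel lam p n T i s

/-- chi-square information of the tree -/
noncomputable def Uq (q : ℕ) (lam : ℝ) (n : ℕ) (T : Tree n) : ℝ := ev (uFn q) (tch q lam n T)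

theorem tree_family (lam : ℝ) (n : ℕ) (T : Tree (n + 1)) :
    tch q lam (n + 1) T = fun (s : ∀ c : Fin T.1, Bdry q n (T.2 c)) i =>
      ∏ c, (fun (c : Fin T.1) (x : Bdry q n (T.2 c)) => edge q lam (tch q lam n (T.2 c) x)) c (s c) i := by
  rfl

theorem good_zero (C : Cert q) (hq : 2 ≤ q) {lam : ℝ} (h0 : 0 ≤ lam) (h1 : lam ≤ 1) (T : Tree 0) :
    Good C (tch q lam 0 T) := by
  refine ⟨chan_tree hq h0 h1 0 T, ?_⟩
  have hq0 : (q : ℝ) ≠ 0 := by
    have : 0 < q := by omega
    exact_mod_cast this.ne'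
  unfold ev
  rw [sum_bdry_zero]
  apply sum_nonneg
  intro s _
  have hv : tch q lam 0 T s = fun j : Fin q => if j = s then 1 else 0 := by
    funext j
    show (if s = j then (1 : ℝ) else 0) = _
    by_cases h : j = s
    · simp [h]
    · have h' : ¬ (s = j) := fun e => h e.symm
      simp [h, h']
  rw [hv, hom_eq]
  have hm : ms q (fun j : Fin q => if j = s then (1 : ℝ) else 0) = 1 / q := by
    unfold ms
    simp
  rw [hm]
  have h2 := C.psi_vertex s
  have h3 : (fun i : Fin q => (if i = s then (1 : ℝ) else 0) / (1 / (q : ℝ))) =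
      fun j => if j = s then (q : ℝ) else 0 := by
    funext j
    split_ifs
    · field_simp
    · simp
  rw [h3]
  positivity

theorem good_tree (C : Cert q) (hq : 2 ≤ q) {lam : ℝ} (h0 : 0 ≤ lam) (h1 : lam ≤ 1) :
    ∀ (n : ℕ) (T : Tree n), Good C (tch q lam n T) := by
  intro n
  induction n with
  | zero => exact good_zero C hq h0 h1
  | succ n ih =>
    intro T
    have := (good_family C (by omega : 0 < q) T.1 (fun c => Bdry q n (T.2 c))
      (fun c x => edge q lam (tch q lam n (T.2 c) x))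
      (fun c => (ih (T.2 c)).edge (by omega) h0 h1)).1
    refine this.equiv (Equiv.refl _) ?_
    intro s
    rfl

theorem Uq_nonneg (C : Cert q) (hq : 2 ≤ q) {lam : ℝ} (h0 : 0 ≤ lam) (h1 : lam ≤ 1) (n : ℕ)
    (T : Tree n) : 0 ≤ Uq q lam n T := (good_tree C hq h0 h1 n T).u_nonneg (by omega)

/-- a tree from its children -/
def node {n : ℕ} (k : ℕ) (t : Fin k → Tree n) : Tree (n + 1) := ⟨k, t⟩

theorem Uq_le (C : Cert q) (hq : 2 ≤ q) {lam : ℝ} (h0 : 0 ≤ lam) (h1 : lam ≤ 1) (n k : ℕ)
    (t : Fin k → Tree n) :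
    Uq q lam (n + 1) (node k t) ≤ ∑ c, lam ^ 2 * Uq q lam n (t c) := by
  have h := (good_family C (by omega : 0 < q) k (fun c => Bdry q n (t c))
      (fun c x => edge q lam (tch q lam n (t c) x))
      (fun c => (good_tree C hq h0 h1 n (t c)).edge (by omega) h0 h1)).2
  have e : Uq q lam (n + 1) (node k t) =
      ev (uFn q) (fun (s : ∀ c, Bdry q n (t c)) i => ∏ c, edge q lam (tch q lam n (t c) (s c)) i) :=
    ev_equiv (Equiv.refl _) _ (fun s => rfl)
  rw [e]
  refine h.trans (le_of_eq ?_)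
  apply sum_congr rfl
  intro c _
  rw [ev_u_edge (by omega)]
  rfl

theorem Uq_gain (C : Cert q) (hq : 2 ≤ q) {lam : ℝ} (h0 : 0 ≤ lam) (h1 : lam ≤ 1) (n k : ℕ)
    (t : Fin (k + 2) → Tree n) :
    Uq q lam (n + 1) (node (k + 2) t) ≤ ∑ c, lam ^ 2 * Uq q lam n (t c) -
      C.t * lam ^ 6 * (Uq q lam n (t 0) * Uq q lam n (t 1) *
        (Uq q lam n (t 0) + Uq q lam n (t 1))) := by
  have h := family_gain C (by omega : 0 < q) k (fun c => Bdry q n (t c))
      (fun c x => edge q lam (tch q lam n (t c) x))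
      (fun c => (good_tree C hq h0 h1 n (t c)).edge (by omega) h0 h1)
  have e : Uq q lam (n + 1) (node (k + 2) t) =
      ev (uFn q) (fun (s : ∀ c, Bdry q n (t c)) i => ∏ c, edge q lam (tch q lam n (t c) (s c)) i) :=
    ev_equiv (Equiv.refl _) _ (fun s => rfl)
  rw [e]
  refine h.trans (le_of_eq ?_)
  simp only [ev_u_edge (by omega : 0 < q)]
  unfold Uq
  ring

end Vale.Agent.P154
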