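import Vale.Agent.P154.Refl5

/-! Explicit forms of the checkers for `q = 3` and `q = 4` (helper file). -/

namespace Vale.Agent.P154.Refl

open Finset

/-- elementary symmetric functions `[e_1, e_2, e_3]` -/
def E3 (y : Fin 3 → ℝ) : List ℝ :=
  [y 0 + y 1 + y 2, y 0 * y 1 + y 0 * y 2 + y 1 * y 2, y 0 * y 1 * y 2]

/-- elementary symmetric functions `[e_1, e_2, e_3, e_4]` -/
def E4 (y : Fin 4 → ℝ) : List ℝ :=
  [y 0 + y 1 + y 2 + y 3,
    y 0 * y 1 + y 0 * y 2 + y 0 * y 3 + y 1 * y 2 + y 1 * y 3 + y 2 * y 3,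
    y 0 * y 1 * y 2 + y 0 * y 1 * y 3 + y 0 * y 2 * y 3 + y 1 * y 2 * y 3,
    y 0 * y 1 * y 2 * y 3]

theorem E3_perm (y : Fin 3 → ℝ) (s : Equiv.Perm (Fin 3)) : E3 (fun i => y (s i)) = E3 y := by
  have h1 : ∑ i, y (s i) = ∑ i, y i := Equiv.sum_comp s y
  have h2 : ∑ i, y (s i) ^ 2 = ∑ i, y i ^ 2 := Equiv.sum_comp s (fun i => y i ^ 2)
  have h3 : ∏ i, y (s i) = ∏ i, y i := Equiv.prod_comp s y
  simp only [Fin.sum_univ_three, Fin.prod_univ_three] at h1 h2 h3
  unfold E3
  rw [h1, h3]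
  have e : y (s 0) * y (s 1) + y (s 0) * y (s 2) + y (s 1) * y (s 2) =
      y 0 * y 1 + y 0 * y 2 + y 1 * y 2 := by
    have ha : ∀ a b c : ℝ, a * b + a * c + b * c =
        ((a + b + c) ^ 2 - (a ^ 2 + b ^ 2 + c ^ 2)) / 2 := by
      intro a b c
      ring
    rw [ha, ha, h1, h2]
  rw [e]

theorem E4_perm (y : Fin 4 → ℝ) (s : Equiv.Perm (Fin 4)) : E4 (fun i => y (s i)) = E4 y := by
  have h1 : ∑ i, y (s i) = ∑ i, y i := Equiv.sum_comp s y
  have h2 : ∑ i, y (s i) ^ 2 = ∑ i, y i ^ 2 := Equiv.sum_comp s (fun i => y i ^ 2)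
  have h3 : ∑ i, y (s i) ^ 3 = ∑ i, y i ^ 3 := Equiv.sum_comp s (fun i => y i ^ 3)
  have h4 : ∏ i, y (s i) = ∏ i, y i := Equiv.prod_comp s y
  simp only [Fin.sum_univ_four, Fin.prod_univ_four] at h1 h2 h3 h4
  unfold E4
  have e2 : ∀ a b c d : ℝ, a * b + a * c + a * d + b * c + b * d + c * d =
      ((a + b + c + d) ^ 2 - (a ^ 2 + b ^ 2 + c ^ 2 + d ^ 2)) / 2 := by
    intro a b c d
    ring
  have e3 : ∀ a b c d : ℝ, a * b * c + a * b * d + a * c * d + b * c * d =
      ((a + b + c + d) ^ 3 - 3 * (a + b + c + d) * (a ^ 2 + b ^ 2 + c ^ 2 + d ^ 2) +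
        2 * (a ^ 3 + b ^ 3 + c ^ 3 + d ^ 3)) / 6 := by
    intro a b c d
    ring
  simp only [e2, e3]
  rw [h1, h2, h3, h4]

theorem exists_sort {n : ℕ} (y : Fin n → ℝ) :
    ∃ s : Equiv.Perm (Fin n), ∀ i j : Fin n, i ≤ j → y (s j) ≤ y (s i) := by
  refine ⟨(Tuple.sort fun i => -y i), ?_⟩
  intro i j hij
  have := Tuple.monotone_sort (fun i => -y i) hij
  simp only [Function.comp] at this
  linarith

/-- rays of the cone of decreasing vectors -/
def cell3 : List (List ℕ) := [[1, 0, 0], [1, 1, 0], [1, 1, 1]]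

def cell4 : List (List ℕ) := [[1, 0, 0, 0], [1, 1, 0, 0], [1, 1, 1, 0], [1, 1, 1, 1]]

/-- scaled rays -/
def scell3 : List (List ℕ) := [[6, 0, 0], [3, 3, 0], [2, 2, 2]]

def scell4 : List (List ℕ) := [[12, 0, 0, 0], [6, 6, 0, 0], [4, 4, 4, 0], [3, 3, 3, 3]]

theorem coords_cell3 (a b c : ℝ) : coords 3 cell3 [a - b, b - c, c] = [a, b, c] := by
  simp [coords, cell3, sumTo, List.range, List.range.loop]

theorem coords_cell4 (a b c d : ℝ) : coords 4 cell4 [a - b, b - c, c - d, d] = [a, b, c, d] := by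
  simp [coords, cell4, sumTo, List.range, List.range.loop]

theorem coords_scell3 (a b c : ℝ) :
    coords 3 scell3 [(a - b) / 6, (b - c) / 3, c / 2] = [a, b, c] := by
  simp [coords, scell3, sumTo, List.range, List.range.loop]

theorem coords_scell4 (a b c d : ℝ) :
    coords 4 scell4 [(a - b) / 12, (b - c) / 6, (c - d) / 4, d / 3] = [a, b, c, d] := by
  simp [coords, scell4, sumTo, List.range, List.range.loop]

theorem esl3 (a b c : ℝ) : esl [a, b, c] =
    [1, a + b + c, a * b + a * c + b * c, a * b * c] := by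
  simp only [esl, addL, List.map_cons, List.map_nil]
  ring_nf

theorem esl4 (a b c d : ℝ) : esl [a, b, c, d] =
    [1, a + b + c + d, a * b + a * c + a * d + b * c + b * d + c * d,
      a * b * c + a * b * d + a * c * d + b * c * d, a * b * c * d] := by
  simp only [esl, addL, List.map_cons, List.map_nil]
  ring_nf

theorem PV_nonneg_iff {ts : List (List ℕ × List ℕ × List ℕ)} {D : ℝ} {es : List ℝ} :
    0 ≤ PV ts D es ↔ pvs false D es ts ≤ pvs true D es ts := by
  unfold PV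
  constructor <;> intro h <;> linarith

/-- `q = 3`, with the side condition -/
theorem main3 {M n kb d W hi : ℕ} {ts : List (List ℕ × List ℕ × List ℕ)} {t : CT}
    (hok : okts 3 M n W ts = true) (h : chk 3 M n kb d ts t 0 hi scell3 = true) (y : Fin 3 → ℝ)
    (hy : ∀ i, 0 ≤ y i) (D : ℝ) (hD : 0 < D) (hD1 : (M : ℝ) * D ≤ hi)
    (hD2 : D * (E3 y).getD 0 0 ^ 2 + 6 * (E3 y).getD 1 0 ≤ 3 * (E3 y).getD 0 0 ^ 2)
    (he : 0 < (E3 y).getD 0 0) : 0 ≤ PV ts D (E3 y) := by
  obtain ⟨s, hs⟩ := exists_sort y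
  rw [← E3_perm y s] at hD2 he ⊢
  have h01 := hs 0 1 (by decide)
  have h12 := hs 1 2 (by decide)
  have h2 := hy (s 2)
  have hM : (0 : ℝ) < M := by exact_mod_cast (okts_spec hok).2.1
  have := chk_sound hok t 0 hi scell3 h
    [(y (s 0) - y (s 1)) / 6, (y (s 1) - y (s 2)) / 3, y (s 2) / 2] rfl
    (by
      intro x hx
      simp only [List.mem_cons, List.not_mem_nil, or_false] at hx
      rcases hx with rfl | rfl | rfl <;> linarith) D
    (by simpa using mul_pos hM hD) hD1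
  rw [coords_scell3, esl3] at this
  rw [PV_nonneg_iff]
  refine this (Or.inr ⟨?_, ?_⟩)
  · simp only [E3, List.getD_cons_zero, List.getD_cons_succ] at hD2 ⊢
    push_cast
    linarith
  · simp only [E3, List.getD_cons_zero, List.getD_cons_succ] at he ⊢
    exact he

/-- `q = 3`, no side condition (trees without `out`) -/
theorem one3 {M n kb d W hi : ℕ} {ts : List (List ℕ × List ℕ × List ℕ)} {t : CT}
    (hok : okts 3 M n W ts = true) (hno : t.noOut = true)
    (h : chk 3 M n kb d ts t 0 hi scell3 = true) (y : Fin 3 → ℝ)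
    (hy : ∀ i, 0 ≤ y i) (D : ℝ) (hD : 0 < D) (hD1 : (M : ℝ) * D ≤ hi) :
    0 ≤ PV ts D (E3 y) := by
  obtain ⟨s, hs⟩ := exists_sort y
  rw [← E3_perm y s]
  have h01 := hs 0 1 (by decide)
  have h12 := hs 1 2 (by decide)
  have h2 := hy (s 2)
  have hM : (0 : ℝ) < M := by exact_mod_cast (okts_spec hok).2.1
  have := chk_sound hok t 0 hi scell3 h
    [(y (s 0) - y (s 1)) / 6, (y (s 1) - y (s 2)) / 3, y (s 2) / 2] rfl
    (by
      intro x hx
      simp only [List.mem_cons, List.not_mem_nil, or_false] at hx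
      rcases hx with rfl | rfl | rfl <;> linarith) D
    (by simpa using mul_pos hM hD) hD1
  rw [coords_scell3, esl3] at this
  rw [PV_nonneg_iff]
  exact this (Or.inl hno)

/-- `q = 4`, with the side condition -/
theorem main4 {M n kb d W hi : ℕ} {ts : List (List ℕ × List ℕ × List ℕ)} {t : CT}
    (hok : okts 4 M n W ts = true) (h : chk 4 M n kb d ts t 0 hi scell4 = true) (y : Fin 4 → ℝ)
    (hy : ∀ i, 0 ≤ y i) (D : ℝ) (hD : 0 < D) (hD1 : (M : ℝ) * D ≤ hi)
    (hD2 : D * (E4 y).getD 0 0 ^ 2 + 8 * (E4 y).getD 1 0 ≤ 4 * (E4 y).getD 0 0 ^ 2)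
    (he : 0 < (E4 y).getD 0 0) : 0 ≤ PV ts D (E4 y) := by
  obtain ⟨s, hs⟩ := exists_sort y
  rw [← E4_perm y s] at hD2 he ⊢
  have h01 := hs 0 1 (by decide)
  have h12 := hs 1 2 (by decide)
  have h23 := hs 2 3 (by decide)
  have h3 := hy (s 3)
  have hM : (0 : ℝ) < M := by exact_mod_cast (okts_spec hok).2.1
  have := chk_sound hok t 0 hi scell4 h
    [(y (s 0) - y (s 1)) / 12, (y (s 1) - y (s 2)) / 6, (y (s 2) - y (s 3)) / 4, y (s 3) / 3] rfl
    (by
      intro x hx
      simp only [List.mem_cons, List.not_mem_nil, or_false] at hx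
      rcases hx with rfl | rfl | rfl | rfl <;> linarith) D
    (by simpa using mul_pos hM hD) hD1
  rw [coords_scell4, esl4] at this
  rw [PV_nonneg_iff]
  refine this (Or.inr ⟨?_, ?_⟩)
  · simp only [E4, List.getD_cons_zero, List.getD_cons_succ] at hD2 ⊢
    push_cast
    linarith
  · simp only [E4, List.getD_cons_zero, List.getD_cons_succ] at he ⊢
    exact he

/-- `q = 4`, no side condition (trees without `out`) -/
theorem one4 {M n kb d W hi : ℕ} {ts : List (List ℕ × List ℕ × List ℕ)} {t : CT}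
    (hok : okts 4 M n W ts = true) (hno : t.noOut = true)
    (h : chk 4 M n kb d ts t 0 hi scell4 = true) (y : Fin 4 → ℝ)
    (hy : ∀ i, 0 ≤ y i) (D : ℝ) (hD : 0 < D) (hD1 : (M : ℝ) * D ≤ hi) :
    0 ≤ PV ts D (E4 y) := by
  obtain ⟨s, hs⟩ := exists_sort y
  rw [← E4_perm y s]
  have h01 := hs 0 1 (by decide)
  have h12 := hs 1 2 (by decide)
  have h23 := hs 2 3 (by decide)
  have h3 := hy (s 3)
  have hM : (0 : ℝ) < M := by exact_mod_cast (okts_spec hok).2.1
  have := chk_sound hok t 0 hi scell4 h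
    [(y (s 0) - y (s 1)) / 12, (y (s 1) - y (s 2)) / 6, (y (s 2) - y (s 3)) / 4, y (s 3) / 3] rfl
    (by
      intro x hx
      simp only [List.mem_cons, List.not_mem_nil, or_false] at hx
      rcases hx with rfl | rfl | rfl | rfl <;> linarith) D
    (by simpa using mul_pos hM hD) hD1
  rw [coords_scell4, esl4] at this
  rw [PV_nonneg_iff]
  exact this (Or.inl hno)

/-- the bilinear form `∑ C_ij e^(exps_i)(y) e^(exps_j)(z)` -/
def biv (exps C : List (List ℕ)) (ey ez : List ℝ) : ℝ :=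
  bil (exps.map fun ex => mon ex ez) C (exps.map fun ex => mon ex ey)

theorem pair3 {kb d W : ℕ} {exps Cp Cm : List (List ℕ)}
    (h : pairchk 3 kb d W exps Cp Cm cell3 cell3 = true) (y z : Fin 3 → ℝ)
    (hy : ∀ i, 0 ≤ y i) (hz : ∀ i, 0 ≤ z i) :
    biv exps Cm (E3 y) (E3 z) ≤ biv exps Cp (E3 y) (E3 z) := by
  obtain ⟨s, hs⟩ := exists_sort y
  obtain ⟨u, hu⟩ := exists_sort z
  rw [← E3_perm y s, ← E3_perm z u]
  have h01 := hs 0 1 (by decide)
  have h12 := hs 1 2 (by decide)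
  have h2 := hy (s 2)
  have k01 := hu 0 1 (by decide)
  have k12 := hu 1 2 (by decide)
  have k2 := hz (u 2)
  have := pair_sound h [y (s 0) - y (s 1), y (s 1) - y (s 2), y (s 2)]
    [z (u 0) - z (u 1), z (u 1) - z (u 2), z (u 2)] rfl rfl
    (by
      intro x hx
      simp only [List.mem_cons, List.not_mem_nil, or_false] at hx
      rcases hx with rfl | rfl | rfl <;> linarith)
    (by
      intro x hx
      simp only [List.mem_cons, List.not_mem_nil, or_false] at hx
      rcases hx with rfl | rfl | rfl <;> linarith)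
  unfold pairVal at this
  rw [coords_cell3, coords_cell3, esl3, esl3] at this
  exact this

theorem pair4 {kb d W : ℕ} {exps Cp Cm : List (List ℕ)}
    (h : pairchk 4 kb d W exps Cp Cm cell4 cell4 = true) (y z : Fin 4 → ℝ)
    (hy : ∀ i, 0 ≤ y i) (hz : ∀ i, 0 ≤ z i) :
    biv exps Cm (E4 y) (E4 z) ≤ biv exps Cp (E4 y) (E4 z) := by
  obtain ⟨s, hs⟩ := exists_sort y
  obtain ⟨u, hu⟩ := exists_sort z
  rw [← E4_perm y s, ← E4_perm z u]
  have h01 := hs 0 1 (by decide)
  have h12 := hs 1 2 (by decide)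
  have h23 := hs 2 3 (by decide)
  have h3 := hy (s 3)
  have k01 := hu 0 1 (by decide)
  have k12 := hu 1 2 (by decide)
  have k23 := hu 2 3 (by decide)
  have k3 := hz (u 3)
  have := pair_sound h [y (s 0) - y (s 1), y (s 1) - y (s 2), y (s 2) - y (s 3), y (s 3)]
    [z (u 0) - z (u 1), z (u 1) - z (u 2), z (u 2) - z (u 3), z (u 3)] rfl rfl
    (by
      intro x hx
      simp only [List.mem_cons, List.not_mem_nil, or_false] at hx
      rcases hx with rfl | rfl | rfl | rfl <;> linarith)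
    (by
      intro x hx
      simp only [List.mem_cons, List.not_mem_nil, or_false] at hx
      rcases hx with rfl | rfl | rfl | rfl <;> linarith)
  unfold pairVal at this
  rw [coords_cell4, coords_cell4, esl4, esl4] at this
  exact this

end Vale.Agent.P154.Refl
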