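import Mathlib

/-! Coefficientwise comparison of polynomials over `ℕ` by Kronecker packing (helper file). -/

namespace Vale.Agent.P154.Refl

open Finset

/-- mask with the top bit of each of `N` digits of `k` bits set -/
def mask (k N : ℕ) : ℕ := 2 ^ (k - 1) * ((2 ^ (k * N) - 1) / (2 ^ k - 1))

/-- digitwise comparison `P ≤ Q` of two packed numbers with `N` digits of `k` bits, all digits
smaller than `2^(k-1)` -/
def digLE (k N P Q : ℕ) : Bool :=
  Nat.beq (Nat.land (Nat.sub (Nat.add Q (mask k N)) P) (mask k N)) (mask k N)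

theorem mask_eq {k : ℕ} (hk : 1 ≤ k) (N : ℕ) :
    mask k N = ∑ t ∈ range N, 2 ^ (k - 1) * (2 ^ k) ^ t := by
  unfold mask
  rw [← mul_sum]
  congr 1
  rw [Nat.geomSum_eq (m := 2 ^ k) (by
    calc 2 = 2 ^ 1 := rfl
      _ ≤ 2 ^ k := Nat.pow_le_pow_right (by norm_num) hk), pow_mul]

theorem sum_div_mod {B : ℕ} (hB : 0 < B) : ∀ (N : ℕ) (d : ℕ → ℕ) (_ : ∀ t, d t < B) (t : ℕ)
    (_ : t < N), (∑ s ∈ range N, d s * B ^ s) / B ^ t % B = d t := by
  intro N
  induction N with
  | zero => intro d _ t ht; omega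
  | succ N ih =>
    intro d hd t ht
    have h1 : ∑ s ∈ range (N + 1), d s * B ^ s = d 0 + B * ∑ s ∈ range N, d (s + 1) * B ^ s := by
      rw [sum_range_succ', mul_sum, add_comm]
      congr 1
      · simp
      · apply sum_congr rfl
        intro s _
        ring
    rw [h1]
    rcases t with _ | t
    · simp only [pow_zero, Nat.div_one, Nat.add_mul_mod_self_left]
      exact Nat.mod_eq_of_lt (hd 0)
    · rw [pow_succ', ← Nat.div_div_eq_div_mul, Nat.add_mul_div_left _ _ hB,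
        Nat.div_eq_of_lt (hd 0), zero_add]
      exact ih (fun s => d (s + 1)) (fun s => hd _) t (by omega)

theorem testBit_digit {k : ℕ} (hk : 1 ≤ k) (N : ℕ) (d : ℕ → ℕ) (hd : ∀ t, d t < 2 ^ k) {t : ℕ}
    (ht : t < N) : (∑ s ∈ range N, d s * (2 ^ k) ^ s).testBit (k * t + (k - 1)) = true ↔
      2 ^ (k - 1) ≤ d t := by
  rw [Nat.testBit_eq_decide_div_mod_eq, decide_eq_true_iff, pow_add, pow_mul,
    ← Nat.div_div_eq_div_mul]
  have h1 := sum_div_mod (by positivity : 0 < 2 ^ k) N d hd t ht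
  set X := (∑ s ∈ range N, d s * (2 ^ k) ^ s) / (2 ^ k) ^ t with hX
  have h2 : (2 : ℕ) ^ k = 2 ^ (k - 1) * 2 := by
    rw [← pow_succ]
    congr 1
    omega
  have h3 : X / 2 ^ (k - 1) % 2 = X % 2 ^ k / 2 ^ (k - 1) := by
    rw [h2, Nat.mod_mul_right_div_self]
  rw [h3, h1]
  have h4 := hd t
  rw [h2] at h4
  have hp : 0 < 2 ^ (k - 1) := by positivity
  constructor
  · intro h
    by_contra hlt
    push Not at hlt
    rw [Nat.div_eq_of_lt hlt] at h
    omega
  · intro h
    have h5 : d t / 2 ^ (k - 1) < 2 := by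
      rw [Nat.div_lt_iff_lt_mul hp]
      linarith
    have h6 : 1 ≤ d t / 2 ^ (k - 1) := by
      rw [Nat.le_div_iff_mul_le hp]
      linarith
    omega

/-- soundness of the digit comparison -/
theorem digLE_sound {k : ℕ} (hk : 1 ≤ k) (N : ℕ) (a b : ℕ → ℕ)
    (ha : ∀ t, a t < 2 ^ (k - 1)) (hb : ∀ t, b t < 2 ^ (k - 1))
    (h : digLE k N (∑ t ∈ range N, a t * (2 ^ k) ^ t) (∑ t ∈ range N, b t * (2 ^ k) ^ t) = true)
    {t : ℕ} (ht : t < N) : a t ≤ b t := by
  unfold digLE at h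
  have h' := Nat.eq_of_beq_eq_true h
  have hp : 0 < 2 ^ (k - 1) := by positivity
  have h2 : (2 : ℕ) ^ k = 2 ^ (k - 1) * 2 := by
    rw [← pow_succ]
    congr 1
    omega
  set d : ℕ → ℕ := fun t => b t + 2 ^ (k - 1) - a t with hd
  have hdlt : ∀ t, d t < 2 ^ k := by
    intro t
    have := ha t
    have := hb t
    simp only [hd]
    omega
  have hT : Nat.sub (Nat.add (∑ t ∈ range N, b t * (2 ^ k) ^ t) (mask k N))
      (∑ t ∈ range N, a t * (2 ^ k) ^ t) = ∑ t ∈ range N, d t * (2 ^ k) ^ t := by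
    have e1 : ∑ t ∈ range N, d t * (2 ^ k) ^ t + ∑ t ∈ range N, a t * (2 ^ k) ^ t =
        ∑ t ∈ range N, b t * (2 ^ k) ^ t + mask k N := by
      rw [mask_eq hk, ← sum_add_distrib, ← sum_add_distrib]
      apply sum_congr rfl
      intro t _
      rw [← add_mul, ← add_mul]
      congr 1
      have := ha t
      simp only [hd]
      omega
    show ∑ t ∈ range N, b t * (2 ^ k) ^ t + mask k N - _ = _
    omega
  rw [hT] at h'
  have hbit : ((∑ t ∈ range N, d t * (2 ^ k) ^ t).land (mask k N)).testBit (k * t + (k - 1)) =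
      (mask k N).testBit (k * t + (k - 1)) := by rw [h']
  have hm : (mask k N).testBit (k * t + (k - 1)) = true := by
    rw [mask_eq hk]
    rw [testBit_digit hk N (fun _ => 2 ^ (k - 1)) (fun _ => by
      show 2 ^ (k - 1) < 2 ^ k
      omega) ht]
  have hand : ((∑ t ∈ range N, d t * (2 ^ k) ^ t).land (mask k N)).testBit (k * t + (k - 1)) =
      ((∑ t ∈ range N, d t * (2 ^ k) ^ t).testBit (k * t + (k - 1)) &&
        (mask k N).testBit (k * t + (k - 1))) := Nat.testBit_and _ _ _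
  rw [hand, hm, Bool.and_true] at hbit
  have h7 := (testBit_digit hk N d hdlt ht).mp hbit
  have h8 := ha t
  simp only [hd] at h7
  omega

/-! ### Kronecker substitution -/

variable {n : ℕ}

/-- the Kronecker exponent of a monomial -/
def kap (d : ℕ) (m : Fin n →₀ ℕ) : ℕ := ∑ i : Fin n, m i * (d + 1) ^ (i : ℕ)

theorem kap_lt {d : ℕ} {m : Fin n →₀ ℕ} (h : ∀ i, m i ≤ d) : kap d m < (d + 1) ^ n := by
  have := (finFunctionFinEquiv (m := d + 1) (n := n) (fun i => ⟨m i, Nat.lt_succ_of_le (h i)⟩)).2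
  rw [finFunctionFinEquiv_apply] at this
  exact this

theorem kap_inj {d : ℕ} {m m' : Fin n →₀ ℕ} (h : ∀ i, m i ≤ d) (h' : ∀ i, m' i ≤ d)
    (he : kap d m = kap d m') : m = m' := by
  have h1 : (fun i => (⟨m i, Nat.lt_succ_of_le (h i)⟩ : Fin (d + 1))) =
      fun i => (⟨m' i, Nat.lt_succ_of_le (h' i)⟩ : Fin (d + 1)) := by
    apply (finFunctionFinEquiv (m := d + 1) (n := n)).injective
    apply Fin.ext
    rw [finFunctionFinEquiv_apply, finFunctionFinEquiv_apply]
    exact he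
  ext i
  have := congrFun h1 i
  simpa using this

/-- degree bound from an evaluation -/
theorem deg_of_eval {p : MvPolynomial (Fin n) ℕ} {z d : ℕ} (hz : 2 ≤ z) (j : Fin n)
    (h : MvPolynomial.eval (fun i => if i = j then z else 1) p < z ^ (d + 1)) :
    ∀ m ∈ p.support, m j ≤ d := by
  intro m hm
  rw [MvPolynomial.eval_eq'] at h
  have h1 : p.coeff m * ∏ i, (if i = j then z else 1) ^ m i ≤
      ∑ m' ∈ p.support, p.coeff m' * ∏ i, (if i = j then z else 1) ^ m' i :=
    single_le_sum (f := fun m' => p.coeff m' * ∏ i, (if i = j then z else 1) ^ m' i)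
      (fun _ _ => Nat.zero_le _) hm
  have h2 : ∏ i, (if i = j then z else 1) ^ m i = z ^ m j := by
    rw [prod_eq_single j]
    · simp
    · intro i _ hi
      simp [hi]
    · intro hj
      exact absurd (mem_univ j) hj
  rw [h2] at h1
  have h3 : 1 ≤ p.coeff m := Nat.one_le_iff_ne_zero.mpr (MvPolynomial.mem_support_iff.mp hm)
  have h4 : z ^ m j < z ^ (d + 1) := by
    calc z ^ m j = 1 * z ^ m j := by ring
      _ ≤ p.coeff m * z ^ m j := Nat.mul_le_mul_right _ h3
      _ ≤ _ := h1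
      _ < _ := h
  have := (Nat.pow_lt_pow_iff_right (by omega : 1 < z)).mp h4
  omega

/-- the packed value is a digit sum -/
theorem eval_packed {p : MvPolynomial (Fin n) ℕ} {k d : ℕ} (hd : ∀ m ∈ p.support, ∀ i, m i ≤ d) :
    MvPolynomial.eval (fun i : Fin n => (2 ^ k) ^ ((d + 1) ^ (i : ℕ))) p =
      ∑ t ∈ range ((d + 1) ^ n), (∑ m ∈ p.support with kap d m = t, p.coeff m) * (2 ^ k) ^ t := by
  rw [MvPolynomial.eval_eq']
  have h1 : ∀ m ∈ p.support, p.coeff m * ∏ i : Fin n, ((2 ^ k) ^ ((d + 1) ^ (i : ℕ))) ^ m i =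
      p.coeff m * (2 ^ k) ^ kap d m := by
    intro m _
    congr 1
    unfold kap
    rw [← prod_pow_eq_pow_sum]
    apply prod_congr rfl
    intro i _
    rw [← pow_mul, mul_comm (m i)]
  rw [sum_congr rfl h1]
  have hmap : ∀ m ∈ p.support, kap d m ∈ range ((d + 1) ^ n) := by
    intro m hm
    rw [mem_range]
    exact kap_lt (hd m hm)
  rw [← sum_fiberwise_of_maps_to hmap]
  apply sum_congr rfl
  intro t _
  rw [sum_mul]
  apply sum_congr rfl
  intro m hm
  rw [(mem_filter.mp hm).2]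

theorem coeff_sum_lt {p : MvPolynomial (Fin n) ℕ} {S : ℕ}
    (h : MvPolynomial.eval (fun _ => 1) p < S) (d t : ℕ) :
    ∑ m ∈ p.support with kap d m = t, p.coeff m < S := by
  refine lt_of_le_of_lt ?_ h
  rw [MvPolynomial.eval_eq']
  have : ∀ m ∈ p.support, p.coeff m * ∏ i : Fin n, (1 : ℕ) ^ m i = p.coeff m := by
    intro m _
    simp
  rw [sum_congr rfl this]
  exact sum_le_sum_of_subset (filter_subset _ _)

theorem fiber_eq {p : MvPolynomial (Fin n) ℕ} {d : ℕ} (hd : ∀ m ∈ p.support, ∀ i, m i ≤ d)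
    {m : Fin n →₀ ℕ} (hm : ∀ i, m i ≤ d) :
    ∑ m' ∈ p.support with kap d m' = kap d m, p.coeff m' = p.coeff m := by
  rw [sum_eq_single m]
  · intro m' hm' hne
    exfalso
    rw [mem_filter] at hm'
    exact hne (kap_inj (hd m' hm'.1) hm hm'.2)
  · intro hnot
    by_contra hc
    apply hnot
    rw [mem_filter]
    exact ⟨MvPolynomial.mem_support_iff.mpr hc, rfl⟩

/-- coefficientwise inequality from the packed check -/
theorem coeff_le {p q : MvPolynomial (Fin n) ℕ} {k d : ℕ} (hk : 1 ≤ k)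
    (hp1 : MvPolynomial.eval (fun _ => 1) p < 2 ^ (k - 1))
    (hq1 : MvPolynomial.eval (fun _ => 1) q < 2 ^ (k - 1))
    (hpd : ∀ j : Fin n, MvPolynomial.eval (fun i => if i = j then 2 ^ k else 1) p <
      (2 ^ k) ^ (d + 1))
    (hqd : ∀ j : Fin n, MvPolynomial.eval (fun i => if i = j then 2 ^ k else 1) q <
      (2 ^ k) ^ (d + 1))
    (h : digLE k ((d + 1) ^ n)
      (MvPolynomial.eval (fun i : Fin n => (2 ^ k) ^ ((d + 1) ^ (i : ℕ))) p)
      (MvPolynomial.eval (fun i : Fin n => (2 ^ k) ^ ((d + 1) ^ (i : ℕ))) q) = true)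
    (m : Fin n →₀ ℕ) : p.coeff m ≤ q.coeff m := by
  have hz : 2 ≤ 2 ^ k := by
    calc 2 = 2 ^ 1 := rfl
      _ ≤ 2 ^ k := Nat.pow_le_pow_right (by norm_num) hk
  have hdp : ∀ m ∈ p.support, ∀ i, m i ≤ d := fun m hm i => deg_of_eval hz i (hpd i) m hm
  have hdq : ∀ m ∈ q.support, ∀ i, m i ≤ d := fun m hm i => deg_of_eval hz i (hqd i) m hm
  by_cases hm : m ∈ p.support
  · rw [eval_packed hdp, eval_packed hdq] at h
    have h1 := digLE_sound hk _ _ _ (fun t => coeff_sum_lt hp1 d t)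
      (fun t => coeff_sum_lt hq1 d t) h (kap_lt (hdp m hm))
    rwa [fiber_eq hdp (hdp m hm), fiber_eq hdq (hdp m hm)] at h1
  · rw [MvPolynomial.notMem_support_iff.mp hm]
    exact Nat.zero_le _

/-- from coefficients to values at nonnegative reals -/
theorem aeval_le {p q : MvPolynomial (Fin n) ℕ} (h : ∀ m, p.coeff m ≤ q.coeff m) (x : Fin n → ℝ)
    (hx : ∀ i, 0 ≤ x i) : MvPolynomial.aeval x p ≤ MvPolynomial.aeval x q := by
  have e : ∀ r : MvPolynomial (Fin n) ℕ, MvPolynomial.aeval x r =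
      ∑ m ∈ r.support, ((r.coeff m : ℕ) : ℝ) * ∏ i, x i ^ m i := by
    intro r
    rw [MvPolynomial.aeval_def, MvPolynomial.eval₂_eq']
    simp
  rw [e, e]
  have hsub : p.support ⊆ q.support := by
    intro m hm
    rw [MvPolynomial.mem_support_iff] at hm ⊢
    have := h m
    omega
  calc ∑ m ∈ p.support, ((p.coeff m : ℕ) : ℝ) * ∏ i, x i ^ m i
      ≤ ∑ m ∈ p.support, ((q.coeff m : ℕ) : ℝ) * ∏ i, x i ^ m i := by
        apply sum_le_sum
        intro m _
        apply mul_le_mul_of_nonneg_right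
        · exact_mod_cast h m
        · exact prod_nonneg fun i _ => pow_nonneg (hx i) _
    _ ≤ ∑ m ∈ q.support, ((q.coeff m : ℕ) : ℝ) * ∏ i, x i ^ m i := by
        apply sum_le_sum_of_subset_of_nonneg hsub
        intro m _ _
        exact mul_nonneg (Nat.cast_nonneg _) (prod_nonneg fun i _ => pow_nonneg (hx i) _)

end Vale.Agent.P154.Refl
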