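import Vale.Agent.P154.Refl1

/-! Polymorphic polynomial expressions and their naturality (helper file). -/

namespace Vale.Agent.P154.Refl

open Finset

/-- the comparison test: `F ≤ G` coefficientwise, for two subtraction free expressions in `n`
variables; `k` bits per digit, degree at most `d` in each variable -/
def test (n k d : ℕ) (F G : List ℕ → ℕ) : Bool :=
  Nat.ble 1 k &&
  (Nat.ble (F (List.replicate n 1) + 1) (2 ^ (k - 1)) &&
  (Nat.ble (G (List.replicate n 1) + 1) (2 ^ (k - 1)) &&
  (((List.range n).all fun j =>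
    Nat.ble (F ((List.range n).map fun i => if Nat.beq i j then 2 ^ k else 1) + 1)
        (2 ^ (k * (d + 1))) &&
    Nat.ble (G ((List.range n).map fun i => if Nat.beq i j then 2 ^ k else 1) + 1)
        (2 ^ (k * (d + 1)))) &&
  digLE k ((d + 1) ^ n) (F ((List.range n).map fun i => 2 ^ (k * (d + 1) ^ i)))
    (G ((List.range n).map fun i => 2 ^ (k * (d + 1) ^ i))))))

theorem range_map_eq {α : Type} (n : ℕ) (f : ℕ → α) :
    (List.range n).map f = List.ofFn (fun i : Fin n => f i) := by
  apply List.ext_getElem
  · simp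
  · intro i h1 h2
    simp

theorem replicate_eq {α : Type} (n : ℕ) (a : α) :
    List.replicate n a = List.ofFn (fun _ : Fin n => a) := by
  apply List.ext_getElem
  · simp
  · intro i h1 h2
    simp

theorem test_sound {n k d : ℕ} (F G : ∀ (α : Type) [CommSemiring α], List α → α)
    (hF : ∀ (α β : Type) [CommSemiring α] [CommSemiring β] (φ : α →+* β) (xs : List α),
      φ (F α xs) = F β (xs.map φ))
    (hG : ∀ (α β : Type) [CommSemiring α] [CommSemiring β] (φ : α →+* β) (xs : List α),
      φ (G α xs) = G β (xs.map φ))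
    (h : test n k d (F ℕ) (G ℕ) = true) (xs : List ℝ) (hlen : xs.length = n)
    (hx : ∀ x ∈ xs, 0 ≤ x) : F ℝ xs ≤ G ℝ xs := by
  subst hlen
  set n := xs.length with hn
  unfold test at h
  simp only [Bool.and_eq_true, List.all_eq_true, List.mem_range] at h
  obtain ⟨hk, h1, h2, h3, h4⟩ := h
  have hk' : 1 ≤ k := Nat.le_of_ble_eq_true hk
  have h1' := Nat.le_of_ble_eq_true h1
  have h2' := Nat.le_of_ble_eq_true h2
  let V : List (MvPolynomial (Fin n) ℕ) := List.ofFn fun i => MvPolynomial.X i
  have hmap : ∀ (x : Fin n → ℕ), V.map (MvPolynomial.eval x) = List.ofFn x := by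
    intro x
    simp only [V, List.map_ofFn]
    congr 1
    funext i
    simp
  have hev : ∀ (H : ∀ (α : Type) [CommSemiring α], List α → α)
      (_ : ∀ (α β : Type) [CommSemiring α] [CommSemiring β] (φ : α →+* β) (xs : List α),
        φ (H α xs) = H β (xs.map φ)) (x : Fin n → ℕ),
      MvPolynomial.eval x (H _ V) = H ℕ (List.ofFn x) := by
    intro H hH x
    rw [hH _ _ (MvPolynomial.eval x) V]
    congr 1
    exact hmap x
  have hpt : ∀ j : Fin n, List.ofFn (fun i : Fin n => if i = j then 2 ^ k else 1) =
      (List.range n).map fun i => if Nat.beq i j then 2 ^ k else 1 := by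
    intro j
    rw [range_map_eq]
    congr 1
    funext i
    by_cases hij : i = j
    · subst hij
      simp
    · have : Nat.beq (i : ℕ) (j : ℕ) = false := by
        cases hb : Nat.beq (i : ℕ) (j : ℕ) with
        | false => rfl
        | true => exact absurd (Fin.ext (Nat.eq_of_beq_eq_true hb)) hij
      simp [hij, this]
  have hpk : List.ofFn (fun i : Fin n => (2 ^ k) ^ ((d + 1) ^ (i : ℕ))) =
      (List.range n).map fun i => 2 ^ (k * (d + 1) ^ i) := by
    rw [range_map_eq]
    congr 1
    funext i
    rw [← pow_mul]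
  have key := coeff_le (p := F _ V) (q := G _ V) (k := k) (d := d) hk'
    (by rw [hev F hF, ← replicate_eq]; exact h1')
    (by rw [hev G hG, ← replicate_eq]; exact h2')
    (by
      intro j
      rw [hev F hF, hpt, ← pow_mul]
      exact Nat.le_of_ble_eq_true (h3 j j.2).1)
    (by
      intro j
      rw [hev G hG, hpt, ← pow_mul]
      exact Nat.le_of_ble_eq_true (h3 j j.2).2)
    (by rw [hev F hF, hev G hG, hpk]; exact h4)
  have hfin := aeval_le key (fun i : Fin n => xs.get i) (fun i => hx _ (List.get_mem _ _))
  have hreal : ∀ (H : ∀ (α : Type) [CommSemiring α], List α → α)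
      (_ : ∀ (α β : Type) [CommSemiring α] [CommSemiring β] (φ : α →+* β) (xs : List α),
        φ (H α xs) = H β (xs.map φ)),
      MvPolynomial.aeval (fun i : Fin n => xs.get i) (H _ V) = H ℝ xs := by
    intro H hH
    have e := hH _ _ (MvPolynomial.aeval (fun i : Fin n => xs.get i) :
      MvPolynomial (Fin n) ℕ →ₐ[ℕ] ℝ).toRingHom V
    have e2 : V.map (MvPolynomial.aeval (fun i : Fin n => xs.get i) :
      MvPolynomial (Fin n) ℕ →ₐ[ℕ] ℝ).toRingHom = xs := by
      simp only [V, List.map_ofFn]
      apply List.ext_getElem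
      · simp [hn]
      · intro i h1 h2
        simp
    rw [e2] at e
    exact e
  rw [hreal F hF, hreal G hG] at hfin
  exact hfin

/-! ### polymorphic expressions -/

section defs

variable {α : Type} [CommSemiring α]

/-- `f 0 + ... + f (n-1)` -/
def sumTo (f : ℕ → α) : ℕ → α
  | 0 => 0
  | n + 1 => sumTo f n + f n

/-- coordinates of `sum_k b_k v_k` -/
def coords (q : ℕ) (cell : List (List ℕ)) (b : List α) : List α :=
  (List.range q).map fun i =>
    sumTo (fun k => b.getD k 0 * (((cell.getD k []).getD i 0 : ℕ) : α)) q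

def addL : List α → List α → List α
  | [], ys => ys
  | x :: xs, [] => x :: xs
  | x :: xs, y :: ys => (x + y) :: addL xs ys

/-- elementary symmetric functions `[e_0, ..., e_q]` -/
def esl : List α → List α
  | [] => [1]
  | y :: ys => addL (esl ys) (0 :: (esl ys).map fun z => y * z)

/-- monomials in the elementary symmetric functions -/
def mon : List ℕ → List α → α
  | c :: cs, e :: es => e ^ c * mon cs es
  | _, _ => 1

/-- homogeneous Horner form: `sum c_i u^i w^(n-i)` -/
def dp (u w : α) : List ℕ → ℕ → α
  | [], _ => 0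
  | c :: cs, n => (c : α) * w ^ n + u * dp u w cs (n - 1)

/-- Horner form `sum c_i D^i` -/
def hor (D : α) : List ℕ → α
  | [] => 0
  | c :: cs => (c : α) + D * hor D cs

def side (sel : Bool) (u w : α) (n : ℕ) (es : List α) :
    List (List ℕ × List ℕ × List ℕ) → α
  | [] => 0
  | t :: ts => dp u w (if sel then t.2.1 else t.2.2) n * mon t.1 es + side sel u w n es ts

def pvs (sel : Bool) (D : α) (es : List α) : List (List ℕ × List ℕ × List ℕ) → α
  | [] => 0
  | t :: ts => hor D (if sel then t.2.1 else t.2.2) * mon t.1 es + pvs sel D es ts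

def lin : List ℕ → List α → α
  | c :: cs, v :: vs => (c : α) * v + lin cs vs
  | _, _ => 0

def bil (Vb : List α) : List (List ℕ) → List α → α
  | r :: rs, v :: vs => v * lin r Vb + bil Vb rs vs
  | _, _ => 0

end defs

section nat

variable {α β : Type} [CommSemiring α] [CommSemiring β] (φ : α →+* β)

theorem sumTo_nat (f : ℕ → α) (n : ℕ) : φ (sumTo f n) = sumTo (fun k => φ (f k)) n := by
  induction n with
  | zero => simp [sumTo]
  | succ n ih => simp [sumTo, ih]

theorem getD_map (b : List α) (k : ℕ) : (b.map φ).getD k 0 = φ (b.getD k 0) := by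
  have := List.getD_map (n := k) b (0 : α) φ
  rw [map_zero] at this
  exact this

theorem coords_nat (q : ℕ) (cell : List (List ℕ)) (b : List α) :
    (coords q cell b).map φ = coords q cell (b.map φ) := by
  unfold coords
  rw [List.map_map]
  apply List.map_congr_left
  intro i _
  simp only [Function.comp]
  rw [sumTo_nat]
  congr 1
  funext k
  rw [map_mul, map_natCast, getD_map]

theorem addL_nat : ∀ (xs ys : List α), (addL xs ys).map φ = addL (xs.map φ) (ys.map φ)
  | [], ys => by simp [addL]
  | x :: xs, [] => by simp [addL]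
  | x :: xs, y :: ys => by simp [addL, addL_nat xs ys]

theorem esl_nat : ∀ (ys : List α), (esl ys).map φ = esl (ys.map φ)
  | [] => by simp [esl]
  | y :: ys => by
    simp only [esl, List.map_cons]
    rw [addL_nat, ← esl_nat ys]
    congr 1
    simp only [List.map_cons, map_zero, List.map_map]
    congr 1
    apply List.map_congr_left
    intro z _
    simp

theorem mon_nat : ∀ (cs : List ℕ) (es : List α), φ (mon cs es) = mon cs (es.map φ)
  | [], es => by simp [mon]
  | c :: cs, [] => by simp [mon]
  | c :: cs, e :: es => by simp [mon, mon_nat cs es]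

theorem dp_nat (u w : α) : ∀ (cs : List ℕ) (n : ℕ), φ (dp u w cs n) = dp (φ u) (φ w) cs n
  | [], n => by simp [dp]
  | c :: cs, n => by simp [dp, dp_nat u w cs (n - 1)]

theorem hor_nat (D : α) : ∀ (cs : List ℕ), φ (hor D cs) = hor (φ D) cs
  | [] => by simp [hor]
  | c :: cs => by simp [hor, hor_nat D cs]

theorem side_nat (sel : Bool) (u w : α) (n : ℕ) (es : List α) :
    ∀ (ts : List (List ℕ × List ℕ × List ℕ)),
      φ (side sel u w n es ts) = side sel (φ u) (φ w) n (es.map φ) ts
  | [] => by simp [side]
  | t :: ts => by simp only [side, map_add, map_mul, dp_nat, mon_nat, side_nat sel u w n es ts]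

theorem pvs_nat (sel : Bool) (D : α) (es : List α) :
    ∀ (ts : List (List ℕ × List ℕ × List ℕ)),
      φ (pvs sel D es ts) = pvs sel (φ D) (es.map φ) ts
  | [] => by simp [pvs]
  | t :: ts => by simp only [pvs, map_add, map_mul, hor_nat, mon_nat, pvs_nat sel D es ts]

theorem lin_nat : ∀ (cs : List ℕ) (vs : List α), φ (lin cs vs) = lin cs (vs.map φ)
  | [], vs => by simp [lin]
  | c :: cs, [] => by simp [lin]
  | c :: cs, v :: vs => by simp [lin, lin_nat cs vs]

theorem bil_nat (Vb : List α) : ∀ (rs : List (List ℕ)) (vs : List α),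
    φ (bil Vb rs vs) = bil (Vb.map φ) rs (vs.map φ)
  | [], vs => by simp [bil]
  | r :: rs, [] => by simp [bil]
  | r :: rs, v :: vs => by simp [bil, bil_nat Vb rs vs, lin_nat]

end nat

/-! ### real semantics -/

theorem sumTo_eq {α : Type} [CommSemiring α] (f : ℕ → α) (n : ℕ) :
    sumTo f n = ∑ k ∈ range n, f k := by
  induction n with
  | zero => simp [sumTo]
  | succ n ih => rw [sumTo, ih, sum_range_succ]

theorem dp_eq {u w : ℝ} (hw : w ≠ 0) : ∀ (cs : List ℕ) (n : ℕ), cs.length ≤ n + 1 →
    dp u w cs n = w ^ n * hor (u / w) cs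
  | [], n, _ => by simp [dp, hor]
  | [c], n, _ => by
    simp [dp, hor]
    ring
  | c :: c' :: cs, n, h => by
    rw [dp, dp_eq hw (c' :: cs) (n - 1) (by simp at h ⊢; omega)]
    have hn : n = (n - 1) + 1 := by
      simp at h
      omega
    rw [show hor (u / w) (c :: c' :: cs) = (c : ℝ) + u / w * hor (u / w) (c' :: cs) from rfl]
    generalize hor (u / w) (c' :: cs) = Z
    rw [hn]
    simp only [Nat.add_sub_cancel]
    rw [pow_succ]
    field_simp

theorem side_eq {u w : ℝ} (hw : w ≠ 0) (sel : Bool) (n : ℕ) (es : List ℝ) :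
    ∀ (ts : List (List ℕ × List ℕ × List ℕ)),
      (∀ t ∈ ts, t.2.1.length ≤ n + 1 ∧ t.2.2.length ≤ n + 1) →
      side sel u w n es ts = w ^ n * pvs sel (u / w) es ts
  | [], _ => by simp [side, pvs]
  | t :: ts, h => by
    rw [side, pvs, side_eq hw sel n es ts (fun t' ht' => h t' (List.mem_cons_of_mem _ ht'))]
    have h1 := h t List.mem_cons_self
    rw [dp_eq hw _ n (by split_ifs; exacts [h1.1, h1.2])]
    ring

/-- scaling -/
def scale (t : ℝ) : ℕ → List ℝ → List ℝ
  | _, [] => []
  | j, e :: es => (t ^ j * e) :: scale t (j + 1) es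

theorem scale_addL (t : ℝ) : ∀ (j : ℕ) (xs ys : List ℝ),
    scale t j (addL xs ys) = addL (scale t j xs) (scale t j ys)
  | j, [], ys => by simp [addL, scale]
  | j, x :: xs, [] => by simp [addL, scale]
  | j, x :: xs, y :: ys => by
    simp only [addL, scale, scale_addL t (j + 1) xs ys]
    congr 1
    ring

theorem scale_map (t y : ℝ) : ∀ (j : ℕ) (xs : List ℝ),
    scale t (j + 1) (xs.map fun z => y * z) = (scale t j xs).map fun z => t * y * z
  | j, [] => by simp [scale]
  | j, x :: xs => by
    simp only [scale, List.map_cons, scale_map t y (j + 1) xs]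
    congr 1
    ring

theorem esl_scale (t : ℝ) : ∀ (ys : List ℝ), esl (ys.map fun y => t * y) = scale t 0 (esl ys)
  | [] => by simp [esl, scale]
  | y :: ys => by
    simp only [List.map_cons, esl]
    rw [esl_scale t ys, scale_addL]
    congr 1
    simp only [scale, mul_zero, zero_add]
    rw [scale_map t y 0]

theorem scale_tail (t : ℝ) : ∀ (j : ℕ) (xs : List ℝ), (scale t j xs).tail = scale t (j + 1) xs.tail
  | j, [] => by simp [scale]
  | j, x :: xs => by simp [scale]

theorem coords_scale (q : ℕ) (cell : List (List ℕ)) (t : ℝ) (b : List ℝ) :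
    coords q cell (b.map fun y => t * y) = (coords q cell b).map fun y => t * y := by
  unfold coords
  rw [List.map_map]
  apply List.map_congr_left
  intro i _
  simp only [Function.comp]
  rw [sumTo_eq, sumTo_eq, mul_sum]
  apply sum_congr rfl
  intro k _
  have := List.getD_map (n := k) b (0 : ℝ) (fun y => t * y)
  simp only [mul_zero] at this
  rw [this]
  ring

/-- weight of an exponent vector -/
def wt : ℕ → List ℕ → ℕ
  | _, [] => 0
  | j, c :: cs => j * c + wt (j + 1) cs

theorem mon_scale (t : ℝ) : ∀ (j : ℕ) (cs : List ℕ) (es : List ℝ), cs.length = es.length →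
    mon cs (scale t j es) = t ^ wt j cs * mon cs es
  | j, [], es, _ => by simp [mon, wt]
  | j, c :: cs, [], h => by simp at h
  | j, c :: cs, e :: es, h => by
    simp only [scale, mon, wt, mon_scale t (j + 1) cs es (by simpa using h)]
    rw [mul_pow, ← pow_mul, pow_add]
    ring

theorem pvs_scale (t : ℝ) (sel : Bool) (D : ℝ) (W : ℕ) (es : List ℝ) :
    ∀ (ts : List (List ℕ × List ℕ × List ℕ)),
      (∀ s ∈ ts, s.1.length = es.length ∧ wt 1 s.1 = W) →
      pvs sel D (scale t 1 es) ts = t ^ W * pvs sel D es ts
  | [], _ => by simp [pvs]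
  | s :: ts, h => by
    have h1 := h s List.mem_cons_self
    rw [pvs, pvs, pvs_scale t sel D W es ts (fun t' ht' => h t' (List.mem_cons_of_mem _ ht')),
      mon_scale t 1 _ _ h1.1, h1.2]
    ring

theorem addL_length {α : Type} [CommSemiring α] : ∀ (xs ys : List α),
    (addL xs ys).length = max xs.length ys.length
  | [], ys => by simp [addL]
  | x :: xs, [] => by simp [addL]
  | x :: xs, y :: ys => by
    simp only [addL, List.length_cons, addL_length xs ys]
    omega

theorem esl_length {α : Type} [CommSemiring α] : ∀ (ys : List α), (esl ys).length = ys.length + 1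
  | [] => by simp [esl]
  | y :: ys => by
    simp only [esl, addL_length, List.length_cons, List.length_map, esl_length ys]
    omega

theorem coords_length {α : Type} [CommSemiring α] (q : ℕ) (cell : List (List ℕ)) (b : List α) :
    (coords q cell b).length = q := by
  unfold coords
  simp

/-- the polynomial `PV` -/
noncomputable def PV (ts : List (List ℕ × List ℕ × List ℕ)) (D : ℝ) (es : List ℝ) : ℝ :=
  pvs true D es ts - pvs false D es ts

end Vale.Agent.P154.Refl
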