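import Vale.Agent.P154.Refl2

/-! The reflective checker (helper file). -/

namespace Vale.Agent.P154.Refl

open Finset

/-- certificate trees -/
inductive CT where
  | leaf : CT
  | out : CT
  | sd : ℕ → CT → CT → CT
  | sy : ℕ → ℕ → CT → CT → CT

/-- the expression compared at a leaf -/
def leafF (sel : Bool) (q M n : ℕ) (ts : List (List ℕ × List ℕ × List ℕ)) (lo hi : ℕ)
    (cell : List (List ℕ)) (α : Type) [CommSemiring α] (xs : List α) : α :=
  side sel ((lo : α) * xs.headD 0 + (hi : α)) ((M : α) * (xs.headD 0 + 1)) n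
    (esl (coords q cell (1 :: xs.tail))).tail ts

/-- the expressions compared at an `out` node -/
def outF (q M : ℕ) (cell : List (List ℕ)) (α : Type) [CommSemiring α] (xs : List α) : α :=
  ((q * M : ℕ) : α) * ((esl (coords q cell xs)).getD 1 0) ^ 2

def outG (q M lo : ℕ) (cell : List (List ℕ)) (α : Type) [CommSemiring α] (xs : List α) : α :=
  (lo : α) * ((esl (coords q cell xs)).getD 1 0) ^ 2 +
    ((2 * q * M : ℕ) : α) * (esl (coords q cell xs)).getD 2 0

/-- structural checks on the data -/
def okts (q M n W : ℕ) (ts : List (List ℕ × List ℕ × List ℕ)) : Bool :=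
  Nat.ble 1 q && (Nat.ble 1 M && ts.all fun t =>
    Nat.ble t.2.1.length (n + 1) && (Nat.ble t.2.2.length (n + 1) &&
      (Nat.beq t.1.length q && Nat.beq (wt 1 t.1) W)))

def chk (q M n kb d : ℕ) (ts : List (List ℕ × List ℕ × List ℕ)) :
    CT → ℕ → ℕ → List (List ℕ) → Bool
  | .leaf, lo, hi, cell =>
    test q kb d (leafF false q M n ts lo hi cell ℕ) (leafF true q M n ts lo hi cell ℕ)
  | .out, lo, _, cell => test q kb 2 (outF q M cell ℕ) (outG q M lo cell ℕ)
  | .sd m a b, lo, hi, cell => chk q M n kb d ts a lo m cell && chk q M n kb d ts b m hi cell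
  | .sy i j a b, lo, hi, cell =>
    (Nat.blt i q && (Nat.blt j q && (Nat.blt i cell.length && (Nat.blt j cell.length &&
      !Nat.beq i j)))) &&
    (chk q M n kb d ts a lo hi (cell.set i (addL (cell.getD i []) (cell.getD j []))) &&
    chk q M n kb d ts b lo hi (cell.set j (addL (cell.getD i []) (cell.getD j []))))

/-- trees without `out` nodes -/
def CT.noOut : CT → Bool
  | .leaf => true
  | .out => false
  | .sd _ a b => a.noOut && b.noOut
  | .sy _ _ a b => a.noOut && b.noOut

/-! ### naturality -/

theorem headD_nat {α β : Type} [CommSemiring α] [CommSemiring β] (φ : α →+* β) (xs : List α) :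
    (xs.map φ).headD 0 = φ (xs.headD 0) := by
  cases xs <;> simp

theorem leafF_nat (sel : Bool) (q M n : ℕ) (ts : List (List ℕ × List ℕ × List ℕ)) (lo hi : ℕ)
    (cell : List (List ℕ)) (α β : Type) [CommSemiring α] [CommSemiring β] (φ : α →+* β)
    (xs : List α) :
    φ (leafF sel q M n ts lo hi cell α xs) = leafF sel q M n ts lo hi cell β (xs.map φ) := by
  unfold leafF
  rw [side_nat, headD_nat, List.map_tail, esl_nat, coords_nat]
  simp

theorem outF_nat (q M : ℕ) (cell : List (List ℕ)) (α β : Type) [CommSemiring α]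
    [CommSemiring β] (φ : α →+* β) (xs : List α) :
    φ (outF q M cell α xs) = outF q M cell β (xs.map φ) := by
  unfold outF
  rw [← coords_nat, ← esl_nat, getD_map]
  simp

theorem outG_nat (q M lo : ℕ) (cell : List (List ℕ)) (α β : Type) [CommSemiring α]
    [CommSemiring β] (φ : α →+* β) (xs : List α) :
    φ (outG q M lo cell α xs) = outG q M lo cell β (xs.map φ) := by
  unfold outG
  rw [← coords_nat, ← esl_nat, getD_map, getD_map]
  simp only [map_add, map_mul, map_pow, map_natCast]

/-- value as a function of `D :: b` -/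
def valF (sel : Bool) (q : ℕ) (ts : List (List ℕ × List ℕ × List ℕ))
    (cell : List (List ℕ)) (α : Type) [CommSemiring α] (xs : List α) : α :=
  pvs sel (xs.headD 0) (esl (coords q cell xs.tail)).tail ts

theorem valF_nat (sel : Bool) (q : ℕ) (ts : List (List ℕ × List ℕ × List ℕ))
    (cell : List (List ℕ)) (α β : Type) [CommSemiring α] [CommSemiring β] (φ : α →+* β)
    (xs : List α) :
    φ (valF sel q ts cell α xs) = valF sel q ts cell β (xs.map φ) := by
  unfold valF
  rw [pvs_nat, headD_nat, List.map_tail, esl_nat, coords_nat]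
  simp

/-- an inequality between natural expressions passes to the limit in one variable -/
theorem lim_le (F G : ∀ (α : Type) [CommSemiring α], List α → α)
    (hF : ∀ (α β : Type) [CommSemiring α] [CommSemiring β] (φ : α →+* β) (xs : List α),
      φ (F α xs) = F β (xs.map φ))
    (hG : ∀ (α β : Type) [CommSemiring α] [CommSemiring β] (φ : α →+* β) (xs : List α),
      φ (G α xs) = G β (xs.map φ))
    (pre post : List ℝ) (h : ∀ ε : ℝ, 0 < ε → F ℝ (pre ++ ε :: post) ≤ G ℝ (pre ++ ε :: post)) :
    F ℝ (pre ++ 0 :: post) ≤ G ℝ (pre ++ 0 :: post) := by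
  let V : List (Polynomial ℝ) := pre.map Polynomial.C ++ Polynomial.X :: post.map Polynomial.C
  have hV : ∀ ε : ℝ, V.map (Polynomial.evalRingHom ε) = pre ++ ε :: post := by
    intro ε
    simp only [V, List.map_append, List.map_map, List.map_cons]
    congr 1
    · conv_rhs => rw [← List.map_id pre]
      apply List.map_congr_left
      intro x _
      simp
    · congr 1
      · simp
      · conv_rhs => rw [← List.map_id post]
        apply List.map_congr_left
        intro x _
        simp
  have eF : ∀ ε : ℝ, F ℝ (pre ++ ε :: post) = (F _ V).eval ε := by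
    intro ε
    rw [← hV ε, ← hF]
    rfl
  have eG : ∀ ε : ℝ, G ℝ (pre ++ ε :: post) = (G _ V).eval ε := by
    intro ε
    rw [← hV ε, ← hG]
    rfl
  rw [eF, eG]
  have t1 : Filter.Tendsto (fun ε => (F _ V).eval ε) (nhdsWithin (0 : ℝ) (Set.Ioi 0))
      (nhds ((F _ V).eval 0)) :=
    ((F _ V).continuous.tendsto 0).mono_left nhdsWithin_le_nhds
  have t2 : Filter.Tendsto (fun ε => (G _ V).eval ε) (nhdsWithin (0 : ℝ) (Set.Ioi 0))
      (nhds ((G _ V).eval 0)) :=
    ((G _ V).continuous.tendsto 0).mono_left nhdsWithin_le_nhds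
  refine le_of_tendsto_of_tendsto t1 t2 ?_
  filter_upwards [self_mem_nhdsWithin] with ε hε
  have := h ε hε
  rw [eF, eG] at this
  exact this

end Vale.Agent.P154.Refl
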