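import Vale.Agent.P154.Refl3

/-! Soundness of the reflective checker (helper file). -/

namespace Vale.Agent.P154.Refl

open Finset

theorem okts_spec {q M n W : ℕ} {ts : List (List ℕ × List ℕ × List ℕ)}
    (h : okts q M n W ts = true) : 1 ≤ q ∧ 1 ≤ M ∧ ∀ t ∈ ts,
      (t.2.1.length ≤ n + 1 ∧ t.2.2.length ≤ n + 1) ∧ t.1.length = q ∧ wt 1 t.1 = W := by
  unfold okts at h
  simp only [Bool.and_eq_true, List.all_eq_true] at h
  obtain ⟨h1, h2, h3⟩ := h
  refine ⟨Nat.le_of_ble_eq_true h1, Nat.le_of_ble_eq_true h2, ?_⟩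
  intro t ht
  obtain ⟨a, b, c, e⟩ := h3 t ht
  exact ⟨⟨Nat.le_of_ble_eq_true a, Nat.le_of_ble_eq_true b⟩, Nat.eq_of_beq_eq_true c,
    Nat.eq_of_beq_eq_true e⟩

theorem esl_tail_length {q : ℕ} (cell : List (List ℕ)) (b : List ℝ) :
    (esl (coords q cell b)).tail.length = q := by
  rw [List.length_tail, esl_length, coords_length]
  rfl

/-- scaling the coordinates -/
theorem pvs_coords_scale (q : ℕ) (cell : List (List ℕ)) (b : List ℝ) (t D : ℝ) (sel : Bool)
    {W : ℕ} {ts : List (List ℕ × List ℕ × List ℕ)}
    (hts : ∀ s ∈ ts, s.1.length = q ∧ wt 1 s.1 = W) :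
    pvs sel D (esl (coords q cell (b.map fun y => t * y))).tail ts =
      t ^ W * pvs sel D (esl (coords q cell b)).tail ts := by
  rw [coords_scale, esl_scale, scale_tail, pvs_scale]
  intro s hs
  rw [esl_tail_length]
  exact hts s hs

theorem leaf_sound {q M n kb d W lo hi : ℕ} {ts : List (List ℕ × List ℕ × List ℕ)}
    {cell : List (List ℕ)} (hok : okts q M n W ts = true)
    (h : test q kb d (leafF false q M n ts lo hi cell ℕ) (leafF true q M n ts lo hi cell ℕ) = true)
    (b : List ℝ) (hb : b.length = q) (hb0 : ∀ x ∈ b, 0 ≤ x) (D : ℝ) (h1 : (lo : ℝ) < M * D)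
    (h2 : (M : ℝ) * D ≤ hi) :
    pvs false D (esl (coords q cell b)).tail ts ≤ pvs true D (esl (coords q cell b)).tail ts := by
  obtain ⟨hq, hM, hts⟩ := okts_spec hok
  have hM' : (0 : ℝ) < M := by exact_mod_cast hM
  -- the case of a positive first coordinate
  have main : ∀ (b0 : ℝ) (bs : List ℝ), bs.length + 1 = q → 0 < b0 → (∀ x ∈ bs, 0 ≤ x) →
      pvs false D (esl (coords q cell (b0 :: bs))).tail ts ≤
        pvs true D (esl (coords q cell (b0 :: bs))).tail ts := by
    intro b0 bs hlen hpos hnn
    set s : ℝ := (hi - M * D) / (M * D - lo) with hs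
    have hs0 : 0 ≤ s := div_nonneg (by linarith) (by linarith)
    have hsM : s * (M * D - lo) = hi - M * D := by
      rw [hs]
      exact div_mul_cancel₀ _ (by linarith)
    have ht := test_sound (n := q) (k := kb) (d := d)
      (fun α _ xs => leafF false q M n ts lo hi cell α xs)
      (fun α _ xs => leafF true q M n ts lo hi cell α xs)
      (fun α β _ _ φ xs => leafF_nat false q M n ts lo hi cell α β φ xs)
      (fun α β _ _ φ xs => leafF_nat true q M n ts lo hi cell α β φ xs)
      h (s :: bs.map fun x => b0⁻¹ * x) (by simp [hlen]) (by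
        intro x hx
        rcases List.mem_cons.mp hx with rfl | hx
        · exact hs0
        · obtain ⟨y, hy, rfl⟩ := List.mem_map.mp hx
          exact mul_nonneg (inv_nonneg.mpr hpos.le) (hnn y hy))
    have hw : (M : ℝ) * (s + 1) ≠ 0 := by positivity
    have huw : ((lo : ℝ) * s + hi) / (M * (s + 1)) = D := by
      rw [div_eq_iff hw]
      linarith
    simp only [leafF, List.headD_cons, List.tail_cons] at ht
    rw [side_eq hw false n _ ts (fun t ht' => (hts t ht').1),
      side_eq hw true n _ ts (fun t ht' => (hts t ht').1), huw] at ht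
    have hwn : (0 : ℝ) < (M * (s + 1)) ^ n := by positivity
    have ht' := le_of_mul_le_mul_left ht hwn
    have hlist : b0 :: bs = (1 :: bs.map fun x => b0⁻¹ * x).map fun y => b0 * y := by
      simp only [List.map_cons, mul_one, List.map_map]
      congr 1
      conv_lhs => rw [← List.map_id bs]
      apply List.map_congr_left
      intro x _
      simp only [id, Function.comp]
      field_simp
    rw [hlist, pvs_coords_scale q cell _ b0 D false (fun t ht => (hts t ht).2),
      pvs_coords_scale q cell _ b0 D true (fun t ht => (hts t ht).2)]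
    exact mul_le_mul_of_nonneg_left ht' (by positivity)
  obtain ⟨b0, bs, rfl⟩ : ∃ b0 bs, b = b0 :: bs := by
    cases b with
    | nil => simp at hb; omega
    | cons x xs => exact ⟨x, xs, rfl⟩
  have hnn : ∀ x ∈ bs, 0 ≤ x := fun x hx => hb0 x (List.mem_cons_of_mem _ hx)
  have hlen : bs.length + 1 = q := by simpa using hb
  rcases lt_or_eq_of_le (hb0 b0 List.mem_cons_self) with hpos | hzero
  · exact main b0 bs hlen hpos hnn
  · rw [← hzero]
    have := lim_le (fun α _ xs => valF false q ts cell α xs)
      (fun α _ xs => valF true q ts cell α xs)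
      (fun α β _ _ φ xs => valF_nat false q ts cell α β φ xs)
      (fun α β _ _ φ xs => valF_nat true q ts cell α β φ xs) [D] bs (by
        intro ε hε
        exact main ε bs hlen hε hnn)
    exact this

theorem out_sound {q M kb lo : ℕ} {cell : List (List ℕ)} (hM : 1 ≤ M)
    (h : test q kb 2 (outF q M cell ℕ) (outG q M lo cell ℕ) = true)
    (b : List ℝ) (hb : b.length = q) (hb0 : ∀ x ∈ b, 0 ≤ x) (D : ℝ) (h1 : (lo : ℝ) < M * D)
    (h3 : D * (esl (coords q cell b)).getD 1 0 ^ 2 + 2 * q * (esl (coords q cell b)).getD 2 0 ≤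
      q * (esl (coords q cell b)).getD 1 0 ^ 2)
    (h4 : 0 < (esl (coords q cell b)).getD 1 0) : False := by
  have ht := test_sound (n := q) (k := kb) (d := 2)
    (fun α _ xs => outF q M cell α xs) (fun α _ xs => outG q M lo cell α xs)
    (fun α β _ _ φ xs => outF_nat q M cell α β φ xs)
    (fun α β _ _ φ xs => outG_nat q M lo cell α β φ xs) h b hb hb0
  simp only [outF, outG] at ht
  generalize (esl (coords q cell b)).getD 1 0 = e1 at *
  generalize (esl (coords q cell b)).getD 2 0 = e2 at *
  push_cast at ht
  have hM' : (0 : ℝ) < M := by exact_mod_cast hM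
  have h5 : (M : ℝ) * (D * e1 ^ 2 + 2 * q * e2) ≤ M * (q * e1 ^ 2) :=
    mul_le_mul_of_nonneg_left h3 hM'.le
  have h6 : 0 < ((M : ℝ) * D - lo) * e1 ^ 2 := mul_pos (by linarith) (by positivity)
  nlinarith

theorem addL_getD {α : Type} [CommSemiring α] : ∀ (xs ys : List α) (i : ℕ),
    (addL xs ys).getD i 0 = xs.getD i 0 + ys.getD i 0
  | [], ys, i => by simp [addL]
  | x :: xs, [], i => by simp [addL]
  | x :: xs, y :: ys, 0 => by simp [addL]
  | x :: xs, y :: ys, i + 1 => by
    simp only [addL, List.getD_cons_succ]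
    exact addL_getD xs ys i

theorem getD_set_self {α : Type} (l : List α) {i : ℕ} (hi : i < l.length) (a d : α) :
    (l.set i a).getD i d = a := by
  rw [List.getD_eq_getElem _ _ (by simpa using hi)]
  simp

theorem getD_set_ne {α : Type} (l : List α) {i k : ℕ} (hne : k ≠ i) (a d : α) :
    (l.set i a).getD k d = l.getD k d := by
  rw [List.getD_eq_getElem?_getD, List.getD_eq_getElem?_getD, List.getElem?_set_ne hne.symm]

/-- subdivision of a cell -/
theorem coords_split {q i j : ℕ} (cell : List (List ℕ)) (b : List ℝ) (hi : i < q) (hj : j < q)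
    (hib : i < b.length) (hjb : j < b.length)
    (hic : i < cell.length) (hij : i ≠ j) :
    coords q (cell.set i (addL (cell.getD i []) (cell.getD j [])))
      (b.set j (b.getD j 0 - b.getD i 0)) = coords q cell b := by
  unfold coords
  apply List.map_congr_left
  intro l _
  rw [sumTo_eq, sumTo_eq]
  rw [← sub_eq_zero, ← sum_sub_distrib]
  have hterm : ∀ k ∈ range q,
      (b.set j (b.getD j 0 - b.getD i 0)).getD k 0 *
        ((((cell.set i (addL (cell.getD i []) (cell.getD j []))).getD k []).getD l 0 : ℕ) : ℝ) -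
        b.getD k 0 * (((cell.getD k []).getD l 0 : ℕ) : ℝ) =
      (if k = i then b.getD i 0 * (((cell.getD j []).getD l 0 : ℕ) : ℝ) else 0) -
      (if k = j then b.getD i 0 * (((cell.getD j []).getD l 0 : ℕ) : ℝ) else 0) := by
    intro k _
    by_cases hki : k = i
    · subst hki
      rw [getD_set_ne b hij, getD_set_self cell hic, addL_getD]
      simp only [if_true, if_neg hij]
      push_cast
      ring
    · rw [getD_set_ne cell hki]
      by_cases hkj : k = j
      · subst hkj
        rw [getD_set_self b hjb]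
        simp only [if_neg hki, if_true]
        ring
      · rw [getD_set_ne b hkj]
        simp only [if_neg hki, if_neg hkj]
        ring
  rw [sum_congr rfl hterm, sum_sub_distrib, sum_ite_eq' (range q) i, sum_ite_eq' (range q) j]
  simp [hi, hj]

/-- the same with the roles of `i` and `j` exchanged -/
theorem coords_split' {q i j : ℕ} (cell : List (List ℕ)) (b : List ℝ) (hi : i < q) (hj : j < q)
    (hib : i < b.length) (hjb : j < b.length)
    (hjc : j < cell.length) (hij : i ≠ j) :
    coords q (cell.set j (addL (cell.getD i []) (cell.getD j [])))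
      (b.set i (b.getD i 0 - b.getD j 0)) = coords q cell b := by
  have h := coords_split cell b hj hi hjb hib hjc hij.symm
  rw [← h]
  unfold coords
  apply List.map_congr_left
  intro l _
  rw [sumTo_eq, sumTo_eq]
  apply sum_congr rfl
  intro k _
  congr 2
  by_cases hkj : k = j
  · subst hkj
    rw [getD_set_self cell hjc, getD_set_self cell hjc, addL_getD, addL_getD, add_comm]
  · rw [getD_set_ne cell hkj, getD_set_ne cell hkj]

theorem set_nonneg {b : List ℝ} (hb0 : ∀ x ∈ b, 0 ≤ x) {i : ℕ} {a : ℝ} (ha : 0 ≤ a) :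
    ∀ x ∈ b.set i a, 0 ≤ x := by
  intro x hx
  rcases List.mem_or_eq_of_mem_set hx with h | h
  · exact hb0 x h
  · rw [h]
    exact ha

/-- soundness of the tree checker -/
theorem chk_sound {q M n kb d W : ℕ} {ts : List (List ℕ × List ℕ × List ℕ)}
    (hok : okts q M n W ts = true) (t : CT) : ∀ (lo hi : ℕ) (cell : List (List ℕ)),
    chk q M n kb d ts t lo hi cell = true → ∀ (b : List ℝ), b.length = q → (∀ x ∈ b, 0 ≤ x) →
    ∀ D : ℝ, (lo : ℝ) < M * D → (M : ℝ) * D ≤ hi →
    (t.noOut = true ∨
      D * (esl (coords q cell b)).getD 1 0 ^ 2 + 2 * q * (esl (coords q cell b)).getD 2 0 ≤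
        q * (esl (coords q cell b)).getD 1 0 ^ 2 ∧ 0 < (esl (coords q cell b)).getD 1 0) →
    pvs false D (esl (coords q cell b)).tail ts ≤ pvs true D (esl (coords q cell b)).tail ts := by
  induction t with
  | leaf =>
    intro lo hi cell h b hb hb0 D h1 h2 _
    exact leaf_sound hok h b hb hb0 D h1 h2
  | out =>
    intro lo hi cell h b hb hb0 D h1 h2 h3
    rcases h3 with h3 | h3
    · simp [CT.noOut] at h3
    · exact (out_sound (okts_spec hok).2.1 h b hb hb0 D h1 h3.1 h3.2).elim
  | sd m a c iha ihc =>
    intro lo hi cell h b hb hb0 D h1 h2 h3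
    simp only [chk, Bool.and_eq_true] at h
    by_cases hm : (M : ℝ) * D ≤ m
    · refine iha lo m cell h.1 b hb hb0 D h1 hm ?_
      rcases h3 with h3 | h3
      · simp only [CT.noOut, Bool.and_eq_true] at h3
        exact Or.inl h3.1
      · exact Or.inr h3
    · refine ihc m hi cell h.2 b hb hb0 D (not_le.mp hm) h2 ?_
      rcases h3 with h3 | h3
      · simp only [CT.noOut, Bool.and_eq_true] at h3
        exact Or.inl h3.2
      · exact Or.inr h3
  | sy i j a c iha ihc =>
    intro lo hi cell h b hb hb0 D h1 h2 h3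
    simp only [chk, Bool.and_eq_true] at h
    obtain ⟨⟨hi', hj', hic', hjc', hij'⟩, hA, hC⟩ := h
    have hiq : i < q := Nat.le_of_ble_eq_true hi'
    have hjq : j < q := Nat.le_of_ble_eq_true hj'
    have hic : i < cell.length := Nat.le_of_ble_eq_true hic'
    have hjc : j < cell.length := Nat.le_of_ble_eq_true hjc'
    have hij : i ≠ j := by
      intro e
      subst e
      simp at hij'
    have hib : i < b.length := by rw [hb]; exact hiq
    have hjb : j < b.length := by rw [hb]; exact hjq
    rcases le_total (b.getD i 0) (b.getD j 0) with hle | hle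
    · have hc := coords_split cell b hiq hjq hib hjb hic hij
      rw [← hc]
      refine iha lo hi _ hA _ (by simpa using hb)
        (set_nonneg hb0 (by linarith)) D h1 h2 ?_
      rcases h3 with h3 | h3
      · simp only [CT.noOut, Bool.and_eq_true] at h3
        exact Or.inl h3.1
      · rw [hc]
        exact Or.inr h3
    · have hc := coords_split' cell b hiq hjq hib hjb hjc hij
      rw [← hc]
      refine ihc lo hi _ hC _ (by simpa using hb)
        (set_nonneg hb0 (by linarith)) D h1 h2 ?_
      rcases h3 with h3 | h3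
      · simp only [CT.noOut, Bool.and_eq_true] at h3
        exact Or.inl h3.2
      · rw [hc]
        exact Or.inr h3

end Vale.Agent.P154.Refl
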