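import Vale.Agent.P154.Refl4

/-! The pair checker and its soundness (helper file). -/

namespace Vale.Agent.P154.Refl

open Finset

/-- the monomial `e^ex` on a cell with the first coordinate equal to `1` -/
def vecF (q : ℕ) (cell : List (List ℕ)) (ex : List ℕ) (α : Type) [CommSemiring α]
    (xs : List α) : α :=
  mon ex (esl (coords q cell (1 :: xs))).tail

/-- a combination of the rows of `C` -/
def rowF (q : ℕ) (cell : List (List ℕ)) (exps C : List (List ℕ)) (row : List ℕ) (α : Type)
    [CommSemiring α] (xs : List α) : α :=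
  lin row (C.map fun r => lin r (exps.map fun ex => vecF q cell ex α xs))

theorem vecF_nat (q : ℕ) (cell : List (List ℕ)) (ex : List ℕ) (α β : Type) [CommSemiring α]
    [CommSemiring β] (φ : α →+* β) (xs : List α) :
    φ (vecF q cell ex α xs) = vecF q cell ex β (xs.map φ) := by
  unfold vecF
  rw [mon_nat, List.map_tail, esl_nat, coords_nat]
  simp

theorem rowF_nat (q : ℕ) (cell : List (List ℕ)) (exps C : List (List ℕ)) (row : List ℕ)
    (α β : Type) [CommSemiring α] [CommSemiring β] (φ : α →+* β) (xs : List α) :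
    φ (rowF q cell exps C row α xs) = rowF q cell exps C row β (xs.map φ) := by
  unfold rowF
  rw [lin_nat, List.map_map]
  congr 1
  apply List.map_congr_left
  intro r _
  simp only [Function.comp]
  rw [lin_nat, List.map_map]
  congr 1
  apply List.map_congr_left
  intro ex _
  simp only [Function.comp]
  exact vecF_nat q cell ex α β φ xs

/-- degree and size test for one expression -/
def dtest (n k d : ℕ) (F : List ℕ → ℕ) : Bool :=
  Nat.ble (F (List.replicate n 1) + 1) (2 ^ (k - 1)) &&
  ((List.range n).all fun j =>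
    Nat.ble (F ((List.range n).map fun i => if Nat.beq i j then 2 ^ k else 1) + 1)
        (2 ^ (k * (d + 1))))

/-- the digits of the packed values -/
def digs (q kb d : ℕ) (cell : List (List ℕ)) (exps : List (List ℕ)) (t : ℕ) : List ℕ :=
  exps.map fun ex =>
    vecF q cell ex ℕ ((List.range (q - 1)).map fun i => 2 ^ (kb * (d + 1) ^ i)) /
      2 ^ (kb * t) % 2 ^ kb

def pairchk (q kb d W : ℕ) (exps Cp Cm cellA cellB : List (List ℕ)) : Bool :=
  (Nat.ble 1 q && (Nat.ble 1 kb && (exps.all fun ex => Nat.beq ex.length q && Nat.beq (wt 1 ex) W)))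
  && ((exps.all fun ex => dtest (q - 1) kb d (vecF q cellA ex ℕ)) &&
  (List.range ((d + 1) ^ (q - 1))).all fun t =>
    (digs q kb d cellA exps t).all (Nat.beq 0) ||
      test (q - 1) kb d (rowF q cellB exps Cm (digs q kb d cellA exps t) ℕ)
        (rowF q cellB exps Cp (digs q kb d cellA exps t) ℕ))

/-! ### expansion in digits -/

theorem kap_digit {n d : ℕ} {m : Fin n →₀ ℕ} (h : ∀ i, m i ≤ d) (i : Fin n) :
    kap d m / (d + 1) ^ (i : ℕ) % (d + 1) = m i := by
  set m' : ℕ → ℕ := fun j => if hj : j < n then m ⟨j, hj⟩ else 0 with hm'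
  have h1 : kap d m = ∑ j ∈ range n, m' j * (d + 1) ^ j := by
    unfold kap
    rw [sum_range]
    apply sum_congr rfl
    intro j _
    simp [hm']
  rw [h1, sum_div_mod (by omega) n m' _ (i : ℕ) i.2]
  · simp [hm']
  · intro t
    simp only [hm']
    split_ifs with ht
    · exact Nat.lt_succ_of_le (h _)
    · omega

/-- monomial with Kronecker exponent `t` -/
noncomputable def kmon {n : ℕ} (d : ℕ) (x : Fin n → ℝ) (t : ℕ) : ℝ :=
  ∏ i : Fin n, x i ^ (t / (d + 1) ^ (i : ℕ) % (d + 1))

theorem expand_poly {n : ℕ} {p : MvPolynomial (Fin n) ℕ} {k d : ℕ} (hk : 1 ≤ k)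
    (hp1 : MvPolynomial.eval (fun _ => 1) p < 2 ^ (k - 1))
    (hpd : ∀ j : Fin n, MvPolynomial.eval (fun i => if i = j then 2 ^ k else 1) p <
      (2 ^ k) ^ (d + 1)) (x : Fin n → ℝ) :
    MvPolynomial.aeval x p = ∑ t ∈ range ((d + 1) ^ n),
      ((MvPolynomial.eval (fun i : Fin n => (2 ^ k) ^ ((d + 1) ^ (i : ℕ))) p / (2 ^ k) ^ t
        % 2 ^ k : ℕ) : ℝ) * kmon d x t := by
  have hz : 2 ≤ 2 ^ k := by
    calc 2 = 2 ^ 1 := rfl
      _ ≤ 2 ^ k := Nat.pow_le_pow_right (by norm_num) hk
  have hdp : ∀ m ∈ p.support, ∀ i, m i ≤ d := fun m hm i => deg_of_eval hz i (hpd i) m hm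
  have hlt : ∀ t, (∑ m ∈ p.support with kap d m = t, p.coeff m) < 2 ^ k := fun t =>
    lt_of_lt_of_le (coeff_sum_lt hp1 d t) (Nat.pow_le_pow_right (by norm_num) (by omega))
  rw [MvPolynomial.aeval_def, MvPolynomial.eval₂_eq']
  have hmap : ∀ m ∈ p.support, kap d m ∈ range ((d + 1) ^ n) := by
    intro m hm
    rw [mem_range]
    exact kap_lt (hdp m hm)
  rw [← sum_fiberwise_of_maps_to hmap]
  apply sum_congr rfl
  intro t ht
  rw [eval_packed hdp, sum_div_mod (by positivity) _ _ hlt t (mem_range.mp ht)]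
  push_cast
  rw [sum_mul]
  apply sum_congr rfl
  intro m hm
  rw [mem_filter] at hm
  congr 1
  unfold kmon
  apply prod_congr rfl
  intro i _
  rw [← hm.2, kap_digit (hdp m hm.1) i]

theorem expand {n k d : ℕ} (F : ∀ (α : Type) [CommSemiring α], List α → α)
    (hF : ∀ (α β : Type) [CommSemiring α] [CommSemiring β] (φ : α →+* β) (xs : List α),
      φ (F α xs) = F β (xs.map φ)) (hk : 1 ≤ k)
    (h : dtest n k d (F ℕ) = true) (x : Fin n → ℝ) :
    F ℝ (List.ofFn x) = ∑ t ∈ range ((d + 1) ^ n),
      ((F ℕ ((List.range n).map fun i => 2 ^ (k * (d + 1) ^ i)) / 2 ^ (k * t) % 2 ^ k : ℕ) : ℝ) *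
        kmon d x t := by
  unfold dtest at h
  simp only [Bool.and_eq_true, List.all_eq_true, List.mem_range] at h
  obtain ⟨h1, h3⟩ := h
  have h1' := Nat.le_of_ble_eq_true h1
  let V : List (MvPolynomial (Fin n) ℕ) := List.ofFn fun i => MvPolynomial.X i
  have hmap : ∀ (x : Fin n → ℕ), V.map (MvPolynomial.eval x) = List.ofFn x := by
    intro x
    simp only [V, List.map_ofFn]
    congr 1
    funext i
    simp
  have hev : ∀ (x : Fin n → ℕ), MvPolynomial.eval x (F _ V) = F ℕ (List.ofFn x) := by
    intro x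
    rw [hF _ _ (MvPolynomial.eval x) V]
    congr 1
    exact hmap x
  have hpt : ∀ j : Fin n, List.ofFn (fun i : Fin n => if i = j then 2 ^ k else 1) =
      (List.range n).map fun i => if Nat.beq i j then 2 ^ k else 1 := by
    intro j
    rw [range_map_eq]
    congr 1
    funext i
    by_cases hij : i = j
    · subst hij
      simp
    · have : Nat.beq (i : ℕ) (j : ℕ) = false := by
        cases hb : Nat.beq (i : ℕ) (j : ℕ) with
        | false => rfl
        | true => exact absurd (Fin.ext (Nat.eq_of_beq_eq_true hb)) hij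
      simp [hij, this]
  have hpk : List.ofFn (fun i : Fin n => (2 ^ k) ^ ((d + 1) ^ (i : ℕ))) =
      (List.range n).map fun i => 2 ^ (k * (d + 1) ^ i) := by
    rw [range_map_eq]
    congr 1
    funext i
    rw [← pow_mul]
  have key := expand_poly (p := F _ V) (k := k) (d := d) hk
    (by rw [hev, ← replicate_eq]; exact h1')
    (by
      intro j
      rw [hev, hpt, ← pow_mul]
      exact Nat.le_of_ble_eq_true (h3 j j.2)) x
  rw [hev, hpk] at key
  have e := hF _ _ (MvPolynomial.aeval x : MvPolynomial (Fin n) ℕ →ₐ[ℕ] ℝ).toRingHom V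
  have e2 : V.map (MvPolynomial.aeval x : MvPolynomial (Fin n) ℕ →ₐ[ℕ] ℝ).toRingHom =
      List.ofFn x := by
    simp only [V, List.map_ofFn]
    congr 1
    funext i
    simp
  rw [e2] at e
  rw [← e]
  simp only [← pow_mul] at key
  exact key

theorem lin_zero_row {α : Type} [CommSemiring α] : ∀ (row : List ℕ) (vs : List α),
    row.all (Nat.beq 0) = true → lin row vs = 0
  | [], vs, _ => by simp [lin]
  | c :: cs, [], _ => by simp [lin]
  | c :: cs, v :: vs, h => by
    simp only [List.all_cons, Bool.and_eq_true] at h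
    have hc : 0 = c := Nat.eq_of_beq_eq_true h.1
    rw [lin, lin_zero_row cs vs h.2, ← hc]
    simp

/-- expansion of the bilinear form -/
theorem bil_expand {N : ℕ} (Vb : List ℝ) (f : List ℕ → ℝ) (dg : ℕ → List ℕ → ℕ) (A : ℕ → ℝ) :
    ∀ (es : List (List ℕ)) (rs : List (List ℕ)),
      (∀ ex ∈ es, f ex = ∑ t ∈ range N, ((dg t ex : ℕ) : ℝ) * A t) →
      bil Vb rs (es.map f) = ∑ t ∈ range N, A t * lin (es.map (dg t)) (rs.map fun r => lin r Vb)
  | [], rs, _ => by
    cases rs <;> simp [bil, lin]
  | e :: es, [], _ => by simp [bil, lin]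
  | e :: es, r :: rs, h => by
    simp only [List.map_cons, bil, lin]
    rw [bil_expand Vb f dg A es rs (fun ex hex => h ex (List.mem_cons_of_mem _ hex)),
      h e List.mem_cons_self, sum_mul, ← sum_add_distrib]
    apply sum_congr rfl
    intro t _
    ring

theorem lin_smul (s : ℝ) : ∀ (cs : List ℕ) (vs : List ℝ),
    lin cs (vs.map fun v => s * v) = s * lin cs vs
  | [], vs => by simp [lin]
  | c :: cs, [] => by simp [lin]
  | c :: cs, v :: vs => by
    simp only [List.map_cons, lin, lin_smul s cs vs]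
    ring

theorem bil_smul (s t : ℝ) (Vb : List ℝ) : ∀ (rs : List (List ℕ)) (vs : List ℝ),
    bil (Vb.map fun v => s * v) rs (vs.map fun v => t * v) = s * t * bil Vb rs vs
  | [], vs => by simp [bil]
  | r :: rs, [] => by simp [bil]
  | r :: rs, v :: vs => by
    simp only [List.map_cons, bil, bil_smul s t Vb rs vs, lin_smul]
    ring

/-- value of the bilinear form as a function of the concatenated coordinates -/
def pvF (q : ℕ) (exps C cellA cellB : List (List ℕ)) (α : Type) [CommSemiring α]
    (xs : List α) : α :=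
  bil (exps.map fun ex => mon ex (esl (coords q cellB (xs.drop q))).tail) C
    (exps.map fun ex => mon ex (esl (coords q cellA (xs.take q))).tail)

theorem pvF_nat (q : ℕ) (exps C cellA cellB : List (List ℕ)) (α β : Type) [CommSemiring α]
    [CommSemiring β] (φ : α →+* β) (xs : List α) :
    φ (pvF q exps C cellA cellB α xs) = pvF q exps C cellA cellB β (xs.map φ) := by
  unfold pvF
  rw [bil_nat, List.map_map, List.map_map]
  congr 1
  · apply List.map_congr_left
    intro ex _
    simp only [Function.comp]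
    rw [mon_nat, List.map_tail, esl_nat, coords_nat, List.map_drop]
  · apply List.map_congr_left
    intro ex _
    simp only [Function.comp]
    rw [mon_nat, List.map_tail, esl_nat, coords_nat, List.map_take]

/-- the pair value -/
noncomputable def pairVal (q : ℕ) (exps C cellA cellB : List (List ℕ)) (a b : List ℝ) : ℝ :=
  bil (exps.map fun ex => mon ex (esl (coords q cellB b)).tail) C
    (exps.map fun ex => mon ex (esl (coords q cellA a)).tail)

theorem pvF_append {q : ℕ} (exps C cellA cellB : List (List ℕ)) (a b : List ℝ)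
    (ha : a.length = q) :
    pvF q exps C cellA cellB ℝ (a ++ b) = pairVal q exps C cellA cellB a b := by
  unfold pvF pairVal
  rw [List.drop_left' ha, List.take_left' ha]

theorem mon_coords_scale {q : ℕ} (cell : List (List ℕ)) (b : List ℝ) (t : ℝ) (ex : List ℕ)
    {W : ℕ} (h : ex.length = q) (hW : wt 1 ex = W) :
    mon ex (esl (coords q cell (b.map fun y => t * y))).tail =
      t ^ W * mon ex (esl (coords q cell b)).tail := by
  rw [coords_scale, esl_scale, scale_tail, mon_scale, hW]
  rw [esl_tail_length]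
  exact h

theorem pairVal_scale {q : ℕ} (exps C cellA cellB : List (List ℕ)) (a b : List ℝ) (s t : ℝ)
    {W : ℕ} (h : ∀ ex ∈ exps, ex.length = q ∧ wt 1 ex = W) :
    pairVal q exps C cellA cellB (a.map fun y => t * y) (b.map fun y => s * y) =
      s ^ W * t ^ W * pairVal q exps C cellA cellB a b := by
  unfold pairVal
  rw [← bil_smul, List.map_map, List.map_map]
  congr 1
  · apply List.map_congr_left
    intro ex hex
    exact mon_coords_scale cellB b s ex (h ex hex).1 (h ex hex).2
  · apply List.map_congr_left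
    intro ex hex
    exact mon_coords_scale cellA a t ex (h ex hex).1 (h ex hex).2

theorem exists_ofFn {n : ℕ} (l : List ℝ) (h : l.length = n) : ∃ x : Fin n → ℝ, List.ofFn x = l := by
  subst h
  exact ⟨l.get, List.ofFn_get l⟩

theorem cons_scale {b0 : ℝ} (hpos : 0 < b0) (bs : List ℝ) :
    b0 :: bs = (1 :: bs.map fun x => b0⁻¹ * x).map fun y => b0 * y := by
  simp only [List.map_cons, mul_one, List.map_map]
  congr 1
  conv_lhs => rw [← List.map_id bs]
  apply List.map_congr_left
  intro x _
  simp only [id, Function.comp]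
  field_simp

/-- soundness of the pair check -/
theorem pair_sound {q kb d W : ℕ} {exps Cp Cm cellA cellB : List (List ℕ)}
    (h : pairchk q kb d W exps Cp Cm cellA cellB = true) (a b : List ℝ) (ha : a.length = q)
    (hb : b.length = q) (ha0 : ∀ x ∈ a, 0 ≤ x) (hb0 : ∀ x ∈ b, 0 ≤ x) :
    pairVal q exps Cm cellA cellB a b ≤ pairVal q exps Cp cellA cellB a b := by
  unfold pairchk at h
  simp only [Bool.and_eq_true, List.all_eq_true, List.mem_range] at h
  obtain ⟨⟨hq', hk', hex'⟩, hV, hT⟩ := h
  have hq : 1 ≤ q := Nat.le_of_ble_eq_true hq'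
  have hk : 1 ≤ kb := Nat.le_of_ble_eq_true hk'
  have hex : ∀ ex ∈ exps, ex.length = q ∧ wt 1 ex = W := fun ex he =>
    ⟨Nat.eq_of_beq_eq_true (hex' ex he).1, Nat.eq_of_beq_eq_true (hex' ex he).2⟩
  obtain ⟨n, rfl⟩ : ∃ n, q = n + 1 := ⟨q - 1, by omega⟩
  simp only [Nat.add_sub_cancel] at hV hT
  -- step 1: first coordinates equal to one
  have step1 : ∀ (as bs : List ℝ), as.length = n → bs.length = n → (∀ x ∈ as, 0 ≤ x) →
      (∀ x ∈ bs, 0 ≤ x) → pairVal (n + 1) exps Cm cellA cellB (1 :: as) (1 :: bs) ≤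
        pairVal (n + 1) exps Cp cellA cellB (1 :: as) (1 :: bs) := by
    intro as bs hla hlb hna hnb
    obtain ⟨x, hx⟩ := exists_ofFn as hla
    have hx0 : ∀ i, 0 ≤ x i := by
      intro i
      apply hna
      rw [← hx]
      exact (List.mem_ofFn' x _).mpr ⟨i, rfl⟩
    have hexp : ∀ ex ∈ exps, vecF (n + 1) cellA ex ℝ as = ∑ t ∈ range ((d + 1) ^ n),
        ((vecF (n + 1) cellA ex ℕ ((List.range n).map fun i => 2 ^ (kb * (d + 1) ^ i)) /
          2 ^ (kb * t) % 2 ^ kb : ℕ) : ℝ) * kmon d x t := by
      intro ex he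
      rw [← hx]
      exact expand (fun α _ xs => vecF (n + 1) cellA ex α xs)
        (fun α β _ _ φ xs => vecF_nat (n + 1) cellA ex α β φ xs) hk (hV ex he) x
    have hb1 : ∀ C : List (List ℕ), pairVal (n + 1) exps C cellA cellB (1 :: as) (1 :: bs) =
        ∑ t ∈ range ((d + 1) ^ n), kmon d x t *
          rowF (n + 1) cellB exps C (digs (n + 1) kb d cellA exps t) ℝ bs := by
      intro C
      unfold pairVal rowF digs
      exact bil_expand (N := (d + 1) ^ n) _ (fun ex => vecF (n + 1) cellA ex ℝ as)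
        (fun t ex => vecF (n + 1) cellA ex ℕ
          ((List.range n).map fun i => 2 ^ (kb * (d + 1) ^ i)) / 2 ^ (kb * t) % 2 ^ kb)
        (kmon d x) exps C hexp
    rw [hb1, hb1]
    apply sum_le_sum
    intro t ht
    apply mul_le_mul_of_nonneg_left
    · rcases (Bool.or_eq_true _ _).mp (hT t (mem_range.mp ht)) with h1 | h1
      · unfold rowF
        rw [lin_zero_row _ _ h1, lin_zero_row _ _ h1]
      · exact test_sound (n := n) (k := kb) (d := d)
          (fun α _ xs => rowF (n + 1) cellB exps Cm (digs (n + 1) kb d cellA exps t) α xs)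
          (fun α _ xs => rowF (n + 1) cellB exps Cp (digs (n + 1) kb d cellA exps t) α xs)
          (fun α β _ _ φ xs => rowF_nat (n + 1) cellB exps Cm _ α β φ xs)
          (fun α β _ _ φ xs => rowF_nat (n + 1) cellB exps Cp _ α β φ xs) h1 bs hlb hnb
    · exact prod_nonneg fun i _ => pow_nonneg (hx0 i) _
  -- step 2: positive first coordinates
  have step2 : ∀ (a0 : ℝ) (as : List ℝ) (b0 : ℝ) (bs : List ℝ), 0 < a0 → 0 < b0 →
      as.length = n → bs.length = n → (∀ x ∈ as, 0 ≤ x) → (∀ x ∈ bs, 0 ≤ x) →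
      pairVal (n + 1) exps Cm cellA cellB (a0 :: as) (b0 :: bs) ≤
        pairVal (n + 1) exps Cp cellA cellB (a0 :: as) (b0 :: bs) := by
    intro a0 as b0 bs ha' hb' hla hlb hna hnb
    rw [cons_scale ha' as, cons_scale hb' bs, pairVal_scale _ _ _ _ _ _ _ _ hex,
      pairVal_scale _ _ _ _ _ _ _ _ hex]
    apply mul_le_mul_of_nonneg_left _ (by positivity)
    apply step1
    · simpa using hla
    · simpa using hlb
    · intro y hy
      obtain ⟨z, hz, rfl⟩ := List.mem_map.mp hy
      exact mul_nonneg (inv_nonneg.mpr ha'.le) (hna z hz)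
    · intro y hy
      obtain ⟨z, hz, rfl⟩ := List.mem_map.mp hy
      exact mul_nonneg (inv_nonneg.mpr hb'.le) (hnb z hz)
  obtain ⟨a0, as, rfl⟩ : ∃ a0 as, a = a0 :: as := by
    cases a with
    | nil => simp at ha
    | cons x xs => exact ⟨x, xs, rfl⟩
  obtain ⟨b0, bs, rfl⟩ : ∃ b0 bs, b = b0 :: bs := by
    cases b with
    | nil => simp at hb
    | cons x xs => exact ⟨x, xs, rfl⟩
  have hla : as.length = n := by simpa using ha
  have hlb : bs.length = n := by simpa using hb
  have hna : ∀ x ∈ as, 0 ≤ x := fun x hx => ha0 x (List.mem_cons_of_mem _ hx)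
  have hnb : ∀ x ∈ bs, 0 ≤ x := fun x hx => hb0 x (List.mem_cons_of_mem _ hx)
  have lim := fun pre post hh => lim_le (fun α _ xs => pvF (n + 1) exps Cm cellA cellB α xs)
    (fun α _ xs => pvF (n + 1) exps Cp cellA cellB α xs)
    (fun α β _ _ φ xs => pvF_nat (n + 1) exps Cm cellA cellB α β φ xs)
    (fun α β _ _ φ xs => pvF_nat (n + 1) exps Cp cellA cellB α β φ xs) pre post hh
  -- step 3: nonnegative first coordinate of `a`
  have step3 : ∀ b0 : ℝ, 0 < b0 → pairVal (n + 1) exps Cm cellA cellB (a0 :: as) (b0 :: bs) ≤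
        pairVal (n + 1) exps Cp cellA cellB (a0 :: as) (b0 :: bs) := by
    intro b0 hb'
    rcases lt_or_eq_of_le (ha0 a0 List.mem_cons_self) with hpos | hzero
    · exact step2 a0 as b0 bs hpos hb' hla hlb hna hnb
    · rw [← hzero]
      have := lim [] (as ++ b0 :: bs) (by
        intro ε hε
        have e : ∀ C : List (List ℕ), pvF (n + 1) exps C cellA cellB ℝ
            ([] ++ ε :: (as ++ b0 :: bs)) =
            pairVal (n + 1) exps C cellA cellB (ε :: as) (b0 :: bs) := fun C =>
          pvF_append exps C cellA cellB (ε :: as) (b0 :: bs) (by simpa using hla)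
        rw [e, e]
        exact step2 ε as b0 bs hε hb' hla hlb hna hnb)
      have e : ∀ C : List (List ℕ), pvF (n + 1) exps C cellA cellB ℝ
          ([] ++ 0 :: (as ++ b0 :: bs)) =
          pairVal (n + 1) exps C cellA cellB (0 :: as) (b0 :: bs) := fun C =>
        pvF_append exps C cellA cellB (0 :: as) (b0 :: bs) (by simpa using hla)
      rw [e, e] at this
      exact this
  rcases lt_or_eq_of_le (hb0 b0 List.mem_cons_self) with hpos | hzero
  · exact step3 b0 hpos
  · rw [← hzero]
    have := lim (a0 :: as) bs (by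
      intro ε hε
      rw [pvF_append _ _ _ _ _ _ ha, pvF_append _ _ _ _ _ _ ha]
      exact step3 ε hε)
    rw [pvF_append _ _ _ _ _ _ ha, pvF_append _ _ _ _ _ _ ha] at this
    exact this

end Vale.Agent.P154.Refl
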