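import Vale.Agent.P154.FP6

/-! Substitution matrix of an edge with parameter -17/38 (generated). -/

set_option linter.style.longLine false

namespace Vale.Agent.P154.FP.SubB

open Vale.Agent.P154 Vale.Agent.P154.A10

/-- scale -/
def cS : ℕ := 123574043803952212992

/-- substitution matrix -/
def S : List (List ℤ) :=
  [[123574043803952212992],
   [32947373174876455680, 24731924279322845952],
   [1009248412485772800, 11932068731252250240, -11064281914433904768],
   [8784445063938667200, 13188075966120908160, 0, 4949810330141483712],
   [269086314963312000, 3383323582230266400, -2949964360842834720, 2388066387348961440, -2214388831905400608],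
   [8242688567520000, 194902117855632000, -180727418375222400, 1152137292142042800, -2136690978154333920, 990647635326100272],
   [2342113123003038000, 5274317084788659600, 0, 3959162694815383440, 0, 0, 990647635326100272],
   [71743927465980000, 955917953035353000, -786520968784273800, 1313840771740926000, -1180802908980026640, 0, 477944034587153640, -443184468435360648],
   [2197669735800000, 53614579203900000, -48185634400596000, 346190837628091500, -605856129155026200, 264126966482374380, 230587034230644300, -427634136209558520, 198266735878977132],
   [67319318000000, 2387693810700000, -2214043351740000, 28229052734685000, -52352061435234000, 24272319392699400, 111248130549872250, -309472072256917350, 286965012456414270, -88698276577437138],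
   [624455368667707500, 1874988067999662000, 0, 2111187863578840200, 0, 0, 1056507865929497520, 0, 0, 0, 198266735878977132],
   [19128401713575000, 269226043598531250, -209702612868383250, 541612870877751750, -472239390537372150, 0, 390379803565915350, -354486191857923510, 0, 0, 95655004152138090, -88698276577437138],
   [585943800750000, 14734584173925000, -12847277869965000, 103031915427106875, -171177464034942750, 70421663501187075, 130765346435814750, -235271166043270500, 105723951957626310, 0, 46149344108487675, -85586056346649870, 39680807942537667],
   [166492601756971875, 624887816983959375, 0, 938143268095398750, 0, 0, 704216635011870750, 0, 0, 0, 264309879894065775, 0, 0, 39680807942537667]]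

theorem subOK : SubOK (-(17 : ℝ) / 38) cS S := by
  intro b hb
  have h1 : s31 (fun i => 1 + (-(17 : ℝ) / 38) * (b i - 1)) = 3 := by
    unfold s31 at hb ⊢
    linear_combination (-(17 : ℝ) / 38) * hb
  have h2 : s32 (fun i => 1 + (-(17 : ℝ) / 38) * (b i - 1)) =
      3 * (1 - (-(17 : ℝ) / 38) ^ 2) + (-(17 : ℝ) / 38) ^ 2 * s32 b := by
    have e : b 2 = 3 - b 0 - b 1 := by unfold s31 at hb; linarith
    simp only [s32, e]
    ring
  have h3 : s33 (fun i => 1 + (-(17 : ℝ) / 38) * (b i - 1)) =
      (1 - 3 * (-(17 : ℝ) / 38) ^ 2 + 2 * (-(17 : ℝ) / 38) ^ 3) + ((-(17 : ℝ) / 38) ^ 2 - (-(17 : ℝ) / 38) ^ 3) * s32 b + (-(17 : ℝ) / 38) ^ 3 * s33 b := by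
    have e : b 2 = 3 - b 0 - b 1 := by unfold s31 at hb; linarith
    simp only [s32, s33, e]
    ring
  simp only [vvec, h1, h2, h3, hb, S, cS, List.map_cons, List.map_nil, evL_cons, evL_nil_left]
  push_cast
  refine congrArg₂ List.cons (by ring) ?_
  refine congrArg₂ List.cons (by ring) ?_
  refine congrArg₂ List.cons (by ring) ?_
  refine congrArg₂ List.cons (by ring) ?_
  refine congrArg₂ List.cons (by ring) ?_
  refine congrArg₂ List.cons (by ring) ?_
  refine congrArg₂ List.cons (by ring) ?_
  refine congrArg₂ List.cons (by ring) ?_
  refine congrArg₂ List.cons (by ring) ?_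
  refine congrArg₂ List.cons (by ring) ?_
  refine congrArg₂ List.cons (by ring) ?_
  refine congrArg₂ List.cons (by ring) ?_
  refine congrArg₂ List.cons (by ring) ?_
  refine congrArg₂ List.cons (by ring) ?_
  rfl

end Vale.Agent.P154.FP.SubB
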